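import Mathlib

set_option autoImplicit false
open Polynomial IntermediateField

namespace Crest.Agent.S0010

section Basic
variable (p : ℕ) [hp : Fact p.Prime] {K : Type*} [Field K] [CharP K p]

include hp in
lemma eq_of_pow_p_eq {x y : K} (h : x ^ p = y ^ p) : x = y :=
  frobenius_inj K p h

lemma isIntegral_of_pow_mem (M : Subfield K) (hM : ∀ x : K, x ^ p ∈ M) (y : K) :
    IsIntegral M y := by
  refine ⟨X ^ p - C (⟨y ^ p, hM y⟩ : M), monic_X_pow_sub_C _ hp.out.ne_zero, ?_⟩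
  simp only [eval₂_sub, eval₂_pow, eval₂_X, eval₂_C]
  exact sub_self _

lemma minpoly_eq (M : Subfield K) (hM : ∀ x : K, x ^ p ∈ M) {y : K} (hy : y ∉ M) :
    minpoly M y = X ^ p - C (⟨y ^ p, hM y⟩ : M) := by
  symm
  apply minpoly.eq_of_irreducible_of_monic
  · apply X_pow_sub_C_irreducible_of_prime hp.out
    intro b hb
    apply hy
    have h1 : (b : K) ^ p = y ^ p := by
      have := congrArg (Subtype.val) hb
      simpa using this
    have := eq_of_pow_p_eq p h1
    rw [← this]; exact b.2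
  · simp only [map_sub, map_pow, aeval_X, aeval_C]
    exact sub_self _
  · exact monic_X_pow_sub_C _ hp.out.ne_zero

lemma finrank_adjoin (M : Subfield K) (hM : ∀ x : K, x ^ p ∈ M) {y : K} (hy : y ∉ M) :
    Module.finrank M M⟮y⟯ = p := by
  rw [IntermediateField.adjoin.finrank (isIntegral_of_pow_mem p M hM y), minpoly_eq p M hM hy]
  exact natDegree_X_pow_sub_C

/-- exchange -/
lemma adjoin_eq_of_mem (M : Subfield K) (hM : ∀ x : K, x ^ p ∈ M) {x y : K}
    (hx : x ∉ M) (hxy : x ∈ M⟮y⟯) : M⟮x⟯ = M⟮y⟯ := by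
  have hy : y ∉ M := by
    intro h
    apply hx
    have h1 : M⟮y⟯ = ⊥ := by
      rw [IntermediateField.adjoin_simple_eq_bot_iff]
      exact IntermediateField.mem_bot.2 ⟨⟨y, h⟩, rfl⟩
    rw [h1] at hxy
    obtain ⟨z, hz⟩ := IntermediateField.mem_bot.1 hxy
    rw [← hz]; exact z.2
  have : FiniteDimensional M M⟮y⟯ :=
    IntermediateField.adjoin.finiteDimensional (isIntegral_of_pow_mem p M hM y)
  apply IntermediateField.eq_of_le_of_finrank_eq
  · rw [IntermediateField.adjoin_simple_le_iff]; exact hxy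
  · rw [finrank_adjoin p M hM hx, finrank_adjoin p M hM hy]

lemma exists_derivation_of_adjoin_eq_top (M : Subfield K) (hM : ∀ x : K, x ^ p ∈ M) {x : K}
    (hx : x ∉ M) (htop : M⟮x⟯ = ⊤) :
    ∃ D : Derivation ℤ K K, (∀ m ∈ M, D m = 0) ∧ D x = 1 := by
  have hint := isIntegral_of_pow_mem p M hM x
  let pb := IntermediateField.adjoin.powerBasis hint
  have hgen : pb.gen = AdjoinSimple.gen M x := IntermediateField.adjoin.powerBasis_gen hint
  let e : DualNumber K := TrivSqZeroExt.inl x + TrivSqZeroExt.inr 1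
  have hmin : minpoly M pb.gen = X ^ p - C (⟨x ^ p, hM x⟩ : M) := by
    rw [hgen, IntermediateField.minpoly_gen, minpoly_eq p M hM hx]
  have hchar : CharP (DualNumber K) p := by
    exact charP_of_injective_algebraMap (algebraMap K (DualNumber K)).injective p
  have he : aeval e (minpoly M pb.gen) = 0 := by
    rw [hmin]
    simp only [map_sub, map_pow, aeval_X, aeval_C]
    have h1 : e ^ p = TrivSqZeroExt.inl (x ^ p) := by
      show (TrivSqZeroExt.inl x + TrivSqZeroExt.inr 1 : DualNumber K) ^ p = _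
      rw [add_pow_char]
      have : (TrivSqZeroExt.inr 1 : DualNumber K) ^ p = 0 := by
        obtain ⟨k, hk⟩ : ∃ k, p = k + 2 := ⟨p - 2, by have := hp.out.two_le; omega⟩
        rw [hk, pow_add, pow_two, TrivSqZeroExt.inr_mul_inr, mul_zero]
      rw [this, add_zero, TrivSqZeroExt.inl_pow]
    rw [h1, sub_eq_zero]
    rfl
  let φ : M⟮x⟯ →ₐ[M] DualNumber K := pb.lift e he
  have hφgen : φ pb.gen = e := pb.lift_gen e he
  have hfst : ∀ y : M⟮x⟯, (φ y).fst = (y : K) := by
    intro y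
    have h2 : ((TrivSqZeroExt.fstHom M K K).comp φ) = M⟮x⟯.val := by
      apply pb.algHom_ext
      simp only [AlgHom.comp_apply]
      rw [hφgen, hgen]
      simp [e]
    exact congrArg (fun f => f y) h2
  have hmem : ∀ y : K, y ∈ M⟮x⟯ := fun y => by rw [htop]; exact IntermediateField.mem_top
  let D0 : K → K := fun y => (φ ⟨y, hmem y⟩).snd
  have hadd : ∀ a b, D0 (a + b) = D0 a + D0 b := by
    intro a b
    have : (⟨a + b, hmem (a + b)⟩ : M⟮x⟯) = ⟨a, hmem a⟩ + ⟨b, hmem b⟩ := rfl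
    simp only [D0]
    rw [this, map_add, TrivSqZeroExt.snd_add]
  have hmul : ∀ a b, D0 (a * b) = a * D0 b + b * D0 a := by
    intro a b
    have : (⟨a * b, hmem (a * b)⟩ : M⟮x⟯) = ⟨a, hmem a⟩ * ⟨b, hmem b⟩ := rfl
    simp only [D0]
    rw [this, map_mul, TrivSqZeroExt.snd_mul, hfst, hfst]
    simp [mul_comm]
  let D1 : K →+ K := AddMonoidHom.mk' D0 hadd
  refine ⟨Derivation.mk' D1.toIntLinearMap ?_, ?_, ?_⟩
  · intro a b
    show D0 (a * b) = a • D0 b + b • D0 a
    rw [hmul]; rfl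
  · intro m hm
    show D0 m = 0
    have : (⟨m, hmem m⟩ : M⟮x⟯) = algebraMap M M⟮x⟯ ⟨m, hm⟩ := rfl
    simp only [D0]
    rw [this, AlgHom.commutes]
    rfl
  · show D0 x = 1
    simp only [D0]
    have : (⟨x, hmem x⟩ : M⟮x⟯) = pb.gen := by rw [hgen]; rfl
    rw [this, hφgen]
    simp [e]

lemma exists_derivation (M : Subfield K) (hM : ∀ x : K, x ^ p ∈ M) {x : K} (hx : x ∉ M) :
    ∃ D : Derivation ℤ K K, (∀ m ∈ M, D m = 0) ∧ D x = 1 := by
  obtain ⟨M', hMM', hmax⟩ : ∃ M' : Subfield K, M ≤ M' ∧ Maximal (fun N : Subfield K => x ∉ N) M' := by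
    apply zorn_le_nonempty₀ {N : Subfield K | x ∉ N} _ M hx
    intro c hc hchain y hy
    refine ⟨sSup c, ?_, fun z hz => le_sSup hz⟩
    intro hx'
    rw [Subfield.mem_sSup_of_directedOn ⟨y, hy⟩ hchain.directedOn] at hx'
    obtain ⟨s, hs, hxs⟩ := hx'
    exact hc hs hxs
  have hM' : ∀ y : K, y ^ p ∈ M' := fun y => hMM' (hM y)
  have htop : M'⟮x⟯ = ⊤ := by
    rw [eq_top_iff]
    intro y _
    by_contra hy
    have hyM : y ∉ M' := fun h => hy (M'⟮x⟯.algebraMap_mem ⟨y, h⟩)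
    have h1 : x ∈ M'⟮y⟯ := by
      by_contra hxy
      have h2 : M' ≤ M'⟮y⟯.toSubfield := fun z hz => M'⟮y⟯.algebraMap_mem ⟨z, hz⟩
      have h3 := hmax.le_of_ge (y := M'⟮y⟯.toSubfield) hxy h2
      exact hyM (h3 (mem_adjoin_simple_self M' y))
    have h4 := adjoin_eq_of_mem p M' hM' hmax.prop h1
    exact hy (h4 ▸ mem_adjoin_simple_self M' y)
  obtain ⟨D, hD, hDx⟩ := exists_derivation_of_adjoin_eq_top p M' hM' hmax.prop htop
  exact ⟨D, fun m hm => hD m (hMM' hm), hDx⟩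

end Basic

end Crest.Agent.S0010
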