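import Mathlib
import Crest.Agent.S0010Der

set_option autoImplicit false
open Polynomial IntermediateField

namespace Crest.Agent.S0010

section Ode
variable (p : ℕ) [hp : Fact p.Prime] (K : Type*) [Field K] [CharP K p]

/-- subfield of p-th powers -/
abbrev PP : Subfield K := (frobenius K p).fieldRange

variable {K}

lemma mem_PP {x : K} : x ∈ PP p K ↔ ∃ y, y ^ p = x := by
  simp [PP, RingHom.mem_fieldRange, frobenius_def]

lemma pow_mem_PP (x : K) : x ^ p ∈ PP p K := (mem_PP p).2 ⟨x, rfl⟩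

/-- the field generated by `x` over the p-th powers -/
abbrev GG (x : K) : IntermediateField (PP p K) K := (PP p K)⟮x⟯

lemma GG_self (x : K) : x ∈ GG p x := mem_adjoin_simple_self _ x

lemma PP_mem_GG {a : K} (ha : a ∈ PP p K) (x : K) : a ∈ GG p x :=
  (GG p x).algebraMap_mem ⟨a, ha⟩

lemma GG_mem_of {x u : K} (h : u ∈ GG p x) (S : Subfield K) (hP : PP p K ≤ S) (hx : x ∈ S) :
    u ∈ S := by
  let T : IntermediateField (PP p K) K :=
    S.toIntermediateField (fun a => hP a.2)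
  have : GG p x ≤ T := by
    rw [IntermediateField.adjoin_simple_le_iff]; exact hx
  exact this h

lemma GG_le_of_mem {x y u : K} (h : u ∈ GG p x) (hx : x ∈ GG p y) : u ∈ GG p y := by
  have : GG p x ≤ GG p y := by
    rw [IntermediateField.adjoin_simple_le_iff]; exact hx
  exact this h

lemma GG_eq {x y : K} (hx : x ∉ PP p K) (hxy : x ∈ GG p y) : GG p x = GG p y :=
  adjoin_eq_of_mem p (PP p K) (pow_mem_PP p) hx hxy

lemma D_PP (D : Derivation ℤ K K) {a : K} (ha : a ∈ PP p K) : D a = 0 := by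
  obtain ⟨b, rfl⟩ := (mem_PP p).1 ha
  rw [Derivation.leibniz_pow]
  simp

/-- constants of a derivation -/
def constField (D : Derivation ℤ K K) : Subfield K where
  carrier := {u | D u = 0}
  mul_mem' := by
    intro a b ha hb
    simp only [Set.mem_ofPred_eq] at *
    rw [Derivation.leibniz, ha, hb]; simp
  one_mem' := by simp
  add_mem' := by
    intro a b ha hb
    simp only [Set.mem_ofPred_eq] at *
    rw [map_add, ha, hb]; simp
  zero_mem' := by simp
  neg_mem' := by
    intro a ha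
    simp only [Set.mem_ofPred_eq] at *
    rw [map_neg, ha]; simp
  inv_mem' := by
    intro a ha
    simp only [Set.mem_ofPred_eq] at *
    rw [Derivation.leibniz_inv, ha]; simp

lemma D_GG (D : Derivation ℤ K K) {x u : K} (hx : D x = 0) (hu : u ∈ GG p x) : D u = 0 :=
  GG_mem_of p hu (constField D) (fun _ ha => D_PP p D ha) hx

lemma mem_PP_of_D (D : Derivation ℤ K K) {x u : K} (hx : D x ≠ 0) (hu : u ∈ GG p x)
    (hDu : D u = 0) : u ∈ PP p K := by
  by_contra h
  have h1 := GG_eq p h hu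
  have h2 : x ∈ GG p u := by rw [h1]; exact GG_self p x
  exact hx (D_GG p D hDu h2)

lemma D_mem_GG (D : Derivation ℤ K K) {x u : K} (hx : D x ∈ GG p x) (hu : u ∈ GG p x) :
    D u ∈ GG p x := by
  let S : Subfield K :=
    { carrier := {u | u ∈ GG p x ∧ D u ∈ GG p x}
      mul_mem' := by
        rintro a b ⟨ha, ha'⟩ ⟨hb, hb'⟩
        refine ⟨mul_mem ha hb, ?_⟩
        rw [Derivation.leibniz]
        exact add_mem (mul_mem ha hb') (mul_mem hb ha')
      one_mem' := ⟨one_mem _, by simp⟩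
      add_mem' := by
        rintro a b ⟨ha, ha'⟩ ⟨hb, hb'⟩
        refine ⟨add_mem ha hb, ?_⟩
        rw [map_add]
        exact add_mem ha' hb'
      zero_mem' := ⟨zero_mem _, by simp⟩
      neg_mem' := by
        rintro a ⟨ha, ha'⟩
        refine ⟨neg_mem ha, ?_⟩
        rw [map_neg]
        exact neg_mem ha'
      inv_mem' := by
        rintro a ⟨ha, ha'⟩
        refine ⟨inv_mem ha, ?_⟩
        rw [Derivation.leibniz_inv]
        exact mul_mem (neg_mem (pow_mem (inv_mem ha) 2)) ha' }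
  have hS : u ∈ S := GG_mem_of p hu S
    (fun a ha => ⟨PP_mem_GG p ha x, by rw [D_PP p D ha]; exact zero_mem _⟩) ⟨GG_self p x, hx⟩
  exact hS.2

lemma natCast_of_pow_eq {e : K} (he : e ^ p = e) : ∃ j : ℕ, j < p ∧ e = (j : K) := by
  have h1 : e ∈ (⊥ : Subfield K) := (Subfield.mem_bot_iff_pow_eq_self K p).2 he
  rw [← ZMod.fieldRange_castHom_eq_bot p] at h1
  obtain ⟨z, hz⟩ := RingHom.mem_fieldRange.1 h1
  have : NeZero p := ⟨hp.out.ne_zero⟩
  refine ⟨z.val, ZMod.val_lt z, ?_⟩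
  rw [← hz]
  simp [ZMod.natCast_val]

lemma natCast_inj_of_lt {i j : ℕ} (hi : i < p) (hj : j < p) (h : (i : K) = (j : K)) : i = j := by
  have h1 := (CharP.natCast_eq_natCast K p).1 h
  exact Nat.ModEq.eq_of_lt_of_lt h1 hi hj

/-- iterated derivation on `GG x` when `D x = x` -/
lemma D_iter (D : Derivation ℤ K K) {x u : K} (hx : D x = x) (hu : u ∈ GG p x) :
    (fun v => D v)^[p] u = D u := by
  -- u is a polynomial in x
  have hint := isIntegral_of_pow_mem p (PP p K) (pow_mem_PP p) x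
  have h1 : u ∈ Algebra.adjoin (PP p K) ({x} : Set K) := by
    rw [← IntermediateField.adjoin_simple_toSubalgebra_of_isAlgebraic hint.isAlgebraic]
    exact hu
  rw [Algebra.adjoin_singleton_eq_range_aeval] at h1
  obtain ⟨q, rfl⟩ := h1
  have key : ∀ n : ℕ, ∀ q : (PP p K)[X], (fun v => D v)^[n] (aeval x q) =
      q.sum (fun i c => (i : K) ^ n * ((c : K) * x ^ i)) := by
    intro n
    induction n with
    | zero =>
      intro q
      simp only [Function.iterate_zero, id, pow_zero, one_mul]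
      rw [aeval_eq_sum_range, sum_over_range]
      · rfl
      · simp
    | succ n ih =>
      intro q
      rw [Function.iterate_succ_apply', ih]
      rw [Polynomial.sum, Polynomial.sum, map_sum]
      apply Finset.sum_congr rfl
      intro i _
      have e1 : D ((i : K) ^ n) = 0 := by
        have : ((i : K) ^ n) = (((i ^ n : ℕ)) : K) := by push_cast; rfl
        rw [this]; exact D.map_natCast _
      have e2 : D ((q.coeff i : PP p K) : K) = 0 := D_PP p D (q.coeff i).2
      rw [Derivation.leibniz, Derivation.leibniz, e1, e2, Derivation.leibniz_pow, hx]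
      simp only [smul_eq_mul, nsmul_eq_mul, mul_zero, add_zero]
      rcases Nat.eq_zero_or_pos i with h | h
      · subst h; simp
      · obtain ⟨k, rfl⟩ : ∃ k, i = k + 1 := ⟨i - 1, by omega⟩
        simp only [Nat.add_sub_cancel]
        ring
  have k1 := key p q
  have k2 := key 1 q
  simp only [Function.iterate_one] at k2
  refine k1.trans (Eq.trans ?_ k2.symm)
  rw [Polynomial.sum, Polynomial.sum]
  apply Finset.sum_congr rfl
  intro i _
  have : (i : K) ^ p = i := by
    exact (map_natCast (frobenius K p) i)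
  rw [this, pow_one]

lemma eigen (D : Derivation ℤ K K) {x u e : K} (hx : D x = x) (hx0 : x ≠ 0) (hu : u ∈ GG p x)
    (hu0 : u ≠ 0) (he : e ∈ PP p K) (hDu : D u = e * u) :
    ∃ j : ℕ, j < p ∧ e = (j : K) ∧ ∃ c ∈ PP p K, u = c * x ^ j := by
  have h1 : ∀ n : ℕ, (fun v => D v)^[n] u = e ^ n * u := by
    intro n
    induction n with
    | zero => simp
    | succ n ih =>
      rw [Function.iterate_succ_apply', ih, Derivation.leibniz, Derivation.leibniz_pow,
        D_PP p D he, hDu]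
      simp; ring
  have h2 := h1 p
  rw [D_iter p D hx hu, hDu] at h2
  have h3 : e ^ p = e := (mul_right_cancel₀ hu0 h2).symm
  obtain ⟨j, hj, hej⟩ := natCast_of_pow_eq p h3
  refine ⟨j, hj, hej, u / x ^ j, ?_, ?_⟩
  · apply mem_PP_of_D p D (x := x) (by rw [hx]; exact hx0)
    · exact div_mem hu (pow_mem (GG_self p x) j)
    · rw [Derivation.leibniz_div, Derivation.leibniz_pow, hDu, hx, hej]
      simp only [smul_eq_mul, nsmul_eq_mul]
      rcases Nat.eq_zero_or_pos j with h | h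
      · subst h; simp
      · obtain ⟨k, rfl⟩ : ∃ k, j = k + 1 := ⟨j - 1, by omega⟩
        simp only [Nat.add_sub_cancel]
        ring
  · field_simp

lemma twisted (D : Derivation ℤ K K) {x F a c : K} (hx : D x = x) (hx0 : x ≠ 0)
    (hF : F ∈ GG p x) (hF0 : F ≠ 0) (haF : D F = a * F) (hc : c ∈ PP p K)
    (ha0 : a ≠ 0) (ha1 : a ≠ 1) (hDa : D a = c * (a * (1 - a))) :
    ∃ j : ℕ, j < p ∧ -c = (j : K) ∧ ((j = 0 ∧ ∃ i : ℕ, i < p ∧ ∃ μ ∈ PP p K, F = μ * x ^ i) ∨
      (0 < j ∧ ∃ μ ∈ PP p K, ∃ Λ ∈ PP p K, F ^ (p - j) = μ * (x ^ (p - j) + Λ))) := by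
  have ha : a ∈ GG p x := by
    have : a = D F / F := by field_simp; rw [haF]
    rw [this]
    exact div_mem (D_mem_GG p D (by rw [hx]; exact GG_self p x) hF) hF
  have hv : D (1 / a - 1) = -c * (1 / a - 1) := by
    rw [map_sub, Derivation.map_one_eq_zero, one_div, Derivation.leibniz_inv, hDa]
    simp only [smul_eq_mul]
    field_simp
    ring
  have hv0 : (1 / a - 1) ≠ 0 := by
    intro h
    apply ha1
    field_simp at h
    linear_combination -h
  have hvm : (1 / a - 1) ∈ GG p x := sub_mem (div_mem (one_mem _) ha) (one_mem _)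
  obtain ⟨j, hj, hcj, Λ, hΛ, hvΛ⟩ := eigen p D hx hx0 hvm hv0 (neg_mem hc) hv
  refine ⟨j, hj, hcj, ?_⟩
  rcases Nat.eq_zero_or_pos j with h | h
  · left
    refine ⟨h, ?_⟩
    subst h
    have haP : a ∈ PP p K := by
      have h1 : 1 / a = Λ + 1 := by linear_combination hvΛ
      have h2 : a = 1 / (Λ + 1) := by rw [← h1]; field_simp
      rw [h2]
      exact div_mem (one_mem _) (add_mem hΛ (one_mem _))
    obtain ⟨i, hi, -, μ, hμ, hFμ⟩ := eigen p D hx hx0 hF hF0 haP haF
    exact ⟨i, hi, μ, hμ, hFμ⟩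
  · right
    refine ⟨h, ?_⟩
    set m := p - j with hm
    have hmj : m + j = p := by omega
    have hxm : x ^ m ≠ 0 := pow_ne_zero _ hx0
    have hva : x ^ m * (1 / a - 1) = Λ * x ^ p := by
      rw [hvΛ, ← hmj, pow_add]; ring
    have hsum : x ^ m + Λ * x ^ p = x ^ m / a := by
      rw [← hva]; field_simp; ring
    have hs0 : x ^ m + Λ * x ^ p ≠ 0 := by
      rw [hsum]; exact div_ne_zero hxm ha0
    refine ⟨F ^ m / (x ^ m + Λ * x ^ p), ?_, Λ * x ^ p, mul_mem hΛ (pow_mem_PP p x), ?_⟩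
    · apply mem_PP_of_D p D (x := x) (by rw [hx]; exact hx0)
      · exact div_mem (pow_mem hF m) (add_mem (pow_mem (GG_self p x) m)
          (mul_mem (PP_mem_GG p hΛ x) (pow_mem (GG_self p x) p)))
      · have e1 : D (x ^ m + Λ * x ^ p) = m * x ^ m := by
          rw [map_add, D_PP p D (mul_mem hΛ (pow_mem_PP p x)), Derivation.leibniz_pow, hx]
          have : 0 < m := by omega
          obtain ⟨k, hk⟩ : ∃ k, m = k + 1 := ⟨m - 1, by omega⟩
          rw [hk]
          simp only [Nat.add_sub_cancel, smul_eq_mul, nsmul_eq_mul]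
          ring
        have e2 : D (F ^ m) = m * a * F ^ m := by
          rw [Derivation.leibniz_pow, haF]
          have : 0 < m := by omega
          obtain ⟨k, hk⟩ : ∃ k, m = k + 1 := ⟨m - 1, by omega⟩
          rw [hk]
          simp only [Nat.add_sub_cancel, smul_eq_mul, nsmul_eq_mul]
          ring
        rw [Derivation.leibniz_div, e1, e2]
        simp only [smul_eq_mul]
        have : (x ^ m + Λ * x ^ p) * a = x ^ m := by rw [hsum]; field_simp
        have e3 : (x ^ m + Λ * x ^ p) * (m * a * F ^ m) - F ^ m * (m * x ^ m) = 0 := by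
          linear_combination (m * F ^ m) * this
        rw [e3, mul_zero]
    · field_simp

lemma smul_apply' (x : K) (D : Derivation ℤ K K) (u : K) : (x • D) u = x * D u := by
  rw [Derivation.smul_apply, smul_eq_mul]

lemma indep_symm {X Y : K} (hX : X ∉ PP p K) (hY : Y ∉ GG p X) : X ∉ GG p Y := by
  intro h
  apply hY
  rw [GG_eq p hX h]
  exact GG_self p Y

lemma exists_two_derivations {X Y : K} (hX : X ∉ PP p K) (hY : Y ∉ GG p X) :
    ∃ D1 D2 : Derivation ℤ K K, D1 X = X ∧ D1 Y = 0 ∧ D2 X = 0 ∧ D2 Y = Y := by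
  have hXY := indep_symm p hX hY
  obtain ⟨D1', h1, h1X⟩ := exists_derivation p (GG p Y).toSubfield
    (fun u => PP_mem_GG p (pow_mem_PP p u) Y) (x := X) hXY
  obtain ⟨D2', h2, h2Y⟩ := exists_derivation p (GG p X).toSubfield
    (fun u => PP_mem_GG p (pow_mem_PP p u) X) (x := Y) hY
  refine ⟨X • D1', Y • D2', ?_, ?_, ?_, ?_⟩
  · rw [smul_apply', h1X, mul_one]
  · rw [smul_apply', h1 Y (GG_self p Y), mul_zero]
  · rw [smul_apply', h2 X (GG_self p X), mul_zero]
  · rw [smul_apply', h2Y, mul_one]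

lemma ode {X Y F G Z : K} (hX : X ∉ PP p K) (hY : Y ∉ GG p X)
    (hF : F ∈ GG p X) (hFP : F ∉ PP p K) (hFX : F / X ∉ PP p K)
    (hG : G ∈ GG p Y) (hGP : G ∉ PP p K) (hGY : G / Y ∉ PP p K)
    (hZ0 : Z ≠ 0) (hZ1 : Z / Y ∈ GG p (X / Y)) (hZ2 : Z / G ∈ GG p (F / G)) :
    ∃ j : ℕ, j < p ∧ ((j = 0 ∧ ∃ i : ℕ, i < p ∧ ∃ μ ∈ PP p K, F = μ * X ^ i) ∨
      (0 < j ∧ (∃ μ ∈ PP p K, ∃ Λ ∈ PP p K, F ^ (p - j) = μ * (X ^ (p - j) + Λ)) ∧
        (∃ μ ∈ PP p K, ∃ Λ ∈ PP p K, G ^ (p - j) = μ * (Y ^ (p - j) + Λ)))) := by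
  have hX0 : X ≠ 0 := fun h => hX (h ▸ zero_mem _)
  have hY0 : Y ≠ 0 := fun h => hY (h ▸ zero_mem _)
  have hF0 : F ≠ 0 := fun h => hFP (h ▸ zero_mem _)
  have hG0 : G ≠ 0 := fun h => hGP (h ▸ zero_mem _)
  obtain ⟨D1, D2, h1X, h1Y, h2X, h2Y⟩ := exists_two_derivations p hX hY
  have h2F : D2 F = 0 := D_GG p D2 h2X hF
  have h1G : D1 G = 0 := D_GG p D1 h1Y hG
  -- log derivatives
  obtain ⟨a, ha⟩ : ∃ a, a = D1 F / F := ⟨_, rfl⟩
  obtain ⟨b, hb⟩ : ∃ b, b = D2 G / G := ⟨_, rfl⟩
  have haF : D1 F = a * F := by rw [ha]; field_simp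
  have hbG : D2 G = b * G := by rw [hb]; field_simp
  have haX : a ∈ GG p X := by
    rw [ha]; exact div_mem (D_mem_GG p D1 (by rw [h1X]; exact GG_self p X) hF) hF
  have hbY : b ∈ GG p Y := by
    rw [hb]; exact div_mem (D_mem_GG p D2 (by rw [h2Y]; exact GG_self p Y) hG) hG
  have h2a : D2 a = 0 := D_GG p D2 h2X haX
  have h1b : D1 b = 0 := D_GG p D1 h1Y hbY
  -- a, b not 0, 1
  have ha0 : a ≠ 0 := by
    intro h
    apply hFP
    apply mem_PP_of_D p D1 (x := X) (by rw [h1X]; exact hX0) hF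
    rw [haF, h, zero_mul]
  have hb0 : b ≠ 0 := by
    intro h
    apply hGP
    apply mem_PP_of_D p D2 (x := Y) (by rw [h2Y]; exact hY0) hG
    rw [hbG, h, zero_mul]
  have ha1 : a ≠ 1 := by
    intro h
    apply hFX
    apply mem_PP_of_D p D1 (x := X) (by rw [h1X]; exact hX0) (div_mem hF (GG_self p X))
    rw [Derivation.leibniz_div, haF, h1X, h]
    simp only [smul_eq_mul]; ring
  have hb1 : b ≠ 1 := by
    intro h
    apply hGY
    apply mem_PP_of_D p D2 (x := Y) (by rw [h2Y]; exact hY0) (div_mem hG (GG_self p Y))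
    rw [Derivation.leibniz_div, hbG, h2Y, h]
    simp only [smul_eq_mul]; ring
  -- Z
  obtain ⟨A, hA⟩ : ∃ A, A = D1 Z / Z := ⟨_, rfl⟩
  have hAZ : D1 Z = A * Z := by rw [hA]; field_simp
  have hsum : (D1 + D2) Z = Z := by
    have e1 : (D1 + D2) (X / Y) = 0 := by
      rw [Derivation.leibniz_div, Derivation.add_apply, Derivation.add_apply, h1X, h1Y, h2X, h2Y]
      simp only [smul_eq_mul]; ring
    have e2 := D_GG p (D1 + D2) e1 hZ1
    have e3 : Z = (Z / Y) * Y := by field_simp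
    rw [e3, Derivation.leibniz, e2, Derivation.add_apply, h1Y, h2Y]
    simp only [smul_eq_mul, zero_add, mul_zero, add_zero]
  have h2Z : D2 Z = (1 - A) * Z := by
    rw [Derivation.add_apply, hAZ] at hsum
    linear_combination hsum
  have hcomm : D1 (D2 Z) = D2 (D1 Z) := by
    have e1 : ⁅D1, D2⁆ X = 0 := by
      rw [Derivation.commutator_apply, h1X, h2X]; simp
    have e2 : ⁅D1, D2⁆ Y = 0 := by
      rw [Derivation.commutator_apply, h1Y, h2Y]; simp [h1Y]
    have e3 : ⁅D1, D2⁆ (X / Y) = 0 := by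
      rw [Derivation.leibniz_div, e1, e2]; simp
    have e4 := D_GG p ⁅D1, D2⁆ e3 hZ1
    have e5 : ⁅D1, D2⁆ Z = 0 := by
      have e6 : Z = (Z / Y) * Y := by field_simp
      rw [e6, Derivation.leibniz, e4, e2]; simp
    rw [Derivation.commutator_apply] at e5
    exact sub_eq_zero.1 e5
  have hrel : b * A + a * (1 - A) = a * b := by
    have e1 : (b • D1 + a • D2) (F / G) = 0 := by
      rw [Derivation.leibniz_div, Derivation.add_apply, Derivation.add_apply, smul_apply',
        smul_apply', smul_apply', smul_apply', haF, h2F, h1G, hbG]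
      simp only [smul_eq_mul]; ring
    have e2 := D_GG p (b • D1 + a • D2) e1 hZ2
    rw [Derivation.leibniz_div, Derivation.add_apply, Derivation.add_apply, smul_apply',
        smul_apply', smul_apply', smul_apply', hAZ, h2Z, h1G, hbG] at e2
    simp only [smul_eq_mul] at e2
    have e3 : (G⁻¹ ^ 2 * (G * Z)) * (b * A + a * (1 - A) - a * b) = 0 := by
      linear_combination e2
    have e4 : (G⁻¹ ^ 2 * (G * Z)) ≠ 0 :=
      mul_ne_zero (pow_ne_zero _ (inv_ne_zero hG0)) (mul_ne_zero hG0 hZ0)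
    have e5 := (mul_eq_zero.1 e3).resolve_left e4
    linear_combination e5
  -- (D1 + D2) A = 0
  have hDA : D1 A + D2 A = 0 := by
    rw [h2Z, hAZ, Derivation.leibniz, Derivation.leibniz, map_sub, Derivation.map_one_eq_zero,
      hAZ, h2Z] at hcomm
    simp only [smul_eq_mul] at hcomm
    have e1 : Z * (D1 A + D2 A) = 0 := by linear_combination -hcomm
    exact (mul_eq_zero.1 e1).resolve_left hZ0
  -- differentiate the relation
  obtain ⟨a', ha'⟩ : ∃ a', a' = D1 a := ⟨_, rfl⟩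
  obtain ⟨b', hb'⟩ : ∃ b', b' = D2 b := ⟨_, rfl⟩
  have hrel' : b' * A + a' * (1 - A) = a' * b + a * b' := by
    have e1 : (D1 + D2) (b * A + a * (1 - A)) = (D1 + D2) (a * b) := by rw [hrel]
    rw [map_add, Derivation.leibniz, Derivation.leibniz, Derivation.leibniz, map_sub,
      Derivation.map_one_eq_zero, Derivation.add_apply, Derivation.add_apply,
      Derivation.add_apply, hDA, h1b, h2a, ← ha', ← hb'] at e1
    simp only [smul_eq_mul] at e1
    linear_combination e1
  have hfin : a' * (b * (b - 1)) = b' * (a * (a - 1)) := by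
    linear_combination (a - b) * hrel' + (b' - a') * hrel
  have hcab : a' / (a * (1 - a)) = b' / (b * (1 - b)) := by
    have h1 : 1 - a ≠ 0 := sub_ne_zero.2 (Ne.symm ha1)
    have h2 : 1 - b ≠ 0 := sub_ne_zero.2 (Ne.symm hb1)
    field_simp
    linear_combination -hfin
  obtain ⟨c, hc⟩ : ∃ c, c = a' / (a * (1 - a)) := ⟨_, rfl⟩
  have hcX : c ∈ GG p X := by
    rw [hc, ha']
    exact div_mem (D_mem_GG p D1 (by rw [h1X]; exact GG_self p X) haX)
      (mul_mem haX (sub_mem (one_mem _) haX))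
  have hcY : c ∈ GG p Y := by
    rw [hc, hcab, hb']
    exact div_mem (D_mem_GG p D2 (by rw [h2Y]; exact GG_self p Y) hbY)
      (mul_mem hbY (sub_mem (one_mem _) hbY))
  have hcP : c ∈ PP p K :=
    mem_PP_of_D p D1 (x := X) (by rw [h1X]; exact hX0) hcX (D_GG p D1 h1Y hcY)
  have hDa : D1 a = c * (a * (1 - a)) := by
    have h1 : 1 - a ≠ 0 := sub_ne_zero.2 (Ne.symm ha1)
    rw [hc, ← ha']; field_simp
  have hDb : D2 b = c * (b * (1 - b)) := by
    have h2 : 1 - b ≠ 0 := sub_ne_zero.2 (Ne.symm hb1)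
    rw [hc, hcab, ← hb']; field_simp
  obtain ⟨j, hj, hcj, h1⟩ := twisted p D1 h1X hX0 hF hF0 haF hcP ha0 ha1 hDa
  obtain ⟨j', hj', hcj', h2⟩ := twisted p D2 h2Y hY0 hG hG0 hbG hcP hb0 hb1 hDb
  have hjj : j = j' := natCast_inj_of_lt (K := K) p hj hj' (by rw [← hcj, ← hcj'])
  subst hjj
  refine ⟨j, hj, ?_⟩
  rcases h1 with ⟨h1, h1'⟩ | ⟨h1, h1'⟩
  · exact Or.inl ⟨h1, h1'⟩
  · rcases h2 with ⟨h2, h2'⟩ | ⟨h2, h2'⟩
    · omega
    · exact Or.inr ⟨h1, h1', h2'⟩

end Ode

end Crest.Agent.S0010
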