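import Mathlib
import Crest.Agent.S0010Ode

set_option autoImplicit false
open Polynomial IntermediateField

namespace Crest.Agent.S0010

/-- an isomorphism `Kˣ/p → Lˣ/p` seen as a relation between non-zero elements -/
structure Corr (p : ℕ) (K L : Type*) [Field K] [Field L] where
  R : K → L → Prop
  ne_left : ∀ {u U}, R u U → u ≠ 0
  ne_right : ∀ {u U}, R u U → U ≠ 0
  ex_right : ∀ {u}, u ≠ 0 → ∃ U, R u U
  ex_left : ∀ {U}, U ≠ 0 → ∃ u, R u U
  mul : ∀ {u U v V}, R u U → R v V → R (u * v) (U * V)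
  inv : ∀ {u U}, R u U → R u⁻¹ U⁻¹
  pow_one : ∀ {a}, a ≠ 0 → R (a ^ p) 1
  one_pow : ∀ {b}, b ≠ 0 → R 1 (b ^ p)
  of_one : ∀ {U}, R 1 U → ∃ b, b ^ p = U
  to_one : ∀ {u}, R u 1 → ∃ a, a ^ p = u

namespace Corr

variable {p : ℕ} [hp : Fact p.Prime] {K L : Type*} [Field K] [Field L] [CharP K p] [CharP L p]

/-- the inverse correspondence -/
def symm {K L : Type*} [Field K] [Field L] (C : Corr p K L) : Corr p L K where
  R := fun U u => C.R u U
  ne_left := C.ne_right
  ne_right := C.ne_left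
  ex_right := C.ex_left
  ex_left := C.ex_right
  mul := C.mul
  inv := C.inv
  pow_one := C.one_pow
  one_pow := C.pow_one
  of_one := C.to_one
  to_one := C.of_one

variable (C : Corr p K L)

lemma symm_R {U : L} {u : K} : C.symm.R U u ↔ C.R u U := Iff.rfl

omit hp [CharP K p] [CharP L p] in
lemma one_one : C.R 1 1 := by
  have := C.pow_one (a := (1 : K)) one_ne_zero
  simpa using this

omit hp [CharP K p] [CharP L p] in
lemma div {u U v V} (h1 : C.R u U) (h2 : C.R v V) : C.R (u / v) (U / V) := by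
  rw [div_eq_mul_inv, div_eq_mul_inv]; exact C.mul h1 (C.inv h2)

omit hp [CharP K p] [CharP L p] in
lemma pow {u U} (h1 : C.R u U) (n : ℕ) : C.R (u ^ n) (U ^ n) := by
  induction n with
  | zero => simpa using C.one_one
  | succ n ih => rw [pow_succ, pow_succ]; exact C.mul ih h1

omit [CharP L p] in
lemma smul_left {c u U} (hc : c ∈ PP p K) (hc0 : c ≠ 0) (h1 : C.R u U) : C.R (c * u) U := by
  obtain ⟨a, rfl⟩ := (mem_PP p).1 hc
  have ha : a ≠ 0 := by rintro rfl; exact hc0 (zero_pow hp.out.ne_zero)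
  have := C.mul (C.pow_one ha) h1
  rwa [one_mul] at this

omit [CharP K p] in
lemma smul_right {c u U} (hc : c ∈ PP p L) (hc0 : c ≠ 0) (h1 : C.R u U) : C.R u (c * U) := by
  obtain ⟨a, rfl⟩ := (mem_PP p).1 hc
  have ha : a ≠ 0 := by rintro rfl; exact hc0 (zero_pow hp.out.ne_zero)
  have := C.mul (C.one_pow ha) h1
  rwa [one_mul] at this

omit [CharP K p] in
lemma unique_right {u U U'} (h : C.R u U) (h' : C.R u U') : ∃ c ∈ PP p L, c ≠ 0 ∧ U' = c * U := by
  have h1 := C.div h' h
  rw [div_self (C.ne_left h)] at h1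
  obtain ⟨b, hb⟩ := C.of_one h1
  refine ⟨U' / U, (mem_PP p).2 ⟨b, hb⟩, div_ne_zero (C.ne_right h') (C.ne_right h), ?_⟩
  have := C.ne_right h
  field_simp

omit [CharP L p] in
lemma unique_left {u u' U} (h : C.R u U) (h' : C.R u' U) : ∃ c ∈ PP p K, c ≠ 0 ∧ u' = c * u :=
  C.symm.unique_right h h'

lemma mem_PP_right {u U} (h : C.R u U) (hu : u ∈ PP p K) : U ∈ PP p L := by
  have h1 := C.smul_left (inv_mem hu) (inv_ne_zero (C.ne_left h)) h
  rw [inv_mul_cancel₀ (C.ne_left h)] at h1
  exact (mem_PP p).2 (C.of_one h1)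

lemma mem_PP_left {u U} (h : C.R u U) (hu : U ∈ PP p L) : u ∈ PP p K :=
  C.symm.mem_PP_right h hu

/-- lines through `1` go into dependent sets -/
def SProp (C : Corr p K L) : Prop :=
  ∀ u U v V a b, C.R u U → C.R v V → a ∈ PP p K → b ∈ PP p K → v = a + b * u → V ∈ GG p U

lemma GG_pres (hS : C.SProp) {u U v V} (hu : C.R u U) (hv : C.R v V) (h : v ∈ GG p u) :
    V ∈ GG p U := by
  have hgood : ∀ {x X X'}, C.R x X → C.R x X' → X ∈ GG p U → X' ∈ GG p U := by
    intro x X X' h1 h2 h3
    obtain ⟨c, hc, -, rfl⟩ := C.unique_right h1 h2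
    exact mul_mem (PP_mem_GG p hc U) h3
  let M : Subfield K :=
    { carrier := {x | ∀ X, C.R x X → X ∈ GG p U}
      mul_mem' := by
        intro a b ha hb X hX
        have hab := C.ne_left hX
        obtain ⟨A, hA⟩ := C.ex_right (left_ne_zero_of_mul hab)
        obtain ⟨B, hB⟩ := C.ex_right (right_ne_zero_of_mul hab)
        exact hgood (C.mul hA hB) hX (mul_mem (ha A hA) (hb B hB))
      one_mem' := by
        intro X hX
        exact hgood C.one_one hX (one_mem _)
      add_mem' := by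
        intro a b ha hb X hX
        by_cases ha0 : a = 0
        · subst ha0
          rw [zero_add] at hX
          exact hb X hX
        by_cases hb0 : b = 0
        · subst hb0
          rw [add_zero] at hX
          exact ha X hX
        obtain ⟨A, hA⟩ := C.ex_right ha0
        obtain ⟨B, hB⟩ := C.ex_right hb0
        have h1 := C.div hB hA
        have h2 := C.div hX hA
        have h3 : X / A ∈ GG p (B / A) := by
          refine hS (b / a) (B / A) _ _ 1 1 h1 h2 (one_mem _) (one_mem _) ?_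
          field_simp
        have h4 : X / A ∈ GG p U := GG_le_of_mem p h3 (div_mem (hb B hB) (ha A hA))
        have h5 : X = (X / A) * A := by
          have := C.ne_right hA
          field_simp
        rw [h5]
        exact mul_mem h4 (ha A hA)
      zero_mem' := by
        intro X hX
        exact absurd rfl (C.ne_left hX)
      neg_mem' := by
        intro a ha X hX
        have h1 : C.R a X := by
          have h2 : (-1 : K) ∈ PP p K := neg_mem (one_mem _)
          have h3 := C.smul_left h2 (by simp) hX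
          simpa using h3
        exact ha X h1
      inv_mem' := by
        intro a ha X hX
        have h1 := C.inv hX
        rw [inv_inv] at h1
        have h2 := inv_mem (ha _ h1)
        rwa [inv_inv] at h2 }
  have hM : v ∈ M := by
    apply GG_mem_of p h M
    · intro a ha X hX
      exact PP_mem_GG p (C.mem_PP_right hX ha) U
    · intro X hX
      exact hgood hu hX (GG_self p U)
  exact hM V hv

end Corr

section Tw
variable (p : ℕ) [hp : Fact p.Prime] {K : Type*} [Field K] [CharP K p]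

lemma exists_D_self {x : K} (hx : x ∉ PP p K) : ∃ D : Derivation ℤ K K, D x = x := by
  obtain ⟨D, -, hD⟩ := exists_derivation p (PP p K) (pow_mem_PP p) hx
  exact ⟨x • D, by rw [smul_apply', hD, mul_one]⟩

lemma natCast_ne_zero_of_lt {n : ℕ} (hn : 0 < n) (hnp : n < p) : (n : K) ≠ 0 := by
  intro h
  rw [CharP.cast_eq_zero_iff K p] at h
  exact absurd (Nat.le_of_dvd hn h) (by omega)

lemma mem_PP_of_pow {u : K} {n : ℕ} (hn : 0 < n) (hnp : n < p) (h : u ^ n ∈ PP p K) :
    u ∈ PP p K := by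
  by_contra hu
  obtain ⟨D, hD⟩ := exists_D_self p hu
  have h1 := D_PP p D h
  rw [Derivation.leibniz_pow, hD] at h1
  have hu0 : u ≠ 0 := fun h => hu (h ▸ zero_mem _)
  simp only [smul_eq_mul, nsmul_eq_mul] at h1
  have := natCast_ne_zero_of_lt (K := K) p hn hnp
  rcases mul_eq_zero.1 h1 with h2 | h2
  · exact this h2
  · rcases mul_eq_zero.1 h2 with h3 | h3
    · exact pow_ne_zero _ hu0 h3
    · exact hu0 h3

/-- twisted line relation -/
def Tw (n : ℕ) (X F : K) : Prop :=
  ∃ μ ∈ PP p K, ∃ Λ ∈ PP p K, F ^ n = μ * (X ^ n + Λ)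

lemma D_pow_self (D : Derivation ℤ K K) {x a : K} (h : D x = a * x) {n : ℕ} (hn : 0 < n) :
    D (x ^ n) = n * a * x ^ n := by
  rw [Derivation.leibniz_pow, h]
  obtain ⟨k, rfl⟩ : ∃ k, n = k + 1 := ⟨n - 1, by omega⟩
  simp only [Nat.add_sub_cancel, smul_eq_mul, nsmul_eq_mul]
  ring

lemma Tw_unique {X F : K} {n n' : ℕ} (hX : X ∉ PP p K) (hF0 : F ≠ 0)
    (hFX : F / X ∉ PP p K) (hn : 0 < n) (hnp : n < p)
    (hn' : 0 < n') (hnp' : n' < p) (h : Tw p n X F) (h' : Tw p n' X F) : n = n' := by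
  have hX0 : X ≠ 0 := fun h => hX (h ▸ zero_mem _)
  obtain ⟨D, hD⟩ := exists_D_self p hX
  obtain ⟨a, ha⟩ : ∃ a, a = D F / F := ⟨_, rfl⟩
  have haF : D F = a * F := by rw [ha]; field_simp
  have key : ∀ m : ℕ, 0 < m → m < p → Tw p m X F →
      ∃ Λ ∈ PP p K, Λ ≠ 0 ∧ a * (X ^ m + Λ) = X ^ m := by
    rintro m hm hmp ⟨μ, hμ, Λ, hΛ, h⟩
    have hμ0 : μ ≠ 0 := by
      rintro rfl
      rw [zero_mul] at h
      exact pow_ne_zero _ hF0 h
    refine ⟨Λ, hΛ, ?_, ?_⟩
    · rintro rfl
      apply hFX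
      apply mem_PP_of_pow p hm hmp
      rw [div_pow, h, add_zero, mul_div_assoc, div_self (pow_ne_zero _ hX0), mul_one]
      exact hμ
    · have h1 : D (F ^ m) = D (μ * (X ^ m + Λ)) := by rw [h]
      rw [D_pow_self D haF hm, Derivation.leibniz, D_PP p D hμ, map_add, D_PP p D hΛ,
        D_pow_self D (a := 1) (by rw [hD, one_mul]) hm, h] at h1
      simp only [smul_eq_mul, mul_zero, add_zero, mul_one] at h1
      have hm0 := natCast_ne_zero_of_lt (K := K) p hm hmp
      have h2 : (m * μ) * (a * (X ^ m + Λ) - X ^ m) = 0 := by linear_combination h1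
      have h3 := (mul_eq_zero.1 h2).resolve_left (mul_ne_zero hm0 hμ0)
      linear_combination h3
  obtain ⟨Λ, hΛ, hΛ0, e1⟩ := key n hn hnp h
  obtain ⟨Λ', hΛ', hΛ0', e2⟩ := key n' hn' hnp' h'
  have ha0 : a ≠ 0 := by
    rintro rfl
    rw [zero_mul] at e1
    exact pow_ne_zero _ hX0 e1.symm
  have e3 : X ^ n * Λ' = X ^ n' * Λ := by
    have : a * (X ^ n * Λ' - X ^ n' * Λ) = 0 := by
      linear_combination X ^ n * e2 - X ^ n' * e1
    have := (mul_eq_zero.1 this).resolve_left ha0
    linear_combination this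
  rcases Nat.lt_trichotomy n n' with hlt | heq | hgt
  · exfalso
    apply hX
    apply mem_PP_of_pow p (n := n' - n) (by omega) (by omega)
    have : X ^ (n' - n) = Λ' / Λ := by
      have h1 : X ^ n' = X ^ n * X ^ (n' - n) := by rw [← pow_add]; congr 1; omega
      rw [h1] at e3
      have h2 : X ^ n * (X ^ (n' - n) * Λ - Λ') = 0 := by linear_combination -e3
      have h3 := (mul_eq_zero.1 h2).resolve_left (pow_ne_zero _ hX0)
      field_simp
      linear_combination h3
    rw [this]; exact div_mem hΛ' hΛ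
  · exact heq
  · exfalso
    apply hX
    apply mem_PP_of_pow p (n := n - n') (by omega) (by omega)
    have : X ^ (n - n') = Λ / Λ' := by
      have h1 : X ^ n = X ^ n' * X ^ (n - n') := by rw [← pow_add]; congr 1; omega
      rw [h1] at e3
      have h2 : X ^ n' * (X ^ (n - n') * Λ' - Λ) = 0 := by linear_combination e3
      have h3 := (mul_eq_zero.1 h2).resolve_left (pow_ne_zero _ hX0)
      field_simp
      linear_combination h3
    rw [this]; exact div_mem hΛ hΛ'

lemma add_notMem {x l : K} (hx : x ∉ PP p K) (hl : l ∈ PP p K) : x + l ∉ PP p K := by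
  intro h
  apply hx
  have := sub_mem h hl
  rwa [add_sub_cancel_right] at this

lemma div_notMem {x l : K} (hx : x ∉ PP p K) (hl : l ∈ PP p K) (hl0 : l ≠ 0) :
    (x + l) / x ∉ PP p K := by
  have hx0 : x ≠ 0 := fun h => hx (h ▸ zero_mem _)
  intro h
  apply hx
  have h1 := sub_mem h (one_mem _)
  have h2 : (x + l) / x - 1 = l / x := by field_simp; ring
  rw [h2] at h1
  have h3 := div_mem hl h1
  have h4 : l / (l / x) = x := by field_simp
  rwa [h4] at h3

end Tw

namespace Corr
variable {p : ℕ} [hp : Fact p.Prime] {K L : Type*} [Field K] [Field L] [CharP K p] [CharP L p]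
variable (C : Corr p K L)

lemma exists_tw (hS : C.SProp) (hS' : C.symm.SProp) {x y l l' : K} {X Y F G : L}
    (hx : x ∉ PP p K) (hy : y ∉ GG p x) (hl : l ∈ PP p K) (hl0 : l ≠ 0)
    (hl' : l' ∈ PP p K) (hl0' : l' ≠ 0) (rX : C.R x X) (rY : C.R y Y)
    (rF : C.R (x + l) F) (rG : C.R (y + l') G) :
    ∃ n, 0 < n ∧ n < p ∧ Tw p n X F ∧ Tw p n Y G := by
  have hx0 : x ≠ 0 := C.ne_left rX
  have hy0 : y ≠ 0 := C.ne_left rY
  have hyP : y ∉ PP p K := fun h => hy (PP_mem_GG p h x)
  obtain ⟨z, hz⟩ : ∃ z, z = l' * x - l * y := ⟨_, rfl⟩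
  have hz0 : z ≠ 0 := by
    intro h
    apply hy
    have : y = l' / l * x := by
      rw [h] at hz
      field_simp
      linear_combination hz
    rw [this]
    exact mul_mem (PP_mem_GG p (div_mem hl' hl) x) (GG_self p x)
  obtain ⟨Z, rZ⟩ := C.ex_right hz0
  have hf0 : x + l ≠ 0 := C.ne_left rF
  have hg0 : y + l' ≠ 0 := C.ne_left rG
  have hX : X ∉ PP p L := fun h => hx (C.mem_PP_left rX h)
  have hY : Y ∉ GG p X := fun h => hy (C.symm.GG_pres hS' rX rY h)
  have hF : F ∈ GG p X := C.GG_pres hS rX rF (add_mem (GG_self p x) (PP_mem_GG p hl x))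
  have hG : G ∈ GG p Y := C.GG_pres hS rY rG (add_mem (GG_self p y) (PP_mem_GG p hl' y))
  have hFP : F ∉ PP p L := fun h => add_notMem p hx hl (C.mem_PP_left rF h)
  have hGP : G ∉ PP p L := fun h => add_notMem p hyP hl' (C.mem_PP_left rG h)
  have hFX : F / X ∉ PP p L := fun h => div_notMem p hx hl hl0 (C.mem_PP_left (C.div rF rX) h)
  have hGY : G / Y ∉ PP p L := fun h => div_notMem p hyP hl' hl0' (C.mem_PP_left (C.div rG rY) h)
  have hZ1 : Z / Y ∈ GG p (X / Y) := by
    refine C.GG_pres hS (C.div rX rY) (C.div rZ rY) ?_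
    have : z / y = l' * (x / y) - l := by rw [hz]; field_simp
    rw [this]
    exact sub_mem (mul_mem (PP_mem_GG p hl' _) (GG_self p _)) (PP_mem_GG p hl _)
  have hZ2 : Z / G ∈ GG p (F / G) := by
    refine C.GG_pres hS (C.div rF rG) (C.div rZ rG) ?_
    have : z / (y + l') = l' * ((x + l) / (y + l')) - l := by rw [hz]; field_simp; ring
    rw [this]
    exact sub_mem (mul_mem (PP_mem_GG p hl' _) (GG_self p _)) (PP_mem_GG p hl _)
  obtain ⟨j, hj, h⟩ := ode p hX hY hF hFP hFX hG hGP hGY (C.ne_right rZ) hZ1 hZ2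
  rcases h with ⟨-, i, hi, μ, hμ, hFμ⟩ | ⟨hj0, h1, h2⟩
  · exfalso
    have hμ0 : μ ≠ 0 := by
      rintro rfl
      rw [zero_mul] at hFμ
      exact C.ne_right rF hFμ
    have r1 := C.smul_right hμ hμ0 (C.pow rX i)
    rw [← hFμ] at r1
    obtain ⟨ν, hν, hν0, e⟩ := C.unique_left r1 rF
    obtain ⟨D, hD⟩ := exists_D_self p hx
    have e1 : D (x + l) = D (ν * x ^ i) := by rw [e]
    rw [map_add, D_PP p D hl, add_zero, Derivation.leibniz, D_PP p D hν, hD] at e1
    simp only [smul_eq_mul, mul_zero, add_zero] at e1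
    have e2 : x = i * (x + l) := by
      rcases Nat.eq_zero_or_pos i with h | h
      · subst h
        simp only [pow_zero, Derivation.map_one_eq_zero, mul_zero] at e1
        exact absurd e1 hx0
      · rw [D_pow_self D (a := 1) (by rw [hD, one_mul]) h] at e1
        rw [e]
        linear_combination e1
    by_cases hi1 : (i : K) = 1
    · rw [hi1, one_mul] at e2
      apply hl0
      linear_combination -e2
    · apply hx
      have h1 : (1 - (i : K)) ≠ 0 := sub_ne_zero.2 (Ne.symm hi1)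
      have h2 : x = (i : K) * l / (1 - i) := by
        field_simp
        linear_combination e2
      rw [h2]
      exact div_mem (mul_mem (natCast_mem _ i) hl) (sub_mem (one_mem _) (natCast_mem _ i))
  · exact ⟨p - j, by omega, by omega, h1, h2⟩

end Corr

end Crest.Agent.S0010
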