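import Mathlib
import Crest.Agent.S0010Corr

set_option autoImplicit false
open Polynomial IntermediateField

namespace Crest.Agent.S0010

/-- existence of two `p`-independent elements -/
def Ind (p : ℕ) [Fact p.Prime] (K : Type*) [Field K] [CharP K p] : Prop :=
  ∃ x y : K, x ∉ PP p K ∧ y ∉ GG p x

section
variable (p : ℕ) [hp : Fact p.Prime] {K : Type*} [Field K] [CharP K p]

lemma exists_notMem (h : Ind p K) (x : K) : ∃ a, a ∉ GG p x := by
  obtain ⟨x0, y0, hx0, hy0⟩ := h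
  by_contra hcon
  push Not at hcon
  have h1 := GG_eq p hx0 (hcon x0)
  exact hy0 (h1 ▸ hcon y0)

lemma exists_notMem_two (h : Ind p K) (x y : K) : ∃ a, a ∉ GG p x ∧ a ∉ GG p y := by
  obtain ⟨a, ha⟩ := exists_notMem p h x
  obtain ⟨b, hb⟩ := exists_notMem p h y
  by_cases hay : a ∈ GG p y
  · by_cases hbx : b ∈ GG p x
    · refine ⟨a + b, ?_, ?_⟩
      · intro h1
        apply ha
        have := sub_mem h1 hbx
        rwa [add_sub_cancel_right] at this
      · intro h1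
        apply hb
        have := sub_mem h1 hay
        rwa [add_sub_cancel_left] at this
    · exact ⟨b, hbx, hb⟩
  · exact ⟨a, ha, hay⟩

lemma notMem_PP_of_GG {x y : K} (h : y ∉ GG p x) : y ∉ PP p K := fun h1 => h (PP_mem_GG p h1 x)

/-- there is an element outside the span of `1, x, y` -/
lemma exists_notMem_span (h : Ind p K) (x y : K) :
    ∃ z, ∀ a ∈ PP p K, ∀ b ∈ PP p K, ∀ c ∈ PP p K, z ≠ a + b * x + c * y := by
  classical
  obtain ⟨x0, y0, hx0, hy0⟩ := h
  by_contra hcon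
  push Not at hcon
  let f : Fin 3 → K := ![1, x, y]
  have hspan : (⊤ : Submodule (PP p K) K) ≤ Submodule.span (PP p K) (Set.range f) := by
    intro z _
    obtain ⟨a, ha, b, hb, c, hc, hz⟩ := hcon z
    have h1 : (⟨a, ha⟩ : PP p K) • (1 : K) ∈ Submodule.span (PP p K) (Set.range f) :=
      Submodule.smul_mem _ _ (Submodule.subset_span ⟨0, rfl⟩)
    have h2 : (⟨b, hb⟩ : PP p K) • x ∈ Submodule.span (PP p K) (Set.range f) :=
      Submodule.smul_mem _ _ (Submodule.subset_span ⟨1, rfl⟩)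
    have h3 : (⟨c, hc⟩ : PP p K) • y ∈ Submodule.span (PP p K) (Set.range f) :=
      Submodule.smul_mem _ _ (Submodule.subset_span ⟨2, rfl⟩)
    have h4 := Submodule.add_mem _ (Submodule.add_mem _ h1 h2) h3
    have h5 : (⟨a, ha⟩ : PP p K) • (1 : K) + (⟨b, hb⟩ : PP p K) • x + (⟨c, hc⟩ : PP p K) • y = z := by
      rw [hz]
      show a * 1 + b * x + c * y = _
      ring
    rwa [h5] at h4
  have hfin : Module.Finite (PP p K) K := by
    refine ⟨⟨Finset.image f Finset.univ, ?_⟩⟩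
    rw [eq_top_iff]
    simpa using hspan
  have hrank : Module.finrank (PP p K) K ≤ 3 := by
    have h1 := finrank_range_le_card (R := PP p K) f
    have h2 : Submodule.span (PP p K) (Set.range f) = ⊤ := eq_top_iff.2 hspan
    rw [Set.finrank, h2, finrank_top] at h1
    simpa using h1
  have h1 := Module.finrank_mul_finrank (PP p K) (GG p x0) K
  rw [finrank_adjoin p (PP p K) (pow_mem_PP p) hx0] at h1
  have hfin2 : Module.Finite (GG p x0) K := Module.Finite.of_restrictScalars_finite (PP p K) _ _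
  have h2 : 2 ≤ Module.finrank (GG p x0) K := by
    have hpos : 0 < Module.finrank (GG p x0) K := Module.finrank_pos
    by_contra hlt
    have h3 : Module.finrank (GG p x0) K = 1 := by omega
    have h4 := IntermediateField.finrank_eq_one_iff_eq_top.1 h3
    exact hy0 (h4 ▸ IntermediateField.mem_top)
  have := hp.out.two_le
  nlinarith
end

namespace Corr
variable {p : ℕ} [hp : Fact p.Prime] {K L : Type*} [Field K] [Field L] [CharP K p] [CharP L p]
variable (C : Corr p K L)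

lemma exists_global (hS : C.SProp) (hS' : C.symm.SProp) (hI : Ind p K) :
    ∃ n, 0 < n ∧ n < p ∧ ∀ x l X F, x ∉ PP p K → l ∈ PP p K → l ≠ 0 → C.R x X →
      C.R (x + l) F → Tw p n X F := by
  obtain ⟨x0, y0, hx0, hy0⟩ := id hI
  have hne : ∀ {x : K}, x ∉ PP p K → x ≠ 0 := fun h h' => h (h' ▸ zero_mem _)
  obtain ⟨X0, rX0⟩ := C.ex_right (hne hx0)
  obtain ⟨F0, rF0⟩ := C.ex_right (hne (add_notMem p hx0 (one_mem _)))
  obtain ⟨Y0, rY0⟩ := C.ex_right (hne (notMem_PP_of_GG p hy0))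
  obtain ⟨G0, rG0⟩ := C.ex_right (hne (add_notMem p (notMem_PP_of_GG p hy0) (one_mem _)))
  obtain ⟨n0, hn0, hn0p, t0, -⟩ := C.exists_tw hS hS' hx0 hy0 (one_mem _) one_ne_zero
    (one_mem _) one_ne_zero rX0 rY0 rF0 rG0
  have uniq : ∀ {x l : K} {X F : L} {n n' : ℕ}, x ∉ PP p K → l ∈ PP p K → l ≠ 0 → C.R x X →
      C.R (x + l) F → 0 < n → n < p → 0 < n' → n' < p → Tw p n X F → Tw p n' X F → n = n' := by
    intro x l X F n n' hx hl hl0 rX rF hn hnp hn' hnp' t t'
    refine Tw_unique p (fun h => hx (C.mem_PP_left rX h)) (C.ne_right rF)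
      (fun h => div_notMem p hx hl hl0 (C.mem_PP_left (C.div rF rX) h)) hn hnp hn' hnp' t t'
  refine ⟨n0, hn0, hn0p, ?_⟩
  intro x l X F hx hl hl0 rX rF
  obtain ⟨z, hz0, hz⟩ := exists_notMem_two p hI x0 x
  have hzP := notMem_PP_of_GG p hz
  obtain ⟨Z, rZ⟩ := C.ex_right (hne hzP)
  obtain ⟨G, rG⟩ := C.ex_right (hne (add_notMem p hzP (one_mem _)))
  obtain ⟨n1, hn1, hn1p, t1, t1'⟩ := C.exists_tw hS hS' hx0 hz0 (one_mem _) one_ne_zero
    (one_mem _) one_ne_zero rX0 rZ rF0 rG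
  obtain ⟨n2, hn2, hn2p, t2, t2'⟩ := C.exists_tw hS hS' hx hz hl hl0
    (one_mem _) one_ne_zero rX rZ rF rG
  have e1 : n0 = n1 := uniq hx0 (one_mem _) one_ne_zero rX0 rF0 hn0 hn0p hn1 hn1p t0 t1
  have e2 : n1 = n2 := uniq hzP (one_mem _) one_ne_zero rZ rG hn1 hn1p hn2 hn2p t1' t2'
  rw [e1, e2]; exact t2

/-- lines through `1` map to lines through `1` -/
def LP (C : Corr p K L) : Prop :=
  ∀ x l X F, x ∉ PP p K → l ∈ PP p K → l ≠ 0 → C.R x X → C.R (x + l) F →
    ∃ μ ∈ PP p L, ∃ Λ ∈ PP p L, F = μ * X + Λ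

lemma d_eq_one (C2 : Corr p L K) (h1 : C.LP) (h2 : C2.LP) {d : ℕ} (hd : 0 < d) (hdp : d < p)
    (h : ∀ x X, C.R x X → C2.R X (x ^ d)) (hI : Ind p K) : d = 1 := by
  obtain ⟨x, _, hx, -⟩ := hI
  have hne : ∀ {x : K}, x ∉ PP p K → x ≠ 0 := fun h h' => h (h' ▸ zero_mem _)
  have hx0 := hne hx
  obtain ⟨X, rX⟩ := C.ex_right hx0
  obtain ⟨F, rF⟩ := C.ex_right (hne (add_notMem p hx (one_mem _)))
  obtain ⟨μ, hμ, Λ, hΛ, e⟩ := h1 x 1 X F hx (one_mem _) one_ne_zero rX rF
  have hX : X ∉ PP p L := fun h => hx (C.mem_PP_left rX h)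
  have hμ0 : μ ≠ 0 := by
    rintro rfl
    rw [zero_mul, zero_add] at e
    exact add_notMem p hx (one_mem _) (C.mem_PP_left rF (e ▸ hΛ))
  have hΛ0 : Λ ≠ 0 := by
    rintro rfl
    rw [add_zero] at e
    have h3 := C.div rF rX
    have h4 : F / X = μ := by
      have := C.ne_right rX
      rw [e]; field_simp
    exact div_notMem p hx (one_mem _) one_ne_zero (C.mem_PP_left h3 (h4 ▸ hμ))
  have r1 := h _ _ rX
  have r2 := h _ _ rF
  have r3 := C2.smul_left (inv_mem hμ) (inv_ne_zero hμ0) r2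
  have e2 : μ⁻¹ * F = X + Λ / μ := by rw [e]; field_simp
  rw [e2] at r3
  obtain ⟨μ', hμ', Λ', hΛ', e3⟩ := h2 X (Λ / μ) _ _ hX (div_mem hΛ hμ)
    (div_ne_zero hΛ0 hμ0) r1 r3
  obtain ⟨D, hD⟩ := exists_D_self p hx
  have hd0 := natCast_ne_zero_of_lt (K := K) p hd hdp
  have e4 : D ((x + 1) ^ d) = D (μ' * x ^ d + Λ') := by rw [e3]
  obtain ⟨k, rfl⟩ : ∃ k, d = k + 1 := ⟨d - 1, by omega⟩
  rw [Derivation.leibniz_pow, map_add, map_add, D_PP p D hΛ', Derivation.leibniz,
    D_PP p D hμ', Derivation.leibniz_pow, hD, Derivation.map_one_eq_zero] at e4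
  simp only [smul_eq_mul, nsmul_eq_mul, mul_zero, add_zero, Nat.add_sub_cancel] at e4
  have e5 : ((x + 1) ^ k - μ' * x ^ k) = 0 := by
    have : (((k + 1 : ℕ) : K) * x) * ((x + 1) ^ k - μ' * x ^ k) = 0 := by
      linear_combination e4
    exact (mul_eq_zero.1 this).resolve_left (mul_ne_zero hd0 hx0)
  have e6 : ((x + 1) / x) ^ k = μ' := by
    rw [div_pow]
    have := pow_ne_zero k hx0
    field_simp
    linear_combination e5
  by_contra hk
  exact div_notMem p hx (one_mem _) one_ne_zero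
    (mem_PP_of_pow p (n := k) (by omega) (by omega) (e6 ▸ hμ'))

/-- general line preservation -/
lemma LP_gen (h : C.LP) {u v w : K} {U V W : L} {a b : K} (ha : a ∈ PP p K) (hb : b ∈ PP p K)
    (rU : C.R u U) (rV : C.R v V) (rW : C.R w W) (hw : w = a * u + b * v) :
    ∃ A ∈ PP p L, ∃ B ∈ PP p L, W = A * U + B * V := by
  have hu := C.ne_left rU
  have hv := C.ne_left rV
  have hw0 := C.ne_left rW
  have hU := C.ne_right rU
  have hV := C.ne_right rV
  by_cases ha0 : a = 0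
  · subst ha0
    have hb0 : b ≠ 0 := by rintro rfl; apply hw0; rw [hw]; ring
    have r1 : C.R w V := by
      have := C.smul_left hb hb0 rV
      rwa [hw, zero_mul, zero_add]
    obtain ⟨c, hc, -, e⟩ := C.unique_right r1 rW
    exact ⟨0, zero_mem _, c, hc, by rw [e]; ring⟩
  by_cases hb0 : b = 0
  · subst hb0
    have r1 : C.R w U := by
      have := C.smul_left ha ha0 rU
      rwa [hw, zero_mul, add_zero]
    obtain ⟨c, hc, -, e⟩ := C.unique_right r1 rW
    exact ⟨c, hc, 0, zero_mem _, by rw [e]; ring⟩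
  by_cases hvu : v / u ∈ PP p K
  · have h1 : V / U ∈ PP p L := C.mem_PP_right (C.div rV rU) hvu
    have h2 : w / u ∈ PP p K := by
      have : w / u = a + b * (v / u) := by rw [hw]; field_simp
      rw [this]; exact add_mem ha (mul_mem hb hvu)
    have h3 : W / U ∈ PP p L := C.mem_PP_right (C.div rW rU) h2
    exact ⟨W / U, h3, 0, zero_mem _, by field_simp; ring⟩
  · have r1 := C.div rV rU
    have r2 : C.R (v / u + a / b) (W / U) := by
      have h3 := C.smul_left (inv_mem hb) (inv_ne_zero hb0) (C.div rW rU)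
      have e1 : b⁻¹ * (w / u) = v / u + a / b := by rw [hw]; field_simp; ring
      rwa [e1] at h3
    obtain ⟨μ, hμ, Λ, hΛ, e⟩ := h _ (a / b) _ _ hvu (div_mem ha hb) (div_ne_zero ha0 hb0) r1 r2
    refine ⟨Λ, hΛ, μ, hμ, ?_⟩
    have : W = (W / U) * U := by field_simp
    rw [this, e]; field_simp; ring

end Corr

end Crest.Agent.S0010
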