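import Mathlib
import Crest.Agent.S0010LP

set_option autoImplicit false
open IntermediateField

namespace Crest.Agent.S0010

section
variable (k K : Type*) [Field k] [Field K] [Algebra k K]

open scoped IntermediateField.algebraAdjoinAdjoin in
/-- basis of the differentials from a separating transcendence basis -/
lemma exists_basis_kaehler (s : Finset K)
    (hs : IsTranscendenceBasis k ((↑) : s → K))
    (hsep : Algebra.IsSeparable (IntermediateField.adjoin k (s : Set K)) K) :
    Nonempty (Module.Basis s K (Ω[K⁄k])) := by
  classical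
  have hrange : Set.range ((↑) : s → K) = (s : Set K) := by simp
  let A := MvPolynomial s k
  let S := Algebra.adjoin k (Set.range ((↑) : s → K))
  let E := IntermediateField.adjoin k (Set.range ((↑) : s → K))
  have hsep' : Algebra.IsSeparable E K := by
    have : E = IntermediateField.adjoin k (s : Set K) := by simp only [E]; rw [hrange]
    rw [this]; exact hsep
  let e : A ≃ₐ[k] S := hs.1.aevalEquiv
  let _ : Algebra A S := e.toRingEquiv.toRingHom.toAlgebra
  let _ : Algebra A K := ((algebraMap S K).comp e.toRingEquiv.toRingHom).toAlgebra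
  have t1 : IsScalarTower A S K := IsScalarTower.of_algebraMap_eq (fun x => rfl)
  have t2 : IsScalarTower k A K := IsScalarTower.of_algebraMap_eq (fun x => by
    show algebraMap k K x = (algebraMap S K) (e (algebraMap k A x))
    rw [AlgEquiv.commutes]; rfl)
  have f1 : Algebra.FormallyEtale A S := by
    let e' : A ≃ₐ[A] S := AlgEquiv.ofRingEquiv (f := e.toRingEquiv) (fun x => rfl)
    exact Algebra.FormallyEtale.of_equiv e'
  have f2 : Algebra.FormallyEtale S E := Algebra.FormallyEtale.of_isLocalization (nonZeroDivisors _)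
  have f3 : Algebra.FormallyEtale E K := Algebra.FormallyEtale.of_isSeparable _ _
  have f4 : Algebra.FormallyEtale S K := Algebra.FormallyEtale.comp S E K
  have f5 : Algebra.FormallyEtale A K := Algebra.FormallyEtale.comp A S K
  exact ⟨((KaehlerDifferential.mvPolynomialBasis k s).baseChange K).map
    (KaehlerDifferential.tensorKaehlerEquivOfFormallyEtale k A K)⟩

lemma rank_kaehler [PerfectField k] [Algebra.EssFiniteType k K] :
    Module.rank K (Ω[K⁄k]) = Algebra.trdeg k K ∧ Algebra.trdeg k K < Cardinal.aleph0 := by
  obtain ⟨s, hs, hsep⟩ := exists_isTranscendenceBasis_and_isSeparable_of_perfectField k K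
  obtain ⟨b⟩ := exists_basis_kaehler k K s hs hsep
  have h1 := b.mk_eq_rank''
  have h2 := hs.cardinalMk_eq_trdeg
  rw [h2] at h1
  refine ⟨h1.symm, ?_⟩
  rw [← h2]
  exact Cardinal.mk_lt_aleph0

end

section
variable (p : ℕ) [hp : Fact p.Prime] {K : Type*} [Field K] [CharP K p]

lemma kd_PP (k : Type*) [Field k] [Algebra k K] {a : K} (ha : a ∈ PP p K) :
    KaehlerDifferential.D k K a = 0 := by
  obtain ⟨b, rfl⟩ := (mem_PP p).1 ha
  rw [Derivation.leibniz_pow, ← Nat.cast_smul_eq_nsmul K, CharP.cast_eq_zero, zero_smul]

lemma ind_of_rank (k : Type*) [Field k] [Algebra k K]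
    (h : 2 ≤ Module.rank K (Ω[K⁄k])) : Ind p K := by
  have h1 : ∃ x : K, KaehlerDifferential.D k K x ≠ 0 := by
    by_contra hcon
    push Not at hcon
    have h2 := KaehlerDifferential.span_range_derivation k K
    have h3 : (⊤ : Submodule K (Ω[K⁄k])) = ⊥ := by
      rw [← h2, Submodule.span_eq_bot]
      rintro _ ⟨x, rfl⟩
      exact hcon x
    have h4 : Module.rank K (Ω[K⁄k]) = 0 := by
      have : Subsingleton (Ω[K⁄k]) := (Submodule.subsingleton_iff K).1
        (subsingleton_of_bot_eq_top h3.symm)
      exact rank_subsingleton' K _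
    rw [h4] at h
    simp at h
  obtain ⟨x, hx⟩ := h1
  have h2 : ∃ y : K, KaehlerDifferential.D k K y ∉ Submodule.span K {KaehlerDifferential.D k K x} := by
    by_contra hcon
    push Not at hcon
    have h2 := KaehlerDifferential.span_range_derivation k K
    have h3 : (⊤ : Submodule K (Ω[K⁄k])) = Submodule.span K {KaehlerDifferential.D k K x} := by
      apply le_antisymm _ le_top
      rw [← h2, Submodule.span_le]
      rintro _ ⟨y, rfl⟩
      exact hcon y
    have h4 : Module.rank K (Ω[K⁄k]) ≤ 1 := by
      rw [← rank_top, h3]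
      exact (rank_span_le _).trans (by simp)
    have h5 := h.trans h4
    have : (2 : Cardinal) ≤ 1 := h5
    norm_num at this
  obtain ⟨y, hy⟩ := h2
  refine ⟨x, y, ?_, ?_⟩
  · intro h; exact hx (kd_PP p k h)
  · intro h
    apply hy
    let W := Submodule.span K {KaehlerDifferential.D k K x}
    let S : Subfield K :=
      { carrier := {u | KaehlerDifferential.D k K u ∈ W}
        mul_mem' := by
          intro a b ha hb
          show KaehlerDifferential.D k K (a * b) ∈ W
          rw [Derivation.leibniz]
          exact W.add_mem (W.smul_mem _ hb) (W.smul_mem _ ha)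
        one_mem' := by
          show KaehlerDifferential.D k K 1 ∈ W
          rw [Derivation.map_one_eq_zero]; exact W.zero_mem
        add_mem' := by
          intro a b ha hb
          show KaehlerDifferential.D k K (a + b) ∈ W
          rw [map_add]; exact W.add_mem ha hb
        zero_mem' := by
          show KaehlerDifferential.D k K 0 ∈ W
          rw [map_zero]; exact W.zero_mem
        neg_mem' := by
          intro a ha
          show KaehlerDifferential.D k K (-a) ∈ W
          rw [map_neg]; exact W.neg_mem ha
        inv_mem' := by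
          intro a ha
          show KaehlerDifferential.D k K a⁻¹ ∈ W
          rw [Derivation.leibniz_inv]; exact W.smul_mem _ ha }
    exact GG_mem_of p h S (fun a ha => by
      show KaehlerDifferential.D k K a ∈ W
      rw [kd_PP p k ha]; exact W.zero_mem)
      (Submodule.subset_span rfl)

/-- the maximal perfect subfield -/
def perfCore (K : Type*) [Field K] [CharP K p] : Subfield K :=
  ⨅ n : ℕ, (iterateFrobenius K p n).fieldRange

lemma mem_perfCore {x : K} : x ∈ perfCore p K ↔ ∀ n : ℕ, ∃ y : K, y ^ (p ^ n) = x := by
  simp [perfCore, Subfield.mem_iInf, RingHom.mem_fieldRange, iterateFrobenius_def]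

lemma perfCore_perfect : PerfectField (perfCore p K) := by
  have : CharP (perfCore p K) p := inferInstance
  have : PerfectRing (perfCore p K) p := by
    apply PerfectRing.ofSurjective
    rintro ⟨x, hx⟩
    obtain ⟨y, hy⟩ := (mem_perfCore p).1 hx 1
    rw [pow_one] at hy
    have hyP : y ∈ perfCore p K := by
      rw [mem_perfCore]
      intro n
      obtain ⟨z, hz⟩ := (mem_perfCore p).1 hx (n + 1)
      refine ⟨z, ?_⟩
      apply eq_of_pow_p_eq p
      rw [hy, ← pow_mul, ← pow_succ, hz]
    refine ⟨⟨y, hyP⟩, ?_⟩
    apply Subtype.ext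
    show y ^ p = x
    exact hy
  exact PerfectRing.toPerfectField _ p

lemma essFiniteType_of (k : Subfield K)
    (hK : ∃ s : Finset K, Subfield.closure ((k : Set K) ∪ (s : Set K)) = ⊤) :
    Algebra.EssFiniteType k K := by
  rw [← IntermediateField.fg_top_iff]
  obtain ⟨s, hs⟩ := hK
  refine ⟨s, ?_⟩
  rw [eq_top_iff]
  intro x _
  have h1 : x ∈ Subfield.closure ((k : Set K) ∪ (s : Set K)) := by rw [hs]; trivial
  have h2 : Subfield.closure ((k : Set K) ∪ (s : Set K)) ≤
      (IntermediateField.adjoin k (s : Set K)).toSubfield := by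
    rw [Subfield.closure_le]
    rintro y (hy | hy)
    · exact (IntermediateField.adjoin k (s : Set K)).algebraMap_mem ⟨y, hy⟩
    · exact IntermediateField.subset_adjoin _ _ hy
  exact h2 h1

lemma eq_perfCore (k : Subfield K) [IsAlgClosed k]
    (hK : ∃ s : Finset K, Subfield.closure ((k : Set K) ∪ (s : Set K)) = ⊤) :
    k = perfCore p K := by
  have hle : k ≤ perfCore p K := by
    intro x hx
    rw [mem_perfCore]
    intro n
    obtain ⟨z, hz⟩ := IsAlgClosed.exists_pow_nat_eq (⟨x, hx⟩ : k) (pow_pos hp.out.pos n)
    exact ⟨z, congrArg Subtype.val hz⟩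
  have hfin := essFiniteType_of k hK
  let P : IntermediateField k K := (perfCore p K).toIntermediateField (fun x => hle x.2)
  have hP : PerfectField P := perfCore_perfect p (K := K)
  have hfin2 : Algebra.EssFiniteType P K := Algebra.EssFiniteType.of_comp k P K
  obtain ⟨r1, c1⟩ := rank_kaehler k K
  obtain ⟨r2, c2⟩ := rank_kaehler P K
  -- equality of ranks
  have hsub : Subsingleton (Ω[P⁄k]) := by
    have h2 := KaehlerDifferential.span_range_derivation k P
    have h3 : (⊤ : Submodule P (Ω[P⁄k])) = ⊥ := by
      rw [← h2, Submodule.span_eq_bot]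
      rintro _ ⟨x, rfl⟩
      have : CharP P p := inferInstance
      obtain ⟨y, hy⟩ : ∃ y : P, y ^ p = x := by
        have hx := x.2
        obtain ⟨y, hy⟩ := (mem_perfCore p).1 hx 1
        rw [pow_one] at hy
        have hyP : y ∈ perfCore p K := by
          rw [mem_perfCore]
          intro n
          obtain ⟨z, hz⟩ := (mem_perfCore p).1 hx (n + 1)
          refine ⟨z, ?_⟩
          apply eq_of_pow_p_eq p
          rw [hy, ← pow_mul, ← pow_succ, hz]
        exact ⟨⟨y, hyP⟩, Subtype.ext hy⟩
      rw [← hy, Derivation.leibniz_pow, ← Nat.cast_smul_eq_nsmul P, CharP.cast_eq_zero, zero_smul]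
    exact (Submodule.subsingleton_iff P).1 (subsingleton_of_bot_eq_top h3.symm)
  have hexact := KaehlerDifferential.exact_mapBaseChange_map k P K
  have hsurj := KaehlerDifferential.map_surjective k P K
  have hinj : Function.Injective (KaehlerDifferential.map k P K K) := by
    rw [injective_iff_map_eq_zero]
    intro x hx
    obtain ⟨t, ht⟩ := (hexact x).1 hx
    have : t = 0 := Subsingleton.elim _ _
    rw [← ht, this, map_zero]
  have hrank : Module.rank K (Ω[K⁄k]) = Module.rank K (Ω[K⁄P]) :=
    LinearEquiv.rank_eq (LinearEquiv.ofBijective (KaehlerDifferential.map k P K K) ⟨hinj, hsurj⟩)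
  have hadd : Algebra.trdeg k P + Algebra.trdeg P K = Algebra.trdeg k K := trdeg_add_eq k P
  have h0 : Algebra.trdeg k P = 0 := by
    have h1 : Algebra.trdeg k P + Algebra.trdeg P K = 0 + Algebra.trdeg P K := by
      rw [hadd, zero_add, ← r1, hrank, r2]
    exact Cardinal.eq_of_add_eq_add_right h1 c2
  have halg : Algebra.IsAlgebraic k P := trdeg_eq_zero_iff.1 h0
  apply le_antisymm hle
  intro x hx
  have : Algebra.IsIntegral k P := inferInstance
  obtain ⟨y, hy⟩ := (IsAlgClosed.algebraMap_bijective_of_isIntegral (k := k) (K := P)).2 ⟨x, hx⟩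
  have h5 : (y : K) = x := congrArg Subtype.val hy
  rw [← h5]; exact y.2

end

end Crest.Agent.S0010
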