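import Mathlib
import Crest.Agent.S0010LP

set_option autoImplicit false
open Polynomial IntermediateField

namespace Crest.Agent.S0010

/-- `1, x, y` linearly independent over the p-th powers -/
def Li2 (p : ℕ) [Fact p.Prime] {K : Type*} [Field K] [CharP K p] (x y : K) : Prop :=
  ∀ a ∈ PP p K, ∀ b ∈ PP p K, ∀ c ∈ PP p K, a + b * x + c * y = 0 → a = 0 ∧ b = 0 ∧ c = 0

section
variable (p : ℕ) [hp : Fact p.Prime] {K : Type*} [Field K] [CharP K p]

lemma Li2_of {x y : K} (hx : x ∉ PP p K) (hy : ∀ a ∈ PP p K, ∀ b ∈ PP p K, y ≠ a + b * x) :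
    Li2 p x y := by
  intro a ha b hb c hc h
  by_cases hc0 : c = 0
  · subst hc0
    by_cases hb0 : b = 0
    · subst hb0
      refine ⟨?_, rfl, rfl⟩
      linear_combination h
    · exfalso
      apply hx
      have : x = -a / b := by field_simp; linear_combination h
      rw [this]; exact div_mem (neg_mem ha) hb
  · exfalso
    apply hy (-a / c) (div_mem (neg_mem ha) hc) (-b / c) (div_mem (neg_mem hb) hc)
    field_simp
    linear_combination h

lemma Li2.symm {x y : K} (h : Li2 p x y) : Li2 p y x := by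
  intro a ha b hb c hc e
  obtain ⟨h1, h2, h3⟩ := h a ha c hc b hb (by linear_combination e)
  exact ⟨h1, h3, h2⟩

lemma Li2.left {x y : K} (h : Li2 p x y) : x ∉ PP p K := by
  intro hx
  have := h (-x) (neg_mem hx) 1 (one_mem _) 0 (zero_mem _) (by ring)
  exact one_ne_zero this.2.1

lemma Li2.right {x y : K} (h : Li2 p x y) : y ∉ PP p K := (Li2.symm p h).left

lemma Li2.add_notMem {x y : K} (h : Li2 p x y) : x + y ∉ PP p K := by
  intro hx
  have := h (-(x+y)) (neg_mem hx) 1 (one_mem _) 1 (one_mem _) (by ring)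
  exact one_ne_zero this.2.1

lemma Li2.shift {x y l : K} (h : Li2 p x y) (hl : l ∈ PP p K) : Li2 p (l + x) y := by
  intro a ha b hb c hc e
  obtain ⟨h1, h2, h3⟩ := h (a + b * l) (add_mem ha (mul_mem hb hl)) b hb c hc
    (by linear_combination e)
  refine ⟨?_, h2, h3⟩
  rw [h2] at h1
  linear_combination h1

end

namespace Corr
variable {p : ℕ} [hp : Fact p.Prime] {K L : Type*} [Field K] [Field L] [CharP K p] [CharP L p]
variable (C : Corr p K L)

lemma Li2_pres (h' : C.symm.LP) {x y : K} {X Y : L} (rX : C.R x X) (rY : C.R y Y)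
    (h : Li2 p x y) : Li2 p X Y := by
  apply Li2_of
  · intro hX; exact h.left p (C.mem_PP_left rX hX)
  · intro A hA B hB e
    obtain ⟨a, ha, b, hb, e'⟩ := C.symm.LP_gen h' hA hB (C.symm.one_one) rX rY
      (by rw [e]; ring)
    have := h (-a) (neg_mem ha) (-b) (neg_mem hb) 1 (one_mem _) (by rw [e']; ring)
    exact one_ne_zero this.2.2

/-- normalised correspondence -/
def P (x : K) (X : L) : Prop := C.R x X ∧ C.R (x + 1) (X + 1)

lemma exists_P (hLP : C.LP) {x : K} (hx : x ∉ PP p K) : ∃ X, C.P x X := by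
  have hne : ∀ {x : K}, x ∉ PP p K → x ≠ 0 := fun h h' => h (h' ▸ zero_mem _)
  have hx0 := hne hx
  obtain ⟨X, rX⟩ := C.ex_right hx0
  obtain ⟨F, rF⟩ := C.ex_right (hne (add_notMem p hx (one_mem _)))
  obtain ⟨μ, hμ, Λ, hΛ, e⟩ := hLP x 1 X F hx (one_mem _) one_ne_zero rX rF
  have hμ0 : μ ≠ 0 := by
    rintro rfl
    rw [zero_mul, zero_add] at e
    exact add_notMem p hx (one_mem _) (C.mem_PP_left rF (e ▸ hΛ))
  have hΛ0 : Λ ≠ 0 := by
    rintro rfl
    rw [add_zero] at e
    have h3 := C.div rF rX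
    have h4 : F / X = μ := by
      have := C.ne_right rX
      rw [e]; field_simp
    exact div_notMem p hx (one_mem _) one_ne_zero (C.mem_PP_left h3 (h4 ▸ hμ))
  refine ⟨(μ / Λ) * X, C.smul_right (div_mem hμ hΛ) (div_ne_zero hμ0 hΛ0) rX, ?_⟩
  have h1 := C.smul_right (inv_mem hΛ) (inv_ne_zero hΛ0) rF
  have e2 : Λ⁻¹ * F = (μ / Λ) * X + 1 := by rw [e]; field_simp
  rwa [e2] at h1

lemma P_unique {x : K} {X X' : L} (hx : x ∉ PP p K) (h : C.P x X) (h' : C.P x X') : X = X' := by
  obtain ⟨μ, hμ, hμ0, e1⟩ := C.unique_right h.1 h'.1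
  obtain ⟨ν, hν, hν0, e2⟩ := C.unique_right h.2 h'.2
  have hX : X ∉ PP p L := fun hh => hx (C.mem_PP_left h.1 hh)
  have e3 : (μ - ν) * X = ν - 1 := by rw [e1] at e2; linear_combination e2
  by_cases hμν : μ = ν
  · rw [hμν, sub_self, zero_mul] at e3
    have : ν = 1 := by linear_combination -e3
    rw [e1, hμν, this, one_mul]
  · exfalso
    apply hX
    have h1 : μ - ν ≠ 0 := sub_ne_zero.2 hμν
    have : X = (ν - 1) / (μ - ν) := by field_simp; linear_combination e3
    rw [this]; exact div_mem (sub_mem hν (one_mem _)) (sub_mem hμ hν)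

lemma P_add (hLP : C.LP) (h' : C.symm.LP) {x y : K} {X Y : L} (hX : C.P x X) (hY : C.P y Y)
    (h : Li2 p x y) : C.P (x + y) (X + Y) := by
  have hne : ∀ {x : K}, x ∉ PP p K → x ≠ 0 := fun h h' => h (h' ▸ zero_mem _)
  have hL := C.Li2_pres h' hX.1 hY.1 h
  have hxy := h.add_notMem p
  obtain ⟨W, rW⟩ := C.ex_right (hne (add_notMem p hxy (one_mem _)))
  obtain ⟨V, rV⟩ := C.ex_right (hne hxy)
  obtain ⟨A, hA, B, hB, e1⟩ := C.LP_gen hLP (one_mem _) (one_mem _) hX.2 hY.1 rW (by ring)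
  obtain ⟨A', hA', B', hB', e2⟩ := C.LP_gen hLP (one_mem _) (one_mem _) hX.1 hY.2 rW (by ring)
  have h1 := hL (A - B') (sub_mem hA hB') (A - A') (sub_mem hA hA') (B - B') (sub_mem hB hB')
    (by linear_combination e2 - e1)
  have eAB' : A = B' := by linear_combination h1.1
  have eBB' : B = B' := by linear_combination h1.2.2
  have hW : W = A * (X + Y + 1) := by rw [e1, eBB', eAB']; ring
  have hA0 : A ≠ 0 := by
    rintro rfl
    rw [zero_mul] at hW
    exact C.ne_right rW hW
  have rW' : C.R (x + y + 1) (X + Y + 1) := by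
    have h2 := C.smul_right (inv_mem hA) (inv_ne_zero hA0) rW
    have e3 : A⁻¹ * W = X + Y + 1 := by rw [hW]; field_simp
    rwa [e3] at h2
  obtain ⟨E, hE, F, hF, e4⟩ := C.LP_gen hLP (one_mem _) (one_mem _) hX.1 hY.1 rV (by ring)
  obtain ⟨G, hG, H, hH, e5⟩ := C.LP_gen hLP (one_mem _) (neg_mem (one_mem _)) rW' C.one_one rV
    (by ring)
  have h2 := hL (G + H) (add_mem hG hH) (G - E) (sub_mem hG hE) (G - F) (sub_mem hG hF)
    (by linear_combination e4 - e5)
  have e6 : G = E := by linear_combination h2.2.1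
  have e7 : G = F := by linear_combination h2.2.2
  have hV : V = G * (X + Y) := by rw [e4, ← e6, ← e7]; ring
  have hG0 : G ≠ 0 := by
    rintro rfl
    rw [zero_mul] at hV
    exact C.ne_right rV hV
  have rV' : C.R (x + y) (X + Y) := by
    have h3 := C.smul_right (inv_mem hG) (inv_ne_zero hG0) rV
    have e8 : G⁻¹ * V = X + Y := by rw [hV]; field_simp
    rwa [e8] at h3
  exact ⟨rV', rW'⟩

open Classical in
/-- normalised value -/
noncomputable def s0 (hLP : C.LP) (x : K) : L :=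
  if h : x ∉ PP p K then (C.exists_P hLP h).choose else 0

lemma s0_P (hLP : C.LP) {x : K} (hx : x ∉ PP p K) : C.P x (C.s0 hLP x) := by
  unfold s0
  rw [dif_pos hx]
  exact (C.exists_P hLP hx).choose_spec

lemma s0_eq (hLP : C.LP) {x : K} {X : L} (hx : x ∉ PP p K) (h : C.P x X) : C.s0 hLP x = X :=
  C.P_unique hx (C.s0_P hLP hx) h

lemma s0_add (hLP : C.LP) (h' : C.symm.LP) {x y : K} (h : Li2 p x y) :
    C.s0 hLP (x + y) = C.s0 hLP x + C.s0 hLP y :=
  C.s0_eq hLP (h.add_notMem p)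
    (C.P_add hLP h' (C.s0_P hLP (h.left p)) (C.s0_P hLP (h.right p)) h)

lemma exists_Li2_two (hI : Ind p K) {z z' : K} (hz : z ∉ PP p K) (hz' : z' ∉ PP p K) :
    ∃ w, Li2 p z w ∧ Li2 p z' w := by
  obtain ⟨w, hw⟩ := exists_notMem_span p hI z z'
  refine ⟨w, Li2_of p hz ?_, Li2_of p hz' ?_⟩
  · intro a ha b hb e
    exact hw a ha b hb 0 (zero_mem _) (by rw [e]; ring)
  · intro a ha b hb e
    exact hw a ha 0 (zero_mem _) b hb (by rw [e]; ring)

lemma s0_const (hLP : C.LP) (h' : C.symm.LP) (hI : Ind p K) {l z z' : K} (hl : l ∈ PP p K)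
    (hz : z ∉ PP p K) (hz' : z' ∉ PP p K) :
    C.s0 hLP (l + z) - C.s0 hLP z = C.s0 hLP (l + z') - C.s0 hLP z' := by
  have key : ∀ {z w : K}, Li2 p z w →
      C.s0 hLP (l + z) - C.s0 hLP z = C.s0 hLP (l + w) - C.s0 hLP w := by
    intro z w h
    have e1 : C.s0 hLP (l + z + w) = C.s0 hLP (l + z) + C.s0 hLP w :=
      C.s0_add hLP h' (h.shift p hl)
    have e2 : C.s0 hLP (l + w + z) = C.s0 hLP (l + w) + C.s0 hLP z :=
      C.s0_add hLP h' ((Li2.symm p h).shift p hl)
    have e3 : l + z + w = l + w + z := by ring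
    rw [e3] at e1
    linear_combination e2 - e1
  obtain ⟨w, h1, h2⟩ := exists_Li2_two hI hz hz'
  rw [key h1, key h2]

/-- the additive map -/
lemma exists_additive (hLP : C.LP) (h' : C.symm.LP) (hI : Ind p K) :
    ∃ σ : K →+ L, σ 1 = 1 ∧ ∀ x, x ≠ 0 → C.R x (σ x) := by
  classical
  obtain ⟨z0, _, hz0, -⟩ := id hI
  let σ : K → L := fun x => if x ∉ PP p K then C.s0 hLP x else C.s0 hLP (x + z0) - C.s0 hLP z0
  have hσ1 : ∀ {x : K}, x ∉ PP p K → σ x = C.s0 hLP x := fun h => by
    simp only [σ]; rw [if_pos h]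
  have hσ2 : ∀ {x z : K}, x ∈ PP p K → z ∉ PP p K → σ x = C.s0 hLP (x + z) - C.s0 hLP z := by
    intro x z hx hz
    simp only [σ]
    rw [if_neg (not_not.2 hx)]
    exact C.s0_const hLP h' hI hx hz0 hz
  have hPadd : ∀ {x z : K}, x ∈ PP p K → z ∉ PP p K → x + z ∉ PP p K := by
    intro x z hx hz h
    rw [add_comm] at h
    exact add_notMem p hz hx h
  have hadd1 : ∀ {x z : K}, x ∈ PP p K → z ∉ PP p K → σ (x + z) = σ x + σ z := by
    intro x z hx hz
    rw [hσ2 hx hz, hσ1 hz, hσ1 (hPadd hx hz)]; ring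
  have hadd2 : ∀ {x z : K}, Li2 p x z → σ (x + z) = σ x + σ z := by
    intro x z h
    rw [hσ1 (h.left p), hσ1 (h.right p), hσ1 (h.add_notMem p)]
    exact C.s0_add hLP h' h
  have hadd : ∀ x y : K, σ (x + y) = σ x + σ y := by
    intro x y
    by_cases hx : x ∈ PP p K
    · by_cases hy : y ∈ PP p K
      · have e1 := hadd1 (add_mem hx hy) hz0
        have e2 := hadd1 hx (hPadd hy hz0)
        have e3 := hadd1 hy hz0
        have e4 : x + y + z0 = x + (y + z0) := by ring
        rw [e4, e2, e3] at e1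
        linear_combination -e1
      · exact hadd1 hx hy
    · by_cases hy : y ∈ PP p K
      · rw [add_comm, hadd1 hy hx, add_comm]
      · obtain ⟨z, hz⟩ := exists_notMem_span p hI x y
        have hzP : z ∉ PP p K := by
          intro h
          exact hz z h 0 (zero_mem _) 0 (zero_mem _) (by ring)
        have l1 : Li2 p y z := Li2_of p hy (by
          intro a ha b hb e
          exact hz a ha 0 (zero_mem _) b hb (by rw [e]; ring))
        have l2 : Li2 p x (y + z) := Li2_of p hx (by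
          intro a ha b hb e
          exact hz a ha b hb (-1) (neg_mem (one_mem _)) (by linear_combination e))
        have e1 : σ (x + (y + z)) = σ x + (σ y + σ z) := by rw [hadd2 l2, hadd2 l1]
        have e2 : σ ((x + y) + z) = σ (x + y) + σ z := by
          by_cases hxy : x + y ∈ PP p K
          · exact hadd1 hxy hzP
          · apply hadd2
            apply Li2_of p hxy
            intro a ha b hb e
            exact hz a ha b hb b hb (by rw [e]; ring)
        have e3 : x + (y + z) = (x + y) + z := by ring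
        rw [e3, e2] at e1
        linear_combination e1
  have hσR1 : ∀ {x : K}, x ∉ PP p K → C.R x (σ x) := by
    intro x hx
    rw [hσ1 hx]; exact (C.s0_P hLP hx).1
  have hPz : ∀ {x : K}, x ∉ PP p K → C.P x (σ x) := by
    intro x hx
    rw [hσ1 hx]; exact C.s0_P hLP hx
  obtain ⟨w, hw, -⟩ := exists_Li2_two hI hz0 hz0
  have hLzw : Li2 p (σ z0) (σ w) := C.Li2_pres h' (hσR1 hz0) (hσR1 (hw.right p)) hw
  -- for l in PP, sigma(l) in PP
  have hform : ∀ {l z : K}, l ∈ PP p K → z ∉ PP p K → ∃ A ∈ PP p L, ∃ B ∈ PP p L,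
      σ l = A + (B - 1) * σ z := by
    intro l z hl hz
    obtain ⟨A, hA, B, hB, e⟩ := C.LP_gen hLP hl (one_mem _) C.one_one (hσR1 hz)
      (hσR1 (hPadd hl hz)) (by ring)
    refine ⟨A, hA, B, hB, ?_⟩
    rw [hadd] at e
    linear_combination e
  have hσPP : ∀ {l : K}, l ∈ PP p K → σ l ∈ PP p L := by
    intro l hl
    obtain ⟨A, hA, B, hB, e1⟩ := hform hl hz0
    obtain ⟨A', hA', B', hB', e2⟩ := hform hl (hw.right p)
    have h1 := hLzw (A - A') (sub_mem hA hA') (B - 1) (sub_mem hB (one_mem _)) (1 - B')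
      (sub_mem (one_mem _) hB') (by linear_combination e2 - e1)
    rw [e1, h1.2.1, zero_mul, add_zero]; exact hA
  have hσ0 : σ 0 = 0 := by
    have := hadd 0 0
    rw [add_zero] at this
    linear_combination -this
  have hσne : ∀ {l : K}, l ∈ PP p K → l ≠ 0 → σ l ≠ 0 := by
    intro l hl hl0 e
    have h1 := hσR1 (hPadd hl hz0)
    rw [hadd, e, zero_add] at h1
    obtain ⟨c, hc, -, e3⟩ := C.unique_left (hσR1 hz0) h1
    by_cases hc1 : c = 1
    · rw [hc1, one_mul] at e3
      apply hl0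
      linear_combination e3
    · apply hz0
      have h2 : c - 1 ≠ 0 := sub_ne_zero.2 hc1
      have : z0 = l / (c - 1) := by field_simp; linear_combination -e3
      rw [this]; exact div_mem hl (sub_mem hc (one_mem _))
  refine ⟨AddMonoidHom.mk' σ hadd, ?_, ?_⟩
  · show σ 1 = 1
    -- R (z+1) (σ z + 1) and R (z+1) (σ (z+1))
    have h1 : ∀ {z : K}, z ∉ PP p K → ∃ A ∈ PP p L, σ z + σ 1 = A * (σ z + 1) := by
      intro z hz
      have e1 := (hPz hz).2
      have e2 := hσR1 (add_notMem p hz (one_mem _))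
      obtain ⟨A, hA, -, e3⟩ := C.unique_right e1 e2
      rw [hadd] at e3
      exact ⟨A, hA, e3⟩
    obtain ⟨A, hA, e1⟩ := h1 hz0
    obtain ⟨A', hA', e2⟩ := h1 (hw.right p)
    have h2 := hLzw (A - A') (sub_mem hA hA') (A - 1) (sub_mem hA (one_mem _)) (1 - A')
      (sub_mem (one_mem _) hA') (by linear_combination e2 - e1)
    have hA1 : A = 1 := by linear_combination h2.2.1
    rw [hA1] at e1
    linear_combination e1
  · intro x hx
    show C.R x (σ x)
    by_cases hxP : x ∈ PP p K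
    · have h1 := C.smul_left hxP hx C.one_one
      rw [mul_one] at h1
      have h2 := C.smul_right (hσPP hxP) (hσne hxP hx) h1
      rwa [mul_one] at h2
    · exact hσR1 hxP

lemma additive_unique (hI : Ind p K) (τ τ' : K →+ L) (h1 : τ 1 = 1) (h1' : τ' 1 = 1)
    (hR : ∀ x, x ≠ 0 → C.R x (τ x)) (hR' : ∀ x, x ≠ 0 → C.R x (τ' x)) : τ = τ' := by
  have hne : ∀ {x : K}, x ∉ PP p K → x ≠ 0 := fun h h' => h (h' ▸ zero_mem _)
  have hnP : ∀ {x : K}, x ∉ PP p K → τ x = τ' x := by
    intro x hx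
    apply C.P_unique hx
    · refine ⟨hR x (hne hx), ?_⟩
      have := hR (x + 1) (hne (add_notMem p hx (one_mem _)))
      rwa [map_add, h1] at this
    · refine ⟨hR' x (hne hx), ?_⟩
      have := hR' (x + 1) (hne (add_notMem p hx (one_mem _)))
      rwa [map_add, h1'] at this
  obtain ⟨z, _, hz, -⟩ := hI
  ext x
  by_cases hx : x ∈ PP p K
  · have h2 := hnP (add_notMem p hz hx)
    rw [map_add, map_add, hnP hz] at h2
    linear_combination h2
  · exact hnP hx

lemma exists_ringHom (hLP : C.LP) (h' : C.symm.LP) (hI : Ind p K) :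
    ∃ σ : K →+* L, ∀ x, x ≠ 0 → C.R x (σ x) := by
  obtain ⟨σ, hσ1, hσR⟩ := C.exists_additive hLP h' hI
  have hmul : ∀ u v : K, σ (u * v) = σ u * σ v := by
    intro u v
    by_cases hu : u = 0
    · subst hu; simp
    have hσu : σ u ≠ 0 := C.ne_right (hσR u hu)
    let τ : K →+ L := (AddMonoidHom.mulLeft (σ u)⁻¹).comp (σ.comp (AddMonoidHom.mulLeft u))
    have hτ : ∀ v, τ v = (σ u)⁻¹ * σ (u * v) := fun v => rfl
    have h2 : τ = σ := by
      apply C.additive_unique hI
      · rw [hτ, mul_one, inv_mul_cancel₀ hσu]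
      · exact hσ1
      · intro x hx
        rw [hτ]
        have h3 := C.mul (C.inv (hσR u hu)) (hσR (u * x) (mul_ne_zero hu hx))
        have h4 : u⁻¹ * (u * x) = x := by field_simp
        rwa [h4] at h3
      · exact hσR
    have h3 := hτ v
    rw [h2] at h3
    rw [h3]; field_simp
  exact ⟨{ toFun := σ, map_one' := hσ1, map_mul' := hmul, map_zero' := map_zero σ,
           map_add' := map_add σ }, hσR⟩

end Corr

section
variable (p : ℕ) [hp : Fact p.Prime] {K : Type*} [Field K] [CharP K p]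

lemma eq_id_of (hI : ∃ z : K, z ∉ PP p K) (τ : K →+ K) (h1 : τ 1 = 1)
    (h : ∀ x, x ≠ 0 → ∃ c ∈ PP p K, τ x = c * x) (x : K) : τ x = x := by
  have hne : ∀ {x : K}, x ∉ PP p K → x ≠ 0 := fun h h' => h (h' ▸ zero_mem _)
  have hnP : ∀ {x : K}, x ∉ PP p K → τ x = x := by
    intro x hx
    obtain ⟨c, hc, e1⟩ := h x (hne hx)
    obtain ⟨c', hc', e2⟩ := h (x + 1) (hne (add_notMem p hx (one_mem _)))
    rw [map_add, h1, e1] at e2
    have e3 : (c - c') * x = c' - 1 := by linear_combination e2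
    by_cases hcc : c = c'
    · rw [hcc, sub_self, zero_mul] at e3
      have : c' = 1 := by linear_combination -e3
      rw [e1, hcc, this, one_mul]
    · exfalso
      apply hx
      have h1 : c - c' ≠ 0 := sub_ne_zero.2 hcc
      have : x = (c' - 1) / (c - c') := by field_simp; linear_combination e3
      rw [this]; exact div_mem (sub_mem hc' (one_mem _)) (sub_mem hc hc')
  obtain ⟨z, hz⟩ := hI
  by_cases hx : x ∈ PP p K
  · have h2 := hnP (add_notMem p hz hx)
    rw [map_add, hnP hz] at h2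
    linear_combination h2
  · exact hnP hx

end

namespace Corr
variable {p : ℕ} [hp : Fact p.Prime] {K L : Type*} [Field K] [Field L] [CharP K p] [CharP L p]
variable (C : Corr p K L)

theorem exists_ringEquiv (hLP : C.LP) (h' : C.symm.LP) (hI : Ind p K) (hI' : Ind p L) :
    ∃ σ : K ≃+* L, ∀ x, x ≠ 0 → C.R x (σ x) := by
  obtain ⟨σ, hσ⟩ := C.exists_ringHom hLP h' hI
  obtain ⟨σ', hσ'⟩ := C.symm.exists_ringHom h' hLP hI'
  have e1 : ∀ x, σ' (σ x) = x := by
    intro x
    have := eq_id_of p (K := K) (by obtain ⟨z, _, hz, -⟩ := hI; exact ⟨z, hz⟩)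
      ((σ'.comp σ : K →+* K) : K →+ K) (by simp) (by
        intro x hx
        obtain ⟨c, hc, -, e⟩ := C.unique_left (hσ x hx) (hσ' (σ x) (C.ne_right (hσ x hx)))
        exact ⟨c, hc, e⟩) x
    exact this
  have e2 : ∀ x, σ (σ' x) = x := by
    intro x
    have := eq_id_of p (K := L) (by obtain ⟨z, _, hz, -⟩ := hI'; exact ⟨z, hz⟩)
      ((σ.comp σ' : L →+* L) : L →+ L) (by simp) (by
        intro x hx
        obtain ⟨c, hc, -, e⟩ := C.unique_right (hσ' x hx) (hσ (σ' x) (C.ne_left (hσ' x hx)))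
        exact ⟨c, hc, e⟩) x
    exact this
  exact ⟨RingEquiv.ofRingHom σ σ' (RingHom.ext e2) (RingHom.ext e1), hσ⟩

end Corr

end Crest.Agent.S0010
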