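import Mathlib
import Crest.Prelude.Def_MilnorK
import Crest.Agent.S0010Ftpg

set_option autoImplicit false
open Polynomial IntermediateField
open Crest.NumberTheoryR.MilnorK

namespace Crest.Agent.S0010

section cls
variable (p : ℕ) [hp : Fact p.Prime] {K : Type*} [Field K]

lemma cls_mul (u v : Kˣ) : cls K p (u * v) = cls K p u + cls K p v := rfl

lemma cls_one : cls K p 1 = 0 := rfl

lemma cls_inv (u : Kˣ) : cls K p u⁻¹ = - cls K p u := rfl

lemma cls_surj (x : KOne K p) : ∃ u : Kˣ, cls K p u = x := by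
  obtain ⟨y, hy⟩ := QuotientAddGroup.mk_surjective x
  exact ⟨y.toMul, hy⟩

lemma cls_eq_zero (u : Kˣ) : cls K p u = 0 ↔ ∃ w : Kˣ, w ^ p = u := by
  have h1 : cls K p u = 0 ↔ Additive.ofMul u ∈ pMultiples K p :=
    QuotientAddGroup.eq_zero_iff _
  rw [h1]
  constructor
  · rintro ⟨x, hx⟩
    exact ⟨x.toMul, hx⟩
  · rintro ⟨w, hw⟩
    exact ⟨Additive.ofMul w, hw⟩

lemma cls_pow (u : Kˣ) (n : ℕ) : cls K p (u ^ n) = n • cls K p u := rfl

lemma cls_pow_p (u : Kˣ) : cls K p (u ^ p) = 0 := (cls_eq_zero p _).2 ⟨u, rfl⟩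

end cls

section
variable {p : ℕ} [hp : Fact p.Prime] {K L : Type*} [Field K] [Field L]

/-- correspondence attached to a linear isomorphism -/
def ofTheta (Θ : KOne K p ≃ₗ[ZMod p] KOne L p) : Corr p K L where
  R := fun u U => ∃ (hu : u ≠ 0) (hU : U ≠ 0), Θ (cls K p (Units.mk0 u hu)) =
    cls L p (Units.mk0 U hU)
  ne_left := fun ⟨h, _, _⟩ => h
  ne_right := fun ⟨_, h, _⟩ => h
  ex_right := by
    intro u hu
    obtain ⟨w, hw⟩ := cls_surj p (Θ (cls K p (Units.mk0 u hu)))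
    refine ⟨w, hu, w.ne_zero, ?_⟩
    rw [← hw]; congr 1; ext; rfl
  ex_left := by
    intro U hU
    obtain ⟨w, hw⟩ := cls_surj p (Θ.symm (cls L p (Units.mk0 U hU)))
    refine ⟨w, w.ne_zero, hU, ?_⟩
    have : Units.mk0 (w : K) w.ne_zero = w := by ext; rfl
    rw [this, hw, LinearEquiv.apply_symm_apply]
  mul := by
    rintro u U v V ⟨hu, hU, h1⟩ ⟨hv, hV, h2⟩
    refine ⟨mul_ne_zero hu hv, mul_ne_zero hU hV, ?_⟩
    have e1 : Units.mk0 (u * v) (mul_ne_zero hu hv) = Units.mk0 u hu * Units.mk0 v hv := by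
      ext; rfl
    have e2 : Units.mk0 (U * V) (mul_ne_zero hU hV) = Units.mk0 U hU * Units.mk0 V hV := by
      ext; rfl
    rw [e1, e2, cls_mul, cls_mul, map_add, h1, h2]
  inv := by
    rintro u U ⟨hu, hU, h1⟩
    refine ⟨inv_ne_zero hu, inv_ne_zero hU, ?_⟩
    have e1 : Units.mk0 u⁻¹ (inv_ne_zero hu) = (Units.mk0 u hu)⁻¹ := by ext; simp
    have e2 : Units.mk0 U⁻¹ (inv_ne_zero hU) = (Units.mk0 U hU)⁻¹ := by ext; simp
    rw [e1, e2, cls_inv, cls_inv, map_neg, h1]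
  pow_one := by
    intro a ha
    refine ⟨pow_ne_zero _ ha, one_ne_zero, ?_⟩
    have e1 : Units.mk0 (a ^ p) (pow_ne_zero _ ha) = (Units.mk0 a ha) ^ p := by ext; simp
    have e2 : Units.mk0 (1 : L) one_ne_zero = 1 := by ext; rfl
    rw [e1, e2, cls_pow_p, cls_one, map_zero]
  one_pow := by
    intro a ha
    refine ⟨one_ne_zero, pow_ne_zero _ ha, ?_⟩
    have e1 : Units.mk0 (a ^ p) (pow_ne_zero _ ha) = (Units.mk0 a ha) ^ p := by ext; simp
    have e2 : Units.mk0 (1 : K) one_ne_zero = 1 := by ext; rfl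
    rw [e1, e2, cls_pow_p, cls_one, map_zero]
  of_one := by
    rintro U ⟨h1, hU, h⟩
    have e2 : Units.mk0 (1 : K) h1 = 1 := by ext; rfl
    rw [e2, cls_one, map_zero] at h
    obtain ⟨w, hw⟩ := (cls_eq_zero p _).1 h.symm
    refine ⟨w, ?_⟩
    have := congrArg Units.val hw
    simpa using this
  to_one := by
    rintro u ⟨hu, h1, h⟩
    have e2 : Units.mk0 (1 : L) h1 = 1 := by ext; rfl
    rw [e2, cls_one, map_eq_zero_iff Θ Θ.injective] at h
    obtain ⟨w, hw⟩ := (cls_eq_zero p _).1 h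
    refine ⟨w, ?_⟩
    have := congrArg Units.val hw
    simpa using this

lemma ofTheta_R (Θ : KOne K p ≃ₗ[ZMod p] KOne L p) (u : Kˣ) (U : Lˣ) :
    (ofTheta Θ).R u U ↔ Θ (cls K p u) = cls L p U := by
  constructor
  · rintro ⟨hu, hU, h⟩
    have e1 : Units.mk0 (u : K) hu = u := by ext; rfl
    have e2 : Units.mk0 (U : L) hU = U := by ext; rfl
    rwa [e1, e2] at h
  · intro h
    refine ⟨u.ne_zero, U.ne_zero, ?_⟩
    have e1 : Units.mk0 (u : K) u.ne_zero = u := by ext; rfl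
    have e2 : Units.mk0 (U : L) U.ne_zero = U := by ext; rfl
    rwa [e1, e2]

end

section steinberg
variable {p : ℕ} [hp : Fact p.Prime] {K : Type*} [Field K] [CharP K p]

lemma cls_smul {a : K} (ha : a ∈ PP p K) (ha0 : a ≠ 0) (u : Kˣ) :
    cls K p (Units.mk0 a ha0 * u) = cls K p u := by
  obtain ⟨b, rfl⟩ := (mem_PP p).1 ha
  have hb : b ≠ 0 := by rintro rfl; exact ha0 (zero_pow hp.out.ne_zero)
  have : Units.mk0 (b ^ p) ha0 = (Units.mk0 b hb) ^ p := by ext; simp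
  rw [cls_mul, this, cls_pow_p]
  exact zero_add (cls K p u)

lemma st_self (u : Kˣ) :
    TensorProduct.tmul (ZMod p) (cls K p u) (cls K p u) ∈ steinberg K p := by
  by_cases h1 : (u : K) = 1
  · have : u = 1 := Units.ext h1
    rw [this, cls_one, TensorProduct.zero_tmul]
    exact Submodule.zero_mem _
  have hu0 := u.ne_zero
  have h2 : (1 : K) - u ≠ 0 := sub_ne_zero.2 (Ne.symm h1)
  have h3 : (1 : K) - (u : K)⁻¹ ≠ 0 := by
    intro h
    apply h1
    field_simp at h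
    linear_combination h
  have e1 : cls K p u = cls K p (Units.mk0 (1 - (u : K)) h2) -
      cls K p (Units.mk0 (1 - (u : K)⁻¹) h3) := by
    have e2 : Units.mk0 (-1 : K) (by simp) * u =
        Units.mk0 (1 - (u : K)) h2 * (Units.mk0 (1 - (u : K)⁻¹) h3)⁻¹ := by
      ext
      simp only [Units.val_mul, Units.val_mk0, Units.val_inv_eq_inv_val]
      field_simp
      ring
    have e3 := cls_smul (p := p) (a := (-1 : K)) (neg_mem (one_mem _)) (by simp) u
    rw [← e3, e2, cls_mul, cls_inv]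
    exact (sub_eq_add_neg _ _).symm
  have s1 : TensorProduct.tmul (ZMod p) (cls K p u) (cls K p (Units.mk0 (1 - (u : K)) h2)) ∈
      steinberg K p := by
    apply Submodule.subset_span
    refine ⟨u, hu0, h2, ?_⟩
    congr 2; ext; rfl
  have s2 : TensorProduct.tmul (ZMod p) (cls K p u⁻¹) (cls K p (Units.mk0 (1 - (u : K)⁻¹) h3)) ∈
      steinberg K p := by
    apply Submodule.subset_span
    refine ⟨(u : K)⁻¹, inv_ne_zero hu0, h3, ?_⟩
    congr 2; ext; simp
  rw [cls_inv, TensorProduct.neg_tmul] at s2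
  have e4 : TensorProduct.tmul (ZMod p) (cls K p u) (cls K p u) =
      TensorProduct.tmul (ZMod p) (cls K p u) (cls K p (Units.mk0 (1 - (u : K)) h2)) -
      TensorProduct.tmul (ZMod p) (cls K p u) (cls K p (Units.mk0 (1 - (u : K)⁻¹) h3)) := by
    rw [← TensorProduct.tmul_sub, ← e1]
  rw [e4, sub_eq_add_neg]
  exact Submodule.add_mem _ s1 s2

lemma st_line {u v a b : K} (hu : u ≠ 0) (hv : v ≠ 0) (ha : a ∈ PP p K) (hb : b ∈ PP p K)
    (h : v = a + b * u) :
    TensorProduct.tmul (ZMod p) (cls K p (Units.mk0 u hu)) (cls K p (Units.mk0 v hv)) ∈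
      steinberg K p := by
  by_cases hb0 : b = 0
  · subst hb0
    have hva : v = a := by rw [h]; ring
    subst hva
    have e1 := cls_smul ha hv (1 : Kˣ)
    rw [mul_one, cls_one] at e1
    rw [e1, TensorProduct.tmul_zero]
    exact Submodule.zero_mem _
  by_cases ha0 : a = 0
  · subst ha0
    have e1 : Units.mk0 v hv = Units.mk0 b hb0 * Units.mk0 u hu := by
      ext; simp [h]
    rw [e1, cls_smul hb hb0]
    exact st_self _
  · -- w = -(b/a) u, 1 - w = v / a
    obtain ⟨w, hw⟩ : ∃ w, w = -(b / a) * u := ⟨_, rfl⟩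
    have hc : -(b / a) ≠ 0 := neg_ne_zero.2 (div_ne_zero hb0 ha0)
    have hw0 : w ≠ 0 := by rw [hw]; exact mul_ne_zero hc hu
    have e1 : 1 - w = a⁻¹ * v := by rw [hw, h]; field_simp; ring
    have hw1 : 1 - w ≠ 0 := by rw [e1]; exact mul_ne_zero (inv_ne_zero ha0) hv
    have e2 : cls K p (Units.mk0 w hw0) = cls K p (Units.mk0 u hu) := by
      have : Units.mk0 w hw0 = Units.mk0 (-(b / a)) hc * Units.mk0 u hu := by
        ext; simp [hw]
      rw [this, cls_smul (neg_mem (div_mem hb ha))]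
    have e3 : cls K p (Units.mk0 (1 - w) hw1) = cls K p (Units.mk0 v hv) := by
      have : Units.mk0 (1 - w) hw1 = Units.mk0 a⁻¹ (inv_ne_zero ha0) * Units.mk0 v hv := by
        ext; simp [e1]
      rw [this, cls_smul (inv_mem ha)]
    rw [← e2, ← e3]
    apply Submodule.subset_span
    exact ⟨w, hw0, hw1, rfl⟩

/-- logarithmic derivative on `KOne` -/
def dlog (D : Derivation ℤ K K) : KOne K p →+ K :=
  QuotientAddGroup.lift (pMultiples K p)
    { toFun := fun u => D (u.toMul : K) / (u.toMul : K)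
      map_zero' := by
        show D ((1 : Kˣ) : K) / ((1 : Kˣ) : K) = 0
        simp
      map_add' := by
        intro u v
        show D ((u.toMul * v.toMul : Kˣ) : K) / ((u.toMul * v.toMul : Kˣ) : K) = _
        have hu := u.toMul.ne_zero
        have hv := v.toMul.ne_zero
        rw [Units.val_mul, Derivation.leibniz]
        simp only [smul_eq_mul]
        field_simp
        ring }
    (by
      rintro _ ⟨w, rfl⟩
      show D (((w.toMul ^ p : Kˣ)) : K) / _ = 0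
      rw [Units.val_pow_eq_pow_val, D_PP p D (pow_mem_PP p _), zero_div])

lemma dlog_cls (D : Derivation ℤ K K) (u : Kˣ) : dlog (p := p) D (cls K p u) = D u / u := rfl

lemma st_dep {U V : Kˣ} (hU : (U : K) ∉ PP p K) (hV : (V : K) ∉ GG p (U : K)) :
    TensorProduct.tmul (ZMod p) (cls K p U) (cls K p V) ∉ steinberg K p := by
  obtain ⟨D1, D2, h1U, h1V, h2U, h2V⟩ := exists_two_derivations p hU hV
  let _ : Algebra (ZMod p) K := ZMod.algebra K p
  let d1 : KOne K p →ₗ[ZMod p] K := (dlog (p := p) D1).toZModLinearMap p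
  let d2 : KOne K p →ₗ[ZMod p] K := (dlog (p := p) D2).toZModLinearMap p
  let B : KOne K p →ₗ[ZMod p] KOne K p →ₗ[ZMod p] K :=
    (LinearMap.mul (ZMod p) K).compl₁₂ d1 d2 - (LinearMap.mul (ZMod p) K).compl₁₂ d2 d1
  have hB : ∀ u v : Kˣ, B (cls K p u) (cls K p v) =
      D1 u / u * (D2 v / v) - D2 u / u * (D1 v / v) := fun u v => rfl
  let F := TensorProduct.lift B
  have hF : ∀ t ∈ steinberg K p, F t = 0 := by
    intro t ht
    have : steinberg K p ≤ LinearMap.ker F := by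
      apply Submodule.span_le.2
      rintro _ ⟨f, hf, hf1, rfl⟩
      show F _ = 0
      rw [TensorProduct.lift.tmul, hB]
      simp only [Units.val_mk0, map_sub, Derivation.map_one_eq_zero]
      field_simp
      ring
    exact this ht
  intro h
  have h2 := hF _ h
  rw [TensorProduct.lift.tmul, hB, h1U, h1V, h2U, h2V] at h2
  simp at h2

end steinberg

section
variable {p : ℕ} [hp : Fact p.Prime] {K L : Type*} [Field K] [Field L] [CharP K p] [CharP L p]

lemma ofTheta_SProp (Θ : KOne K p ≃ₗ[ZMod p] KOne L p)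
    (h : ∀ t ∈ steinberg K p, TensorProduct.map Θ.toLinearMap Θ.toLinearMap t ∈ steinberg L p) :
    (ofTheta Θ).SProp := by
  intro u U v V a b rU rV ha hb hv
  by_cases hU : U ∈ PP p L
  · have h1 := (ofTheta Θ).mem_PP_left rU hU
    have h2 : v ∈ PP p K := by rw [hv]; exact add_mem ha (mul_mem hb h1)
    exact PP_mem_GG p ((ofTheta Θ).mem_PP_right rV h2) U
  · by_contra hV
    obtain ⟨hu0, hU0, e1⟩ := rU
    obtain ⟨hv0, hV0, e2⟩ := rV
    have h1 := h _ (st_line hu0 hv0 ha hb hv)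
    rw [TensorProduct.map_tmul] at h1
    simp only [LinearEquiv.coe_coe] at h1
    rw [e1, e2] at h1
    exact st_dep (p := p) (U := Units.mk0 U hU0) (V := Units.mk0 V hV0) hU hV h1

lemma compat_symm {Θ : KOne K p ≃ₗ[ZMod p] KOne L p} (h : IsCompatible Θ) :
    ∀ t ∈ steinberg L p,
      TensorProduct.map Θ.symm.toLinearMap Θ.symm.toLinearMap t ∈ steinberg K p := by
  intro t ht
  rw [← h] at ht
  obtain ⟨s, hs, rfl⟩ := ht
  rw [← LinearMap.comp_apply, ← TensorProduct.map_comp]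
  simpa using hs

/-- multiplication by `n` after `Θ` -/
noncomputable def twist (Θ : KOne K p ≃ₗ[ZMod p] KOne L p) (n : ℕ) (hn : (n : ZMod p) ≠ 0) :
    KOne K p ≃ₗ[ZMod p] KOne L p :=
  Θ.trans (LinearEquiv.smulOfNeZero (ZMod p) (KOne L p) (n : ZMod p) hn)

lemma twist_apply (Θ : KOne K p ≃ₗ[ZMod p] KOne L p) (n : ℕ) (hn : (n : ZMod p) ≠ 0)
    (x : KOne K p) : twist Θ n hn x = (n : ZMod p) • Θ x := rfl

lemma natCast_smul_cls (n : ℕ) (u : Lˣ) : (n : ZMod p) • cls L p u = cls L p (u ^ n) := by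
  rw [cls_pow, Nat.cast_smul_eq_nsmul]

lemma twist_LP (Θ : KOne K p ≃ₗ[ZMod p] KOne L p) {n : ℕ} (hn : (n : ZMod p) ≠ 0)
    (h : ∀ x l X F, x ∉ PP p K → l ∈ PP p K → l ≠ 0 → (ofTheta Θ).R x X →
      (ofTheta Θ).R (x + l) F → Tw p n X F) : (ofTheta (twist Θ n hn)).LP := by
  intro x l X' F' hx hl hl0 rX' rF'
  obtain ⟨X, rX⟩ := (ofTheta Θ).ex_right ((ofTheta (twist Θ n hn)).ne_left rX')
  obtain ⟨F, rF⟩ := (ofTheta Θ).ex_right ((ofTheta (twist Θ n hn)).ne_left rF')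
  obtain ⟨μ, hμ, Λ, hΛ, e⟩ := h x l X F hx hl hl0 rX rF
  have key : ∀ {u U}, (ofTheta Θ).R u U → (ofTheta (twist Θ n hn)).R u (U ^ n) := by
    rintro u U ⟨hu, hU, h1⟩
    refine ⟨hu, pow_ne_zero _ hU, ?_⟩
    rw [twist_apply, h1, natCast_smul_cls]
    congr 1; ext; simp
  obtain ⟨c, hc, hc0, e1⟩ := (ofTheta (twist Θ n hn)).unique_right (key rX) rX'
  obtain ⟨c', hc', hc0', e2⟩ := (ofTheta (twist Θ n hn)).unique_right (key rF) rF'
  refine ⟨c' * μ / c, div_mem (mul_mem hc' hμ) hc, c' * μ * Λ, mul_mem (mul_mem hc' hμ) hΛ, ?_⟩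
  rw [e2, e1, e]
  field_simp

theorem exists_iso (hIK : Ind p K) (hIL : Ind p L) (Θ : KOne K p ≃ₗ[ZMod p] KOne L p)
    (hΘ : IsCompatible Θ) :
    ∃ σ : K ≃+* L, ∃ c : ZMod p, c ≠ 0 ∧
      ∀ u : Kˣ, Θ (cls K p u) = c • cls L p (Units.map σ.toRingHom.toMonoidHom u) := by
  have hS1 : (ofTheta Θ).SProp := ofTheta_SProp Θ (by
    intro t ht; rw [← hΘ]; exact Submodule.mem_map_of_mem ht)
  have hS2 : (ofTheta Θ.symm).SProp := ofTheta_SProp Θ.symm (compat_symm hΘ)
  have hsymm : ∀ {x X}, (ofTheta Θ.symm).R X x ↔ (ofTheta Θ).R x X := by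
    intro x X
    constructor
    · rintro ⟨h1, h2, h3⟩
      refine ⟨h2, h1, ?_⟩
      rw [← h3, LinearEquiv.apply_symm_apply]
    · rintro ⟨h1, h2, h3⟩
      refine ⟨h2, h1, ?_⟩
      rw [← h3, LinearEquiv.symm_apply_apply]
  have hS1' : (ofTheta Θ).symm.SProp := by
    intro u U v V a b h1 h2 h3 h4 h5
    exact hS2 u U v V a b (hsymm.2 h1) (hsymm.2 h2) h3 h4 h5
  have hS2' : (ofTheta Θ.symm).symm.SProp := by
    intro u U v V a b h1 h2 h3 h4 h5
    exact hS1 u U v V a b (hsymm.1 h1) (hsymm.1 h2) h3 h4 h5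
  obtain ⟨n, hn, hnp, htw⟩ := (ofTheta Θ).exists_global hS1 hS1' hIK
  obtain ⟨n', hn', hnp', htw'⟩ := (ofTheta Θ.symm).exists_global hS2 hS2' hIL
  have hnz : (n : ZMod p) ≠ 0 := natCast_ne_zero_of_lt (K := ZMod p) p hn hnp
  have hnz' : (n' : ZMod p) ≠ 0 := natCast_ne_zero_of_lt (K := ZMod p) p hn' hnp'
  have hLP := twist_LP Θ hnz htw
  have hLP2 := twist_LP Θ.symm hnz' htw'
  set C1 := ofTheta (twist Θ n hnz) with hC1
  set C2 := ofTheta (twist Θ.symm n' hnz') with hC2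
  -- d = n * n' mod p
  obtain ⟨d, hd⟩ : ∃ d, d = (n * n') % p := ⟨_, rfl⟩
  have hdz : (d : ZMod p) = (n : ZMod p) * n' := by
    rw [hd]; simp
  have hd0 : 0 < d := by
    rcases Nat.eq_zero_or_pos d with h | h
    · exfalso
      rw [h, Nat.cast_zero] at hdz
      exact mul_ne_zero hnz hnz' hdz.symm
    · exact h
  have hdp : d < p := by rw [hd]; exact Nat.mod_lt _ hp.out.pos
  have hrel : ∀ x X, C1.R x X → C2.R X (x ^ d) := by
    rintro x X ⟨hx, hX, h1⟩
    refine ⟨hX, pow_ne_zero _ hx, ?_⟩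
    have e1 : Units.mk0 (x ^ d) (pow_ne_zero d hx) = (Units.mk0 x hx) ^ d := by ext; simp
    rw [← h1, twist_apply, twist_apply, map_smul, LinearEquiv.symm_apply_apply, e1,
      ← natCast_smul_cls, hdz, mul_smul, smul_comm]
  have hd1 := C1.d_eq_one C2 hLP hLP2 hd0 hdp hrel hIK
  have hLP' : C1.symm.LP := by
    intro X L' x f hX hL' hL0 rX rF
    have r1 := hrel _ _ rX
    have r2 := hrel _ _ rF
    rw [hd1, pow_one] at r1 r2
    exact hLP2 X L' x f hX hL' hL0 r1 r2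
  obtain ⟨σ, hσ⟩ := C1.exists_ringEquiv hLP hLP' hIK hIL
  refine ⟨σ, (n : ZMod p)⁻¹, inv_ne_zero hnz, ?_⟩
  intro u
  obtain ⟨h1, h2, h3⟩ := hσ u u.ne_zero
  have e1 : Units.mk0 (u : K) h1 = u := by ext; rfl
  have e2 : Units.mk0 (σ (u : K)) h2 = Units.map σ.toRingHom.toMonoidHom u := by ext; rfl
  rw [e1, e2, twist_apply] at h3
  rw [← h3, smul_smul, inv_mul_cancel₀ hnz, one_smul]

/-- uniqueness -/
theorem iso_unique (hIK : Ind p K) (Θ : KOne K p ≃ₗ[ZMod p] KOne L p)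
    (σ τ : K ≃+* L) (c d : ZMod p) (hc : c ≠ 0) (hd : d ≠ 0)
    (h1 : ∀ u : Kˣ, Θ (cls K p u) = c • cls L p (Units.map σ.toRingHom.toMonoidHom u))
    (h2 : ∀ u : Kˣ, Θ (cls K p u) = d • cls L p (Units.map τ.toRingHom.toMonoidHom u)) :
    σ = τ := by
  -- e = d / c as natural number
  obtain ⟨e, he⟩ : ∃ e, e = (d / c).val := ⟨_, rfl⟩
  have : NeZero p := ⟨hp.out.ne_zero⟩
  have hez : (e : ZMod p) = d / c := by rw [he]; simp
  have hep : e < p := by rw [he]; exact ZMod.val_lt _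
  have he0 : 0 < e := by
    rcases Nat.eq_zero_or_pos e with h | h
    · exfalso
      rw [h, Nat.cast_zero] at hez
      exact div_ne_zero hd hc hez.symm
    · exact h
  -- sigma u = (tau u)^e * b^p
  have h3 : ∀ x : K, x ≠ 0 → ∃ b ∈ PP p L, b ≠ 0 ∧ σ x = b * (τ x) ^ e := by
    intro x hx
    have e1 := h1 (Units.mk0 x hx)
    rw [h2 (Units.mk0 x hx)] at e1
    have e2 : cls L p (Units.map σ.toRingHom.toMonoidHom (Units.mk0 x hx)) =
        cls L p ((Units.map τ.toRingHom.toMonoidHom (Units.mk0 x hx)) ^ e) := by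
      rw [← natCast_smul_cls, hez, div_eq_inv_mul, mul_smul, e1, smul_smul,
        inv_mul_cancel₀ hc, one_smul]
    have e3 : cls L p (Units.map σ.toRingHom.toMonoidHom (Units.mk0 x hx) *
        ((Units.map τ.toRingHom.toMonoidHom (Units.mk0 x hx)) ^ e)⁻¹) = 0 := by
      rw [cls_mul, cls_inv, e2, add_neg_cancel]
    obtain ⟨w, hw⟩ := (cls_eq_zero p _).1 e3
    refine ⟨(w : L) ^ p, pow_mem_PP p _, pow_ne_zero _ w.ne_zero, ?_⟩
    have e4 := congrArg Units.val hw
    simp only [Units.val_pow_eq_pow_val, Units.val_mul, Units.val_inv_eq_inv_val] at e4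
    rw [e4]
    have : τ x ≠ 0 := by simpa using hx
    show σ x = σ x * (τ x ^ e)⁻¹ * τ x ^ e
    field_simp
  obtain ⟨x, _, hx, -⟩ := id hIK
  have hne : ∀ {x : K}, x ∉ PP p K → x ≠ 0 := fun h h' => h (h' ▸ zero_mem _)
  have hτP : ∀ {x : K}, x ∉ PP p K → τ x ∉ PP p L := by
    intro x hx h
    apply hx
    obtain ⟨y, hy⟩ := (mem_PP p).1 h
    refine (mem_PP p).2 ⟨τ.symm y, ?_⟩
    rw [← map_pow, hy, RingEquiv.symm_apply_apply]
  -- e = 1
  have he1 : e = 1 := by
    obtain ⟨b, hb, hb0, e1⟩ := h3 x (hne hx)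
    obtain ⟨b', hb', hb0', e2⟩ := h3 (x + 1) (hne (add_notMem p hx (one_mem _)))
    rw [map_add, map_one, map_add, map_one, e1] at e2
    set y := τ x with hy
    have hyP : y ∉ PP p L := hτP hx
    obtain ⟨D, hD⟩ := exists_D_self p hyP
    have hy0 : y ≠ 0 := fun h => hyP (h ▸ zero_mem _)
    obtain ⟨k, rfl⟩ : ∃ k, e = k + 1 := ⟨e - 1, by omega⟩
    have e3 : D (b * y ^ (k + 1) + 1) = D (b' * (y + 1) ^ (k + 1)) := by rw [e2]
    rw [map_add, Derivation.map_one_eq_zero, Derivation.leibniz, Derivation.leibniz,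
      D_PP p D hb, D_PP p D hb', Derivation.leibniz_pow, Derivation.leibniz_pow, map_add,
      Derivation.map_one_eq_zero, hD] at e3
    simp only [smul_eq_mul, nsmul_eq_mul, mul_zero, add_zero, Nat.add_sub_cancel] at e3
    have hk0 := natCast_ne_zero_of_lt (K := L) p he0 hep
    have e4 : b * y ^ k - b' * (y + 1) ^ k = 0 := by
      have : (((k + 1 : ℕ) : L) * y) * (b * y ^ k - b' * (y + 1) ^ k) = 0 := by
        linear_combination e3
      exact (mul_eq_zero.1 this).resolve_left (mul_ne_zero hk0 hy0)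
    have e5 : ((y + 1) / y) ^ k = b / b' := by
      rw [div_pow]
      have := pow_ne_zero k hy0
      field_simp
      linear_combination -e4
    by_contra hk
    exact div_notMem p hyP (one_mem _) one_ne_zero
      (mem_PP_of_pow p (n := k) (by omega) (by omega) (e5 ▸ div_mem hb hb'))
  -- conclude
  have h4 : ∀ y : L, σ (τ.symm y) = y := by
    intro y
    refine eq_id_of p (K := L) ⟨τ x, hτP hx⟩
      (((σ : K →+* L).comp (τ.symm : L →+* K) : L →+* L) : L →+ L) (by simp) ?_ y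
    intro z hz
    have hz' : τ.symm z ≠ 0 := by simpa using hz
    obtain ⟨b, hb, -, e1⟩ := h3 (τ.symm z) hz'
    rw [he1, pow_one, RingEquiv.apply_symm_apply] at e1
    exact ⟨b, hb, e1⟩
  ext z
  have := h4 (τ z)
  rwa [RingEquiv.symm_apply_apply] at this

end

end Crest.Agent.S0010
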