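import Crest.Statements.S0066

set_option autoImplicit false
set_option linter.unusedSimpArgs false
open Crest Crest.CombinatoricsR

namespace Crest.Agent.S0066

/-- the eight kinds of rules -/
inductive Kd
  | r1 | r2a | r2b | r3 | r4 | r5a | r5b | r6
  deriving DecidableEq

instance : Fintype Kd :=
  ⟨{.r1, .r2a, .r2b, .r3, .r4, .r5a, .r5b, .r6}, by intro x; cases x <;> simp⟩

/-- row kinds (and column kinds). -/
inductive K (d p : ℕ)
  | mk (i : Fin 62)
  | pad (i : Fin p)
  | rho (b : Bool) (kd : Kd) (k : Fin d)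
  | dum
  | core (b : Bool) (k : Fin (d + 1))

/-- signature index -/
def sg {d p : ℕ} : K d p → ℕ
  | .mk i => i
  | .pad _ => 0
  | .rho b _ _ => if b then 63 else 62
  | .dum => 64
  | .core _ _ => 64

/-- the pattern, on natural number indices -/
def Hn (i j : ℕ) : Bool :=
  if i = 0 then (j % 2 == 0 || j == 65)
  else if j = 0 then (i % 2 == 0 || i == 65)
  else if i < 62 ∧ j < 62 then (i % 3 != j % 3)
  else if i < 62 then (i == 1 && j == 62)
  else if j < 62 then (j == 1 && i == 62)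
  else
    (i == 62 && (j == 62 || j == 63 || j == 64)) ||
    (i == 63 && (j == 62 || j == 63 || j == 65)) ||
    (i == 64 && j == 62) ||
    (i == 65 && (j == 63 || j == 64))

/-- the pattern -/
def H (i j : Fin 66) : Bool := Hn i j

/-- left end of the dyadic interval of level `k` containing `x` (of total length `2^d`) -/
def lo (d k x : ℕ) : ℕ := x / 2 ^ (d - k) * 2 ^ (d - k)

def hi (d k x : ℕ) : ℕ := lo d k x + 2 ^ (d - k)

/-- last bit of the level `k` prefix -/
def bit (d k x : ℕ) : ℕ := x / 2 ^ (d - k) % 2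

/-- class code -/
def cl {d p : ℕ} : K d p → ℕ
  | .dum => 2 * d + 2
  | .core b k => 2 * k + b.toNat
  | _ => 0

/-- the bit flag -/
def bt {d p : ℕ} (x : ℕ) : K d p → Bool
  | .core b k => if b then bit d k x == 0 else bit d k x == 1
  | _ => true

/-- row requirement of a rule -/
def rr (d : ℕ) (b : Bool) (kd : Kd) (k : ℕ) : ℕ × Bool :=
  match kd, b with
  | .r1, false => (2 * d + 2, false)
  | .r1, true => (2 * k + 1, false)
  | .r2a, false => (2 * k + 3, true)
  | .r2a, true => (2 * k + 1, false)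
  | .r2b, false => (2 * k + 3, false)
  | .r2b, true => (2 * k + 1, false)
  | .r3, false => (2 * d + 2, false)
  | .r3, true => (2 * d + 1, false)
  | .r4, false => (2 * d, false)
  | .r4, true => (2 * d + 1, false)
  | .r5a, false => (2 * k, false)
  | .r5a, true => (2 * k + 2, true)
  | .r5b, false => (2 * k, false)
  | .r5b, true => (2 * k + 2, false)
  | .r6, false => (2 * d + 2, false)
  | .r6, true => (2 * k, false)

/-- column requirement of a rule -/
def cc (d : ℕ) (b : Bool) (kd : Kd) (k : ℕ) : ℕ × Bool :=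
  match kd, b with
  | .r1, false => (2 * k, false)
  | .r1, true => (2 * k + 2, false)
  | .r2a, false => (2 * k + 2, false)
  | .r2a, true => (2 * d + 2, false)
  | .r2b, false => (2 * k + 2, true)
  | .r2b, true => (2 * d + 2, false)
  | .r3, false => (2 * d, false)
  | .r3, true => (2 * d + 1, false)
  | .r4, false => (2 * d + 1, false)
  | .r4, true => (2 * d + 2, false)
  | .r5a, false => (2 * k + 3, false)
  | .r5a, true => (2 * d + 2, false)
  | .r5b, false => (2 * k + 3, true)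
  | .r5b, true => (2 * d + 2, false)
  | .r6, false => (2 * k + 3, false)
  | .r6, true => (2 * k + 1, false)

def mem (q : ℕ × Bool) (c : ℕ) (t : Bool) : Bool := c == q.1 && (!q.2 || t)

/-- row threshold -/
def al {d p : ℕ} (x : ℕ) : K d p → ℕ
  | .core b k => if b then lo d k x else hi d k x
  | _ => 0

/-- column threshold -/
def be {d p : ℕ} (x : ℕ) : K d p → ℕ
  | .core b k => if b then lo d k x + 1 else hi d k x
  | _ => 0

/-- entry of the big matrix in terms of descriptors -/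
def ent {d p W : ℕ} (a b : K d p × Fin W) : Bool :=
  match a.1, b.1 with
  | .rho _ kd k, .rho _ kd' k' => decide (kd = kd' ∧ k = k')
  | .rho s kd k, .dum => mem (cc d s kd k) (cl b.1) (bt b.2 b.1)
  | .rho s kd k, .core _ _ => mem (cc d s kd k) (cl b.1) (bt b.2 b.1)
  | .dum, .rho s kd k => mem (rr d s kd k) (cl a.1) (bt a.2 a.1)
  | .core _ _, .rho s kd k => mem (rr d s kd k) (cl a.1) (bt a.2 a.1)
  | .core _ _, .core _ _ => decide (al a.2 a.1 < be b.2 b.1)
  | .dum, .dum => false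
  | .dum, .core _ _ => false
  | .core _ _, .dum => false
  | _, _ => Hn (sg a.1) (sg b.1)

/-- region rank for rows -/
def regR {d p : ℕ} : K d p → ℕ
  | .mk i => i
  | .pad _ => 0
  | .rho b _ _ => if b then 63 else 62
  | .dum => 64
  | .core _ _ => 65

/-- region rank for columns -/
def regC {d p : ℕ} : K d p → ℕ
  | .mk i => i
  | .pad _ => 0
  | .rho b _ _ => if b then 63 else 62
  | .dum => 65
  | .core _ _ => 64

/-- tree coordinate -/
def tc {d p : ℕ} (x : ℕ) : K d p → ℕ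
  | .core b k => if b then hi d k x else lo d k x
  | _ => 0

def sec {d p : ℕ} : K d p → ℕ
  | .core b k => if b then d - k else d + 1 + k
  | _ => 0

def keyR {d p W : ℕ} (a : K d p × Fin W) : ℕ ×ₗ ℕ ×ₗ ℕ :=
  toLex (regR a.1, toLex (tc a.2 a.1, sec a.1))

def keyC {d p W : ℕ} (a : K d p × Fin W) : ℕ ×ₗ ℕ ×ₗ ℕ :=
  toLex (regC a.1, toLex (tc a.2 a.1, sec a.1))

lemma keyR_le {d p W : ℕ} (a b : K d p × Fin W) (h : keyR a ≤ keyR b) :
    regR a.1 < regR b.1 ∨ (regR a.1 = regR b.1 ∧ (tc a.2 a.1 < tc b.2 b.1 ∨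
      (tc a.2 a.1 = tc b.2 b.1 ∧ sec a.1 ≤ sec b.1))) := by
  simpa [keyR, Prod.Lex.toLex_le_toLex] using h

lemma keyC_le {d p W : ℕ} (a b : K d p × Fin W) (h : keyC a ≤ keyC b) :
    regC a.1 < regC b.1 ∨ (regC a.1 = regC b.1 ∧ (tc a.2 a.1 < tc b.2 b.1 ∨
      (tc a.2 a.1 = tc b.2 b.1 ∧ sec a.1 ≤ sec b.1))) := by
  simpa [keyC, Prod.Lex.toLex_le_toLex] using h

lemma keyR_lt {d p W : ℕ} (a b : K d p × Fin W) (h : regR a.1 < regR b.1 ∨ (regR a.1 = regR b.1 ∧ (tc a.2 a.1 < tc b.2 b.1 ∨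
      (tc a.2 a.1 = tc b.2 b.1 ∧ sec a.1 < sec b.1)))) : keyR a < keyR b := by
  simpa [keyR, Prod.Lex.toLex_lt_toLex] using h

lemma keyC_lt {d p W : ℕ} (a b : K d p × Fin W) (h : regC a.1 < regC b.1 ∨ (regC a.1 = regC b.1 ∧ (tc a.2 a.1 < tc b.2 b.1 ∨
      (tc a.2 a.1 = tc b.2 b.1 ∧ sec a.1 < sec b.1)))) : keyC a < keyC b := by
  simpa [keyC, Prod.Lex.toLex_lt_toLex] using h

lemma sg_eq_R {d p : ℕ} (a : K d p) : sg a = min (regR a) 64 := by
  rcases a with i | i | ⟨b, kd, k⟩ | _ | ⟨b, k⟩ <;> simp [sg, regR]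
  · have := i.2; omega
  · cases b <;> simp

lemma sg_eq_C {d p : ℕ} (a : K d p) : sg a = min (regC a) 64 := by
  rcases a with i | i | ⟨b, kd, k⟩ | _ | ⟨b, k⟩ <;> simp [sg, regC]
  · have := i.2; omega
  · cases b <;> simp

lemma sg_le {d p : ℕ} (a : K d p) : sg a ≤ 64 := by
  rw [sg_eq_R]; exact min_le_right _ _

lemma sg_mono_R {d p W : ℕ} {a b : K d p × Fin W} (h : keyR a ≤ keyR b) : sg a.1 ≤ sg b.1 := by
  have := keyR_le a b h
  rw [sg_eq_R, sg_eq_R]; omega

lemma sg_mono_C {d p W : ℕ} {a b : K d p × Fin W} (h : keyC a ≤ keyC b) : sg a.1 ≤ sg b.1 := by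
  have := keyC_le a b h
  rw [sg_eq_C, sg_eq_C]; omega

lemma ent_left {d p W : ℕ} (a b : K d p × Fin W) (h : sg a.1 < 62) :
    ent a b = Hn (sg a.1) (sg b.1) := by
  rcases a with ⟨i | i | ⟨s, kd, k⟩ | _ | ⟨s, k⟩, x⟩ <;>
  rcases b with ⟨i' | i' | ⟨s', kd', k'⟩ | _ | ⟨s', k'⟩, y⟩ <;>
  first
    | rfl
    | (exfalso; simp [sg] at h; try (split_ifs at h <;> omega))

lemma ent_right {d p W : ℕ} (a b : K d p × Fin W) (h : sg b.1 < 62) :
    ent a b = Hn (sg a.1) (sg b.1) := by
  rcases a with ⟨i | i | ⟨s, kd, k⟩ | _ | ⟨s, k⟩, x⟩ <;>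
  rcases b with ⟨i' | i' | ⟨s', kd', k'⟩ | _ | ⟨s', k'⟩, y⟩ <;>
  first
    | rfl
    | (exfalso; simp [sg] at h; try (split_ifs at h <;> omega))

/-! ### rigidity -/

/-- a family of 66 rows and 66 columns forming a copy -/
structure Cp (d p W : ℕ) (u v : ℕ → K d p × Fin W) : Prop where
  hu : ∀ i j, i < j → j < 66 → keyR (u i) ≤ keyR (u j)
  hv : ∀ i j, i < j → j < 66 → keyC (v i) ≤ keyC (v j)
  he : ∀ i j, i < 66 → j < 66 → ent (u i) (v j) = Hn i j

section rigid
variable {d p W : ℕ} {u v : ℕ → K d p × Fin W}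

lemma Hn_adj_row (i : ℕ) (h : i < 64) : Hn i 0 ≠ Hn (i + 1) 0 := by
  revert h; revert i; decide

lemma Hn_adj_col (i : ℕ) (h : i < 64) : Hn 0 i ≠ Hn 0 (i + 1) := by
  revert h; revert i; decide

lemma Cp.rstep (c : Cp d p W u v) (i : ℕ) (hi : i < 65) (h : sg (u i).1 < 62) :
    sg (u i).1 < sg (u (i + 1)).1 := by
  have h1 := sg_mono_R (c.hu i (i + 1) (by omega) (by omega))
  rcases h1.lt_or_eq with h2 | h2
  · exact h2
  exfalso
  have key : ∀ j < 66, Hn i j = Hn (i + 1) j := by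
    intro j hj
    rw [← c.he i j (by omega) hj, ← c.he (i + 1) j (by omega) hj, ent_left _ _ h,
      ent_left _ _ (by omega), h2]
  by_cases h3 : i < 64
  · exact Hn_adj_row i h3 (key 0 (by omega))
  · have : i = 64 := by omega
    subst this
    exact absurd (key 62 (by omega)) (by decide)

lemma Cp.cstep (c : Cp d p W u v) (i : ℕ) (hi : i < 65) (h : sg (v i).1 < 62) :
    sg (v i).1 < sg (v (i + 1)).1 := by
  have h1 := sg_mono_C (c.hv i (i + 1) (by omega) (by omega))
  rcases h1.lt_or_eq with h2 | h2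
  · exact h2
  exfalso
  have key : ∀ j < 66, Hn j i = Hn j (i + 1) := by
    intro j hj
    rw [← c.he j i hj (by omega), ← c.he j (i + 1) hj (by omega), ent_right _ _ h,
      ent_right _ _ (by omega), h2]
  by_cases h3 : i < 64
  · exact Hn_adj_col i h3 (key 0 (by omega))
  · have : i = 64 := by omega
    subst this
    exact absurd (key 62 (by omega)) (by decide)

lemma Cp.rbig (c : Cp d p W u v) (h : 62 ≤ sg (u 61).1) : 62 ≤ sg (v 0).1 := by
  by_contra h0
  push Not at h0
  have m1 := sg_mono_R (c.hu 61 62 (by omega) (by omega))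
  have m2 := sg_mono_R (c.hu 62 63 (by omega) (by omega))
  have m3 := sg_mono_R (c.hu 63 64 (by omega) (by omega))
  have m4 := sg_le (u 64).1
  have key : ∀ i < 64, sg (u i).1 = sg (u (i+1)).1 → False := by
    intro i hi hh
    apply Hn_adj_row i hi
    rw [← c.he i 0 (by omega) (by omega), ← c.he (i + 1) 0 (by omega) (by omega),
      ent_right _ _ h0, ent_right _ _ h0, hh]
  have k1 : sg (u 61).1 ≠ sg (u 62).1 := key 61 (by omega)
  have k2 : sg (u 62).1 ≠ sg (u 63).1 := key 62 (by omega)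
  have k3 : sg (u 63).1 ≠ sg (u 64).1 := key 63 (by omega)
  omega

lemma Cp.cbig (c : Cp d p W u v) (h : 62 ≤ sg (v 61).1) : 62 ≤ sg (u 0).1 := by
  by_contra h0
  push Not at h0
  have m1 := sg_mono_C (c.hv 61 62 (by omega) (by omega))
  have m2 := sg_mono_C (c.hv 62 63 (by omega) (by omega))
  have m3 := sg_mono_C (c.hv 63 64 (by omega) (by omega))
  have m4 := sg_le (v 64).1
  have key : ∀ i < 64, sg (v i).1 = sg (v (i+1)).1 → False := by
    intro i hi hh
    apply Hn_adj_col i hi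
    rw [← c.he 0 i (by omega) (by omega), ← c.he 0 (i + 1) (by omega) (by omega),
      ent_left _ _ h0, ent_left _ _ h0, hh]
  have k1 : sg (v 61).1 ≠ sg (v 62).1 := key 61 (by omega)
  have k2 : sg (v 62).1 ≠ sg (v 63).1 := key 62 (by omega)
  have k3 : sg (v 63).1 ≠ sg (v 64).1 := key 63 (by omega)
  omega

lemma of_sg_rho {a : K d p} (h : 62 ≤ sg a) (h' : sg a < 64) :
    ∃ b kd k, a = .rho b kd k := by
  rcases a with i | i | ⟨b, kd, k⟩ | _ | ⟨b, k⟩
  · have := i.2; simp [sg] at h; omega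
  · simp [sg] at h
  · exact ⟨_, _, _, rfl⟩
  · simp [sg] at h'
  · simp [sg] at h'

lemma of_sg_core {a : K d p} (h : sg a = 64) :
    a = .dum ∨ ∃ b k, a = .core b k := by
  rcases a with i | i | ⟨b, kd, k⟩ | _ | ⟨b, k⟩
  · have := i.2; simp [sg] at h; omega
  · simp [sg] at h
  · simp [sg] at h; split_ifs at h <;> omega
  · simp
  · simp

lemma ent_rc {a b : K d p × Fin W} {s : Bool} {kd : Kd} {k : Fin d} (ha : a.1 = .rho s kd k)
    (hb : sg b.1 = 64) : ent a b = mem (cc d s kd k) (cl b.1) (bt b.2 b.1) := by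
  obtain ⟨a, x⟩ := a
  obtain ⟨b, y⟩ := b
  simp only at ha hb
  subst ha
  rcases of_sg_core hb with h | ⟨s', k', h⟩
  · subst h; rfl
  · subst h; rfl

lemma ent_cr {a b : K d p × Fin W} {s : Bool} {kd : Kd} {k : Fin d} (hb : b.1 = .rho s kd k)
    (ha : sg a.1 = 64) : ent a b = mem (rr d s kd k) (cl a.1) (bt a.2 a.1) := by
  obtain ⟨a, x⟩ := a
  obtain ⟨b, y⟩ := b
  simp only at ha hb
  subst hb
  rcases of_sg_core ha with h | ⟨s', k', h⟩
  · subst h; rfl
  · subst h; rfl

lemma ent_rr {a b : K d p × Fin W} {s s' : Bool} {kd kd' : Kd} {k k' : Fin d}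
    (ha : a.1 = .rho s kd k) (hb : b.1 = .rho s' kd' k') :
    ent a b = decide (kd = kd' ∧ k = k') := by
  obtain ⟨a, x⟩ := a
  obtain ⟨b, y⟩ := b
  simp only at ha hb
  subst hb; subst ha; rfl

lemma ent_cc_true {a b : K d p × Fin W} (ha : sg a.1 = 64) (hb : sg b.1 = 64)
    (h : ent a b = true) : al a.2 a.1 < be b.2 b.1 := by
  obtain ⟨a, x⟩ := a
  obtain ⟨b, y⟩ := b
  rcases of_sg_core ha with ha | ⟨s, k, ha⟩ <;> rcases of_sg_core hb with hb | ⟨s', k', hb⟩ <;>
    simp only at ha hb <;> subst ha <;> subst hb <;> simp_all [ent]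

lemma mem_laminar {q q' : ℕ × Bool} {c1 c2 c3 : ℕ} {t1 t2 t3 : Bool}
    (h1 : mem q c1 t1 = false) (h1' : mem q' c1 t1 = true)
    (h2 : mem q c2 t2 = true) (h2' : mem q' c2 t2 = false)
    (h3 : mem q c3 t3 = true) (h3' : mem q' c3 t3 = true) : False := by
  obtain ⟨q1, q2⟩ := q
  obtain ⟨q1', q2'⟩ := q'
  simp only [mem] at *
  have e3 : c3 = q1 := by
    by_contra hh
    simp [hh] at h3
  have e3' : c3 = q1' := by
    by_contra hh
    simp [hh] at h3'
  subst e3
  subst e3'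
  have e1 : c1 = c3 := by
    by_contra hh
    simp [hh] at h1'
  have e2 : c2 = c3 := by
    by_contra hh
    simp [hh] at h2
  subst e1
  subst e2
  revert h1 h1' h2 h2'
  cases q2 <;> cases q2' <;> cases t1 <;> cases t2 <;> simp

lemma no33 (a b : ℕ → K d p × Fin W)
    (ha : (∀ i < 3, 62 ≤ sg (a i).1 ∧ sg (a i).1 < 64) ∨ (∀ i < 3, sg (a i).1 = 64))
    (hb : (∀ i < 3, 62 ≤ sg (b i).1 ∧ sg (b i).1 < 64) ∨ (∀ i < 3, sg (b i).1 = 64))
    (he : ∀ i < 3, ∀ j < 3, ent (a i) (b j) = decide (i ≠ j)) : False := by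
  have e00 := he 0 (by omega) 0 (by omega)
  have e01 := he 0 (by omega) 1 (by omega)
  have e02 := he 0 (by omega) 2 (by omega)
  have e10 := he 1 (by omega) 0 (by omega)
  have e11 := he 1 (by omega) 1 (by omega)
  have e12 := he 1 (by omega) 2 (by omega)
  have e20 := he 2 (by omega) 0 (by omega)
  have e21 := he 2 (by omega) 1 (by omega)
  have d00 : decide (0 ≠ 0) = false := rfl
  have d01 : decide (0 ≠ 1) = true := rfl
  have d02 : decide (0 ≠ 2) = true := rfl
  have d10 : decide (1 ≠ 0) = true := rfl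
  have d11 : decide (1 ≠ 1) = false := rfl
  have d12 : decide (1 ≠ 2) = true := rfl
  have d20 : decide (2 ≠ 0) = true := rfl
  have d21 : decide (2 ≠ 1) = true := rfl
  rw [d00] at e00; rw [d01] at e01; rw [d02] at e02; rw [d10] at e10
  rw [d11] at e11; rw [d12] at e12; rw [d20] at e20; rw [d21] at e21
  rcases ha with ha | ha <;> rcases hb with hb | hb
  · obtain ⟨s0, kd0, k0, h0⟩ := of_sg_rho (ha 0 (by omega)).1 (ha 0 (by omega)).2
    obtain ⟨s2, kd2, k2, h2⟩ := of_sg_rho (ha 2 (by omega)).1 (ha 2 (by omega)).2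
    obtain ⟨s0', kd0', k0', h0'⟩ := of_sg_rho (hb 0 (by omega)).1 (hb 0 (by omega)).2
    obtain ⟨s1', kd1', k1', h1'⟩ := of_sg_rho (hb 1 (by omega)).1 (hb 1 (by omega)).2
    rw [ent_rr h0 h1'] at e01
    rw [ent_rr h2 h1'] at e21
    rw [ent_rr h2 h0'] at e20
    rw [ent_rr h0 h0'] at e00
    simp only [decide_eq_true_eq] at e01 e21 e20
    simp only [decide_eq_false_iff_not] at e00
    apply e00
    obtain ⟨q1, q2⟩ := e01
    obtain ⟨q3, q4⟩ := e21
    obtain ⟨q5, q6⟩ := e20
    constructor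
    · rw [q1, ← q3, q5]
    · rw [q2, ← q4, q6]
  · obtain ⟨s0, kd0, k0, h0⟩ := of_sg_rho (ha 0 (by omega)).1 (ha 0 (by omega)).2
    obtain ⟨s1, kd1, k1, h1⟩ := of_sg_rho (ha 1 (by omega)).1 (ha 1 (by omega)).2
    rw [ent_rc h0 (hb 0 (by omega))] at e00
    rw [ent_rc h0 (hb 1 (by omega))] at e01
    rw [ent_rc h0 (hb 2 (by omega))] at e02
    rw [ent_rc h1 (hb 0 (by omega))] at e10
    rw [ent_rc h1 (hb 1 (by omega))] at e11
    rw [ent_rc h1 (hb 2 (by omega))] at e12
    exact mem_laminar e00 e10 e01 e11 e02 e12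
  · obtain ⟨s0, kd0, k0, h0⟩ := of_sg_rho (hb 0 (by omega)).1 (hb 0 (by omega)).2
    obtain ⟨s1, kd1, k1, h1⟩ := of_sg_rho (hb 1 (by omega)).1 (hb 1 (by omega)).2
    rw [ent_cr h0 (ha 0 (by omega))] at e00
    rw [ent_cr h0 (ha 1 (by omega))] at e10
    rw [ent_cr h0 (ha 2 (by omega))] at e20
    rw [ent_cr h1 (ha 0 (by omega))] at e01
    rw [ent_cr h1 (ha 1 (by omega))] at e11
    rw [ent_cr h1 (ha 2 (by omega))] at e21
    exact mem_laminar e00 e01 e10 e11 e20 e21
  · have a0 := ha 0 (by omega)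
    have a1 := ha 1 (by omega)
    have b0 := hb 0 (by omega)
    have b1 := hb 1 (by omega)
    have t01 := ent_cc_true a0 b1 e01
    have t10 := ent_cc_true a1 b0 e10
    rcases of_sg_core a0 with h | ⟨s, k, h⟩
    · rcases of_sg_core b1 with h' | ⟨s', k', h'⟩ <;>
      · simp [ent, h, h'] at e01
    rcases of_sg_core a1 with h1 | ⟨s1, k1, h1⟩
    · rcases of_sg_core b0 with h' | ⟨s', k', h'⟩ <;>
      · simp [ent, h1, h'] at e10
    rcases of_sg_core b0 with h2 | ⟨s2, k2, h2⟩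
    · simp [ent, h1, h2] at e10
    rcases of_sg_core b1 with h3 | ⟨s3, k3, h3⟩
    · simp [ent, h, h3] at e01
    have f00 : ¬ (al (a 0).2 (a 0).1 < be (b 0).2 (b 0).1) := by
      intro hh
      simp only [ent, h, h2] at e00
      rw [h, h2] at hh
      simp [hh] at e00
    have f11 : ¬ (al (a 1).2 (a 1).1 < be (b 1).2 (b 1).1) := by
      intro hh
      simp only [ent, h1, h3] at e11
      rw [h1, h3] at hh
      simp [hh] at e11
    omega

lemma Hn_mid (i j : ℕ) (hi : 1 ≤ i) (hj : 1 ≤ j) (hi' : i < 62) (hj' : j < 62) :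
    Hn i j = decide (i % 3 ≠ j % 3) := by
  have : (i % 3 != j % 3) = decide (i % 3 ≠ j % 3) := by
    rw [bne]; by_cases h : i % 3 = j % 3 <;> simp [h]
  simp [Hn, show i ≠ 0 by omega, show j ≠ 0 by omega, hi', hj', this]

lemma Cp.notall (c : Cp d p W u v) (h : 62 ≤ sg (u 0).1) (h' : 62 ≤ sg (v 0).1) : False := by
  have mu : ∀ i j, i ≤ j → j < 66 → sg (u i).1 ≤ sg (u j).1 := by
    intro i j hij hj
    rcases hij.lt_or_eq with h1 | h1
    · exact sg_mono_R (c.hu i j h1 hj)
    · rw [h1]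
  have mv : ∀ i j, i ≤ j → j < 66 → sg (v i).1 ≤ sg (v j).1 := by
    intro i j hij hj
    rcases hij.lt_or_eq with h1 | h1
    · exact sg_mono_C (c.hv i j h1 hj)
    · rw [h1]
  have pu : ∃ i0, (i0 = 1 ∨ i0 = 4) ∧ ((∀ i < 3, 62 ≤ sg (u (i0 + i)).1 ∧ sg (u (i0 + i)).1 < 64) ∨
      (∀ i < 3, sg (u (i0 + i)).1 = 64)) := by
    by_cases h3 : sg (u 3).1 < 64
    · refine ⟨1, Or.inl rfl, Or.inl ?_⟩
      intro i hi
      have := mu 0 (1 + i) (by omega) (by omega)
      have := mu (1 + i) 3 (by omega) (by omega)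
      omega
    · refine ⟨4, Or.inr rfl, Or.inr ?_⟩
      intro i hi
      have := mu 3 (4 + i) (by omega) (by omega)
      have := sg_le (u (4 + i)).1
      omega
  have pv : ∃ i0, (i0 = 1 ∨ i0 = 4) ∧ ((∀ i < 3, 62 ≤ sg (v (i0 + i)).1 ∧ sg (v (i0 + i)).1 < 64) ∨
      (∀ i < 3, sg (v (i0 + i)).1 = 64)) := by
    by_cases h3 : sg (v 3).1 < 64
    · refine ⟨1, Or.inl rfl, Or.inl ?_⟩
      intro i hi
      have := mv 0 (1 + i) (by omega) (by omega)
      have := mv (1 + i) 3 (by omega) (by omega)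
      omega
    · refine ⟨4, Or.inr rfl, Or.inr ?_⟩
      intro i hi
      have := mv 3 (4 + i) (by omega) (by omega)
      have := sg_le (v (4 + i)).1
      omega
  obtain ⟨i0, hi0, hu⟩ := pu
  obtain ⟨j0, hj0, hv⟩ := pv
  apply no33 (fun i => u (i0 + i)) (fun j => v (j0 + j)) hu hv
  intro i hi j hj
  rw [c.he _ _ (by omega) (by omega), Hn_mid _ _ (by omega) (by omega) (by omega) (by omega)]
  congr 1
  apply propext
  constructor
  · intro h1 h2; apply h1; omega
  · intro h1 h2; apply h1; omega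

lemma Cp.r61 (c : Cp d p W u v) : sg (u 61).1 < 62 := by
  by_contra h
  push Not at h
  have h1 := c.rbig h
  have h2 : 62 ≤ sg (v 61).1 := le_trans h1 (sg_mono_C (c.hv 0 61 (by omega) (by omega)))
  exact c.notall (c.cbig h2) h1

lemma Cp.c61 (c : Cp d p W u v) : sg (v 61).1 < 62 := by
  by_contra h
  push Not at h
  have h1 := c.cbig h
  have h2 : 62 ≤ sg (u 61).1 := le_trans h1 (sg_mono_R (c.hu 0 61 (by omega) (by omega)))
  exact c.notall h1 (c.rbig h2)

lemma ident (s : ℕ → ℕ) (h : ∀ i < 61, s i < s (i + 1)) (h61 : s 61 ≤ 61) :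
    ∀ i ≤ 61, s i = i := by
  have h1 : ∀ i ≤ 61, i ≤ s i := by
    intro i
    induction i with
    | zero => intro _; omega
    | succ n ih => intro hn; have := ih (by omega); have := h n (by omega); omega
  have h2 : ∀ j ≤ 61, s (61 - j) ≤ 61 - j := by
    intro j
    induction j with
    | zero => intro _; simpa using h61
    | succ n ih =>
      intro hn
      have a1 := ih (by omega)
      have a2 := h (61 - (n + 1)) (by omega)
      have a3 : 61 - (n + 1) + 1 = 61 - n := by omega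
      rw [a3] at a2
      omega
  intro i hi
  have a1 := h1 i hi
  have a2 := h2 (61 - i) (by omega)
  have a3 : 61 - (61 - i) = i := by omega
  rw [a3] at a2
  omega

lemma Cp.rid (c : Cp d p W u v) : ∀ i ≤ 61, sg (u i).1 = i := by
  apply ident (fun i => sg (u i).1)
  · intro i hi
    have h1 := sg_mono_R (c.hu i 61 (by omega) (by omega))
    have h2 := c.r61
    exact c.rstep i (by omega) (by omega)
  · exact Nat.le_of_lt_succ c.r61

lemma Cp.cid (c : Cp d p W u v) : ∀ i ≤ 61, sg (v i).1 = i := by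
  apply ident (fun i => sg (v i).1)
  · intro i hi
    have h1 := sg_mono_C (c.hv i 61 (by omega) (by omega))
    have h2 := c.c61
    exact c.cstep i (by omega) (by omega)
  · exact Nat.le_of_lt_succ c.c61

lemma Cp.rsig (c : Cp d p W u v) (i j : ℕ) (hi : i < 66) (hj : j < 62) :
    Hn i j = Hn (sg (u i).1) j := by
  rw [← c.he i j hi (by omega), ent_right _ _ (by rw [c.cid j (by omega)]; exact hj),
    c.cid j (by omega)]

lemma Cp.csig (c : Cp d p W u v) (i j : ℕ) (hi : i < 66) (hj : j < 62) :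
    Hn j i = Hn j (sg (v i).1) := by
  rw [← c.he j i (by omega) hi, ent_left _ _ (by rw [c.rid j (by omega)]; exact hj),
    c.rid j (by omega)]

lemma Cp.r62 (c : Cp d p W u v) : sg (u 62).1 = 62 ∧ sg (u 63).1 = 63 ∧ sg (u 64).1 = 64 ∧
    sg (u 65).1 = 64 := by
  have m1 := c.rstep 61 (by omega) c.r61
  rw [c.rid 61 le_rfl] at m1
  simp only [Nat.reduceAdd] at m1
  have m2 := sg_mono_R (c.hu 62 63 (by omega) (by omega))
  have m3 := sg_mono_R (c.hu 63 64 (by omega) (by omega))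
  have m4 := sg_mono_R (c.hu 64 65 (by omega) (by omega))
  have m5 := sg_le (u 65).1
  have a62 : sg (u 62).1 = 62 := by
    have h1 := c.rsig 62 1 (by omega) (by omega)
    have h2 : sg (u 62).1 = 62 ∨ sg (u 62).1 = 63 ∨ sg (u 62).1 = 64 := by omega
    rcases h2 with h2 | h2 | h2
    · exact h2
    · rw [h2] at h1; exact absurd h1 (by decide)
    · rw [h2] at h1; exact absurd h1 (by decide)
  have a63 : sg (u 63).1 = 63 := by
    have h1 := c.rsig 63 0 (by omega) (by omega)
    have h2 : sg (u 63).1 = 62 ∨ sg (u 63).1 = 63 ∨ sg (u 63).1 = 64 := by omega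
    rcases h2 with h2 | h2 | h2
    · rw [h2] at h1; exact absurd h1 (by decide)
    · exact h2
    · rw [h2] at h1; exact absurd h1 (by decide)
  have a64 : sg (u 64).1 = 64 := by
    have h1 := c.rsig 64 0 (by omega) (by omega)
    have h2 : sg (u 64).1 = 63 ∨ sg (u 64).1 = 64 := by omega
    rcases h2 with h2 | h2
    · rw [h2] at h1; exact absurd h1 (by decide)
    · exact h2
  exact ⟨a62, a63, a64, by omega⟩

lemma Cp.c62 (c : Cp d p W u v) : sg (v 62).1 = 62 ∧ sg (v 63).1 = 63 ∧ sg (v 64).1 = 64 ∧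
    sg (v 65).1 = 64 := by
  have m1 := c.cstep 61 (by omega) c.c61
  rw [c.cid 61 le_rfl] at m1
  simp only [Nat.reduceAdd] at m1
  have m2 := sg_mono_C (c.hv 62 63 (by omega) (by omega))
  have m3 := sg_mono_C (c.hv 63 64 (by omega) (by omega))
  have m4 := sg_mono_C (c.hv 64 65 (by omega) (by omega))
  have m5 := sg_le (v 65).1
  have a62 : sg (v 62).1 = 62 := by
    have h1 := c.csig 62 1 (by omega) (by omega)
    have h2 : sg (v 62).1 = 62 ∨ sg (v 62).1 = 63 ∨ sg (v 62).1 = 64 := by omega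
    rcases h2 with h2 | h2 | h2
    · exact h2
    · rw [h2] at h1; exact absurd h1 (by decide)
    · rw [h2] at h1; exact absurd h1 (by decide)
  have a63 : sg (v 63).1 = 63 := by
    have h1 := c.csig 63 0 (by omega) (by omega)
    have h2 : sg (v 63).1 = 62 ∨ sg (v 63).1 = 63 ∨ sg (v 63).1 = 64 := by omega
    rcases h2 with h2 | h2 | h2
    · rw [h2] at h1; exact absurd h1 (by decide)
    · exact h2
    · rw [h2] at h1; exact absurd h1 (by decide)
  have a64 : sg (v 64).1 = 64 := by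
    have h1 := c.csig 64 0 (by omega) (by omega)
    have h2 : sg (v 64).1 = 63 ∨ sg (v 64).1 = 64 := by omega
    rcases h2 with h2 | h2
    · rw [h2] at h1; exact absurd h1 (by decide)
    · exact h2
  exact ⟨a62, a63, a64, by omega⟩

lemma of_sg_62 {a : K d p} (h : sg a = 62) : ∃ kd k, a = .rho false kd k := by
  rcases a with i | i | ⟨b, kd, k⟩ | _ | ⟨b, k⟩
  · have := i.2; simp [sg] at h; omega
  · simp [sg] at h
  · cases b
    · exact ⟨_, _, rfl⟩
    · simp [sg] at h
  · simp [sg] at h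
  · simp [sg] at h

lemma of_sg_63 {a : K d p} (h : sg a = 63) : ∃ kd k, a = .rho true kd k := by
  rcases a with i | i | ⟨b, kd, k⟩ | _ | ⟨b, k⟩
  · have := i.2; simp [sg] at h; omega
  · simp [sg] at h
  · cases b
    · simp [sg] at h
    · exact ⟨_, _, rfl⟩
  · simp [sg] at h
  · simp [sg] at h

/-- the outcome of the alignment: a rule that is violated -/
lemma Cp.rule (c : Cp d p W u v) : ∃ (kd : Kd) (k : Fin d),
    sg (u 64).1 = 64 ∧ sg (u 65).1 = 64 ∧ sg (v 64).1 = 64 ∧ sg (v 65).1 = 64 ∧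
    mem (rr d false kd k) (cl (u 64).1) (bt (u 64).2 (u 64).1) = true ∧
    mem (rr d true kd k) (cl (u 65).1) (bt (u 65).2 (u 65).1) = true ∧
    mem (cc d false kd k) (cl (v 64).1) (bt (v 64).2 (v 64).1) = true ∧
    mem (cc d true kd k) (cl (v 65).1) (bt (v 65).2 (v 65).1) = true := by
  obtain ⟨a2, a3, a4, a5⟩ := c.r62
  obtain ⟨b2, b3, b4, b5⟩ := c.c62
  obtain ⟨kd1, k1, h1⟩ := of_sg_62 a2
  obtain ⟨kd2, k2, h2⟩ := of_sg_63 a3
  obtain ⟨kd1', k1', h1'⟩ := of_sg_62 b2
  obtain ⟨kd2', k2', h2'⟩ := of_sg_63 b3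
  have e1 := c.he 62 62 (by omega) (by omega)
  have e2 := c.he 62 63 (by omega) (by omega)
  have e3 := c.he 63 62 (by omega) (by omega)
  rw [ent_rr h1 h1', show Hn 62 62 = true by decide] at e1
  rw [ent_rr h1 h2', show Hn 62 63 = true by decide] at e2
  rw [ent_rr h2 h1', show Hn 63 62 = true by decide] at e3
  simp only [decide_eq_true_eq] at e1 e2 e3
  obtain ⟨rfl, rfl⟩ := e1
  obtain ⟨rfl, rfl⟩ := e2
  obtain ⟨rfl, rfl⟩ := e3
  refine ⟨kd2, k2, a4, a5, b4, b5, ?_, ?_, ?_, ?_⟩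
  · rw [← ent_cr h1' a4, c.he 64 62 (by omega) (by omega)]; decide
  · rw [← ent_cr h2' a5, c.he 65 63 (by omega) (by omega)]; decide
  · rw [← ent_rc h1 b4, c.he 62 64 (by omega) (by omega)]; decide
  · rw [← ent_rc h2 b5, c.he 63 65 (by omega) (by omega)]; decide

end rigid

/-! ### which rules can be violated -/

lemma mem_iff (q : ℕ × Bool) (c : ℕ) (t : Bool) :
    mem q c t = true ↔ c = q.1 ∧ (q.2 = true → t = true) := by
  obtain ⟨q1, q2⟩ := q
  cases q2 <;> cases t <;> simp [mem]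

lemma eq_dum {d p : ℕ} {a : K d p} (h : sg a = 64) (hc : cl a = 2 * d + 2) : a = .dum := by
  rcases of_sg_core h with h | ⟨b, k, h⟩
  · exact h
  · subst h
    have := k.2
    cases b <;> simp [cl] at hc <;> omega

lemma eq_core {d p : ℕ} {a : K d p} (h : sg a = 64) (b : Bool) (k : ℕ) (hk : k < d + 1)
    (hc : cl a = 2 * k + b.toNat) : a = .core b ⟨k, hk⟩ := by
  rcases of_sg_core h with h | ⟨b', k', h⟩
  · subst h
    cases b <;> simp [cl] at hc <;> omega
  · subst h
    have := k'.2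
    cases b <;> cases b' <;> simp [cl] at hc <;> simp
    · ext; simp; omega
    · omega
    · omega
    · ext; simp; omega

lemma pow_half {d k : ℕ} (h : k < d) : 2 ^ (d - k) = 2 * 2 ^ (d - (k + 1)) := by
  rw [← pow_succ']; congr 1; omega

lemma lo_eq {d k : ℕ} (h : k < d) (x : ℕ) :
    lo d k x = (2 * (x / 2 ^ (d - k))) * 2 ^ (d - (k + 1)) := by
  rw [lo]; nth_rw 2 [pow_half h]; ring

lemma hi_eq {d k : ℕ} (h : k < d) (x : ℕ) :
    hi d k x = (2 * (x / 2 ^ (d - k)) + 2) * 2 ^ (d - (k + 1)) := by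
  rw [hi, lo_eq h]; nth_rw 2 [pow_half h]; ring

lemma lo_eq' (d k x : ℕ) :
    lo d (k + 1) x = (x / 2 ^ (d - (k + 1))) * 2 ^ (d - (k + 1)) := rfl

lemma hi_eq' (d k x : ℕ) :
    hi d (k + 1) x = (x / 2 ^ (d - (k + 1)) + 1) * 2 ^ (d - (k + 1)) := by
  rw [hi, lo]; ring

lemma ent_core {d p W : ℕ} (b b' : Bool) (k k' : Fin (d + 1)) (x y : Fin W) :
    ent ((K.core b k : K d p), x) (K.core b' k', y) =
      decide (al x (K.core b k : K d p) < be y (K.core b' k' : K d p)) := rfl

lemma viol {d p W : ℕ} (a1 a2 b1 b2 : K d p × Fin W) (kd : Kd) (k : Fin d)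
    (ha1 : sg a1.1 = 64) (ha2 : sg a2.1 = 64) (hb1 : sg b1.1 = 64) (hb2 : sg b2.1 = 64)
    (ma1 : mem (rr d false kd k) (cl a1.1) (bt a1.2 a1.1) = true)
    (ma2 : mem (rr d true kd k) (cl a2.1) (bt a2.2 a2.1) = true)
    (mb1 : mem (cc d false kd k) (cl b1.1) (bt b1.2 b1.1) = true)
    (mb2 : mem (cc d true kd k) (cl b2.1) (bt b2.2 b2.1) = true)
    (oa : keyR a1 ≤ keyR a2) (ob : keyC b1 ≤ keyC b2)
    (e11 : ent a1 b1 = false) (e21 : ent a2 b1 = true) (e22 : ent a2 b2 = false) :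
    ∃ x : Fin W, a1 = (.core false (Fin.last d), x) ∧ a2 = (.core true (Fin.last d), x) ∧
      b1 = (.core true (Fin.last d), x) := by
  obtain ⟨a1, x1⟩ := a1
  obtain ⟨a2, x2⟩ := a2
  obtain ⟨b1, y1⟩ := b1
  obtain ⟨b2, y2⟩ := b2
  have hk := k.2
  have hP : 0 < 2 ^ (d - (k.1 + 1)) := by positivity
  have hk1 : k.1 < d + 1 := Nat.lt_succ_of_lt hk
  have hk2 : k.1 + 1 < d + 1 := Nat.succ_lt_succ hk
  have hkd : d < d + 1 := Nat.lt_succ_self d
  simp only at *
  replace oa := keyR_le _ _ oa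
  replace ob := keyC_le _ _ ob
  simp only at oa ob
  cases kd <;> simp only [mem_iff, rr, cc] at ma1 ma2 mb1 mb2
  · -- r1
    obtain rfl := eq_dum ha1 ma1.1
    obtain rfl := eq_core ha2 true k hk1 ma2.1
    obtain rfl := eq_core hb1 false k hk1 mb1.1
    obtain rfl := eq_core hb2 false (k + 1) hk2 mb2.1
    exfalso
    simp only [ent_core, al, be, regC, tc, decide_eq_true_eq, decide_eq_false_iff_not, if_true,
      if_false, Bool.false_eq_true, lo_eq hk, hi_eq hk, lo_eq', hi_eq', Nat.mul_lt_mul_right hP,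
      lt_irrefl, false_or, true_and, Nat.mul_right_cancel_iff hP] at e21 e22 ob
    omega
  · -- r2a
    obtain rfl := eq_core ha1 true (k + 1) hk2 ma1.1
    obtain rfl := eq_core ha2 true k hk1 ma2.1
    obtain rfl := eq_core hb1 false (k + 1) hk2 mb1.1
    obtain rfl := eq_dum hb2 mb2.1
    exfalso
    have fl := ma1.2 trivial
    simp only [bt, bit, if_true, beq_iff_eq] at fl
    simp only [ent_core, al, be, regR, tc, decide_eq_true_eq, decide_eq_false_iff_not, if_true,
      if_false, Bool.false_eq_true, lo_eq hk, hi_eq hk, lo_eq', hi_eq', Nat.mul_lt_mul_right hP,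
      lt_irrefl, false_or, true_and, Nat.mul_right_cancel_iff hP] at e21 e11 oa
    omega
  · -- r2b
    obtain rfl := eq_core ha1 true (k + 1) hk2 ma1.1
    obtain rfl := eq_core ha2 true k hk1 ma2.1
    obtain rfl := eq_core hb1 false (k + 1) hk2 mb1.1
    obtain rfl := eq_dum hb2 mb2.1
    exfalso
    have fl := mb1.2 trivial
    simp only [bt, bit, if_false, Bool.false_eq_true, beq_iff_eq] at fl
    simp only [ent_core, al, be, regR, tc, decide_eq_true_eq, decide_eq_false_iff_not, if_true,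
      if_false, Bool.false_eq_true, lo_eq hk, hi_eq hk, lo_eq', hi_eq', Nat.mul_lt_mul_right hP,
      lt_irrefl, false_or, true_and, Nat.mul_right_cancel_iff hP] at e21 e11 oa
    omega
  · -- r3
    obtain rfl := eq_dum ha1 ma1.1
    obtain rfl := eq_core ha2 true d hkd ma2.1
    obtain rfl := eq_core hb1 false d hkd mb1.1
    obtain rfl := eq_core hb2 true d hkd mb2.1
    exfalso
    simp only [ent_core, al, be, regC, tc, sec, decide_eq_true_eq, decide_eq_false_iff_not, if_true,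
      if_false, Bool.false_eq_true, lt_irrefl, false_or, true_and, lo, hi, Nat.sub_self,
      pow_zero, Nat.div_one, mul_one] at e21 e22 ob
    omega
  · -- r4
    obtain rfl := eq_core ha1 false d hkd ma1.1
    obtain rfl := eq_core ha2 true d hkd ma2.1
    obtain rfl := eq_core hb1 true d hkd mb1.1
    obtain rfl := eq_dum hb2 mb2.1
    simp only [ent_core, al, be, regR, tc, sec, decide_eq_true_eq, decide_eq_false_iff_not, if_true,
      if_false, Bool.false_eq_true, lt_irrefl, false_or, true_and, lo, hi, Nat.sub_self,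
      pow_zero, Nat.div_one, mul_one] at e21 e11 oa
    have h1 : x1 = x2 := by ext; omega
    have h2 : y1 = x2 := by ext; omega
    subst h1
    subst h2
    exact ⟨y1, rfl, rfl, rfl⟩
  · -- r5a
    obtain rfl := eq_core ha1 false k hk1 ma1.1
    obtain rfl := eq_core ha2 false (k + 1) hk2 ma2.1
    obtain rfl := eq_core hb1 true (k + 1) hk2 mb1.1
    obtain rfl := eq_dum hb2 mb2.1
    exfalso
    have fl := ma2.2 trivial
    simp only [bt, bit, if_false, Bool.false_eq_true, beq_iff_eq] at fl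
    simp only [ent_core, al, be, regR, tc, decide_eq_true_eq, decide_eq_false_iff_not, if_true,
      if_false, Bool.false_eq_true, Nat.lt_succ_iff, lo_eq hk, hi_eq hk, lo_eq', hi_eq',
      Nat.mul_lt_mul_right hP, Nat.mul_le_mul_right_iff hP,
      lt_irrefl, false_or, true_and, Nat.mul_right_cancel_iff hP] at e21 e11 oa
    omega
  · -- r5b
    obtain rfl := eq_core ha1 false k hk1 ma1.1
    obtain rfl := eq_core ha2 false (k + 1) hk2 ma2.1
    obtain rfl := eq_core hb1 true (k + 1) hk2 mb1.1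
    obtain rfl := eq_dum hb2 mb2.1
    exfalso
    have fl := mb1.2 trivial
    simp only [bt, bit, if_true, beq_iff_eq] at fl
    simp only [ent_core, al, be, regR, tc, decide_eq_true_eq, decide_eq_false_iff_not, if_true,
      if_false, Bool.false_eq_true, Nat.lt_succ_iff, lo_eq hk, hi_eq hk, lo_eq', hi_eq',
      Nat.mul_lt_mul_right hP, Nat.mul_le_mul_right_iff hP,
      lt_irrefl, false_or, true_and, Nat.mul_right_cancel_iff hP] at e21 e11 oa
    omega
  · -- r6
    obtain rfl := eq_dum ha1 ma1.1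
    obtain rfl := eq_core ha2 false k hk1 ma2.1
    obtain rfl := eq_core hb1 true (k + 1) hk2 mb1.1
    obtain rfl := eq_core hb2 true k hk1 mb2.1
    exfalso
    simp only [ent_core, al, be, regC, tc, decide_eq_true_eq, decide_eq_false_iff_not, if_true,
      if_false, Bool.false_eq_true, Nat.lt_succ_iff, lo_eq hk, hi_eq hk, lo_eq', hi_eq',
      Nat.mul_lt_mul_right hP, Nat.mul_le_mul_right_iff hP,
      lt_irrefl, false_or, true_and, Nat.mul_right_cancel_iff hP] at e21 e22 ob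
    omega

lemma Cp.main {d p W : ℕ} {u v : ℕ → K d p × Fin W} (c : Cp d p W u v) :
    ∃ x : Fin W, u 64 = (.core false (Fin.last d), x) ∧ u 65 = (.core true (Fin.last d), x) ∧
      v 64 = (.core true (Fin.last d), x) := by
  obtain ⟨kd, k, h1, h2, h3, h4, h5, h6, h7, h8⟩ := c.rule
  refine viol _ _ _ _ kd k h1 h2 h3 h4 h5 h6 h7 h8 (c.hu 64 65 (by omega) (by omega))
    (c.hv 64 65 (by omega) (by omega)) ?_ ?_ ?_
  · rw [c.he 64 64 (by omega) (by omega)]; decide
  · rw [c.he 65 64 (by omega) (by omega)]; decide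
  · rw [c.he 65 65 (by omega) (by omega)]; decide


/-! ### cardinalities and sorting -/

def kEquiv (d p : ℕ) : K d p ≃ (Fin 62 ⊕ Fin p ⊕ (Bool × Kd × Fin d) ⊕ Unit ⊕ (Bool × Fin (d + 1))) where
  toFun a := match a with
    | .mk i => .inl i
    | .pad i => .inr (.inl i)
    | .rho b kd k => .inr (.inr (.inl (b, kd, k)))
    | .dum => .inr (.inr (.inr (.inl ())))
    | .core b k => .inr (.inr (.inr (.inr (b, k))))
  invFun a := match a with
    | .inl i => .mk i
    | .inr (.inl i) => .pad i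
    | .inr (.inr (.inl (b, kd, k))) => .rho b kd k
    | .inr (.inr (.inr (.inl ()))) => .dum
    | .inr (.inr (.inr (.inr (b, k)))) => .core b k
  left_inv a := by rcases a with i | i | ⟨b, kd, k⟩ | _ | ⟨b, k⟩ <;> rfl
  right_inv a := by rcases a with i | i | ⟨b, kd, k⟩ | _ | ⟨b, k⟩ <;> rfl

instance (d p : ℕ) : Fintype (K d p) := Fintype.ofEquiv _ (kEquiv d p).symm

lemma card_K (d p : ℕ) : Fintype.card (K d p) = 18 * d + 65 + p := by
  rw [Fintype.card_congr (kEquiv d p)]
  have : Fintype.card Kd = 8 := rfl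
  simp [this]
  ring

lemma exists_sorted {α κ : Type} [Fintype α] [LinearOrder κ] (n : ℕ) (hn : Fintype.card α = n)
    (key : α → κ) : ∃ e : Fin n ≃ α, ∀ i j, i ≤ j → key (e i) ≤ key (e j) := by
  let e0 : Fin n ≃ α := (Fintype.equivFinOfCardEq hn).symm
  refine ⟨(Tuple.sort (key ∘ e0)).trans e0, ?_⟩
  intro i j hij
  exact Tuple.monotone_sort (key ∘ e0) hij

lemma exists_good (W : ℕ) (bad : Finset (Fin W × Fin W)) (h : 4 * bad.card < W * W) :
    ∃ a b x : Fin W, (a, b) ∉ bad ∧ (x, b) ∉ bad ∧ (a, x) ∉ bad := by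
  classical
  by_contra hcon
  push Not at hcon
  let S1 : Finset (Fin W × Fin W × Fin W) := Finset.univ.filter fun t => (t.1, t.2.1) ∈ bad
  let S2 : Finset (Fin W × Fin W × Fin W) := Finset.univ.filter fun t => (t.2.2, t.2.1) ∈ bad
  let S3 : Finset (Fin W × Fin W × Fin W) := Finset.univ.filter fun t => (t.1, t.2.2) ∈ bad
  have hun : (Finset.univ : Finset (Fin W × Fin W × Fin W)) ⊆ S1 ∪ S2 ∪ S3 := by
    intro t _
    simp only [S1, S2, S3, Finset.mem_union, Finset.mem_filter, Finset.mem_univ, true_and]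
    by_cases h1 : (t.1, t.2.1) ∈ bad
    · exact Or.inl (Or.inl h1)
    by_cases h2 : (t.2.2, t.2.1) ∈ bad
    · exact Or.inl (Or.inr h2)
    · exact Or.inr (hcon t.1 t.2.1 t.2.2 h1 h2)
  have c1 : S1.card ≤ (bad ×ˢ (Finset.univ : Finset (Fin W))).card := by
    apply Finset.card_le_card_of_injOn (fun t => ((t.1, t.2.1), t.2.2))
    · intro t ht
      simp only [S1, Finset.coe_filter, Set.mem_ofPred_eq, Finset.mem_univ, true_and] at ht
      simp [ht]
    · rintro ⟨t1, t2, t3⟩ _ ⟨s1, s2, s3⟩ _ hh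
      simp only [Prod.mk.injEq] at hh ⊢
      tauto
  have c2 : S2.card ≤ (bad ×ˢ (Finset.univ : Finset (Fin W))).card := by
    apply Finset.card_le_card_of_injOn (fun t => ((t.2.2, t.2.1), t.1))
    · intro t ht
      simp only [S2, Finset.coe_filter, Set.mem_ofPred_eq, Finset.mem_univ, true_and] at ht
      simp [ht]
    · rintro ⟨t1, t2, t3⟩ _ ⟨s1, s2, s3⟩ _ hh
      simp only [Prod.mk.injEq] at hh ⊢
      tauto
  have c3 : S3.card ≤ (bad ×ˢ (Finset.univ : Finset (Fin W))).card := by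
    apply Finset.card_le_card_of_injOn (fun t => ((t.1, t.2.2), t.2.1))
    · intro t ht
      simp only [S3, Finset.coe_filter, Set.mem_ofPred_eq, Finset.mem_univ, true_and] at ht
      simp [ht]
    · rintro ⟨t1, t2, t3⟩ _ ⟨s1, s2, s3⟩ _ hh
      simp only [Prod.mk.injEq] at hh ⊢
      tauto
  have c0 := (Finset.card_le_card hun).trans (Finset.card_union_le _ _)
  have c4 := Finset.card_union_le S1 S2
  rw [Finset.card_product, Finset.card_univ, Fintype.card_fin] at c1 c2 c3
  rw [Finset.card_univ, Fintype.card_prod, Fintype.card_prod, Fintype.card_fin] at c0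
  have hW : 0 < W := by
    rcases Nat.eq_zero_or_pos W with h0 | h0
    · subst h0; simp at h
    · exact h0
  have : W * (W * W) ≤ 3 * (bad.card * W) := by omega
  nlinarith

/-! ### farness -/

lemma lo_mono {d k : ℕ} (h : k < d) (x : ℕ) : lo d k x ≤ lo d (k + 1) x := by
  rw [lo_eq h, lo_eq']
  apply Nat.mul_le_mul_right
  have : x / 2 ^ (d - k) = x / 2 ^ (d - (k + 1)) / 2 := by
    rw [pow_half h, mul_comm, Nat.div_div_eq_div_mul]
  omega

lemma hi_mono {d k : ℕ} (h : k < d) (x : ℕ) : hi d (k + 1) x ≤ hi d k x := by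
  rw [hi_eq h, hi_eq']
  apply Nat.mul_le_mul_right
  have : x / 2 ^ (d - k) = x / 2 ^ (d - (k + 1)) / 2 := by
    rw [pow_half h, mul_comm, Nat.div_div_eq_div_mul]
  omega

section far

variable {d p n : ℕ}

/-- the row sequence of a planted copy -/
def rw' (a : Fin (2 ^ d)) (kd : Kd) (k : Fin d) (r1 r2 : K d p × Fin (2 ^ d)) (i : ℕ) :
    K d p × Fin (2 ^ d) :=
  if h : i < 62 then (.mk ⟨i, h⟩, a)
  else if i = 62 then (.rho false kd k, a)
  else if i = 63 then (.rho true kd k, a)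
  else if i = 64 then r1 else r2

lemma rw'_mk (a : Fin (2 ^ d)) (kd : Kd) (k : Fin d) (r1 r2 : K d p × Fin (2 ^ d)) (i : ℕ)
    (h : i < 62) : rw' a kd k r1 r2 i = (.mk ⟨i, h⟩, a) := by simp [rw', h]

lemma rw'_62 (a : Fin (2 ^ d)) (kd : Kd) (k : Fin d) (r1 r2 : K d p × Fin (2 ^ d)) :
    rw' a kd k r1 r2 62 = (.rho false kd k, a) := by simp [rw']

lemma rw'_63 (a : Fin (2 ^ d)) (kd : Kd) (k : Fin d) (r1 r2 : K d p × Fin (2 ^ d)) :
    rw' a kd k r1 r2 63 = (.rho true kd k, a) := by simp [rw']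

lemma rw'_64 (a : Fin (2 ^ d)) (kd : Kd) (k : Fin d) (r1 r2 : K d p × Fin (2 ^ d)) :
    rw' a kd k r1 r2 64 = r1 := by simp [rw']

lemma rw'_65 (a : Fin (2 ^ d)) (kd : Kd) (k : Fin d) (r1 r2 : K d p × Fin (2 ^ d)) :
    rw' a kd k r1 r2 65 = r2 := by simp [rw']

lemma regR_ge {a : K d p} (h : sg a = 64) : 64 ≤ regR a := by
  rw [sg_eq_R] at h; omega

lemma regC_ge {a : K d p} (h : sg a = 64) : 64 ≤ regC a := by
  rw [sg_eq_C] at h; omega

lemma rw'_keyR (a : Fin (2 ^ d)) (kd : Kd) (k : Fin d) (r1 r2 : K d p × Fin (2 ^ d))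
    (h1 : sg r1.1 = 64) (h2 : sg r2.1 = 64) (h12 : keyR r1 < keyR r2) (i j : ℕ) (hij : i < j)
    (hj : j < 66) : keyR (rw' a kd k r1 r2 i) < keyR (rw' a kd k r1 r2 j) := by
  have e1 := regR_ge h1
  have e2 := regR_ge h2
  have hreg : ∀ i, i < 64 → regR (rw' a kd k r1 r2 i).1 = i := by
    intro i hi
    by_cases h : i < 62
    · rw [rw'_mk _ _ _ _ _ _ h]; rfl
    · have : i = 62 ∨ i = 63 := by omega
      rcases this with h | h
      · subst h; rw [rw'_62]; rfl
      · subst h; rw [rw'_63]; rfl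
  have hreg2 : ∀ i, 64 ≤ i → i < 66 → 64 ≤ regR (rw' a kd k r1 r2 i).1 := by
    intro i hi hi'
    have : i = 64 ∨ i = 65 := by omega
    rcases this with h | h
    · subst h; rw [rw'_64]; exact e1
    · subst h; rw [rw'_65]; exact e2
  by_cases h : i < 64
  · apply keyR_lt
    left
    rw [hreg i h]
    by_cases h' : j < 64
    · rw [hreg j h']; exact hij
    · have := hreg2 j (by omega) hj
      omega
  · have hi : i = 64 := by omega
    have hj' : j = 65 := by omega
    subst hi; subst hj'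
    rw [rw'_64, rw'_65]; exact h12

lemma rw'_keyC (a : Fin (2 ^ d)) (kd : Kd) (k : Fin d) (r1 r2 : K d p × Fin (2 ^ d))
    (h1 : sg r1.1 = 64) (h2 : sg r2.1 = 64) (h12 : keyC r1 < keyC r2) (i j : ℕ) (hij : i < j)
    (hj : j < 66) : keyC (rw' a kd k r1 r2 i) < keyC (rw' a kd k r1 r2 j) := by
  have e1 := regC_ge h1
  have e2 := regC_ge h2
  have hreg : ∀ i, i < 64 → regC (rw' a kd k r1 r2 i).1 = i := by
    intro i hi
    by_cases h : i < 62
    · rw [rw'_mk _ _ _ _ _ _ h]; rfl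
    · have : i = 62 ∨ i = 63 := by omega
      rcases this with h | h
      · subst h; rw [rw'_62]; rfl
      · subst h; rw [rw'_63]; rfl
  have hreg2 : ∀ i, 64 ≤ i → i < 66 → 64 ≤ regC (rw' a kd k r1 r2 i).1 := by
    intro i hi hi'
    have : i = 64 ∨ i = 65 := by omega
    rcases this with h | h
    · subst h; rw [rw'_64]; exact e1
    · subst h; rw [rw'_65]; exact e2
  by_cases h : i < 64
  · apply keyC_lt
    left
    rw [hreg i h]
    by_cases h' : j < 64
    · rw [hreg j h']; exact hij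
    · have := hreg2 j (by omega) hj
      omega
  · have hi : i = 64 := by omega
    have hj' : j = 65 := by omega
    subst hi; subst hj'
    rw [rw'_64, rw'_65]; exact h12

lemma Hn_65_left (i : ℕ) (h : i < 62) : Hn i 65 = Hn i 64 := by
  revert h; revert i; decide

lemma Hn_65_right (i : ℕ) (h : i < 62) : Hn 65 i = Hn 64 i := by
  revert h; revert i; decide

/-- no copy of the pattern, in terms of descriptors -/
def NoCopy (Bd : K d p × Fin (2 ^ d) → K d p × Fin (2 ^ d) → Bool) : Prop :=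
  ∀ u v : ℕ → K d p × Fin (2 ^ d),
    (∀ i j, i < j → j < 66 → keyR (u i) < keyR (u j)) →
    (∀ i j, i < j → j < 66 → keyC (v i) < keyC (v j)) →
    (∀ i j, i < 66 → j < 66 → Bd (u i) (v j) = Hn i j) → False

variable {Bd : K d p × Fin (2 ^ d) → K d p × Fin (2 ^ d) → Bool}

/-- pair of labels untouched -/
def Good (Bd : K d p × Fin (2 ^ d) → K d p × Fin (2 ^ d) → Bool) (x y : Fin (2 ^ d)) : Prop :=
  ∀ s t : K d p, Bd (s, x) (t, y) = ent (s, x) (t, y)

lemma step (hB : NoCopy Bd) (a b : Fin (2 ^ d)) (kd : Kd) (k : Fin d)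
    (r1 r2 c1 c2 : K d p × Fin (2 ^ d))
    (gab : Good Bd a b) (gr1 : Good Bd r1.2 b) (gr2 : Good Bd r2.2 b)
    (gc1 : Good Bd a c1.2) (gc2 : Good Bd a c2.2)
    (s1 : sg r1.1 = 64) (s2 : sg r2.1 = 64) (s3 : sg c1.1 = 64) (s4 : sg c2.1 = 64)
    (kr : keyR r1 < keyR r2) (kc : keyC c1 < keyC c2)
    (m1 : mem (rr d false kd k) (cl r1.1) (bt r1.2 r1.1) = true)
    (m1' : mem (rr d true kd k) (cl r1.1) (bt r1.2 r1.1) = false)
    (m2 : mem (rr d true kd k) (cl r2.1) (bt r2.2 r2.1) = true)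
    (m2' : mem (rr d false kd k) (cl r2.1) (bt r2.2 r2.1) = false)
    (m3 : mem (cc d false kd k) (cl c1.1) (bt c1.2 c1.1) = true)
    (m3' : mem (cc d true kd k) (cl c1.1) (bt c1.2 c1.1) = false)
    (m4 : mem (cc d true kd k) (cl c2.1) (bt c2.2 c2.1) = true)
    (m4' : mem (cc d false kd k) (cl c2.1) (bt c2.2 c2.1) = false)
    (b11 : Bd r1 c1 = false) (b12 : Bd r1 c2 = false) (b21 : Bd r2 c1 = true)
    (b22 : Bd r2 c2 = false) : False := by
  apply hB (rw' a kd k r1 r2) (rw' b kd k c1 c2) (rw'_keyR a kd k r1 r2 s1 s2 kr)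
    (rw'_keyC b kd k c1 c2 s3 s4 kc)
  have hs : ∀ (a : Fin (2 ^ d)) (r1 r2 : K d p × Fin (2 ^ d)), sg r1.1 = 64 → sg r2.1 = 64 →
      ∀ i, i < 66 → (sg (rw' a kd k r1 r2 i).1 = i ∨ (i = 65 ∧ sg (rw' a kd k r1 r2 i).1 = 64)) := by
    intro a r1 r2 s1 s2 i hi
    by_cases h : i < 62
    · left; rw [rw'_mk _ _ _ _ _ _ h]; rfl
    · have : i = 62 ∨ i = 63 ∨ i = 64 ∨ i = 65 := by omega
      rcases this with h | h | h | h
      · subst h; left; rw [rw'_62]; rfl
      · subst h; left; rw [rw'_63]; rfl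
      · subst h; left; rw [rw'_64]; exact s1
      · subst h; right; rw [rw'_65]; exact ⟨rfl, s2⟩
  have hr := hs a r1 r2 s1 s2
  have hc := hs b c1 c2 s3 s4
  have gr : ∀ i, i < 66 → Good Bd (rw' a kd k r1 r2 i).2 b := by
    intro i hi
    by_cases h : i < 62
    · rw [rw'_mk _ _ _ _ _ _ h]; exact gab
    · have : i = 62 ∨ i = 63 ∨ i = 64 ∨ i = 65 := by omega
      rcases this with h | h | h | h
      · subst h; rw [rw'_62]; exact gab
      · subst h; rw [rw'_63]; exact gab
      · subst h; rw [rw'_64]; exact gr1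
      · subst h; rw [rw'_65]; exact gr2
  have gc : ∀ i, i < 66 → Good Bd a (rw' b kd k c1 c2 i).2 := by
    intro i hi
    by_cases h : i < 62
    · rw [rw'_mk _ _ _ _ _ _ h]; exact gab
    · have : i = 62 ∨ i = 63 ∨ i = 64 ∨ i = 65 := by omega
      rcases this with h | h | h | h
      · subst h; rw [rw'_62]; exact gab
      · subst h; rw [rw'_63]; exact gab
      · subst h; rw [rw'_64]; exact gc1
      · subst h; rw [rw'_65]; exact gc2
  intro i j hi hj
  by_cases h1 : i < 62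
  · have e1 : Bd (rw' a kd k r1 r2 i) (rw' b kd k c1 c2 j)
        = ent (rw' a kd k r1 r2 i) (rw' b kd k c1 c2 j) := by
      have := gc j hj
      rw [rw'_mk _ _ _ _ _ _ h1]
      exact this _ _
    rw [e1, ent_left _ _ (by rw [rw'_mk _ _ _ _ _ _ h1]; exact h1)]
    have e2 : sg (rw' a kd k r1 r2 i).1 = i := by rw [rw'_mk _ _ _ _ _ _ h1]; rfl
    rw [e2]
    rcases hc j hj with h | ⟨h, h'⟩
    · rw [h]
    · rw [h', h, Hn_65_left i h1]
  by_cases h2 : j < 62
  · have e1 : Bd (rw' a kd k r1 r2 i) (rw' b kd k c1 c2 j)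
        = ent (rw' a kd k r1 r2 i) (rw' b kd k c1 c2 j) := by
      have := gr i hi
      rw [rw'_mk _ _ _ _ _ _ h2]
      exact this _ _
    rw [e1, ent_right _ _ (by rw [rw'_mk _ _ _ _ _ _ h2]; exact h2)]
    have e2 : sg (rw' b kd k c1 c2 j).1 = j := by rw [rw'_mk _ _ _ _ _ _ h2]; rfl
    rw [e2]
    rcases hr i hi with h | ⟨h, h'⟩
    · rw [h]
    · rw [h', h, Hn_65_right j h2]
  have hi4 : i = 62 ∨ i = 63 ∨ i = 64 ∨ i = 65 := by omega
  have hj4 : j = 62 ∨ j = 63 ∨ j = 64 ∨ j = 65 := by omega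
  rcases hi4 with rfl | rfl | rfl | rfl <;> rcases hj4 with rfl | rfl | rfl | rfl <;>
    simp only [rw'_62, rw'_63, rw'_64, rw'_65]
  · rw [gab, ent_rr rfl rfl]; simp; decide
  · rw [gab, ent_rr rfl rfl]; simp; decide
  · rw [gc1 _ c1.1, ent_rc rfl s3, m3]; decide
  · rw [gc2 _ c2.1, ent_rc rfl s4, m4']; decide
  · rw [gab, ent_rr rfl rfl]; simp; decide
  · rw [gab, ent_rr rfl rfl]; simp; decide
  · rw [gc1 _ c1.1, ent_rc rfl s3, m3']; decide
  · rw [gc2 _ c2.1, ent_rc rfl s4, m4]; decide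
  · rw [gr1 r1.1, ent_cr rfl s1, m1]; decide
  · rw [gr1 r1.1, ent_cr rfl s1, m1']; decide
  · rw [b11]; decide
  · rw [b12]; decide
  · rw [gr2 r2.1, ent_cr rfl s2, m2']; decide
  · rw [gr2 r2.1, ent_cr rfl s2, m2]; decide
  · rw [b21]; decide
  · rw [b22]; decide


lemma lo_lt_two_pow (x : Fin (2 ^ d)) : lo d 0 x = 0 := by
  have := x.2
  simp [lo, Nat.div_eq_of_lt]

lemma bit_cases (d k x : ℕ) : bit d k x = 0 ∨ bit d k x = 1 := by
  unfold bit; omega

variable (p) in
/-- level `k` end-type descriptor -/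
def eK (k : ℕ) (hk : k < d + 1) : K d p := .core true ⟨k, hk⟩

variable (p) in
/-- level `k` start-type descriptor -/
def sK (k : ℕ) (hk : k < d + 1) : K d p := .core false ⟨k, hk⟩

/-- label used at level `k` -/
def lab (a x : Fin (2 ^ d)) (k : ℕ) : Fin (2 ^ d) := if k = 0 then a else x

lemma lo_lab (a x : Fin (2 ^ d)) (k : ℕ) : lo d k (lab a x k) = lo d k x := by
  unfold lab
  split_ifs with h
  · subst h; rw [lo_lt_two_pow, lo_lt_two_pow]
  · rfl

lemma hi_lab (a x : Fin (2 ^ d)) (k : ℕ) : hi d k (lab a x k) = hi d k x := by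
  rw [hi, hi, lo_lab]

lemma lab_succ (a x : Fin (2 ^ d)) (k : ℕ) : lab a x (k + 1) = x := by simp [lab]

lemma chainM (hB : NoCopy Bd) (a b x : Fin (2 ^ d)) (gab : Good Bd a b) (gxb : Good Bd x b)
    (gax : Good Bd a x) (k : ℕ) (hk : k < d + 1) :
    Bd (eK p k hk, lab a x k) (sK p k hk, lab b x k) = true := by
  have gz : ∀ k, Good Bd (lab a x k) b := by
    intro k; unfold lab; split_ifs; exacts [gab, gxb]
  have gw : ∀ k, Good Bd a (lab b x k) := by
    intro k; unfold lab; split_ifs; exacts [gab, gax]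
  induction k with
  | zero =>
    have : Bd (eK p 0 hk, lab a x 0) (sK p 0 hk, lab b x 0) =
      ent (eK p 0 hk, lab a x 0) (sK p 0 hk, lab b x 0) := gab _ _
    rw [this]
    unfold eK sK
    rw [ent_core]
    simp only [al, be, if_true, Bool.false_eq_true, if_false, decide_eq_true_eq]
    rw [hi_lab, lo_lab, lo_lt_two_pow, hi, lo_lt_two_pow]
    positivity
  | succ k ih =>
    have hkd : k < d := by omega
    have hk' : k < d + 1 := by omega
    have ih := ih hk'
    have h1 : Bd (eK p k hk', lab a x k) (sK p (k + 1) hk, lab b x (k + 1)) = true := by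
      by_contra hcon
      rw [Bool.not_eq_true] at hcon
      refine step hB a b .r1 ⟨k, hkd⟩ (.dum, a) (eK p k hk', lab a x k)
        (sK p k hk', lab b x k) (sK p (k + 1) hk, lab b x (k + 1)) gab gab (gz k) (gw k)
        (gw (k + 1)) rfl rfl rfl rfl ?_ ?_ ?_ ?_ ?_ ?_ ?_ ?_ ?_ ?_ ?_ ?_ ih hcon
      · apply keyR_lt; left; simp [regR, eK]
      · apply keyC_lt; right
        refine ⟨rfl, ?_⟩
        simp only [tc, sK, sec, Bool.false_eq_true, if_false, lo_lab]
        have := lo_mono hkd x.1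
        omega
      all_goals first
        | (simp [mem, rr, cc, cl, bt, eK, sK]; done)
        | (simp [mem, rr, cc, cl, bt, eK, sK]; omega)
        | (rw [gw]; rfl)
    by_contra hcon
    rw [Bool.not_eq_true] at hcon
    have kr : keyR (eK p (k + 1) hk, lab a x (k + 1)) < keyR (eK p k hk', lab a x k) := by
      apply keyR_lt; right
      refine ⟨rfl, ?_⟩
      simp only [tc, eK, sec, if_true, hi_lab]
      have := hi_mono hkd x.1
      omega
    have kc : keyC (sK p (k + 1) hk, lab b x (k + 1)) < keyC ((.dum : K d p), b) := by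
      apply keyC_lt; left; simp [regC, sK]
    rcases bit_cases d (k + 1) x.1 with hb | hb
    · refine step hB a b .r2a ⟨k, hkd⟩ (eK p (k + 1) hk, lab a x (k + 1)) (eK p k hk', lab a x k)
        (sK p (k + 1) hk, lab b x (k + 1)) (.dum, b) gab (gz (k + 1)) (gz k) (gw (k + 1))
        gab rfl rfl rfl rfl kr kc ?_ ?_ ?_ ?_ ?_ ?_ ?_ ?_ hcon ?_ h1 ?_
      all_goals first
        | (simp [mem, rr, cc, cl, bt, eK, sK]; done)
        | (simp [mem, rr, cc, cl, bt, eK, sK]; omega)
        | (simp [mem, rr, cc, cl, bt, eK, sK, lab_succ, hb]; done)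
        | (simp [mem, rr, cc, cl, bt, eK, sK, lab_succ, hb]; omega)
        | (rw [gz]; rfl)
    · refine step hB a b .r2b ⟨k, hkd⟩ (eK p (k + 1) hk, lab a x (k + 1)) (eK p k hk', lab a x k)
        (sK p (k + 1) hk, lab b x (k + 1)) (.dum, b) gab (gz (k + 1)) (gz k) (gw (k + 1))
        gab rfl rfl rfl rfl kr kc ?_ ?_ ?_ ?_ ?_ ?_ ?_ ?_ hcon ?_ h1 ?_
      all_goals first
        | (simp [mem, rr, cc, cl, bt, eK, sK]; done)
        | (simp [mem, rr, cc, cl, bt, eK, sK]; omega)
        | (simp [mem, rr, cc, cl, bt, eK, sK, lab_succ, hb]; done)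
        | (simp [mem, rr, cc, cl, bt, eK, sK, lab_succ, hb]; omega)
        | (rw [gz]; rfl)


lemma leaf (hB : NoCopy Bd) (a b x : Fin (2 ^ d)) (gab : Good Bd a b) (gxb : Good Bd x b)
    (gax : Good Bd a x) (hd : 0 < d) :
    Bd (sK p d (Nat.lt_succ_self d), x) (eK p d (Nat.lt_succ_self d), x) = true := by
  have h0 := chainM (p := p) hB a b x gab gxb gax d (Nat.lt_succ_self d)
  have l1 : lab a x d = x := by simp [lab, hd.ne']
  have l2 : lab b x d = x := by simp [lab, hd.ne']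
  rw [l1, l2] at h0
  have h1 : Bd (eK p d (Nat.lt_succ_self d), x) (eK p d (Nat.lt_succ_self d), x) = true := by
    by_contra hcon
    rw [Bool.not_eq_true] at hcon
    refine step hB a b .r3 ⟨0, hd⟩ (.dum, a) (eK p d (Nat.lt_succ_self d), x)
      (sK p d (Nat.lt_succ_self d), x) (eK p d (Nat.lt_succ_self d), x) gab gab gxb gax
      gax rfl rfl rfl rfl ?_ ?_ ?_ ?_ ?_ ?_ ?_ ?_ ?_ ?_ ?_ ?_ h0 hcon
    · apply keyR_lt; left; simp [regR, eK]
    · apply keyC_lt; right
      refine ⟨rfl, ?_⟩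
      simp only [tc, sK, eK, sec, Bool.false_eq_true, if_false, if_true, hi, Nat.sub_self, pow_zero]
      omega
    all_goals first
      | (simp [mem, rr, cc, cl, bt, eK, sK]; done)
      | (simp [mem, rr, cc, cl, bt, eK, sK]; omega)
      | (rw [gax]; rfl)
  by_contra hcon
  rw [Bool.not_eq_true] at hcon
  refine step hB a b .r4 ⟨0, hd⟩ (sK p d (Nat.lt_succ_self d), x) (eK p d (Nat.lt_succ_self d), x)
    (eK p d (Nat.lt_succ_self d), x) (.dum, b) gab gxb gxb gax
    gab rfl rfl rfl rfl ?_ ?_ ?_ ?_ ?_ ?_ ?_ ?_ ?_ ?_ hcon ?_ h1 ?_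
  · apply keyR_lt; right
    refine ⟨rfl, ?_⟩
    simp only [tc, sK, eK, sec, Bool.false_eq_true, if_false, if_true, hi, Nat.sub_self, pow_zero]
    omega
  · apply keyC_lt; left; simp [regC, eK]
  all_goals first
    | (simp [mem, rr, cc, cl, bt, eK, sK]; done)
    | (simp [mem, rr, cc, cl, bt, eK, sK]; omega)
    | (rw [gxb]; rfl)

lemma chainM' (hB : NoCopy Bd) (a b x : Fin (2 ^ d)) (gab : Good Bd a b) (gxb : Good Bd x b)
    (gax : Good Bd a x) (hd : 0 < d) (j : ℕ) (hj : j ≤ d) (k : ℕ) (hkj : k = d - j)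
    (hk : k < d + 1) :
    Bd (sK p k hk, lab a x k) (eK p k hk, lab b x k) = true := by
  have gz : ∀ k, Good Bd (lab a x k) b := by
    intro k; unfold lab; split_ifs; exacts [gab, gxb]
  have gw : ∀ k, Good Bd a (lab b x k) := by
    intro k; unfold lab; split_ifs; exacts [gab, gax]
  induction j generalizing k with
  | zero =>
    have : k = d := by omega
    subst this
    have l1 : lab a x k = x := by simp [lab, hd.ne']
    have l2 : lab b x k = x := by simp [lab, hd.ne']
    rw [l1, l2]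
    exact leaf hB a b x gab gxb gax hd
  | succ j ih =>
    have hkd : k < d := by omega
    have hk2 : k + 1 < d + 1 := by omega
    have ih := ih (by omega) (k + 1) (by omega) hk2
    have kr : keyR (sK p k hk, lab a x k) < keyR (sK p (k + 1) hk2, lab a x (k + 1)) := by
      apply keyR_lt; right
      refine ⟨rfl, ?_⟩
      simp only [tc, sK, sec, Bool.false_eq_true, if_false, lo_lab]
      have := lo_mono hkd x.1
      omega
    have kc : keyC (eK p (k + 1) hk2, lab b x (k + 1)) < keyC ((.dum : K d p), b) := by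
      apply keyC_lt; left; simp [regC, eK]
    have h1 : Bd (sK p k hk, lab a x k) (eK p (k + 1) hk2, lab b x (k + 1)) = true := by
      by_contra hcon
      rw [Bool.not_eq_true] at hcon
      rcases bit_cases d (k + 1) x.1 with hb | hb
      · refine step hB a b .r5b ⟨k, hkd⟩ (sK p k hk, lab a x k) (sK p (k + 1) hk2, lab a x (k + 1))
          (eK p (k + 1) hk2, lab b x (k + 1)) (.dum, b) gab (gz k) (gz (k + 1)) (gw (k + 1))
          gab rfl rfl rfl rfl kr kc ?_ ?_ ?_ ?_ ?_ ?_ ?_ ?_ hcon ?_ ih ?_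
        all_goals first
          | (simp [mem, rr, cc, cl, bt, eK, sK]; done)
          | (simp [mem, rr, cc, cl, bt, eK, sK]; omega)
          | (simp [mem, rr, cc, cl, bt, eK, sK, lab_succ, hb]; done)
          | (simp [mem, rr, cc, cl, bt, eK, sK, lab_succ, hb]; omega)
          | (rw [gz]; rfl)
      · refine step hB a b .r5a ⟨k, hkd⟩ (sK p k hk, lab a x k) (sK p (k + 1) hk2, lab a x (k + 1))
          (eK p (k + 1) hk2, lab b x (k + 1)) (.dum, b) gab (gz k) (gz (k + 1)) (gw (k + 1))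
          gab rfl rfl rfl rfl kr kc ?_ ?_ ?_ ?_ ?_ ?_ ?_ ?_ hcon ?_ ih ?_
        all_goals first
          | (simp [mem, rr, cc, cl, bt, eK, sK]; done)
          | (simp [mem, rr, cc, cl, bt, eK, sK]; omega)
          | (simp [mem, rr, cc, cl, bt, eK, sK, lab_succ, hb]; done)
          | (simp [mem, rr, cc, cl, bt, eK, sK, lab_succ, hb]; omega)
          | (rw [gz]; rfl)
    by_contra hcon
    rw [Bool.not_eq_true] at hcon
    refine step hB a b .r6 ⟨k, hkd⟩ (.dum, a) (sK p k hk, lab a x k)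
      (eK p (k + 1) hk2, lab b x (k + 1)) (eK p k hk, lab b x k) gab gab (gz k) (gw (k + 1))
      (gw k) rfl rfl rfl rfl ?_ ?_ ?_ ?_ ?_ ?_ ?_ ?_ ?_ ?_ ?_ ?_ h1 hcon
    · apply keyR_lt; left; simp [regR, sK]
    · apply keyC_lt; right
      refine ⟨rfl, ?_⟩
      simp only [tc, eK, sec, if_true, hi_lab]
      have := hi_mono hkd x.1
      omega
    all_goals first
      | (simp [mem, rr, cc, cl, bt, eK, sK]; done)
      | (simp [mem, rr, cc, cl, bt, eK, sK]; omega)
      | (rw [gw]; rfl)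

lemma no_good (hB : NoCopy Bd) (a b x : Fin (2 ^ d)) (gab : Good Bd a b) (gxb : Good Bd x b)
    (gax : Good Bd a x) (hd : 0 < d) : False := by
  have h := chainM' (p := p) hB a b x gab gxb gax hd d le_rfl 0 (by omega) (by omega)
  have l1 : lab a x 0 = a := by simp [lab]
  have l2 : lab b x 0 = b := by simp [lab]
  rw [l1, l2, gab] at h
  unfold eK sK at h
  rw [ent_core] at h
  simp only [al, be, if_true, Bool.false_eq_true, if_false, decide_eq_true_eq, hi,
    lo_lt_two_pow] at h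
  have : 0 < 2 ^ (d - 0) := by positivity
  omega

end far

/-! ### assembly -/

/-- existence of an increasing copy -/
def HasCopy {n : ℕ} (B : Fin n → Fin n → Bool) : Prop :=
  ∃ f g : Fin 66 → Fin n, StrictMono f ∧ StrictMono g ∧ ∀ i j, B (f i) (g j) = H i j

lemma far_bound {d p n : ℕ} (hd : 0 < d) (er ec : Fin n ≃ K d p × Fin (2 ^ d))
    (her : ∀ i j, i ≤ j → keyR (er i) ≤ keyR (er j))
    (hec : ∀ i j, i ≤ j → keyC (ec i) ≤ keyC (ec j))
    (B : Fin n → Fin n → Bool) (hB : ¬ HasCopy B) :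
    2 ^ d * 2 ^ d ≤ 4 * (Finset.univ.filter (fun rc : Fin n × Fin n =>
      ent (er rc.1) (ec rc.2) ≠ B rc.1 rc.2)).card := by
  classical
  by_contra hcon
  push Not at hcon
  set D := Finset.univ.filter (fun rc : Fin n × Fin n =>
      ent (er rc.1) (ec rc.2) ≠ B rc.1 rc.2) with hD
  let bad : Finset (Fin (2 ^ d) × Fin (2 ^ d)) := D.image fun rc => ((er rc.1).2, (ec rc.2).2)
  have hb : bad.card ≤ D.card := Finset.card_image_le
  obtain ⟨a, b, x, h1, h2, h3⟩ := exists_good (2 ^ d) bad (by omega)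
  let Bd : K d p × Fin (2 ^ d) → K d p × Fin (2 ^ d) → Bool := fun s t => B (er.symm s) (ec.symm t)
  have hgood : ∀ a b, (a, b) ∉ bad → Good Bd a b := by
    intro a b hab s t
    by_contra hne
    apply hab
    simp only [bad, Finset.mem_image]
    refine ⟨(er.symm (s, a), ec.symm (t, b)), ?_, ?_⟩
    · rw [hD, Finset.mem_filter]
      refine ⟨Finset.mem_univ _, ?_⟩
      simp only [Equiv.apply_symm_apply]
      exact fun h => hne h.symm
    · simp
  have hNC : NoCopy Bd := by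
    intro u v hu hv he
    apply hB
    refine ⟨fun i => er.symm (u i), fun j => ec.symm (v j), ?_, ?_, ?_⟩
    · intro i j hij
      by_contra hle
      push Not at hle
      have := her _ _ hle
      simp only [Equiv.apply_symm_apply] at this
      exact absurd (hu i j hij j.2) (not_lt.mpr this)
    · intro i j hij
      by_contra hle
      push Not at hle
      have := hec _ _ hle
      simp only [Equiv.apply_symm_apply] at this
      exact absurd (hv i j hij j.2) (not_lt.mpr this)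
    · intro i j
      exact he i j i.2 j.2
  exact no_good hNC a b x (hgood _ _ h1) (hgood _ _ h2) (hgood _ _ h3) hd

lemma count_bound {d p n : ℕ} (er ec : Fin n ≃ K d p × Fin (2 ^ d))
    (her : ∀ i j, i ≤ j → keyR (er i) ≤ keyR (er j))
    (hec : ∀ i j, i ≤ j → keyC (ec i) ≤ keyC (ec j)) :
    Crest.CombinatoricsR.OrderedMatrix.orderedCopyCount H (fun i j => ent (er i) (ec j))
      ≤ n ^ 130 := by
  classical
  unfold Crest.CombinatoricsR.OrderedMatrix.orderedCopyCount
  have hmain : ∀ f g : Fin 66 → Fin n, StrictMono f → StrictMono g →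
      (∀ i j, ent (er (f i)) (ec (g j)) = H i j) →
      ∃ x : Fin (2 ^ d), er (f 64) = (.core false (Fin.last d), x) ∧
        er (f 65) = (.core true (Fin.last d), x) ∧ ec (g 64) = (.core true (Fin.last d), x) := by
    intro f g hf hg he
    let u : ℕ → K d p × Fin (2 ^ d) := fun i => er (f (Fin.ofNat 66 i))
    let v : ℕ → K d p × Fin (2 ^ d) := fun i => ec (g (Fin.ofNat 66 i))
    have hofn : ∀ i j : ℕ, i < j → j < 66 → Fin.ofNat 66 i < Fin.ofNat 66 j := by
      intro i j hij hj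
      rw [Fin.lt_def]
      simp only [Fin.val_ofNat]
      rw [Nat.mod_eq_of_lt (by omega), Nat.mod_eq_of_lt hj]
      exact hij
    have c : Cp d p (2 ^ d) u v := by
      refine ⟨?_, ?_, ?_⟩
      · intro i j hij hj
        exact her _ _ (hf (hofn i j hij hj)).le
      · intro i j hij hj
        exact hec _ _ (hg (hofn i j hij hj)).le
      · intro i j hi hj
        show ent (er (f (Fin.ofNat 66 i))) (ec (g (Fin.ofNat 66 j))) = Hn i j
        rw [he, H]
        simp only [Fin.val_ofNat]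
        rw [Nat.mod_eq_of_lt hi, Nat.mod_eq_of_lt hj]
    exact c.main
  have hcard : Fintype.card ((Fin 65 → Fin n) × (Fin 65 → Fin n)) = n ^ 130 := by
    simp only [Fintype.card_prod, Fintype.card_fun, Fintype.card_fin]
    rw [← pow_add]
  rw [← hcard]
  apply Fintype.card_le_of_injective
    (f := fun rc => (fun i => rc.1.1 ((65 : Fin 66).succAbove i), fun i => rc.1.2 ((64 : Fin 66).succAbove i)))
  rintro ⟨⟨f, g⟩, hf, hg, he⟩ ⟨⟨f', g'⟩, hf', hg', he'⟩ heq
  simp only [Prod.mk.injEq] at heq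
  obtain ⟨e1, e2⟩ := heq
  have q1 : ∀ i, i ≠ (65 : Fin 66) → f i = f' i := by
    intro i hi
    obtain ⟨k, hk⟩ := Fin.exists_succAbove_eq hi
    rw [← hk]; exact congrFun e1 k
  have q2 : ∀ i, i ≠ (64 : Fin 66) → g i = g' i := by
    intro i hi
    obtain ⟨k, hk⟩ := Fin.exists_succAbove_eq hi
    rw [← hk]; exact congrFun e2 k
  obtain ⟨x, x1, x2, x3⟩ := hmain f g hf hg he
  obtain ⟨y, y1, y2, y3⟩ := hmain f' g' hf' hg' he'
  have hxy : x = y := by
    have := q1 64 (by decide)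
    rw [this, y1] at x1
    exact (Prod.mk.inj x1).2.symm
  subst hxy
  have q1' : f = f' := by
    ext i
    by_cases hi : i = 65
    · subst hi
      have : f 65 = f' 65 := er.injective (by rw [x2, y2])
      rw [this]
    · rw [q1 i hi]
  have q2' : g = g' := by
    ext i
    by_cases hi : i = 64
    · subst hi
      have : g 64 = g' 64 := ec.injective (by rw [x3, y3])
      rw [this]
    · rw [q2 i hi]
  subst q1'
  subst q2'
  rfl

lemma final_arith (m : ℕ) (L N c : ℝ) (h : ℕ) (hL : 0 < L) (hN : N = L * 2 ^ h) (hc : c ≤ N ^ m) :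
    c / N ^ (m + 2) ≤ (L ^ 2)⁻¹ * (2 : ℝ)⁻¹ ^ h := by
  have hNpos : 0 < N := by rw [hN]; positivity
  rw [div_le_iff₀ (by positivity)]
  refine hc.trans ?_
  have e2 : (L ^ 2)⁻¹ * (2 : ℝ)⁻¹ ^ h * N ^ (m + 2) = N ^ m * 2 ^ h := by
    rw [pow_add, hN, inv_pow]
    have : (2 : ℝ) ^ h ≠ 0 := by positivity
    have := hL.ne'
    field_simp
  rw [e2]
  have e3 : (1 : ℝ) ≤ 2 ^ h := one_le_pow₀ (by norm_num)
  exact le_mul_of_one_le_right (by positivity) e3

/-- There is a fixed 66 × 66 binary pattern H such that for every h ≥ 1, with n = (386h + 2) · 2^h and ε = (386h + 2)⁻², some n × n binary matrix A is ε-far from free of ordered copies of H (every n × n binary matrix without an ordered copy of H differs from A in at least ε · n² cells) while the number of ordered copies of H in A is at most ε · 2^(-h) · n^132. An ordered copy picks 66 rows and 66 columns in increasing order on which A coincides with H, zeros included. -/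
theorem result :
    ∃ H : Fin 66 → Fin 66 → Bool, ∀ h : ℕ, 1 ≤ h →
      ∃ A : Fin ((386 * h + 2) * 2 ^ h) → Fin ((386 * h + 2) * 2 ^ h) → Bool,
        (∀ B : Fin ((386 * h + 2) * 2 ^ h) → Fin ((386 * h + 2) * 2 ^ h) → Bool,
          Crest.CombinatoricsR.OrderedMatrix.orderedCopyCount H B = 0 →
            ((386 * (h : ℝ) + 2) ^ 2)⁻¹ * (((386 * h + 2) * 2 ^ h : ℕ) : ℝ) ^ 2 ≤
              ((Finset.univ.filter (fun rc : Fin ((386 * h + 2) * 2 ^ h) × Fin ((386 * h + 2) * 2 ^ h) =>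
                A rc.1 rc.2 ≠ B rc.1 rc.2)).card : ℝ)) ∧
        (Crest.CombinatoricsR.OrderedMatrix.orderedCopyCount H A : ℝ) /
            (((386 * h + 2) * 2 ^ h : ℕ) : ℝ) ^ 132 ≤
          ((386 * (h : ℝ) + 2) ^ 2)⁻¹ * (2 : ℝ)⁻¹ ^ h := by
  refine ⟨H, fun h hh => ?_⟩
  have hcard : Fintype.card (K (h + 1) (175 * h - 82) × Fin (2 ^ (h + 1))) =
      (386 * h + 2) * 2 ^ h := by
    rw [Fintype.card_prod, card_K, Fintype.card_fin, pow_succ]
    have : 18 * (h + 1) + 65 + (175 * h - 82) = 193 * h + 1 := by omega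
    rw [this]; ring
  obtain ⟨er, her⟩ := exists_sorted ((386 * h + 2) * 2 ^ h) hcard keyR
  obtain ⟨ec, hec⟩ := exists_sorted ((386 * h + 2) * 2 ^ h) hcard keyC
  have hL : (0 : ℝ) < 386 * (h : ℝ) + 2 := by positivity
  have hn : (((386 * h + 2) * 2 ^ h : ℕ) : ℝ) = (386 * (h : ℝ) + 2) * 2 ^ h := by push_cast; ring
  refine ⟨fun i j => ent (er i) (ec j), ?_, ?_⟩
  · intro B hB
    have hB' : ¬ HasCopy B := by
      rintro ⟨f, g, hf, hg, he⟩
      unfold Crest.CombinatoricsR.OrderedMatrix.orderedCopyCount at hB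
      rw [Fintype.card_eq_zero_iff] at hB
      exact hB.false ⟨(f, g), hf, hg, he⟩
    have hb := far_bound (Nat.succ_pos h) er ec her hec B hB'
    have h4 : (2 : ℕ) ^ (h + 1) * 2 ^ (h + 1) = 4 * (2 ^ h * 2 ^ h) := by ring
    rw [h4] at hb
    have hb' := Nat.le_of_mul_le_mul_left hb (by norm_num)
    have hb'' := (Nat.cast_le (α := ℝ)).mpr hb'
    refine le_trans (le_of_eq ?_) hb''
    rw [hn]
    push_cast
    field_simp
  · have hc := count_bound er ec her hec
    have hc' : ((Crest.CombinatoricsR.OrderedMatrix.orderedCopyCount H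
      (fun i j => ent (er i) (ec j)) : ℕ) : ℝ) ≤ (((386 * h + 2) * 2 ^ h : ℕ) : ℝ) ^ 130 := by
      exact_mod_cast hc
    exact final_arith 130 _ _ _ h hL hn hc'

end Crest.Agent.S0066
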