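import Crest.Statements.S0094
import Crest.Agent.S94.Good
import Crest.Agent.S94.Codes
import Crest.Agent.S94.Rows
import Crest.Agent.S94.Conflict
import Crest.Agent.S94.Geometry
import Crest.Agent.S94.Numeric

set_option autoImplicit false
open Pointwise Crest.AnalysisR
open Crest Crest.AnalysisR

namespace Crest.Agent.S0094

open Crest.Agent.S94 in
theorem main (a b : ℝ) (ha : 1 ≤ a) (hb : 1 ≤ b) :
    ∃ n : ℕ, 0 < n ∧ ∃ K : Set (EuclideanSpace ℝ (Fin n)),
      Convex ℝ K ∧ IsCompact K ∧ (interior K).Nonempty ∧ (∀ x ∈ K, -x ∈ K) ∧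
      ∃ t₁ : Finset (EuclideanSpace ℝ (Fin n)),
        polarSet {x : EuclideanSpace ℝ (Fin n) | ∀ i, |x i| ≤ 1} ⊆ ⋃ y ∈ t₁, (y +ᵥ a⁻¹ • polarSet K) ∧
        ∀ t₂ : Finset (EuclideanSpace ℝ (Fin n)),
          K ⊆ ⋃ x ∈ t₂, (x +ᵥ {z : EuclideanSpace ℝ (Fin n) | ∀ i, |z i| ≤ 1}) →
          b * Real.log t₁.card < Real.log t₂.card := by
  classical
  -- parameters
  obtain ⟨h, hh27⟩ := exists_nat_ge (27 * a)
  have hh0 : 0 < h := by
    have : (0:ℝ) < h := by linarith
    exact_mod_cast this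
  obtain ⟨q, hq⟩ := exists_nat_gt (2 * b * h)
  have hq0 : 0 < q := by
    have h1 : (0:ℝ) ≤ 2 * b * h := by positivity
    have : (0:ℝ) < q := by linarith
    exact_mod_cast this
  set t : ℕ := 2 ^ h with ht
  set N : ℕ := h * (t * q ^ t) + t with hN
  have ht0 : 0 < t := by positivity
  have hN0 : 0 < N := by omega
  have hN1 : h * (t * q ^ t) ≤ N := by omega
  have hN2 : t * q ^ t + t ≤ N := by
    have : 1 * (t * q ^ t) ≤ h * (t * q ^ t) := Nat.mul_le_mul_right _ hh0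
    omega
  choose I hI1 hI2 using fun J : JJ N q => exists_good (t := t) hq0 hN2 J.1 J.2
  obtain ⟨C0, hC0, hdual⟩ := dual_codes hN0 hq0 hh0 hN1 I hI1
  have hD : 2 * b * ((h * q ^ (N - 1) : ℕ) : ℝ) < ((q ^ N : ℕ) : ℝ) := by
    have e : q ^ N = q * q ^ (N - 1) := by
      rw [← pow_succ']; congr 1; omega
    rw [e]; push_cast
    have hp : (0:ℝ) < (q:ℝ) ^ (N - 1) := by positivity
    calc 2 * b * (h * (q:ℝ) ^ (N - 1)) = (2 * b * h) * (q:ℝ) ^ (N - 1) := by ring
      _ < q * (q:ℝ) ^ (N - 1) := by exact mul_lt_mul_of_pos_right hq hp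
  obtain ⟨m, hm0, hnum⟩ := numeric b hb C0 (h * q ^ (N - 1)) (q ^ N) hC0 hD
  obtain ⟨κ, hκ, code, hcard, hcode⟩ := hdual m hm0
  have hcardX : Fintype.card (Fin N → Fin q) = q ^ N := by simp
  have : Nonempty (Cols N q m) :=
    ⟨(⟨∅, by simp⟩, fun _ => ⟨0, hm0⟩)⟩
  obtain ⟨n, hn, K, hc, hk, hi, hs, t₁, ht₁, hcov, hrows⟩ :=
    geometry a ha (P := Cols N q m) (Y := (Fin N → Fin q) → Fin m) (κ := κ)
      (FF h I) h hh27 code hcode
      (fun k => m ^ (q ^ N) ≤ k * (2 ^ (q ^ N) * m ^ (q ^ N / 2)))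
      (by
        intro k c hcc
        have := rows_bound (X := Fin N → Fin q) (C := Fin k) m hm0 c (by
          intro y y' hy
          rw [hcardX]
          exact conflict hh0 I hI2 y y' (hcc y y' hy))
        rw [hcardX, Fintype.card_fin] at this
        exact this)
  refine ⟨n, hn, K, hc, hk, hi, hs, t₁, hcov, fun t₂ ht₂ => ?_⟩
  exact hnum t₁.card t₂.card (ht₁.trans hcard) (hrows t₂ ht₂)

/-- For all real a, b ≥ 1 there are n ≥ 1 and a compact convex set K in Euclidean n-space with nonempty interior, symmetric about 0, such that, with L the cube of points having all coordinates in [-1, 1] and polars taken for the standard inner product (the y pairing to at most 1 with each point of the set): some m translates of a⁻¹ • (polar of K) cover the polar of L, while any k translates of L covering K satisfy b * log m < log k. So log N(K, L) > b log N(L°, a⁻¹K°) for covering numbers N. -/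
theorem result
    (a b : ℝ) (ha : 1 ≤ a) (hb : 1 ≤ b) :
    ∃ n : ℕ, 0 < n ∧ ∃ K : Set (EuclideanSpace ℝ (Fin n)),
      Convex ℝ K ∧ IsCompact K ∧ (interior K).Nonempty ∧ (∀ x ∈ K, -x ∈ K) ∧
      ∃ t₁ : Finset (EuclideanSpace ℝ (Fin n)),
        polarSet {x : EuclideanSpace ℝ (Fin n) | ∀ i, |x i| ≤ 1} ⊆ ⋃ y ∈ t₁, (y +ᵥ a⁻¹ • polarSet K) ∧
        ∀ t₂ : Finset (EuclideanSpace ℝ (Fin n)),
          K ⊆ ⋃ x ∈ t₂, (x +ᵥ {z : EuclideanSpace ℝ (Fin n) | ∀ i, |z i| ≤ 1}) →
          b * Real.log t₁.card < Real.log t₂.card := by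
  exact main a b ha hb

end Crest.Agent.S0094
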