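import Crest.Agent.S0109M
import Crest.Prelude.Def_QuadraticTransport

set_option autoImplicit false

namespace Crest.Agent.S0109

open MeasureTheory Filter Set
open scoped Topology ENNReal RealInnerProductSpace
open Crest.AnalysisR.OT

variable {d : ℕ}

lemma restrict_eq_smul_uniform {K : Set (Eu d)} (h0 : volume K ≠ 0) (h1 : volume K ≠ ∞) :
    (volume.restrict K : Measure (Eu d)) = volume K • uniformProbOn K := by
  rw [uniformProbOn, smul_smul, ENNReal.mul_inv_cancel h0 h1, one_smul]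

lemma opt_transfer {K : Set (Eu d)} (h0 : volume K ≠ 0) (h1 : volume K ≠ ∞)
    (μ : Measure (Eu d)) (T : Eu d → Eu d) (hT : IsOptimalMap (uniformProbOn K) μ T) :
    (volume.restrict K).map T = volume K • μ ∧
    ∀ S : Eu d → Eu d, Measurable S → (volume.restrict K).map S = volume K • μ →
      ∫⁻ x in K, ‖x - T x‖ₑ ^ 2 ≤ ∫⁻ x in K, ‖x - S x‖ₑ ^ 2 := by
  obtain ⟨hTm, hTμ, hopt⟩ := hT
  constructor
  · rw [restrict_eq_smul_uniform h0 h1, Measure.map_smul, hTμ]
  · intro S hSm hS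
    have h2 : (uniformProbOn K).map S = μ := by
      rw [uniformProbOn, Measure.map_smul, hS, smul_smul, ENNReal.inv_mul_cancel h0 h1, one_smul]
    have h3 := hopt S hSm h2
    rw [restrict_eq_smul_uniform h0 h1, lintegral_smul_measure, lintegral_smul_measure]
    exact mul_le_mul_right h3 _

theorem core (hd : 0 < d) {K : Set (Eu d)} (hK : IsCompact K) (hKc : Convex ℝ K)
    (hKi : (interior K).Nonempty) {Y : Set (Eu d)} (hY : IsCompact Y) (hYn : Y.Nonempty)
    (R : ℝ) (hR : 0 < R) (hKR : ∀ x ∈ K, ‖x‖ ≤ R) (hYR : ∀ x ∈ Y, ‖x‖ ≤ R)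
    (x₀ : Eu d) (r : ℝ) (hr : 0 < r) (hball : Metric.closedBall x₀ r ⊆ K)
    (μ ν : Measure (Eu d)) (hμ : IsProbabilityOn Y μ) (hν : IsProbabilityOn Y ν)
    (T S : Eu d → Eu d) (hT : IsOptimalMap (uniformProbOn K) μ T)
    (hS : IsOptimalMap (uniformProbOn K) ν S)
    (π : Measure (Eu d × Eu d)) (hπ : IsPairCoupling μ ν π)
    (v : Eu d) (hv : ‖v‖ ≤ 1) (h : ℝ) (hh : 0 < h) (δ : ℝ) (hδ : 0 < δ) :
    ∫ x in K, ⟪T x - S x, v⟫ ^ 2 ≤
      4 / h ^ 2 * (8 * R ^ 2 * (volume.real K * (2 * (∫ p, ‖p.1 - p.2‖ ^ 2 ∂π) + 8 * δ ^ 2)))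
      + 20 * R ^ 2 * (volume.real K * (d * (h / r)))
      + 12 * R / h * (4 * R * δ * volume.real K) := by
  have hKfin : volume K ≠ ∞ := hK.measure_lt_top.ne
  have hKn : K.Nonempty := hKi.mono interior_subset
  have hK0 : volume K ≠ 0 := (Measure.measure_pos_of_nonempty_interior volume hKi).ne'
  have hκ : 0 < volume.real K := ENNReal.toReal_pos hK0 hKfin
  obtain ⟨hμp, hμY⟩ := hμ
  obtain ⟨hνp, hνY⟩ := hν
  obtain ⟨hπ1, hπ2⟩ := hπ
  have hπp : IsProbabilityMeasure π := by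
    constructor
    have := hμp.measure_univ
    rw [← hπ1, Measure.map_apply measurable_fst MeasurableSet.univ] at this
    simpa using this
  obtain ⟨A, θ, hθm, hθA, hAY, hθδ⟩ := exists_quant hY hYn hδ
  obtain ⟨ι, _, _, m, y, z, hm, hmass, hy, hz, hgy, hgz, hcost⟩ :=
    exists_discr (volume.real K) hκ π A θ hθm hθA
  have hyR : ∀ i, ‖y i‖ ≤ R := fun i => hYR _ (hAY _ (hy i))
  have hzR : ∀ i, ‖z i‖ ≤ R := fun i => hYR _ (hAY _ (hz i))
  obtain ⟨cy, -, hcy⟩ := exists_min hK (adm_one hmass) hm R hKR y hyR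
  obtain ⟨cz, -, hcz⟩ := exists_min hK (adm_one hmass) hm R hKR z hzR
  have hL2 := L2_discrete hK hKc hKi R hR hKR m hm hmass y z hyR hzR cy cz hcy hcz
  obtain ⟨hTμ, hTopt⟩ := opt_transfer hK0 hKfin μ T hT
  obtain ⟨hSν, hSopt⟩ := opt_transfer hK0 hKfin ν S hS
  -- facts on the measures
  have haeY : ∀ ρ : Measure (Eu d), ρ Yᶜ = 0 → ∀ᵐ p ∂(volume K • ρ), p ∈ Y := by
    intro ρ hρ
    have : ∀ᵐ p ∂ρ, p ∈ Y := hρ
    exact Measure.ae_smul_measure this _
  have huniv : ∀ ρ : Measure (Eu d), IsProbabilityMeasure ρ → (volume K • ρ) univ = volume K := by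
    intro ρ hρ
    rw [Measure.smul_apply, measure_univ, smul_eq_mul, mul_one]
  have hfib : ∀ (ρ : Measure (Eu d)), IsProbabilityMeasure ρ → ∀ s : Set (Eu d),
      (volume K • ρ) s = ENNReal.ofReal (volume.real K * ρ.real s) := by
    intro ρ hρ s
    rw [Measure.smul_apply, smul_eq_mul, ENNReal.ofReal_mul hκ.le, Measure.real, Measure.real,
      ENNReal.ofReal_toReal hKfin, ENNReal.ofReal_toReal (measure_ne_top ρ s)]
  obtain ⟨eT, heTm, heT0, heTi, heTb, subT⟩ := near_opt hd hK hKn R hR.le hKR m hm hmass y cy hcy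
    (volume K • μ) (huniv μ hμp) θ hθm δ
    (by filter_upwards [haeY μ hμY] with p hp using hθδ p hp)
    (fun i => by rw [hfib μ hμp, hgy i, hπ1]) T hT.1 hTμ
    (by filter_upwards [haeY μ hμY] with p hp using hYR p hp) hTopt
  obtain ⟨eS, heSm, heS0, heSi, heSb, subS⟩ := near_opt hd hK hKn R hR.le hKR m hm hmass z cz hcz
    (volume K • ν) (huniv ν hνp) θ hθm δ
    (by filter_upwards [haeY ν hνY] with p hp using hθδ p hp)
    (fun i => by rw [hfib ν hνp, hgz i, hπ2]) S hS.1 hSν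
    (by filter_upwards [haeY ν hνY] with p hp using hYR p hp) hSopt
  have hTb : ∀ᵐ x ∂(volume.restrict K), ‖T x‖ ≤ R := by
    have : ∀ᵐ p ∂((volume.restrict K).map T), ‖p‖ ≤ R := by
      rw [hTμ]; filter_upwards [haeY μ hμY] with p hp using hYR p hp
    exact ae_of_ae_map hT.1.aemeasurable this
  have hSb : ∀ᵐ x ∂(volume.restrict K), ‖S x‖ ≤ R := by
    have : ∀ᵐ p ∂((volume.restrict K).map S), ‖p‖ ≤ R := by
      rw [hSν]; filter_upwards [haeY ν hνY] with p hp using hYR p hp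
    exact ae_of_ae_map hS.1.aemeasurable this
  set mb := (∫ x in K, (pot y cy x - pot z cz x)) / (volume K).toReal with hmb
  have hGN := GN hd hK hKc R hR.le x₀ r hr hball T S hT.1 hS.1 hTb hSb
    (pot y cy) (fun x => pot z cz x + mb) (continuous_pot y cy) ((continuous_pot z cz).add continuous_const)
    eT eS heT0 heS0 heTi heSi subT
    (fun x hx x' hx' => by have := subS x hx x' hx'; linarith) v hv h hh
  -- cost
  have hQ : ∫ p, ‖θ p.1 - θ p.2‖ ^ 2 ∂π ≤ 2 * (∫ p, ‖p.1 - p.2‖ ^ 2 ∂π) + 8 * δ ^ 2 := by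
    have h1 : ∀ᵐ p ∂π, p.1 ∈ Y := by
      have : ∀ᵐ q ∂(π.map Prod.fst), q ∈ Y := by rw [hπ1]; exact hμY
      exact ae_of_ae_map measurable_fst.aemeasurable this
    have h2 : ∀ᵐ p ∂π, p.2 ∈ Y := by
      have : ∀ᵐ q ∂(π.map Prod.snd), q ∈ Y := by rw [hπ2]; exact hνY
      exact ae_of_ae_map measurable_snd.aemeasurable this
    have i1 : Integrable (fun p : Eu d × Eu d => ‖p.1 - p.2‖ ^ 2) π := by
      refine Integrable.of_bound ?_ ((2 * R) ^ 2) ?_
      · exact (by fun_prop : Measurable (fun p : Eu d × Eu d => ‖p.1 - p.2‖ ^ 2)).aestronglyMeasurable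
      · filter_upwards [h1, h2] with p hp1 hp2
        rw [Real.norm_eq_abs, abs_of_nonneg (by positivity)]
        have : ‖p.1 - p.2‖ ≤ 2 * R := (norm_sub_le _ _).trans (by linarith [hYR _ hp1, hYR _ hp2])
        gcongr
    have i2 : Integrable (fun p : Eu d × Eu d => ‖θ p.1 - θ p.2‖ ^ 2) π := by
      refine Integrable.of_bound ?_ ((2 * R) ^ 2) ?_
      · exact (by fun_prop : Measurable (fun p : Eu d × Eu d => ‖θ p.1 - θ p.2‖ ^ 2)).aestronglyMeasurable
      · apply Eventually.of_forall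
        intro p
        rw [Real.norm_eq_abs, abs_of_nonneg (by positivity)]
        have : ‖θ p.1 - θ p.2‖ ≤ 2 * R := (norm_sub_le _ _).trans
          (by linarith [hYR _ (hAY _ (hθA p.1)), hYR _ (hAY _ (hθA p.2))])
        gcongr
    calc ∫ p, ‖θ p.1 - θ p.2‖ ^ 2 ∂π ≤ ∫ p, (2 * ‖p.1 - p.2‖ ^ 2 + 8 * δ ^ 2) ∂π := by
          apply integral_mono_ae i2 ((i1.const_mul 2).add (integrable_const _))
          filter_upwards [h1, h2] with p hp1 hp2
          have h3 : ‖θ p.1 - θ p.2‖ ≤ ‖p.1 - p.2‖ + 2 * δ := by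
            have e : θ p.1 - θ p.2 = (θ p.1 - p.1) + (p.1 - p.2) + (p.2 - θ p.2) := by abel
            rw [e]
            have n1 := norm_add_le ((θ p.1 - p.1) + (p.1 - p.2)) (p.2 - θ p.2)
            have n2 := norm_add_le (θ p.1 - p.1) (p.1 - p.2)
            have n3 := hθδ _ hp1
            have n4 := hθδ _ hp2
            rw [norm_sub_rev] at n4
            linarith
          show ‖θ p.1 - θ p.2‖ ^ 2 ≤ 2 * ‖p.1 - p.2‖ ^ 2 + 8 * δ ^ 2
          have h4 : ‖θ p.1 - θ p.2‖ ^ 2 ≤ (‖p.1 - p.2‖ + 2 * δ) ^ 2 := by gcongr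
          nlinarith [sq_nonneg (‖p.1 - p.2‖ - 2 * δ)]
      _ = 2 * (∫ p, ‖p.1 - p.2‖ ^ 2 ∂π) + 8 * δ ^ 2 := by
          rw [integral_add (i1.const_mul 2) (integrable_const _), integral_const_mul,
            integral_const]
          simp
  have hu : ∫ x in K, (pot y cy x - (pot z cz x + mb)) ^ 2
      ≤ 8 * R ^ 2 * (volume.real K * (2 * (∫ p, ‖p.1 - p.2‖ ^ 2 ∂π) + 8 * δ ^ 2)) := by
    have e : ∫ x in K, (pot y cy x - (pot z cz x + mb)) ^ 2
        = ∫ x in K, (pot y cy x - pot z cz x - mb) ^ 2 := by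
      apply integral_congr_ae
      apply Eventually.of_forall
      intro x
      show (pot y cy x - (pot z cz x + mb)) ^ 2 = (pot y cy x - pot z cz x - mb) ^ 2
      ring
    rw [e]
    refine hL2.trans ?_
    rw [hcost]
    gcongr
  have hee : (∫ x in K, eT x) + ∫ x in K, eS x ≤ 4 * R * δ * volume.real K := by
    rw [Measure.real]; linarith
  refine hGN.trans ?_
  show 4 / h ^ 2 * (∫ x in K, (pot y cy x - (pot z cz x + mb)) ^ 2) + _ + _ ≤ _
  gcongr

end Crest.Agent.S0109
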