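import Crest.Statements.S0109
import Crest.Agent.S0109N

set_option autoImplicit false
open MeasureTheory
open scoped ENNReal NNReal
open Crest.AnalysisR.OT
open Crest Crest.AnalysisR Crest.AnalysisR.OT

namespace Crest.Agent.S0109

open Filter Set in
open scoped Topology RealInnerProductSpace in
theorem final_bound
    {d : ℕ} (hd : 0 < d) {K : Set (Eu d)} (hK : IsCompact K) (hKc : Convex ℝ K)
    (hKi : (interior K).Nonempty) {Y : Set (Eu d)} (hY : IsCompact Y) (hYn : Y.Nonempty)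
    (R : ℝ) (hR : 0 < R) (hKR : ∀ x ∈ K, ‖x‖ ≤ R) (hYR : ∀ x ∈ Y, ‖x‖ ≤ R)
    (x₀ : Eu d) (r : ℝ) (hr : 0 < r) (hball : Metric.closedBall x₀ r ⊆ K)
    (μ ν : Measure (Eu d)) (hμ : IsProbabilityOn Y μ) (hν : IsProbabilityOn Y ν)
    (T S : Eu d → Eu d) (hT : IsOptimalMap (uniformProbOn K) μ T)
    (hS : IsOptimalMap (uniformProbOn K) ν S)
    (π : Measure (Eu d × Eu d)) (hπ : IsPairCoupling μ ν π) :
    ∫ x in K, ‖T x - S x‖ ^ 2 ≤
      volume.real K * (d * (R ^ 2 * (64 + 20 * (d / r)))) * (∫ p, ‖p.1 - p.2‖ ^ 2 ∂π) ^ (1 / 3 : ℝ) := by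
  set Q := ∫ p, ‖p.1 - p.2‖ ^ 2 ∂π with hQ
  have hQ0 : 0 ≤ Q := integral_nonneg (fun p => by positivity)
  have hκ : 0 ≤ volume.real K := measureReal_nonneg
  -- step 1: δ → 0
  have s1 : ∀ v : Eu d, ‖v‖ ≤ 1 → ∀ h : ℝ, 0 < h → ∫ x in K, ⟪T x - S x, v⟫ ^ 2 ≤
      volume.real K * R ^ 2 * (64 * (Q / h ^ 2) + 20 * (d / r) * h) := by
    intro v hv h hh
    have hlim : Tendsto (fun δ : ℝ => 4 / h ^ 2 * (8 * R ^ 2 * (volume.real K * (2 * Q + 8 * δ ^ 2)))
      + 20 * R ^ 2 * (volume.real K * (d * (h / r)))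
      + 12 * R / h * (4 * R * δ * volume.real K)) (𝓝[>] 0)
      (𝓝 (4 / h ^ 2 * (8 * R ^ 2 * (volume.real K * (2 * Q + 8 * (0 : ℝ) ^ 2)))
      + 20 * R ^ 2 * (volume.real K * (d * (h / r)))
      + 12 * R / h * (4 * R * 0 * volume.real K))) := by
      refine Tendsto.mono_left ?_ nhdsWithin_le_nhds
      exact Continuous.tendsto (by fun_prop) 0
    have h1 := ge_of_tendsto hlim (by
      filter_upwards [self_mem_nhdsWithin] with δ hδ
      exact core hd hK hKc hKi hY hYn R hR hKR hYR x₀ r hr hball μ ν hμ hν T S hT hS π hπ v hv h hh δ hδ)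
    refine h1.trans (le_of_eq ?_)
    field_simp
    ring
  -- step 2: choose h
  have s2 : ∀ v : Eu d, ‖v‖ ≤ 1 → ∫ x in K, ⟪T x - S x, v⟫ ^ 2 ≤
      volume.real K * R ^ 2 * (64 + 20 * (d / r)) * Q ^ (1 / 3 : ℝ) := by
    intro v hv
    rcases eq_or_lt_of_le hQ0 with h0 | h0
    · rw [← h0, Real.zero_rpow (by norm_num), mul_zero]
      have hlim : Tendsto (fun h : ℝ => volume.real K * R ^ 2 * (20 * (d / r) * h)) (𝓝[>] 0)
          (𝓝 (volume.real K * R ^ 2 * (20 * (d / r) * 0))) := by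
        refine Tendsto.mono_left ?_ nhdsWithin_le_nhds
        exact Continuous.tendsto (by fun_prop) 0
      have h1 := ge_of_tendsto hlim (by
        filter_upwards [self_mem_nhdsWithin] with h hh
        have := s1 v hv h hh
        rw [← h0] at this
        simpa using this)
      simpa using h1
    · have hh : 0 < Q ^ (1 / 3 : ℝ) := Real.rpow_pos_of_pos h0 _
      have h1 := s1 v hv _ hh
      have h2 : Q / (Q ^ (1 / 3 : ℝ)) ^ 2 = Q ^ (1 / 3 : ℝ) := by
        rw [div_eq_iff (by positivity)]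
        have : (Q ^ (1 / 3 : ℝ)) ^ 3 = Q := by
          rw [← Real.rpow_natCast, ← Real.rpow_mul h0.le]
          norm_num
        calc Q = (Q ^ (1 / 3 : ℝ)) ^ 3 := this.symm
          _ = _ := by ring
      rw [h2] at h1
      refine h1.trans (le_of_eq ?_)
      ring
  -- step 3: sum over the coordinates
  have hTm := hT.1
  have hSm := hS.1
  have hK0 : volume K ≠ 0 := (Measure.measure_pos_of_nonempty_interior volume hKi).ne'
  have hKfin : volume K ≠ ∞ := hK.measure_lt_top.ne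
  have hbd : ∀ (ρ : Measure (Eu d)) (U : Eu d → Eu d), IsProbabilityOn Y ρ →
      IsOptimalMap (uniformProbOn K) ρ U → ∀ᵐ x ∂(volume.restrict K), ‖U x‖ ≤ R := by
    intro ρ U hρ hU
    have : ∀ᵐ p ∂((volume.restrict K).map U), ‖p‖ ≤ R := by
      rw [(opt_transfer hK0 hKfin ρ U hU).1]
      have h1 : ∀ᵐ p ∂ρ, p ∈ Y := hρ.2
      filter_upwards [Measure.ae_smul_measure h1 (volume K)] with p hp using hYR p hp
    exact ae_of_ae_map hU.1.aemeasurable this
  have hTb := hbd μ T hμ hT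
  have hSb := hbd ν S hν hS
  set b : OrthonormalBasis (Fin d) ℝ (Eu d) := EuclideanSpace.basisFun (Fin d) ℝ with hb
  have hint : ∀ i, IntegrableOn (fun x => ⟪T x - S x, b i⟫ ^ 2) K := by
    intro i
    apply integrableOn_of_ae_bdd hK (by fun_prop) ((2 * R) ^ 2)
    filter_upwards [hTb, hSb] with x hx hx'
    rw [abs_of_nonneg (by positivity), ← sq_abs]
    have : |⟪T x - S x, b i⟫| ≤ 2 * R := by
      calc |⟪T x - S x, b i⟫| ≤ ‖T x - S x‖ * ‖b i‖ := abs_real_inner_le_norm _ _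
        _ = ‖T x - S x‖ := by rw [b.norm_eq_one i, mul_one]
        _ ≤ ‖T x‖ + ‖S x‖ := norm_sub_le _ _
        _ ≤ 2 * R := by linarith
    gcongr
  have hsum : ∀ x, ‖T x - S x‖ ^ 2 = ∑ i, ⟪T x - S x, b i⟫ ^ 2 := by
    intro x
    rw [← b.sum_sq_norm_inner_left (T x - S x)]
    apply Finset.sum_congr rfl
    intro i _
    rw [Real.norm_eq_abs, sq_abs]
  calc ∫ x in K, ‖T x - S x‖ ^ 2 = ∫ x in K, ∑ i, ⟪T x - S x, b i⟫ ^ 2 := by
        apply integral_congr_ae; exact Eventually.of_forall hsum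
    _ = ∑ i, ∫ x in K, ⟪T x - S x, b i⟫ ^ 2 := integral_finsetSum _ (fun i _ => hint i)
    _ ≤ ∑ i : Fin d, volume.real K * R ^ 2 * (64 + 20 * (d / r)) * Q ^ (1 / 3 : ℝ) := by
        apply Finset.sum_le_sum
        intro i _
        exact s2 (b i) (by rw [b.norm_eq_one i])
    _ = _ := by
        rw [Finset.sum_const, Finset.card_univ, Fintype.card_fin, nsmul_eq_mul]
        ring


/-- Fix d ≥ 2, a compact convex K ⊆ ℝᵈ with nonempty interior, ρ the uniform probability measure on K, and a nonempty compact Y ⊆ ℝᵈ. There is a constant C such that for all probability measures μ, ν carried by Y, all quadratic optimal transport maps Tμ from ρ to μ and Tν from ρ to ν, and every coupling π of μ and ν, ∫ ‖Tμ - Tν‖² dρ ≤ C · (∫ ‖y - z‖² dπ)^(1/3). With the best coupling: the L²(ρ) distance of the maps is at most √C times the cube root of the Wasserstein-2 distance of the targets. -/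
theorem result
    (d : ℕ) (hd : 2 ≤ d) (K : Set (EuclideanSpace ℝ (Fin d))) (hKc : IsCompact K) (hKv : Convex ℝ K)
    (hKi : (interior K).Nonempty) (Y : Set (EuclideanSpace ℝ (Fin d))) (hYc : IsCompact Y) (hYn : Y.Nonempty) :
    ∃ C : ℝ≥0, ∀ μ ν : Measure (EuclideanSpace ℝ (Fin d)), IsProbabilityOn Y μ → IsProbabilityOn Y ν →
      ∀ Tμ Tν : EuclideanSpace ℝ (Fin d) → EuclideanSpace ℝ (Fin d),
        IsOptimalMap (uniformProbOn K) μ Tμ → IsOptimalMap (uniformProbOn K) ν Tν →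
        ∀ π : Measure (EuclideanSpace ℝ (Fin d) × EuclideanSpace ℝ (Fin d)), IsPairCoupling μ ν π →
          ∫⁻ x, ‖Tμ x - Tν x‖ₑ ^ 2 ∂(uniformProbOn K) ≤ C * quadCost π ^ (1 / 3 : ℝ) := by
  have hd0 : 0 < d := by omega
  have hK0 : volume K ≠ 0 := (Measure.measure_pos_of_nonempty_interior volume hKi).ne'
  have hKfin : volume K ≠ ∞ := hKc.measure_lt_top.ne
  have hκ : 0 < volume.real K := ENNReal.toReal_pos hK0 hKfin
  obtain ⟨R1, hR1⟩ := hKc.exists_bound_of_continuousOn (f := fun x : Eu d => x) continuousOn_id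
  obtain ⟨R2, hR2⟩ := hYc.exists_bound_of_continuousOn (f := fun x : Eu d => x) continuousOn_id
  set R : ℝ := max 1 (max R1 R2) with hR
  have hRpos : 0 < R := lt_of_lt_of_le one_pos (le_max_left _ _)
  have hKR : ∀ x ∈ K, ‖x‖ ≤ R := fun x hx => (hR1 x hx).trans
    ((le_max_left _ _).trans (le_max_right _ _))
  have hYR : ∀ x ∈ Y, ‖x‖ ≤ R := fun x hx => (hR2 x hx).trans
    ((le_max_right _ _).trans (le_max_right _ _))
  obtain ⟨x₀, hx₀⟩ := hKi
  obtain ⟨r, hr, hball⟩ := Metric.nhds_basis_closedBall.mem_iff.mp (isOpen_interior.mem_nhds hx₀)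
  have hball' : Metric.closedBall x₀ r ⊆ K := hball.trans interior_subset
  set C : ℝ := d * (R ^ 2 * (64 + 20 * (d / r))) with hC
  have hC0 : 0 ≤ C := by positivity
  refine ⟨Real.toNNReal C, ?_⟩
  intro μ ν hμ hν Tμ Tν hTμ hTν π hπ
  have main := final_bound hd0 hKc hKv ⟨x₀, hx₀⟩ hYc hYn R hRpos hKR hYR x₀ r hr hball' μ ν hμ hν
    Tμ Tν hTμ hTν π hπ
  rw [← hC] at main
  set Q := ∫ p, ‖p.1 - p.2‖ ^ 2 ∂π with hQ
  have hQ0 : 0 ≤ Q := integral_nonneg (fun p => by positivity)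
  have hTm := hTμ.1
  have hSm := hTν.1
  -- quadCost
  have hπp : IsProbabilityMeasure π := by
    constructor
    have := hμ.1.measure_univ
    rw [← hπ.1, Measure.map_apply measurable_fst MeasurableSet.univ] at this
    simpa using this
  have h1 : ∀ᵐ p ∂π, p.1 ∈ Y := by
    have : ∀ᵐ q ∂(π.map Prod.fst), q ∈ Y := by rw [hπ.1]; exact hμ.2
    exact ae_of_ae_map measurable_fst.aemeasurable this
  have h2 : ∀ᵐ p ∂π, p.2 ∈ Y := by
    have : ∀ᵐ q ∂(π.map Prod.snd), q ∈ Y := by rw [hπ.2]; exact hν.2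
    exact ae_of_ae_map measurable_snd.aemeasurable this
  have i1 : Integrable (fun p : Eu d × Eu d => ‖p.1 - p.2‖ ^ 2) π := by
    refine Integrable.of_bound ?_ ((2 * R) ^ 2) ?_
    · exact (by fun_prop : Measurable (fun p : Eu d × Eu d => ‖p.1 - p.2‖ ^ 2)).aestronglyMeasurable
    · filter_upwards [h1, h2] with p hp1 hp2
      rw [Real.norm_eq_abs, abs_of_nonneg (by positivity)]
      have : ‖p.1 - p.2‖ ≤ 2 * R := (norm_sub_le _ _).trans (by linarith [hYR _ hp1, hYR _ hp2])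
      gcongr
  have hcost : quadCost π = ENNReal.ofReal Q := by
    rw [quadCost, hQ, ofReal_integral_eq_lintegral_ofReal i1
      (Filter.Eventually.of_forall (fun p => by positivity))]
    apply lintegral_congr
    intro p
    rw [ENNReal.ofReal_pow (norm_nonneg _), ofReal_norm]
  -- left side
  have hbd : ∀ (ρ : Measure (Eu d)) (U : Eu d → Eu d), IsProbabilityOn Y ρ →
      IsOptimalMap (uniformProbOn K) ρ U → ∀ᵐ x ∂(volume.restrict K), ‖U x‖ ≤ R := by
    intro ρ U hρ hU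
    have : ∀ᵐ p ∂((volume.restrict K).map U), ‖p‖ ≤ R := by
      rw [(opt_transfer hK0 hKfin ρ U hU).1]
      have h1 : ∀ᵐ p ∂ρ, p ∈ Y := hρ.2
      filter_upwards [Measure.ae_smul_measure h1 (volume K)] with p hp using hYR p hp
    exact ae_of_ae_map hU.1.aemeasurable this
  have i2 : IntegrableOn (fun x => ‖Tμ x - Tν x‖ ^ 2) K := by
    apply integrableOn_of_ae_bdd hKc (by fun_prop) ((2 * R) ^ 2)
    filter_upwards [hbd μ Tμ hμ hTμ, hbd ν Tν hν hTν] with x hx hx'
    rw [abs_of_nonneg (by positivity)]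
    have : ‖Tμ x - Tν x‖ ≤ 2 * R := (norm_sub_le _ _).trans (by linarith)
    gcongr
  have hleft : ∫⁻ x in K, ‖Tμ x - Tν x‖ₑ ^ 2 = ENNReal.ofReal (∫ x in K, ‖Tμ x - Tν x‖ ^ 2) := by
    rw [ofReal_integral_eq_lintegral_ofReal i2
      (Filter.Eventually.of_forall (fun p => by positivity))]
    apply lintegral_congr
    intro p
    rw [ENNReal.ofReal_pow (norm_nonneg _), ofReal_norm]
  rw [uniformProbOn, lintegral_smul_measure, hleft, hcost, ENNReal.ofReal_rpow_of_nonneg hQ0 (by norm_num)]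
  have hCc : ((Real.toNNReal C : ℝ≥0) : ℝ≥0∞) = ENNReal.ofReal C := rfl
  rw [hCc, ← ENNReal.ofReal_mul hC0]
  calc (volume K)⁻¹ • ENNReal.ofReal (∫ x in K, ‖Tμ x - Tν x‖ ^ 2)
      ≤ (volume K)⁻¹ • ENNReal.ofReal (volume.real K * C * Q ^ (1 / 3 : ℝ)) := by
        rw [smul_eq_mul, smul_eq_mul]
        gcongr
    _ = ENNReal.ofReal (C * Q ^ (1 / 3 : ℝ)) := by
        rw [smul_eq_mul, mul_assoc, ENNReal.ofReal_mul hκ.le, Measure.real,
          ENNReal.ofReal_toReal hKfin, ← mul_assoc, ENNReal.inv_mul_cancel hK0 hKfin, one_mul]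

end Crest.Agent.S0109
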