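import Crest.Agent.S0109C

set_option autoImplicit false

namespace Crest.Agent.S0109

open MeasureTheory Filter Set
open scoped Topology ENNReal RealInnerProductSpace

variable {d : ℕ} {ι : Type} [Fintype ι]

local notation "E" => EuclideanSpace ℝ (Fin d)

/-- affine functional of index `i` -/
noncomputable def aff (y : ι → E) (c : ι → ℝ) (i : ι) (x : E) : ℝ := ⟪x, y i⟫ - c i

/-- Laguerre cells in `K` -/
def cell (K : Set E) (y : ι → E) (c : ι → ℝ) (i : ι) : Set E :=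
  {x | x ∈ K ∧ ∀ j, aff y c j x ≤ aff y c i x}

lemma continuous_aff (y : ι → E) (c : ι → ℝ) (i : ι) : Continuous (aff y c i) := by
  unfold aff; fun_prop

lemma isClosed_cell (K : Set E) (hK : IsCompact K) (y : ι → E) (c : ι → ℝ) (i : ι) :
    IsClosed (cell K y c i) := by
  have : cell K y c i = K ∩ ⋂ j, {x | aff y c j x ≤ aff y c i x} := by
    ext x; simp [cell]
  rw [this]
  apply hK.isClosed.inter
  apply isClosed_iInter
  intro j
  exact isClosed_le (continuous_aff y c j) (continuous_aff y c i)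

lemma cell_subset (K : Set E) (y : ι → E) (c : ι → ℝ) (i : ι) : cell K y c i ⊆ K := fun _ hx => hx.1

lemma measurableSet_cell (K : Set E) (hK : IsCompact K) (y : ι → E) (c : ι → ℝ) (i : ι) :
    MeasurableSet (cell K y c i) := (isClosed_cell K hK y c i).measurableSet

/-- compatible weights -/
def Compat (y : ι → E) (c : ι → ℝ) : Prop := ∀ i j, y i = y j → c i = c j

open Classical in
/-- group masses -/
noncomputable def gm (y : ι → E) (m : ι → ℝ) (i : ι) : ℝ :=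
  ∑ j ∈ Finset.univ.filter (fun j => y j = y i), m j

lemma gm_pos (y : ι → E) (m : ι → ℝ) (hm : ∀ i, 0 < m i) (i : ι) : 0 < gm y m i := by
  classical
  unfold gm
  apply Finset.sum_pos (fun j _ => hm j)
  exact ⟨i, by simp⟩

lemma gm_congr (y : ι → E) (m : ι → ℝ) {i j : ι} (h : y i = y j) : gm y m i = gm y m j := by
  classical
  unfold gm
  rw [h]

lemma ties_null (y : ι → E) (c : ι → ℝ) (i j : ι) (h : y i ≠ y j) :
    volume {x : E | aff y c i x = aff y c j x} = 0 := by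
  set v : E := y i - y j with hv
  have hv0 : v ≠ 0 := sub_ne_zero.mpr h
  by_cases hne : {x : E | aff y c i x = aff y c j x}.Nonempty
  swap
  · rw [not_nonempty_iff_eq_empty] at hne
    rw [hne]; simp
  obtain ⟨x₀, hx₀⟩ := hne
  have hsub : {x : E | aff y c i x = aff y c j x}
      ⊆ (AffineSubspace.mk' x₀ (ℝ ∙ v)ᗮ : AffineSubspace ℝ E) := by
    intro x hx
    rw [SetLike.mem_coe, AffineSubspace.mem_mk', vsub_eq_sub, Submodule.mem_orthogonal_singleton_iff_inner_left]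
    simp only [mem_setOf_eq, aff] at hx hx₀
    rw [inner_sub_left, hv, inner_sub_right, inner_sub_right]
    linarith
  apply measure_mono_null hsub
  apply Measure.addHaar_affineSubspace
  intro htop
  have h1 : x₀ + v ∈ (AffineSubspace.mk' x₀ (ℝ ∙ v)ᗮ : AffineSubspace ℝ E) := by
    rw [htop]; trivial
  rw [AffineSubspace.mem_mk', vsub_eq_sub, Submodule.mem_orthogonal_singleton_iff_inner_left] at h1
  simp at h1
  exact hv0 h1

lemma exists_max_index [Nonempty ι] (y : ι → E) (c : ι → ℝ) (x : E) :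
    ∃ i, ∀ j, aff y c j x ≤ aff y c i x := by
  obtain ⟨i, -, hi⟩ := Finset.exists_max_image Finset.univ (fun i => aff y c i x)
    Finset.univ_nonempty
  exact ⟨i, fun j => hi j (Finset.mem_univ j)⟩

/-- weighted partition of unity by cells -/
lemma ae_partition [Nonempty ι] (K : Set E) (y : ι → E) (c : ι → ℝ) (hc : Compat y c) (m : ι → ℝ)
    (hm : ∀ i, 0 < m i) :
    ∀ᵐ x : E, x ∈ K → ∑ i, (m i / gm y m i) * (cell K y c i).indicator (fun _ => (1 : ℝ)) x = 1 := by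
  classical
  have hties : ∀ᵐ x : E, ∀ i j, y i ≠ y j → aff y c i x ≠ aff y c j x := by
    rw [ae_all_iff]; intro i
    rw [ae_all_iff]; intro j
    by_cases h : y i = y j
    · filter_upwards with x hne; exact absurd h hne
    · have := ties_null y c i j h
      rw [← compl_compl {x : E | aff y c i x = aff y c j x}] at this
      have h2 : ∀ᵐ x : E, x ∈ {x : E | aff y c i x = aff y c j x}ᶜ := this
      filter_upwards [h2] with x hx _
      exact hx
  filter_upwards [hties] with x hx hxK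
  obtain ⟨i₀, hi₀⟩ := exists_max_index y c x
  have hmem : ∀ j, x ∈ cell K y c j ↔ y j = y i₀ := by
    intro j
    constructor
    · intro hj
      by_contra hne
      exact hx j i₀ hne (le_antisymm (hi₀ j) (hj.2 i₀))
    · intro hj
      refine ⟨hxK, fun k => ?_⟩
      have h1 : aff y c j x = aff y c i₀ x := by
        simp only [aff, hj, hc j i₀ hj]
      rw [h1]; exact hi₀ k
  have h1 : ∀ i, (m i / gm y m i) * (cell K y c i).indicator (fun _ => (1 : ℝ)) x
      = if y i = y i₀ then m i / gm y m i₀ else 0 := by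
    intro i
    by_cases h : y i = y i₀
    · rw [if_pos h, indicator_of_mem ((hmem i).mpr h), mul_one, gm_congr y m h]
    · rw [if_neg h, indicator_of_notMem (fun hh => h ((hmem i).mp hh)), mul_zero]
  rw [Finset.sum_congr rfl (fun i _ => h1 i), ← Finset.sum_filter, ← Finset.sum_div]
  exact div_self (gm_pos y m hm i₀).ne'

lemma sum_integral_cells [Nonempty ι] (K : Set E) (hK : IsCompact K) (y : ι → E) (c : ι → ℝ)
    (hc : Compat y c) (m : ι → ℝ) (hm : ∀ i, 0 < m i) (F : E → ℝ) (hF : IntegrableOn F K) :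
    ∑ i, (m i / gm y m i) * ∫ x in cell K y c i, F x = ∫ x in K, F x := by
  have hKm : MeasurableSet K := hK.isClosed.measurableSet
  have h1 : ∀ i, (m i / gm y m i) * ∫ x in cell K y c i, F x
      = ∫ x in K, (m i / gm y m i) * ((cell K y c i).indicator (fun _ => (1 : ℝ)) x * F x) := by
    intro i
    rw [integral_const_mul]
    congr 1
    have h2 : (fun x => (cell K y c i).indicator (fun _ => (1 : ℝ)) x * F x)
        = (cell K y c i).indicator F := by
      funext x; by_cases h : x ∈ cell K y c i <;> simp [h]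
    rw [h2, setIntegral_indicator (measurableSet_cell K hK y c i),
      inter_eq_self_of_subset_right (cell_subset K y c i)]
  rw [Finset.sum_congr rfl (fun i _ => h1 i), ← integral_finset_sum]
  · apply setIntegral_congr_ae hKm
    filter_upwards [ae_partition K y c hc m hm] with x hx hxK
    have h3 := hx hxK
    calc ∑ i, (m i / gm y m i) * ((cell K y c i).indicator (fun _ => (1 : ℝ)) x * F x)
        = (∑ i, (m i / gm y m i) * (cell K y c i).indicator (fun _ => (1 : ℝ)) x) * F x := by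
          rw [Finset.sum_mul]; apply Finset.sum_congr rfl; intro i _; ring
      _ = F x := by rw [h3, one_mul]
  · intro i _
    apply Integrable.const_mul
    have h2 : (fun x => (cell K y c i).indicator (fun _ => (1 : ℝ)) x * F x)
        = (cell K y c i).indicator F := by
      funext x; by_cases h : x ∈ cell K y c i <;> simp [h]
    rw [h2]
    exact hF.integrable.indicator (measurableSet_cell K hK y c i)

lemma compat_convex (y : ι → E) (c₀ c₁ : ι → ℝ) (h₀ : Compat y c₀) (h₁ : Compat y c₁) (t : ℝ) :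
    Compat y (fun i => (1 - t) * c₀ i + t * c₁ i) := by
  intro i j hij
  simp only [h₀ i j hij, h₁ i j hij]

lemma aff_convex (y : ι → E) (c₀ c₁ : ι → ℝ) (t : ℝ) (i : ι) (x x' : E) :
    aff y (fun i => (1 - t) * c₀ i + t * c₁ i) i ((1 - t) • x + t • x')
      = (1 - t) * aff y c₀ i x + t * aff y c₁ i x' := by
  simp only [aff, inner_add_left, inner_smul_left]
  simp
  ring

lemma cell_convex (K : Set E) (hK : Convex ℝ K) (y : ι → E) (c₀ c₁ : ι → ℝ) (t : ℝ)
    (ht : t ∈ Ioo (0 : ℝ) 1) (i : ι) (x x' : E) (hx : x ∈ cell K y c₀ i) (hx' : x' ∈ cell K y c₁ i) :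
    (1 - t) • x + t • x' ∈ cell K y (fun i => (1 - t) * c₀ i + t * c₁ i) i := by
  refine ⟨hK hx.1 hx'.1 (by linarith [ht.2]) ht.1.le (by ring), fun j => ?_⟩
  rw [aff_convex, aff_convex]
  have h1 := hx.2 j
  have h2 := hx'.2 j
  have h3 : 0 ≤ 1 - t := by linarith [ht.2]
  have h4 := ht.1.le
  gcongr

/-- pointwise inequality -/
lemma pointwise (R t : ℝ) (hR : 0 ≤ R) (ht : t ∈ Ioo (0 : ℝ) 1) (x x' v : E) (hx : ‖x‖ ≤ R)
    (hx' : ‖x'‖ ≤ R) (g : ℝ) (hg : |g| ≤ 1 / 2) :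
    ((1 - t) * ((R ^ 2 - ‖x‖ ^ 2) / 2) - t / 2 * ⟪x, v⟫ - (t / 4 * ‖v‖ ^ 2 + 2 * R ^ 2 * t ^ 2))
      + t * (((R ^ 2 - ‖x'‖ ^ 2) / 2) * (1 - g) - R ^ 2 * g ^ 2 + 1 / 2 * ⟪x', v⟫)
      ≤ ((R ^ 2 - ‖(1 - t) • x + t • x'‖ ^ 2) / 2) * (1 + g) ^ (-t) := by
  have ht0 := ht.1
  have ht1 := ht.2
  obtain ⟨hg1, hg2⟩ := abs_le.mp hg
  set z := (1 - t) • x + t • x' with hz
  set D := ‖x' - x‖ with hD
  have hD0 : 0 ≤ D := norm_nonneg _
  have hD2R : D ≤ 2 * R := by
    calc D ≤ ‖x'‖ + ‖x‖ := norm_sub_le _ _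
      _ ≤ 2 * R := by linarith
  have hz2 : ‖z‖ ^ 2 = (1 - t) * ‖x‖ ^ 2 + t * ‖x'‖ ^ 2 - t * (1 - t) * D ^ 2 := by
    rw [hz, hD, @norm_add_sq_real, @norm_sub_sq_real, norm_smul, norm_smul, inner_smul_left,
      inner_smul_right, Real.norm_of_nonneg (by linarith : 0 ≤ 1 - t), Real.norm_of_nonneg ht0.le,
      real_inner_comm x x']
    simp only [conj_trivial]
    ring
  have hzR : ‖z‖ ≤ R := by
    calc ‖z‖ ≤ ‖(1 - t) • x‖ + ‖t • x'‖ := norm_add_le _ _
      _ = (1 - t) * ‖x‖ + t * ‖x'‖ := by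
          rw [norm_smul, norm_smul, Real.norm_of_nonneg (by linarith : 0 ≤ 1 - t),
            Real.norm_of_nonneg ht0.le]
      _ ≤ (1 - t) * R + t * R := by
          gcongr
      _ = R := by ring
  set W := (R ^ 2 - ‖z‖ ^ 2) / 2 with hW
  have hW0 : 0 ≤ W := by
    have : ‖z‖ ^ 2 ≤ R ^ 2 := by gcongr
    rw [hW]; linarith
  -- step 1 : (1+g)^(-t) ≥ 1 - t g
  have hpow : 1 - t * g ≤ (1 + g) ^ (-t) := by
    have hpos : 0 < 1 + g := by linarith
    have h1 : Real.log (1 + g) ≤ g := by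
      have := Real.log_le_sub_one_of_pos hpos
      linarith
    rw [Real.rpow_def_of_pos hpos]
    have h2 := Real.add_one_le_exp (Real.log (1 + g) * -t)
    nlinarith
  -- step 2: W vs w(x')
  have hWx' : |W - (R ^ 2 - ‖x'‖ ^ 2) / 2| ≤ R * D := by
    have h1 : W - (R ^ 2 - ‖x'‖ ^ 2) / 2 = (‖x'‖ - ‖z‖) * ((‖x'‖ + ‖z‖) / 2) := by rw [hW]; ring
    rw [h1, abs_mul]
    have h2 : |‖x'‖ - ‖z‖| ≤ D := by
      calc |‖x'‖ - ‖z‖| ≤ ‖x' - z‖ := abs_norm_sub_norm_le _ _
        _ = (1 - t) * D := by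
            have : x' - z = (1 - t) • (x' - x) := by
              rw [hz]; module
            rw [this, norm_smul, Real.norm_of_nonneg (by linarith : 0 ≤ 1 - t)]
        _ ≤ 1 * D := by gcongr; linarith
        _ = D := one_mul _
    have h3 : |(‖x'‖ + ‖z‖) / 2| ≤ R := by
      rw [abs_of_nonneg (by positivity)]
      linarith
    calc |‖x'‖ - ‖z‖| * |(‖x'‖ + ‖z‖) / 2| ≤ D * R := by gcongr
      _ = R * D := mul_comm _ _
  have h1 : W * (1 - t * g) ≤ W * (1 + g) ^ (-t) := mul_le_mul_of_nonneg_left hpow hW0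
  have h2 : g * (W - (R ^ 2 - ‖x'‖ ^ 2) / 2) ≤ |g| * (R * D) := by
    calc g * (W - (R ^ 2 - ‖x'‖ ^ 2) / 2) ≤ |g * (W - (R ^ 2 - ‖x'‖ ^ 2) / 2)| := le_abs_self _
      _ = |g| * |W - (R ^ 2 - ‖x'‖ ^ 2) / 2| := abs_mul _ _
      _ ≤ _ := by gcongr
  have h3 : |g| * (R * D) ≤ 1 / 4 * D ^ 2 + R ^ 2 * g ^ 2 := by
    have : 0 ≤ (1 / 2 * D - R * |g|) ^ 2 := sq_nonneg _
    have h4 : |g| ^ 2 = g ^ 2 := sq_abs g
    nlinarith
  have h5 : 1 / 2 * (⟪x', v⟫ - ⟪x, v⟫) - 1 / 4 * ‖v‖ ^ 2 ≤ 1 / 4 * D ^ 2 := by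
    have h6 : 0 ≤ ‖(x' - x) - v‖ ^ 2 := by positivity
    rw [@norm_sub_sq_real, inner_sub_left] at h6
    linarith
  have h7 : D ^ 2 ≤ 4 * R ^ 2 := by
    calc D ^ 2 ≤ (2 * R) ^ 2 := by gcongr
      _ = 4 * R ^ 2 := by ring
  refine le_trans ?_ h1
  have hWval : W = (1 - t) * ((R ^ 2 - ‖x‖ ^ 2) / 2) + t * ((R ^ 2 - ‖x'‖ ^ 2) / 2)
      + t * (1 - t) / 2 * D ^ 2 := by
    rw [hW, hz2]; ring
  have h8 : W * (1 - t * g) = W - t * g * ((R ^ 2 - ‖x'‖ ^ 2) / 2)
      - t * (g * (W - (R ^ 2 - ‖x'‖ ^ 2) / 2)) := by ring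
  rw [h8]
  have h9 : t * (g * (W - (R ^ 2 - ‖x'‖ ^ 2) / 2)) ≤ t * (1 / 4 * D ^ 2 + R ^ 2 * g ^ 2) := by
    gcongr; exact h2.trans h3
  have h10 : t ^ 2 * D ^ 2 ≤ t ^ 2 * (4 * R ^ 2) := by gcongr
  have h11 : t * (1 / 2 * (⟪x', v⟫ - ⟪x, v⟫) - 1 / 4 * ‖v‖ ^ 2) ≤ t * (1 / 4 * D ^ 2) := by gcongr
  nlinarith

end Crest.Agent.S0109
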