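import Crest.Agent.S0109D

set_option autoImplicit false

namespace Crest.Agent.S0109

open MeasureTheory Filter Set
open scoped Topology ENNReal RealInnerProductSpace

variable {d : ℕ} {ι : Type} [Fintype ι]

local notation "E" => EuclideanSpace ℝ (Fin d)

lemma integrableOn_of_cont {K : Set E} (hK : IsCompact K) {F : E → ℝ} (hF : Continuous F) :
    IntegrableOn F K := hF.continuousOn.integrableOn_compact hK

lemma integrableOn_of_bdd {K : Set E} (hK : IsCompact K) {F : E → ℝ} (hF : Measurable F) (B : ℝ)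
    (hB : ∀ x ∈ K, |F x| ≤ B) : IntegrableOn F K := by
  apply Measure.integrableOn_of_bounded (M := B) hK.measure_lt_top.ne hF.aestronglyMeasurable
  filter_upwards [ae_restrict_mem hK.isClosed.measurableSet] with x hx
  exact hB x hx

lemma sum_theta_gm (y : ι → E) (m : ι → ℝ) (hm : ∀ i, 0 < m i) (F : ι → ℝ) :
    ∑ i, (m i / gm y m i) * (F i * gm y m i) = ∑ i, m i * F i := by
  apply Finset.sum_congr rfl
  intro i _
  have := (gm_pos y m hm i).ne'
  field_simp

theorem key_ineq [Nonempty ι] (K : Set E) (hK : IsCompact K) (hKc : Convex ℝ K) (R : ℝ) (hR : 0 ≤ R)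
    (hKR : ∀ x ∈ K, ‖x‖ ≤ R) (g : E → ℝ) (hg : Measurable g) (hg2 : ∀ x ∈ K, |g x| ≤ 1 / 2)
    (y : ι → E) (c₀ c₁ : ι → ℝ) (hc₀ : Compat y c₀) (hc₁ : Compat y c₁) (m : ι → ℝ)
    (hm : ∀ i, 0 < m i)
    (hM₀ : ∀ i, (volume (cell K y c₀ i)).toReal = gm y m i)
    (hM₁ : ∀ i, ∫ x in cell K y c₁ i, (1 + g x) = gm y m i) (v : ι → E) :
    1 / 2 * ∑ i, (m i / gm y m i) * ((∫ x in cell K y c₁ i, ⟪x, v i⟫ * (1 + g x))
      - ∫ x in cell K y c₀ i, ⟪x, v i⟫)
      ≤ 1 / 4 * ∑ i, m i * ‖v i‖ ^ 2 + 2 * R ^ 2 * ∫ x in K, g x ^ 2 := by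
  have hKm : MeasurableSet K := hK.isClosed.measurableSet
  have hcm : ∀ (c : ι → ℝ) i, MeasurableSet (cell K y c i) := measurableSet_cell K hK y
  have hcb : ∀ (c : ι → ℝ) i, Bornology.IsBounded (cell K y c i) := fun c i =>
    hK.isBounded.subset (cell_subset K y c i)
  set w : E → ℝ := fun x => (R ^ 2 - ‖x‖ ^ 2) / 2 with hw
  have hwc : Continuous w := by simp only [hw]; fun_prop
  have hw0 : ∀ x ∈ K, 0 ≤ w x := by
    intro x hx
    have h1 : ‖x‖ ^ 2 ≤ R ^ 2 := by have := hKR x hx; gcongr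
    simp only [hw]; linarith
  have hwB : ∀ x ∈ K, w x ≤ R ^ 2 / 2 := by
    intro x hx
    simp only [hw]; have := sq_nonneg ‖x‖; linarith
  set κ : ℝ := ∑ i, m i with hκ
  have hκ0 : 0 ≤ κ := Finset.sum_nonneg (fun i _ => (hm i).le)
  have hgB : ∀ x ∈ K, |g x| ≤ 1 / 2 := hg2
  have hg2int : IntegrableOn (fun x => g x ^ 2) K := by
    apply integrableOn_of_bdd hK (hg.pow_const 2) 1
    intro x hx
    have := hgB x hx
    rw [abs_pow]
    have h1 : |g x| ^ 2 ≤ (1 / 2) ^ 2 := by gcongr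
    linarith
  set Q : E → ℝ := fun x => w x - w x * g x ^ 2 - R ^ 2 * g x ^ 2 * (1 + g x) with hQ
  have hint : IntegrableOn Q K := by
        have hwm := hwc.measurable
        apply integrableOn_of_bdd hK (by fun_prop) (R ^ 2 / 2 + R ^ 2 / 2 * 1 + R ^ 2 * 1 * (3 / 2))
        intro x hx
        have h1 := hw0 x hx
        have h2 := hwB x hx
        have h3 := hgB x hx
        obtain ⟨h8, h9⟩ := abs_le.mp h3
        have h5 : g x ^ 2 ≤ 1 := by
          rw [← sq_abs]
          have : |g x| ^ 2 ≤ (1 / 2) ^ 2 := by gcongr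
          linarith
        have h5' : 0 ≤ g x ^ 2 := sq_nonneg _
        have e1 : |w x| ≤ R ^ 2 / 2 := by rw [abs_of_nonneg h1]; exact h2
        have e2 : |w x * g x ^ 2| ≤ R ^ 2 / 2 * 1 := by
          rw [abs_mul, abs_of_nonneg h1, abs_of_nonneg h5']; gcongr
        have e3 : |R ^ 2 * g x ^ 2 * (1 + g x)| ≤ R ^ 2 * 1 * (3 / 2) := by
          rw [abs_mul, abs_of_nonneg (by positivity : 0 ≤ R ^ 2 * g x ^ 2),
            abs_of_nonneg (by linarith : 0 ≤ 1 + g x)]
          have h10 : 1 + g x ≤ 3 / 2 := by linarith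
          have h11 : 0 ≤ 1 + g x := by linarith
          gcongr
        calc |w x - w x * g x ^ 2 - R ^ 2 * g x ^ 2 * (1 + g x)|
            ≤ |w x - w x * g x ^ 2| + |R ^ 2 * g x ^ 2 * (1 + g x)| := abs_sub _ _
          _ ≤ (|w x| + |w x * g x ^ 2|) + |R ^ 2 * g x ^ 2 * (1 + g x)| := by
              gcongr; exact abs_sub _ _
          _ ≤ _ := by gcongr
  -- the statement for each t
  have hstep : ∀ t ∈ Ioo (0 : ℝ) 1,
      1 / 2 * ∑ i, (m i / gm y m i) * ((∫ x in cell K y c₁ i, ⟪x, v i⟫ * (1 + g x))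
      - ∫ x in cell K y c₀ i, ⟪x, v i⟫)
      ≤ 1 / 4 * ∑ i, m i * ‖v i‖ ^ 2 + 2 * R ^ 2 * (∫ x in K, g x ^ 2) + 2 * R ^ 2 * t * κ := by
    intro t ht
    have ht0 := ht.1
    have ht1 := ht.2
    set ct : ι → ℝ := fun i => (1 - t) * c₀ i + t * c₁ i with hct
    have hcct : Compat y ct := compat_convex y c₀ c₁ hc₀ hc₁ t
    -- functions a_i and b_i
    set a : ι → E → ℝ := fun i x => (1 - t) * w x - t / 2 * ⟪x, v i⟫
      - (t / 4 * ‖v i‖ ^ 2 + 2 * R ^ 2 * t ^ 2) with ha
    set b : ι → E → ℝ := fun i x => t * (w x * (1 - g x) - R ^ 2 * g x ^ 2 + 1 / 2 * ⟪x, v i⟫) with hb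
    have hac : ∀ i, Continuous (a i) := by
      intro i; simp only [ha]; fun_prop
    have hbm : ∀ i, Measurable (b i) := by
      intro i
      have h1 : Measurable w := hwc.measurable
      have h2 : Measurable (fun x : E => ⟪x, v i⟫) := by
        have : Continuous (fun x : E => ⟪x, v i⟫) := by fun_prop
        exact this.measurable
      simp only [hb]
      exact (((h1.mul (measurable_const.sub hg)).sub ((hg.pow_const 2).const_mul _)).add
        (h2.const_mul _)).const_mul _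
    have hpl : ∀ i, (∫ x in cell K y c₀ i, a i x) + (∫ x in cell K y c₁ i, b i x * (1 + g x))
        ≤ ∫ x in cell K y ct i, w x := by
      intro i
      obtain ⟨Ba, hBa⟩ := hK.exists_bound_of_continuousOn (hac i).continuousOn
      obtain ⟨Bi, hBi⟩ := hK.exists_bound_of_continuousOn
        (f := fun x : E => ⟪x, v i⟫) (by fun_prop)
      have hbB : ∀ x ∈ K, |b i x| ≤ t * (R ^ 2 / 2 * (3 / 2) + R ^ 2 * 1 + 1 / 2 * Bi) := by
        intro x hx
        simp only [hb]
        rw [abs_mul, abs_of_pos ht0]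
        gcongr
        have h1 := hw0 x hx
        have h2 := hwB x hx
        have h3 := hgB x hx
        have h4 : |⟪x, v i⟫| ≤ Bi := by simpa using hBi x hx
        have h5 : g x ^ 2 ≤ 1 := by
          rw [← sq_abs]
          have : |g x| ^ 2 ≤ (1 / 2) ^ 2 := by gcongr
          linarith
        have h6 : |w x * (1 - g x)| ≤ R ^ 2 / 2 * (3 / 2) := by
          rw [abs_mul, abs_of_nonneg h1]
          have h7 : |1 - g x| ≤ 3 / 2 := by
            obtain ⟨h8, h9⟩ := abs_le.mp h3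
            rw [abs_of_nonneg (by linarith)]; linarith
          gcongr
        have h8 : |R ^ 2 * g x ^ 2| ≤ R ^ 2 * 1 := by
          rw [abs_of_nonneg (by positivity)]; gcongr
        have h9 : |1 / 2 * ⟪x, v i⟫| ≤ 1 / 2 * Bi := by
          rw [abs_mul, abs_of_pos (by norm_num : (0 : ℝ) < 1 / 2)]; gcongr
        calc |w x * (1 - g x) - R ^ 2 * g x ^ 2 + 1 / 2 * ⟪x, v i⟫|
            ≤ |w x * (1 - g x) - R ^ 2 * g x ^ 2| + |1 / 2 * ⟪x, v i⟫| := abs_add_le _ _
          _ ≤ (|w x * (1 - g x)| + |R ^ 2 * g x ^ 2|) + |1 / 2 * ⟪x, v i⟫| := by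
              gcongr; exact abs_sub _ _
          _ ≤ _ := by gcongr
      refine cellPL t ht _ _ _ (hcm c₀ i) (hcm c₁ i) (hcm ct i) (hcb c₀ i) (hcb c₁ i) (hcb ct i)
        (fun x => 1 + g x) w (a i) (b i) (measurable_const.add hg) hwc.measurable
        (hac i).measurable (hbm i)
        (max (max Ba (t * (R ^ 2 / 2 * (3 / 2) + R ^ 2 * 1 + 1 / 2 * Bi))) (max (3 / 2) (R ^ 2 / 2)))
        ?_ ?_ ?_ ?_ ?_ ?_ (gm y m i) (gm_pos y m hm i) (hM₀ i) (hM₁ i) ?_ ?_
      · intro x hx
        obtain ⟨h1, h2⟩ := abs_le.mp (hgB x hx.1)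
        refine le_trans ?_ ((le_max_left _ _).trans (le_max_right _ _))
        rw [abs_of_nonneg (by linarith)]; linarith
      · intro x hx
        refine le_trans ?_ ((le_max_right _ _).trans (le_max_right _ _))
        rw [abs_of_nonneg (hw0 x hx.1)]; exact hwB x hx.1
      · intro x hx
        refine le_trans ?_ ((le_max_left _ _).trans (le_max_left _ _))
        simpa using hBa x hx.1
      · intro x hx
        refine le_trans ?_ ((le_max_right _ _).trans (le_max_left _ _))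
        exact hbB x hx.1
      · intro x hx
        obtain ⟨h1, h2⟩ := abs_le.mp (hgB x hx.1)
        linarith
      · intro x hx; exact hw0 x hx.1
      · intro x hx x' hx'
        exact cell_convex K hKc y c₀ c₁ t ht i x x' hx hx'
      · intro x hx x' hx'
        exact pointwise R t hR ht x x' (v i) (hKR x hx.1) (hKR x' hx'.1) (g x') (hgB x' hx'.1)
    -- sum up
    have hsum : ∑ i, (m i / gm y m i) * ((∫ x in cell K y c₀ i, a i x)
        + (∫ x in cell K y c₁ i, b i x * (1 + g x))) ≤ ∫ x in K, w x := by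
      rw [← sum_integral_cells K hK y ct hcct m hm w (integrableOn_of_cont hK hwc)]
      apply Finset.sum_le_sum
      intro i _
      exact mul_le_mul_of_nonneg_left (hpl i) (div_nonneg (hm i).le (gm_pos y m hm i).le)
    -- compute the integrals
    have hA : ∀ i, ∫ x in cell K y c₀ i, a i x = (1 - t) * (∫ x in cell K y c₀ i, w x)
        - t / 2 * (∫ x in cell K y c₀ i, ⟪x, v i⟫)
        - (t / 4 * ‖v i‖ ^ 2 + 2 * R ^ 2 * t ^ 2) * gm y m i := by
      intro i
      have hi1 : IntegrableOn w (cell K y c₀ i) :=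
        (integrableOn_of_cont hK hwc).mono_set (cell_subset _ _ _ _)
      have hi2 : IntegrableOn (fun x : E => ⟪x, v i⟫) (cell K y c₀ i) :=
        (integrableOn_of_cont hK (by fun_prop)).mono_set (cell_subset _ _ _ _)
      have hi3 : IntegrableOn (fun _ : E => (t / 4 * ‖v i‖ ^ 2 + 2 * R ^ 2 * t ^ 2)) (cell K y c₀ i) :=
        (integrableOn_of_cont hK (by fun_prop)).mono_set (cell_subset _ _ _ _)
      simp only [ha]
      rw [integral_sub (f := fun x => (1 - t) * w x - t / 2 * ⟪x, v i⟫)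
        ((hi1.const_mul _).sub (hi2.const_mul _)) hi3,
        integral_sub (f := fun x => (1 - t) * w x) (hi1.const_mul _) (hi2.const_mul _),
        integral_const_mul, integral_const_mul,
        setIntegral_const, Measure.real, hM₀ i, smul_eq_mul]
      ring
    have hB : ∀ i, ∫ x in cell K y c₁ i, b i x * (1 + g x)
        = t * (∫ x in cell K y c₁ i, Q x)
        + t / 2 * (∫ x in cell K y c₁ i, ⟪x, v i⟫ * (1 + g x)) := by
      intro i
      have hi1 : IntegrableOn Q (cell K y c₁ i) := hint.mono_set (cell_subset _ _ _ _)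
      have hi2 : IntegrableOn (fun x : E => ⟪x, v i⟫ * (1 + g x)) (cell K y c₁ i) := by
        apply IntegrableOn.mono_set _ (cell_subset _ _ _ _)
        have hc : Continuous (fun x : E => ⟪x, v i⟫) := by fun_prop
        have hcm := hc.measurable
        obtain ⟨Bi, hBi⟩ := hK.exists_bound_of_continuousOn hc.continuousOn
        have hmm : Measurable (fun x : E => ⟪x, v i⟫ * (1 + g x)) := hcm.mul (measurable_const.add hg)
        apply integrableOn_of_bdd hK hmm (Bi * (3 / 2))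
        intro x hx
        obtain ⟨h8, h9⟩ := abs_le.mp (hgB x hx)
        rw [abs_mul]
        have h4 : |⟪x, v i⟫| ≤ Bi := by simpa using hBi x hx
        have h10 : 0 ≤ Bi := le_trans (abs_nonneg _) h4
        have h11 : |1 + g x| ≤ 3 / 2 := by rw [abs_of_nonneg (by linarith)]; linarith
        gcongr
      rw [← integral_const_mul, ← integral_const_mul, ← integral_add (hi1.const_mul _)
        (hi2.const_mul _)]
      apply integral_congr_ae
      filter_upwards with x
      simp only [hb, hQ]; ring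
    have hsum2 : (1 - t) * (∫ x in K, w x) + t * (∫ x in K, Q x)
        + t * (1 / 2 * ∑ i, (m i / gm y m i) * ((∫ x in cell K y c₁ i, ⟪x, v i⟫ * (1 + g x))
        - ∫ x in cell K y c₀ i, ⟪x, v i⟫))
        - ∑ i, m i * (t / 4 * ‖v i‖ ^ 2 + 2 * R ^ 2 * t ^ 2) ≤ ∫ x in K, w x := by
      refine le_trans (le_of_eq ?_) hsum
      rw [← sum_integral_cells K hK y c₀ hc₀ m hm w (integrableOn_of_cont hK hwc)]
      rw [← sum_integral_cells K hK y c₁ hc₁ m hm _ hint]
      rw [Finset.mul_sum, Finset.mul_sum, Finset.mul_sum, Finset.mul_sum, ← Finset.sum_add_distrib,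
        ← Finset.sum_add_distrib, ← Finset.sum_sub_distrib]
      apply Finset.sum_congr rfl
      intro i _
      rw [hA i, hB i]
      have hgne := (gm_pos y m hm i).ne'
      field_simp
      ring
    have hcomp : ∫ x in K, Q x
        ≥ (∫ x in K, w x) - 2 * R ^ 2 * ∫ x in K, g x ^ 2 := by
      have hwi := integrableOn_of_cont hK hwc
      rw [← integral_const_mul, ← integral_sub hwi (hg2int.const_mul _)]
      apply setIntegral_mono_on (hwi.sub (hg2int.const_mul _)) hint hKm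
      intro x hx
      have h1 := hw0 x hx
      have h2 := hwB x hx
      obtain ⟨h8, h9⟩ := abs_le.mp (hgB x hx)
      have h5' : 0 ≤ g x ^ 2 := sq_nonneg _
      have h6 : w x * g x ^ 2 ≤ R ^ 2 / 2 * g x ^ 2 := by gcongr
      have h7 : R ^ 2 * g x ^ 2 * (1 + g x) ≤ R ^ 2 * g x ^ 2 * (3 / 2) := by
        gcongr; linarith
      show w x - 2 * R ^ 2 * g x ^ 2 ≤ w x - w x * g x ^ 2 - R ^ 2 * g x ^ 2 * (1 + g x)
      linarith
    have hms : ∑ i, m i * (t / 4 * ‖v i‖ ^ 2 + 2 * R ^ 2 * t ^ 2)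
        = t * (1 / 4 * ∑ i, m i * ‖v i‖ ^ 2) + 2 * R ^ 2 * t ^ 2 * κ := by
      rw [hκ, Finset.mul_sum, Finset.mul_sum, Finset.mul_sum, ← Finset.sum_add_distrib]
      apply Finset.sum_congr rfl
      intro i _; ring
    rw [hms] at hsum2
    have hcomp' : t * ((∫ x in K, w x) - 2 * R ^ 2 * ∫ x in K, g x ^ 2)
        ≤ t * ∫ x in K, Q x :=
      mul_le_mul_of_nonneg_left hcomp ht0.le
    set X := 1 / 2 * ∑ i, (m i / gm y m i) * ((∫ x in cell K y c₁ i, ⟪x, v i⟫ * (1 + g x))
        - ∫ x in cell K y c₀ i, ⟪x, v i⟫) with hX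
    have hfin : t * X ≤ t * (1 / 4 * ∑ i, m i * ‖v i‖ ^ 2 + 2 * R ^ 2 * (∫ x in K, g x ^ 2)
        + 2 * R ^ 2 * t * κ) := by
      nlinarith
    exact le_of_mul_le_mul_left hfin ht0
  -- let t → 0
  have hlim : Tendsto (fun t : ℝ => 1 / 4 * ∑ i, m i * ‖v i‖ ^ 2
      + 2 * R ^ 2 * (∫ x in K, g x ^ 2) + 2 * R ^ 2 * t * κ) (𝓝[>] 0)
      (𝓝 (1 / 4 * ∑ i, m i * ‖v i‖ ^ 2 + 2 * R ^ 2 * (∫ x in K, g x ^ 2)
        + 2 * R ^ 2 * 0 * κ)) := by
    apply Tendsto.mono_left _ nhdsWithin_le_nhds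
    apply Continuous.tendsto
    fun_prop
  have h0 : 2 * R ^ 2 * 0 * κ = 0 := by ring
  rw [h0, add_zero] at hlim
  apply ge_of_tendsto hlim
  filter_upwards [Ioo_mem_nhdsGT (zero_lt_one : (0 : ℝ) < 1)] with t ht
  exact hstep t ht

end Crest.Agent.S0109
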