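import Crest.Agent.S0109E

set_option autoImplicit false

namespace Crest.Agent.S0109

open MeasureTheory Filter Set
open scoped Topology ENNReal RealInnerProductSpace

/-- Euclidean space -/
abbrev Eu (d : ℕ) : Type := EuclideanSpace ℝ (Fin d)

variable {d : ℕ} {ι : Type} [Fintype ι] [Nonempty ι]


/-- Laguerre potential -/
noncomputable def pot (y : ι → (Eu d)) (c : ι → ℝ) (x : (Eu d)) : ℝ :=
  Finset.univ.sup' Finset.univ_nonempty (fun i => aff y c i x)

lemma aff_le_pot (y : ι → (Eu d)) (c : ι → ℝ) (i : ι) (x : (Eu d)) : aff y c i x ≤ pot y c x :=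
  Finset.le_sup' (fun i => aff y c i x) (Finset.mem_univ i)

lemma pot_le (y : ι → (Eu d)) (c : ι → ℝ) (x : (Eu d)) (r : ℝ) (h : ∀ i, aff y c i x ≤ r) :
    pot y c x ≤ r := Finset.sup'_le _ _ (fun i _ => h i)

lemma exists_pot (y : ι → (Eu d)) (c : ι → ℝ) (x : (Eu d)) : ∃ i, pot y c x = aff y c i x := by
  obtain ⟨i, -, hi⟩ := Finset.exists_mem_eq_sup' Finset.univ_nonempty (fun i => aff y c i x)
  exact ⟨i, hi⟩

lemma pot_eq_of_cell {K : Set (Eu d)} (y : ι → (Eu d)) (c : ι → ℝ) (i : ι) (x : (Eu d)) (hx : x ∈ cell K y c i) :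
    pot y c x = aff y c i x :=
  le_antisymm (pot_le y c x _ hx.2) (aff_le_pot y c i x)

lemma continuous_pot (y : ι → (Eu d)) (c : ι → ℝ) : Continuous (pot y c) := by
  unfold pot
  exact Continuous.finset_sup'_apply _ (fun i _ => continuous_aff y c i)

lemma pot_le_pot_add (y : ι → (Eu d)) (c c' : ι → ℝ) (δ : ℝ) (h : ∀ i, c' i ≤ c i + δ) (x : (Eu d)) :
    pot y c x ≤ pot y c' x + δ := by
  apply pot_le
  intro i
  have h1 := aff_le_pot y c' i x
  have h2 := h i
  simp only [aff] at h1 ⊢
  linarith

lemma pot_shift (y : ι → (Eu d)) (c : ι → ℝ) (s : ℝ) (x : (Eu d)) :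
    pot y (fun i => c i - s) x = pot y c x + s := by
  apply le_antisymm
  · apply pot_le_pot_add
    intro i; linarith
  · have := pot_le_pot_add y c (fun i => c i - s) (-s) (fun i => by linarith) x
    linarith

/-- Lipschitz continuity in `x`. -/
lemma pot_lipschitz (y : ι → (Eu d)) (c : ι → ℝ) (R : ℝ) (hy : ∀ i, ‖y i‖ ≤ R) (x x' : (Eu d)) :
    pot y c x ≤ pot y c x' + R * ‖x - x'‖ := by
  apply pot_le
  intro i
  have h1 := aff_le_pot y c i x'
  simp only [aff] at h1 ⊢
  have h2 : ⟪x, y i⟫ = ⟪x', y i⟫ + ⟪x - x', y i⟫ := by rw [inner_sub_left]; ring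
  have h3 : ⟪x - x', y i⟫ ≤ R * ‖x - x'‖ := by
    calc ⟪x - x', y i⟫ ≤ ‖x - x'‖ * ‖y i‖ := real_inner_le_norm _ _
      _ ≤ ‖x - x'‖ * R := by have := hy i; gcongr
      _ = _ := mul_comm _ _
  linarith

/-- dual functional -/
noncomputable def Phi (K : Set (Eu d)) (f : (Eu d) → ℝ) (m : ι → ℝ) (y : ι → (Eu d)) (c : ι → ℝ) : ℝ :=
  (∫ x in K, pot y c x * f x) + ∑ i, m i * c i

def IsMin (K : Set (Eu d)) (f : (Eu d) → ℝ) (m : ι → ℝ) (y : ι → (Eu d)) (c : ι → ℝ) : Prop :=
  ∀ c', Phi K f m y c ≤ Phi K f m y c'

/-- admissible densities: measurable, between 1/2 and 3/2, mass = total mass of `m` -/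
structure Adm (K : Set (Eu d)) (m : ι → ℝ) (f : (Eu d) → ℝ) : Prop where
  meas : Measurable f
  lo : ∀ x ∈ K, 1 / 2 ≤ f x
  hi : ∀ x ∈ K, f x ≤ 3 / 2
  mass : ∫ x in K, f x = ∑ i, m i

section basics

variable {K : Set (Eu d)} (hK : IsCompact K) {m : ι → ℝ} {f : (Eu d) → ℝ} (hf : Adm K m f)

include hK

lemma Adm.int (hf : Adm K m f) : IntegrableOn f K :=
  integrableOn_of_bdd hK hf.meas (3 / 2) (fun x hx => by
    rw [abs_of_nonneg (by linarith [hf.lo x hx])]; exact hf.hi x hx)

lemma Adm.int_mul (hf : Adm K m f) {F : (Eu d) → ℝ} (hF : Continuous F) :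
    IntegrableOn (fun x => F x * f x) K := by
  obtain ⟨B, hB⟩ := hK.exists_bound_of_continuousOn hF.continuousOn
  have hFm := hF.measurable
  have hfm := hf.meas
  apply integrableOn_of_bdd hK (by fun_prop) (B * (3 / 2))
  intro x hx
  rw [abs_mul]
  have h1 := hf.lo x hx
  have h2 := hf.hi x hx
  have h3 : |F x| ≤ B := by simpa using hB x hx
  have h4 : 0 ≤ B := le_trans (abs_nonneg _) h3
  rw [abs_of_nonneg (by linarith : 0 ≤ f x)]
  gcongr

include hf

lemma Phi_shift (y : ι → (Eu d)) (c : ι → ℝ) (s : ℝ) :
    Phi K f m y (fun i => c i - s) = Phi K f m y c := by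
  unfold Phi
  have h1 : ∀ x, pot y (fun i => c i - s) x * f x = pot y c x * f x + s * f x := by
    intro x; rw [pot_shift]; ring
  simp only [h1]
  rw [integral_add (hf.int_mul hK (continuous_pot y c)) ((hf.int hK).const_mul s),
    integral_const_mul, hf.mass]
  have h2 : ∑ i, m i * (c i - s) = ∑ i, m i * c i - s * ∑ i, m i := by
    rw [Finset.mul_sum, ← Finset.sum_sub_distrib]
    apply Finset.sum_congr rfl; intro i _; ring
  rw [h2]; ring

lemma Phi_le_add (hm : ∀ i, 0 < m i) (y : ι → (Eu d)) (c c' : ι → ℝ) (δ : ℝ)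
    (h : ∀ i, |c i - c' i| ≤ δ) :
    Phi K f m y c ≤ Phi K f m y c' + 2 * (δ * ∑ i, m i) := by
  unfold Phi
  have hKm : MeasurableSet K := hK.isClosed.measurableSet
  have h1 : ∫ x in K, pot y c x * f x ≤ (∫ x in K, pot y c' x * f x) + δ * ∑ i, m i := by
    rw [← hf.mass, ← integral_const_mul, ← integral_add (hf.int_mul hK (continuous_pot y c'))
      ((hf.int hK).const_mul δ)]
    apply setIntegral_mono_on (hf.int_mul hK (continuous_pot y c))
      ((hf.int_mul hK (continuous_pot y c')).add ((hf.int hK).const_mul δ)) hKm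
    intro x hx
    have h2 := pot_le_pot_add y c c' δ (fun i => by have := (abs_le.mp (h i)).1; linarith) x
    have h3 : 0 ≤ f x := by linarith [hf.lo x hx]
    show pot y c x * f x ≤ pot y c' x * f x + δ * f x
    nlinarith
  have h4 : ∑ i, m i * c i ≤ ∑ i, m i * c' i + δ * ∑ i, m i := by
    rw [Finset.mul_sum, ← Finset.sum_add_distrib]
    apply Finset.sum_le_sum
    intro i _
    have h5 := (abs_le.mp (h i)).2
    nlinarith [hm i]
  linarith

lemma continuous_Phi (hm : ∀ i, 0 < m i) (y : ι → (Eu d)) : Continuous (fun c => Phi K f m y c) := by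
  set M := ∑ i, m i with hM
  have hM0 : 0 < M := Finset.sum_pos (fun i _ => hm i) Finset.univ_nonempty
  rw [Metric.continuous_iff]
  intro c ε hε
  refine ⟨ε / (4 * M), by positivity, fun c' hc' => ?_⟩
  have h1 : ∀ i, |c i - c' i| ≤ ε / (4 * M) := by
    intro i
    have h2 : dist (c' i) (c i) ≤ dist c' c := dist_le_pi_dist c' c i
    rw [Real.dist_eq, abs_sub_comm] at h2
    exact h2.trans hc'.le
  have h2 : ∀ i, |c' i - c i| ≤ ε / (4 * M) := fun i => by rw [abs_sub_comm]; exact h1 i
  have h3 := Phi_le_add hK hf hm y c c' _ h1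
  have h4 := Phi_le_add hK hf hm y c' c _ h2
  have h5 : 2 * (ε / (4 * M) * ∑ i, m i) = ε / 2 := by rw [← hM]; field_simp; ring
  rw [h5] at h3 h4
  rw [Real.dist_eq, abs_lt]
  constructor <;> linarith

/-- existence of a minimiser in an explicit box -/
theorem exists_min (hm : ∀ i, 0 < m i) (R : ℝ) (hKR : ∀ x ∈ K, ‖x‖ ≤ R) (y : ι → (Eu d))
    (hy : ∀ i, ‖y i‖ ≤ R) :
    ∃ c, (∀ i, 0 ≤ c i ∧ c i ≤ 2 * R ^ 2 * (∑ j, m j) / m i) ∧ IsMin K f m y c := by
  set M := ∑ i, m i with hM
  have hM0 : 0 < M := Finset.sum_pos (fun i _ => hm i) Finset.univ_nonempty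
  have hKm : MeasurableSet K := hK.isClosed.measurableSet
  set C : ι → ℝ := fun i => 2 * R ^ 2 * M / m i with hC
  have hC0 : ∀ i, 0 ≤ C i := fun i => by
    simp only [hC]; have := hm i; positivity
  have hcomp : IsCompact (Icc (0 : ι → ℝ) C) := isCompact_Icc
  obtain ⟨c, hc, hcmin⟩ := hcomp.exists_isMinOn (⟨0, ⟨le_refl _, hC0⟩⟩ : (Icc (0 : ι → ℝ) C).Nonempty)
    (continuous_Phi hK hf hm y).continuousOn
  refine ⟨c, fun i => ⟨hc.1 i, hc.2 i⟩, ?_⟩
  intro c'
  -- normalise c'
  obtain ⟨i₀, -, hi₀⟩ := Finset.exists_min_image Finset.univ c' Finset.univ_nonempty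
  set c'' : ι → ℝ := fun i => c' i - c' i₀ with hc''
  have hshift : Phi K f m y c'' = Phi K f m y c' := Phi_shift hK hf y c' (c' i₀)
  have h0 : ∀ i, 0 ≤ c'' i := fun i => by
    simp only [hc'']; have := hi₀ i (Finset.mem_univ i); linarith
  by_cases hbox : ∀ i, c'' i ≤ C i
  · rw [← hshift]
    exact hcmin ⟨h0, hbox⟩
  · push Not at hbox
    obtain ⟨j, hj⟩ := hbox
    have h1 : Phi K f m y 0 ≤ R ^ 2 * M := by
      unfold Phi
      simp only [Pi.zero_apply, mul_zero, Finset.sum_const_zero, add_zero]
      rw [hM, ← hf.mass, ← integral_const_mul]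
      apply setIntegral_mono_on (hf.int_mul hK (continuous_pot y 0)) ((hf.int hK).const_mul _) hKm
      intro x hx
      have h2 : 0 ≤ f x := by linarith [hf.lo x hx]
      apply mul_le_mul_of_nonneg_right _ h2
      apply pot_le
      intro i
      simp only [aff, Pi.zero_apply, sub_zero]
      calc ⟪x, y i⟫ ≤ ‖x‖ * ‖y i‖ := real_inner_le_norm _ _
        _ ≤ R * R := by
            have := hKR x hx
            have h3 : 0 ≤ R := le_trans (norm_nonneg _) this
            have := hy i
            gcongr
        _ = R ^ 2 := by ring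
    have h2 : R ^ 2 * M ≤ Phi K f m y c'' := by
      unfold Phi
      have h3 : -(R ^ 2 * M) ≤ ∫ x in K, pot y c'' x * f x := by
        rw [hM, ← hf.mass, ← integral_const_mul, ← integral_neg]
        apply setIntegral_mono_on ((hf.int hK).const_mul _).neg
          (hf.int_mul hK (continuous_pot y c'')) hKm
        intro x hx
        have h4 : 0 ≤ f x := by linarith [hf.lo x hx]
        have h5 : -(R ^ 2) ≤ pot y c'' x := by
          have h6 := aff_le_pot y c'' i₀ x
          have h7 : aff y c'' i₀ x = ⟪x, y i₀⟫ := by simp [aff, hc'']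
          rw [h7] at h6
          have h8 : -⟪x, y i₀⟫ ≤ R ^ 2 := by
            calc -⟪x, y i₀⟫ ≤ |⟪x, y i₀⟫| := neg_le_abs _
              _ ≤ ‖x‖ * ‖y i₀‖ := abs_real_inner_le_norm _ _
              _ ≤ R * R := by
                  have := hKR x hx
                  have h3 : 0 ≤ R := le_trans (norm_nonneg _) this
                  have := hy i₀
                  gcongr
              _ = R ^ 2 := by ring
          linarith
        show -(R ^ 2 * f x) ≤ pot y c'' x * f x
        nlinarith
      have h4 : 2 * R ^ 2 * M ≤ ∑ i, m i * c'' i := by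
        have h5 : m j * c'' j ≤ ∑ i, m i * c'' i :=
          Finset.single_le_sum (f := fun i => m i * c'' i)
            (fun i _ => mul_nonneg (hm i).le (h0 i)) (Finset.mem_univ j)
        refine le_trans ?_ h5
        have h6 : C j < c'' j := hj
        have h7 : m j * C j = 2 * R ^ 2 * M := by
          simp only [hC]; have := (hm j).ne'; field_simp
        rw [← h7]
        exact mul_le_mul_of_nonneg_left h6.le (hm j).le
      linarith
    calc Phi K f m y c ≤ Phi K f m y 0 := hcmin ⟨le_refl _, hC0⟩
      _ ≤ R ^ 2 * M := h1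
      _ ≤ Phi K f m y c'' := h2
      _ = Phi K f m y c' := hshift

omit hK hf

lemma IsMin.compat (hm : ∀ i, 0 < m i) (y : ι → (Eu d)) (c : ι → ℝ)
    (hc : IsMin K f m y c) : Compat y c := by
  classical
  have key : ∀ i j, y i = y j → ¬ c i < c j := by
    intro i j hij hlt
    have hne : i ≠ j := by rintro rfl; exact lt_irrefl _ hlt
    set c' := Function.update c j (c i) with hc'
    have h1 : ∀ x, pot y c' x = pot y c x := by
      intro x
      apply le_antisymm
      · apply pot_le
        intro k
        by_cases hk : k = j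
        · subst hk
          have : aff y c' k x = aff y c i x := by simp [aff, hc', hij]
          rw [this]; exact aff_le_pot y c i x
        · have : aff y c' k x = aff y c k x := by simp [aff, hc', hk]
          rw [this]; exact aff_le_pot y c k x
      · apply pot_le
        intro k
        refine le_trans ?_ (aff_le_pot y c' k x)
        by_cases hk : k = j
        · subst hk
          simp only [aff, hc', Function.update_self]
          linarith
        · have : aff y c' k x = aff y c k x := by simp [aff, hc', hk]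
          rw [this]
    have h2 := hc c'
    unfold Phi at h2
    simp only [h1] at h2
    have h3 : ∑ k, m k * c' k < ∑ k, m k * c k := by
      apply Finset.sum_lt_sum
      · intro k _
        by_cases hk : k = j
        · subst hk
          simp only [hc', Function.update_self]
          exact mul_le_mul_of_nonneg_left hlt.le (hm k).le
        · simp [hc', hk]
      · refine ⟨j, Finset.mem_univ j, ?_⟩
        simp only [hc', Function.update_self]
        exact mul_lt_mul_of_pos_left hlt (hm j)
    linarith
  intro i j hij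
  exact le_antisymm (not_lt.mp (key j i hij.symm)) (not_lt.mp (key i j hij))

include hK hf

/-- optimality: masses of the cells. -/
theorem IsMin.mass (hm : ∀ i, 0 < m i) (y : ι → (Eu d)) (c : ι → ℝ)
    (hc : IsMin K f m y c) (i : ι) : ∫ x in cell K y c i, f x = gm y m i := by
  classical
  have hKm : MeasurableSet K := hK.isClosed.measurableSet
  have hcc : Compat y c := hc.compat hm
  have hcm : ∀ i, MeasurableSet (cell K y c i) := measurableSet_cell K hK y c
  have hfint : ∀ i, IntegrableOn f (cell K y c i) := fun i =>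
    (hf.int hK).mono_set (cell_subset K y c i)
  -- one inequality
  have hle : ∀ i, ∫ x in cell K y c i, f x ≤ gm y m i := by
    intro i
    -- strict cells
    set T : ℝ → Set (Eu d) := fun s => {x | x ∈ K ∧ ∀ j, y j ≠ y i → aff y c j x + s ≤ aff y c i x} with hT
    have hTm : ∀ s, MeasurableSet (T s) := by
      intro s
      have : T s = K ∩ ⋂ j, {x | y j ≠ y i → aff y c j x + s ≤ aff y c i x} := by
        ext x; simp [hT]
      rw [this]
      apply hKm.inter
      apply MeasurableSet.iInter
      intro j
      by_cases hj : y j = y i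
      · simp [hj]
      · simp only [ne_eq, hj, not_false_eq_true, forall_true_left]
        exact measurableSet_le ((continuous_aff y c j).measurable.add_const s)
          (continuous_aff y c i).measurable
    have hTle : ∀ s, 0 < s → ∫ x in T s, f x ≤ gm y m i := by
      intro s hs
      set c' : ι → ℝ := fun j => if y j = y i then c j + s else c j with hc'
      have h1 : ∀ x, pot y c' x ≤ pot y c x := by
        intro x
        apply pot_le
        intro j
        refine le_trans ?_ (aff_le_pot y c j x)
        simp only [aff, hc']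
        split_ifs <;> linarith
      have h2 : ∀ x ∈ T s, pot y c' x + s ≤ pot y c x := by
        intro x hx
        have h3 : pot y c' x ≤ aff y c i x - s := by
          apply pot_le
          intro j
          by_cases hj : y j = y i
          · simp only [aff, hc', if_pos hj, hj, hcc j i hj]; linarith
          · have h4 := hx.2 j hj
            have h5 : aff y c' j x = aff y c j x := by simp only [aff, hc', if_neg hj]
            rw [h5]; linarith
        have h6 := aff_le_pot y c i x
        linarith
      have h3 := hc c'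
      unfold Phi at h3
      have h4 : ∑ j, m j * c' j = ∑ j, m j * c j + s * gm y m i := by
        unfold gm
        rw [Finset.sum_filter, Finset.mul_sum, ← Finset.sum_add_distrib]
        apply Finset.sum_congr rfl
        intro j _
        simp only [hc']
        split_ifs <;> ring
      have h5 : (∫ x in K, pot y c' x * f x) + s * ∫ x in T s, f x ≤ ∫ x in K, pot y c x * f x := by
        have h6 : ∫ x in T s, f x = ∫ x in K, (T s).indicator f x := by
          rw [setIntegral_indicator (hTm s)]
          congr 1
          rw [inter_eq_self_of_subset_right]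
          intro x hx; exact hx.1
        have hind : IntegrableOn ((T s).indicator f) K := (hf.int hK).indicator (hTm s)
        rw [h6, ← integral_const_mul, ← integral_add (hf.int_mul hK (continuous_pot y c'))
          (hind.const_mul s)]
        apply setIntegral_mono_on ((hf.int_mul hK (continuous_pot y c')).add (hind.const_mul s))
          (hf.int_mul hK (continuous_pot y c)) hKm
        intro x hx
        have h7 : 0 ≤ f x := by linarith [hf.lo x hx]
        show pot y c' x * f x + s * (T s).indicator f x ≤ pot y c x * f x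
        by_cases hxT : x ∈ T s
        · rw [indicator_of_mem hxT]
          have := h2 x hxT
          nlinarith
        · rw [indicator_of_notMem hxT]
          have := h1 x
          nlinarith
      rw [h4] at h3
      have h8 : s * ∫ x in T s, f x ≤ s * gm y m i := by linarith
      exact le_of_mul_le_mul_left h8 hs
    -- limit
    set Sn : ℕ → Set (Eu d) := fun n => T (1 / ((n : ℝ) + 1)) with hSn
    have hmono : Monotone Sn := by
      intro n k hnk x hx
      refine ⟨hx.1, fun j hj => ?_⟩
      have h1 := hx.2 j hj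
      have h2 : (1 : ℝ) / ((k : ℝ) + 1) ≤ 1 / ((n : ℝ) + 1) := by
        apply one_div_le_one_div_of_le (by positivity)
        have : (n : ℝ) ≤ k := by exact_mod_cast hnk
        linarith
      linarith
    have hUsub : (⋃ n, Sn n) ⊆ K := by
      intro x hx
      obtain ⟨n, hn⟩ := mem_iUnion.mp hx
      exact hn.1
    have hlim := tendsto_setIntegral_of_monotone (fun n => hTm _) hmono
      ((hf.int hK).mono_set hUsub)
    have hlim_le : ∫ x in ⋃ n, Sn n, f x ≤ gm y m i := by
      apply le_of_tendsto hlim
      filter_upwards with n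
      exact hTle _ (by positivity)
    have hcellsub : ∀ᵐ x : (Eu d), x ∈ cell K y c i → x ∈ ⋃ n, Sn n := by
      have hties : ∀ᵐ x : (Eu d), ∀ j, y j ≠ y i → aff y c j x ≠ aff y c i x := by
        rw [ae_all_iff]; intro j
        by_cases h : y j = y i
        · filter_upwards with x hne; exact absurd h hne
        · have := ties_null y c j i h
          rw [← compl_compl {x : (Eu d) | aff y c j x = aff y c i x}] at this
          have h2 : ∀ᵐ x : (Eu d), x ∈ {x : (Eu d) | aff y c j x = aff y c i x}ᶜ := this
          filter_upwards [h2] with x hx _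
          exact hx
      filter_upwards [hties] with x hx hxc
      -- minimal gap
      have hgap : ∃ δ > 0, ∀ j, y j ≠ y i → aff y c j x + δ ≤ aff y c i x := by
        by_cases hne : (Finset.univ.filter (fun j => y j ≠ y i)).Nonempty
        · obtain ⟨j₀, hj₀, hj₀min⟩ := Finset.exists_min_image _
            (fun j => aff y c i x - aff y c j x) hne
          rw [Finset.mem_filter] at hj₀
          refine ⟨aff y c i x - aff y c j₀ x, ?_, ?_⟩
          · have h1 := hxc.2 j₀
            have h2 := hx j₀ hj₀.2
            have h3 : aff y c j₀ x < aff y c i x := lt_of_le_of_ne h1 h2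
            linarith
          · intro j hj
            have := hj₀min j (by rw [Finset.mem_filter]; exact ⟨Finset.mem_univ _, hj⟩)
            linarith
        · refine ⟨1, one_pos, fun j hj => ?_⟩
          exact absurd ⟨j, by rw [Finset.mem_filter]; exact ⟨Finset.mem_univ _, hj⟩⟩ hne
      obtain ⟨δ, hδ, hgap⟩ := hgap
      obtain ⟨n, hn⟩ := exists_nat_one_div_lt hδ
      rw [mem_iUnion]
      refine ⟨n, hxc.1, fun j hj => ?_⟩
      have := hgap j hj
      linarith
    refine le_trans ?_ hlim_le
    apply setIntegral_mono_set ((hf.int hK).mono_set hUsub)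
    · filter_upwards [ae_restrict_mem (MeasurableSet.iUnion (fun n => hTm _))] with x hx
      have := hf.lo x (hUsub hx)
      show 0 ≤ f x
      linarith
    · exact hcellsub
  -- equality from the sum
  have hsum : ∑ i, (m i / gm y m i) * (gm y m i - ∫ x in cell K y c i, f x) = 0 := by
    have h1 := sum_integral_cells K hK y c hcc m hm f (hf.int hK)
    have h2 : ∑ i, (m i / gm y m i) * gm y m i = ∑ i, m i := by
      apply Finset.sum_congr rfl
      intro i _
      have := (gm_pos y m hm i).ne'
      field_simp
    simp only [mul_sub, Finset.sum_sub_distrib]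
    rw [h1, h2, hf.mass, sub_self]
  have hnn : ∀ j ∈ Finset.univ, 0 ≤ (m j / gm y m j) * (gm y m j - ∫ x in cell K y c j, f x) := by
    intro j _
    apply mul_nonneg (div_nonneg (hm j).le (gm_pos y m hm j).le)
    have := hle j
    linarith
  have h3 := (Finset.sum_eq_zero_iff_of_nonneg hnn).mp hsum i (Finset.mem_univ i)
  have h4 : m i / gm y m i ≠ 0 := (div_pos (hm i) (gm_pos y m hm i)).ne'
  have h5 := (mul_eq_zero.mp h3).resolve_left h4
  linarith

end basics

end Crest.Agent.S0109
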