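import Crest.Agent.S0109F

set_option autoImplicit false

namespace Crest.Agent.S0109

open MeasureTheory Filter Set
open scoped Topology ENNReal RealInnerProductSpace

variable {d : ℕ} {ι : Type} [Fintype ι] [Nonempty ι]

section uniq

variable {K : Set (Eu d)} (hK : IsCompact K) {m : ι → ℝ} {f : (Eu d) → ℝ} (hf : Adm K m f)

include hK hf

theorem IsMin.unique (hKc : Convex ℝ K) (hKi : (interior K).Nonempty) (y : ι → (Eu d))
    (c c' : ι → ℝ) (hc : IsMin K f m y c) (hc' : IsMin K f m y c') :
    ∃ r, ∀ x ∈ K, pot y c x = pot y c' x + r := by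
  have hKm : MeasurableSet K := hK.isClosed.measurableSet
  set c'' : ι → ℝ := fun i => (c i + c' i) / 2 with hc''
  have haff : ∀ i x, aff y c'' i x = (aff y c i x + aff y c' i x) / 2 := by
    intro i x; simp only [aff, hc'']; ring
  have hle : ∀ x, pot y c'' x ≤ (pot y c x + pot y c' x) / 2 := by
    intro x
    apply pot_le
    intro i
    rw [haff]
    have h1 := aff_le_pot y c i x
    have h2 := aff_le_pot y c' i x
    linarith
  set D : Eu d → ℝ := fun x => (pot y c x + pot y c' x) / 2 - pot y c'' x with hD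
  have hDc : Continuous D := by
    have h1 := continuous_pot y c
    have h2 := continuous_pot y c'
    have h3 := continuous_pot y c''
    simp only [hD]; fun_prop
  have hD0 : ∀ x, 0 ≤ D x := fun x => by simp only [hD]; linarith [hle x]
  have hint1 := hf.int_mul hK (continuous_pot y c)
  have hint2 := hf.int_mul hK (continuous_pot y c')
  have hint3 := hf.int_mul hK (continuous_pot y c'')
  have hintD : IntegrableOn (fun x => D x * f x) K := hf.int_mul hK hDc
  have hIval : ∫ x in K, D x * f x = ((∫ x in K, pot y c x * f x) + (∫ x in K, pot y c' x * f x)) / 2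
      - ∫ x in K, pot y c'' x * f x := by
    have e : (fun x => D x * f x) = fun x => (1 / 2) * (pot y c x * f x) + (1 / 2) * (pot y c' x * f x)
        - pot y c'' x * f x := by
      funext x; simp only [hD]; ring
    rw [e, integral_sub (f := fun x => (1 / 2) * (pot y c x * f x) + (1 / 2) * (pot y c' x * f x))
      ((hint1.const_mul _).add (hint2.const_mul _)) hint3,
      integral_add (f := fun x => (1 / 2) * (pot y c x * f x)) (hint1.const_mul _)
      (hint2.const_mul _), integral_const_mul, integral_const_mul]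
    ring
  have hIzero : ∫ x in K, D x * f x = 0 := by
    apply le_antisymm
    · have h1 := hc c''
      have h2 := hc' c''
      unfold Phi at h1 h2
      have h3 : ∑ i, m i * c'' i = (∑ i, m i * c i + ∑ i, m i * c' i) / 2 := by
        rw [← Finset.sum_add_distrib, Finset.sum_div]
        apply Finset.sum_congr rfl
        intro i _; simp only [hc'']; ring
      rw [hIval]
      rw [h3] at h1 h2
      linarith
    · apply setIntegral_nonneg hKm
      intro x hx
      exact mul_nonneg (hD0 x) (by linarith [hf.lo x hx])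
  -- D = 0 a.e. on K
  have hae : ∀ᵐ x ∂(volume.restrict K), D x = 0 := by
    have h1 : (fun x => D x * f x) =ᵐ[volume.restrict K] 0 := by
      rw [← integral_eq_zero_iff_of_nonneg_ae _ hintD]
      · exact hIzero
      · filter_upwards [ae_restrict_mem hKm] with x hx
        exact mul_nonneg (hD0 x) (by linarith [hf.lo x hx])
    filter_upwards [h1, ae_restrict_mem hKm] with x hx hxK
    have h2 : D x * f x = 0 := hx
    have h3 : f x ≠ 0 := by have := hf.lo x hxK; linarith
    exact (mul_eq_zero.mp h2).resolve_right h3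
  -- D = 0 on K
  have hDK : ∀ x ∈ K, D x = 0 := by
    have hint : ∀ x ∈ interior K, D x = 0 := by
      by_contra hcon
      push Not at hcon
      obtain ⟨x₀, hx₀, hne⟩ := hcon
      have hopen : IsOpen (interior K ∩ {x | D x ≠ 0}) :=
        isOpen_interior.inter (isOpen_ne_fun hDc continuous_const)
      have hpos : 0 < volume (interior K ∩ {x | D x ≠ 0}) := hopen.measure_pos volume ⟨x₀, hx₀, hne⟩
      rw [ae_restrict_iff' hKm] at hae
      have hz : volume (interior K ∩ {x | D x ≠ 0}) = 0 := by
        apply measure_mono_null _ hae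
        intro x hx hcon
        exact hx.2 (hcon (interior_subset hx.1))
      rw [hz] at hpos
      exact lt_irrefl _ hpos
    have hsub : closure (interior K) ⊆ {x | D x = 0} :=
      closure_minimal hint (isClosed_eq hDc continuous_const)
    have hcl : closure (interior K) = closure K :=
      hKc.closure_interior_eq_closure_of_nonempty_interior hKi
    intro x hx
    exact hsub (hcl ▸ subset_closure hx)
  -- difference takes finitely many values
  have hfin : ∀ x ∈ K, ∃ i, pot y c x - pot y c' x = c' i - c i := by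
    intro x hx
    obtain ⟨i, hi⟩ := exists_pot y c'' x
    have h1 := hDK x hx
    simp only [hD, hi, haff] at h1
    have h2 := aff_le_pot y c i x
    have h3 := aff_le_pot y c' i x
    have h4 : pot y c x = aff y c i x := by linarith
    have h5 : pot y c' x = aff y c' i x := by linarith
    refine ⟨i, ?_⟩
    rw [h4, h5]; simp only [aff]; ring
  have himg : ((fun x => pot y c x - pot y c' x) '' K).Subsingleton := by
    have hcount : (Set.range (fun i => c' i - c i)).Countable := (Set.finite_range _).countable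
    have htd := hcount.isTotallyDisconnected
    apply htd
    · rintro _ ⟨x, hx, rfl⟩
      obtain ⟨i, hi⟩ := hfin x hx
      exact ⟨i, hi.symm⟩
    · exact hKc.isPreconnected.image _ ((continuous_pot y c).sub (continuous_pot y c')).continuousOn
  obtain ⟨x₀, hx₀⟩ := hKi
  refine ⟨pot y c x₀ - pot y c' x₀, fun x hx => ?_⟩
  have := himg ⟨x, hx, rfl⟩ ⟨x₀, interior_subset hx₀, rfl⟩
  simp only at this
  linarith

/-- plan term -/
noncomputable def plan (K : Set (Eu d)) (f : (Eu d) → ℝ) (m : ι → ℝ) (y : ι → Eu d) (c : ι → ℝ)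
    (v : ι → Eu d) : ℝ :=
  ∑ i, (m i / gm y m i) * ∫ x in cell K y c i, ⟪x, v i⟫ * f x

lemma Phi_ge_plan (hm : ∀ i, 0 < m i) (y : ι → (Eu d)) (c : ι → ℝ) (hc : IsMin K f m y c)
    (y' : ι → Eu d) (c' : ι → ℝ) : plan K f m y c y' ≤ Phi K f m y' c' := by
  have hcc := hc.compat hm
  have hKm : MeasurableSet K := hK.isClosed.measurableSet
  have hpotint := hf.int_mul hK (continuous_pot y' c')
  unfold plan Phi
  rw [← sum_integral_cells K hK y c hcc m hm _ hpotint]
  have h1 : ∑ i, m i * c' i = ∑ i, (m i / gm y m i) * (c' i * gm y m i) :=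
    (sum_theta_gm y m hm c').symm
  rw [h1, ← Finset.sum_add_distrib]
  apply Finset.sum_le_sum
  intro i _
  rw [← mul_add]
  apply mul_le_mul_of_nonneg_left _ (div_nonneg (hm i).le (gm_pos y m hm i).le)
  have hcint : IntegrableOn (fun x => ⟪x, y' i⟫ * f x) (cell K y c i) :=
    (hf.int_mul hK (by fun_prop)).mono_set (cell_subset K y c i)
  have hfint : IntegrableOn f (cell K y c i) := (hf.int hK).mono_set (cell_subset K y c i)
  rw [← hc.mass hK hf hm y c i, ← integral_const_mul, ← integral_add
    (hpotint.mono_set (cell_subset K y c i)) (hfint.const_mul _)]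
  apply setIntegral_mono_on hcint ((hpotint.mono_set (cell_subset K y c i)).add
    (hfint.const_mul _)) (measurableSet_cell K hK y c i)
  intro x hx
  show ⟪x, y' i⟫ * f x ≤ pot y' c' x * f x + c' i * f x
  have h2 := aff_le_pot y' c' i x
  have h3 : 0 ≤ f x := by linarith [hf.lo x hx.1]
  simp only [aff] at h2
  nlinarith

lemma Phi_eq_plan (hm : ∀ i, 0 < m i) (y : ι → (Eu d)) (c : ι → ℝ) (hc : IsMin K f m y c) :
    Phi K f m y c = plan K f m y c y := by
  apply le_antisymm _ (Phi_ge_plan hK hf hm y c hc y c)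
  have hcc := hc.compat hm
  have hKm : MeasurableSet K := hK.isClosed.measurableSet
  have hpotint := hf.int_mul hK (continuous_pot y c)
  unfold plan Phi
  rw [← sum_integral_cells K hK y c hcc m hm _ hpotint]
  have h1 : ∑ i, m i * c i = ∑ i, (m i / gm y m i) * (c i * gm y m i) :=
    (sum_theta_gm y m hm c).symm
  rw [h1, ← Finset.sum_add_distrib]
  apply Finset.sum_le_sum
  intro i _
  rw [← mul_add]
  apply mul_le_mul_of_nonneg_left _ (div_nonneg (hm i).le (gm_pos y m hm i).le)
  have hcint : IntegrableOn (fun x => ⟪x, y i⟫ * f x) (cell K y c i) :=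
    (hf.int_mul hK (by fun_prop)).mono_set (cell_subset K y c i)
  have hfint : IntegrableOn f (cell K y c i) := (hf.int hK).mono_set (cell_subset K y c i)
  rw [← hc.mass hK hf hm y c i, ← integral_const_mul, ← integral_add
    (hpotint.mono_set (cell_subset K y c i)) (hfint.const_mul _)]
  apply setIntegral_mono_on ((hpotint.mono_set (cell_subset K y c i)).add
    (hfint.const_mul _)) hcint (measurableSet_cell K hK y c i)
  intro x hx
  show pot y c x * f x + c i * f x ≤ ⟪x, y i⟫ * f x
  rw [pot_eq_of_cell y c i x hx]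
  simp only [aff]
  linarith

lemma plan_sub (y : ι → (Eu d)) (c : ι → ℝ) (v w : ι → Eu d) :
    plan K f m y c (fun i => v i - w i) = plan K f m y c v - plan K f m y c w := by
  unfold plan
  rw [← Finset.sum_sub_distrib]
  apply Finset.sum_congr rfl
  intro i _
  rw [← mul_sub]
  congr 1
  have h1 : IntegrableOn (fun x => ⟪x, v i⟫ * f x) (cell K y c i) :=
    (hf.int_mul hK (by fun_prop)).mono_set (cell_subset K y c i)
  have h2 : IntegrableOn (fun x => ⟪x, w i⟫ * f x) (cell K y c i) :=
    (hf.int_mul hK (by fun_prop)).mono_set (cell_subset K y c i)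
  rw [← integral_sub h1 h2]
  congr 1; funext x
  rw [inner_sub_right]; ring

omit hK hf in
lemma plan_smul (y : ι → (Eu d)) (c : ι → ℝ) (v : ι → Eu d) (r : ℝ) :
    plan K f m y c (fun i => r • v i) = r * plan K f m y c v := by
  unfold plan
  rw [Finset.mul_sum]
  apply Finset.sum_congr rfl
  intro i _
  have : ∫ x in cell K y c i, ⟪x, r • v i⟫ * f x = r * ∫ x in cell K y c i, ⟪x, v i⟫ * f x := by
    rw [← integral_const_mul]
    congr 1; funext x
    rw [inner_smul_right]; ring
  rw [this]; ring

lemma plan_bound (hm : ∀ i, 0 < m i) (R : ℝ) (hKR : ∀ x ∈ K, ‖x‖ ≤ R) (y : ι → (Eu d)) (c : ι → ℝ)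
    (hc : IsMin K f m y c) (v : ι → Eu d) (hv : ∀ i, ‖v i‖ ≤ 2 * R) :
    |plan K f m y c v| ≤ 2 * R ^ 2 * ∑ i, m i := by
  unfold plan
  have h1 : ∀ i, |(m i / gm y m i) * ∫ x in cell K y c i, ⟪x, v i⟫ * f x|
      ≤ (m i / gm y m i) * (2 * R ^ 2 * gm y m i) := by
    intro i
    rw [abs_mul, abs_of_nonneg (div_nonneg (hm i).le (gm_pos y m hm i).le)]
    apply mul_le_mul_of_nonneg_left _ (div_nonneg (hm i).le (gm_pos y m hm i).le)
    rw [← hc.mass hK hf hm y c i, ← integral_const_mul, ← Real.norm_eq_abs]
    have hfint : IntegrableOn f (cell K y c i) := (hf.int hK).mono_set (cell_subset K y c i)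
    apply norm_integral_le_of_norm_le (hfint.const_mul _)
    filter_upwards [ae_restrict_mem (measurableSet_cell K hK y c i)] with x hx
    have h3 : 0 ≤ f x := by linarith [hf.lo x hx.1]
    rw [norm_mul, Real.norm_eq_abs, Real.norm_of_nonneg h3]
    apply mul_le_mul_of_nonneg_right _ h3
    have hx' := hKR x hx.1
    have hR : 0 ≤ R := le_trans (norm_nonneg _) hx'
    calc |⟪x, v i⟫| ≤ ‖x‖ * ‖v i‖ := abs_real_inner_le_norm _ _
      _ ≤ R * (2 * R) := by have := hv i; gcongr
      _ = 2 * R ^ 2 := by ring
  calc |∑ i, (m i / gm y m i) * ∫ x in cell K y c i, ⟪x, v i⟫ * f x|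
      ≤ ∑ i, |(m i / gm y m i) * ∫ x in cell K y c i, ⟪x, v i⟫ * f x| :=
        Finset.abs_sum_le_sum_abs _ _
    _ ≤ ∑ i, (m i / gm y m i) * (2 * R ^ 2 * gm y m i) := Finset.sum_le_sum (fun i _ => h1 i)
    _ = ∑ i, m i * (2 * R ^ 2) := sum_theta_gm y m hm (fun _ => 2 * R ^ 2)
    _ = _ := by rw [← Finset.sum_mul]; ring

/-- difference of optimal values -/
lemma Phi_diff (hm : ∀ i, 0 < m i) (y : ι → (Eu d)) (c : ι → ℝ) (hc : IsMin K f m y c)
    (y' : ι → Eu d) (c' : ι → ℝ) :
    Phi K f m y c - Phi K f m y' c' ≤ plan K f m y c (fun i => y i - y' i) := by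
  rw [plan_sub hK hf, Phi_eq_plan hK hf hm y c hc]
  linarith [Phi_ge_plan hK hf hm y c hc y' c']

end uniq

lemma adm_one {K : Set (Eu d)} {m : ι → ℝ} (hmass : ∑ i, m i = (volume K).toReal) :
    Adm K m (fun _ => (1 : ℝ)) where
  meas := measurable_const
  lo := fun _ _ => by norm_num
  hi := fun _ _ => by norm_num
  mass := by rw [setIntegral_const, Measure.real, smul_eq_mul, mul_one, hmass]

/-- main telescoping estimate -/
theorem telescoping {K : Set (Eu d)} (hK : IsCompact K) (hKc : Convex ℝ K)
    (R : ℝ) (hR : 0 ≤ R) (hKR : ∀ x ∈ K, ‖x‖ ≤ R) (m : ι → ℝ) (hm : ∀ i, 0 < m i)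
    (hmass : ∑ i, m i = (volume K).toReal)
    (g : Eu d → ℝ) (hg : Measurable g) (hg2 : ∀ x ∈ K, |g x| ≤ 1 / 2) (hg0 : ∫ x in K, g x = 0)
    (y z : ι → Eu d) (hy : ∀ i, ‖y i‖ ≤ R) (hz : ∀ i, ‖z i‖ ≤ R)
    (cy cz ey ez : ι → ℝ) (hcy : IsMin K (fun _ => 1) m y cy) (hcz : IsMin K (fun _ => 1) m z cz)
    (hey : IsMin K (fun x => 1 + g x) m y ey) (hez : IsMin K (fun x => 1 + g x) m z ez)
    (l : ℝ) (hl : 0 < l) :
    Phi K (fun x => 1 + g x) m y ey - Phi K (fun x => 1 + g x) m z ez
      + (Phi K (fun _ => 1) m z cz - Phi K (fun _ => 1) m y cy)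
      ≤ 1 / 2 * l * ∑ i, m i * ‖y i - z i‖ ^ 2 + 4 * R ^ 2 / l * ∫ x in K, g x ^ 2 := by
  have hKm : MeasurableSet K := hK.isClosed.measurableSet
  have hA1 : Adm K m (fun _ => (1 : ℝ)) := adm_one hmass
  have hgint : IntegrableOn g K := integrableOn_of_bdd hK hg (1 / 2) hg2
  have hAg : Adm K m (fun x => 1 + g x) :=
    { meas := measurable_const.add hg
      lo := fun x hx => by have := (abs_le.mp (hg2 x hx)).1; linarith
      hi := fun x hx => by have := (abs_le.mp (hg2 x hx)).2; linarith
      mass := by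
        rw [integral_add (integrableOn_of_cont hK continuous_const) hgint, hg0, add_zero]
        exact hA1.mass }
  set X := Phi K (fun x => 1 + g x) m y ey - Phi K (fun x => 1 + g x) m z ez
      + (Phi K (fun _ => 1) m z cz - Phi K (fun _ => 1) m y cy) with hX
  set Bd := 1 / 2 * l * ∑ i, m i * ‖y i - z i‖ ^ 2 + 4 * R ^ 2 / l * ∫ x in K, g x ^ 2 with hBd
  have hstep : ∀ N : ℕ, 0 < N → X ≤ Bd + 1 / N * (4 * R ^ 2 * ∑ i, m i) := by
    intro N hN
    have hN' : (0 : ℝ) < N := by exact_mod_cast hN
    -- interpolating points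
    set p : ℕ → ι → Eu d := fun k i => y i - ((k : ℝ) / N) • (y i - z i) with hp
    have hp0 : p 0 = y := by funext i; simp [hp]
    have hpN : p N = z := by
      funext i
      simp only [hp]
      rw [div_self hN'.ne', one_smul]; abel
    have hpR : ∀ k, k ≤ N → ∀ i, ‖p k i‖ ≤ R := by
      intro k hk i
      have hk' : (k : ℝ) / N ≤ 1 := by
        rw [div_le_one hN']; exact_mod_cast hk
      have hk0 : 0 ≤ (k : ℝ) / N := by positivity
      have e : p k i = (1 - (k : ℝ) / N) • y i + ((k : ℝ) / N) • z i := by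
        simp only [hp]; module
      rw [e]
      calc _ ≤ ‖(1 - (k : ℝ) / N) • y i‖ + ‖((k : ℝ) / N) • z i‖ := norm_add_le _ _
        _ = (1 - (k : ℝ) / N) * ‖y i‖ + ((k : ℝ) / N) * ‖z i‖ := by
            rw [norm_smul, norm_smul, Real.norm_of_nonneg (by linarith), Real.norm_of_nonneg hk0]
        _ ≤ (1 - (k : ℝ) / N) * R + ((k : ℝ) / N) * R := by
            have := hy i; have := hz i
            have h1 : 0 ≤ 1 - (k : ℝ) / N := by linarith
            gcongr
        _ = R := by ring
    have hdiff : ∀ k i, p k i - p (k + 1) i = (1 / (N : ℝ)) • (y i - z i) := by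
      intro k i
      simp only [hp]
      push_cast
      rw [sub_sub_sub_cancel_left, ← sub_smul]
      congr 1
      field_simp
      ring
    have hdiff' : ∀ k i, p (k + 1) i - p k i = (-(1 / (N : ℝ))) • (y i - z i) := by
      intro k i
      rw [← neg_sub, hdiff, neg_smul]
    -- minimisers along the path (equal to the given ones at the ends)
    have hex1 : ∀ k : ℕ, ∃ c, k ≤ N → IsMin K (fun _ => 1) m (p k) c := by
      intro k
      by_cases hk : k ≤ N
      · obtain ⟨c, -, hc⟩ := exists_min hK hA1 hm R hKR (p k) (hpR k hk)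
        exact ⟨c, fun _ => hc⟩
      · exact ⟨0, fun h => absurd h hk⟩
    have hexg : ∀ k : ℕ, ∃ c, k ≤ N → IsMin K (fun x => 1 + g x) m (p k) c := by
      intro k
      by_cases hk : k ≤ N
      · obtain ⟨c, -, hc⟩ := exists_min hK hAg hm R hKR (p k) (hpR k hk)
        exact ⟨c, fun _ => hc⟩
      · exact ⟨0, fun h => absurd h hk⟩
    choose c hc using hex1
    choose e he using hexg
    set J1 : ℕ → ℝ := fun k => Phi K (fun _ => 1) m (p k) (c k) with hJ1
    set Jg : ℕ → ℝ := fun k => Phi K (fun x => 1 + g x) m (p k) (e k) with hJg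
    set S : ℕ → ℝ := fun k => plan K (fun _ => 1) m (p k) (c k) (fun i => y i - z i) with hS
    have hone : ∀ k, k + 1 ≤ N → (Jg k - Jg (k + 1)) + (J1 (k + 1) - J1 k)
        ≤ 1 / N * Bd + 1 / N * (S k - S (k + 1)) := by
      intro k hk
      have h1 : Jg k - Jg (k + 1) ≤ 1 / N * plan K (fun x => 1 + g x) m (p k) (e k)
          (fun i => y i - z i) := by
        have := Phi_diff hK hAg hm (p k) (e k) (he k (by omega)) (p (k + 1)) (e (k + 1))
        refine this.trans (le_of_eq ?_)
        rw [← plan_smul]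
        congr 1; funext i; exact hdiff k i
      have h2 : J1 (k + 1) - J1 k ≤ -(1 / N) * S (k + 1) := by
        have := Phi_diff hK hA1 hm (p (k + 1)) (c (k + 1)) (hc (k + 1) hk) (p k) (c k)
        refine this.trans (le_of_eq ?_)
        simp only [hS]
        rw [← plan_smul]
        congr 1; funext i; exact hdiff' k i
      have h3 : plan K (fun x => 1 + g x) m (p k) (e k) (fun i => y i - z i) - S k ≤ Bd := by
        have hmin1 := hc k (by omega)
        have hming := he k (by omega)
        have key := key_ineq K hK hKc R hR hKR g hg hg2 (p k) (c k) (e k) (hmin1.compat hm)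
          (hming.compat hm) m hm (by
            intro i
            have := hmin1.mass hK hA1 hm (p k) (c k) i
            rw [setIntegral_const, Measure.real, smul_eq_mul, mul_one] at this
            exact this) (fun i => hming.mass hK hAg hm (p k) (e k) i)
          (fun i => l • (y i - z i))
        have e1 : ∑ i, (m i / gm (p k) m i) * ((∫ x in cell K (p k) (e k) i, ⟪x, l • (y i - z i)⟫ * (1 + g x))
            - ∫ x in cell K (p k) (c k) i, ⟪x, l • (y i - z i)⟫)
            = l * (plan K (fun x => 1 + g x) m (p k) (e k) (fun i => y i - z i) - S k) := by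
          rw [mul_sub, ← plan_smul]
          simp only [hS]
          rw [← plan_smul]
          unfold plan
          rw [← Finset.sum_sub_distrib]
          apply Finset.sum_congr rfl
          intro i _
          simp only [mul_one]
          ring
        have e2 : ∑ i, m i * ‖l • (y i - z i)‖ ^ 2 = l ^ 2 * ∑ i, m i * ‖y i - z i‖ ^ 2 := by
          rw [Finset.mul_sum]
          apply Finset.sum_congr rfl
          intro i _
          rw [norm_smul, Real.norm_of_nonneg hl.le]; ring
        rw [e1, e2] at key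
        have h4 : l * (plan K (fun x => 1 + g x) m (p k) (e k) (fun i => y i - z i) - S k)
            ≤ l * Bd := by
          have : l * Bd = 2 * (1 / 4 * (l ^ 2 * ∑ i, m i * ‖y i - z i‖ ^ 2)
              + 2 * R ^ 2 * ∫ x in K, g x ^ 2) := by
            rw [hBd]; field_simp; ring
          rw [this]
          linarith
        exact le_of_mul_le_mul_left h4 hl
      have h5 : 1 / N * plan K (fun x => 1 + g x) m (p k) (e k) (fun i => y i - z i)
          ≤ 1 / N * (Bd + S k) := by
        gcongr; linarith
      calc (Jg k - Jg (k + 1)) + (J1 (k + 1) - J1 k)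
          ≤ 1 / N * (Bd + S k) + -(1 / N) * S (k + 1) := by linarith
        _ = _ := by ring
    have hsum : ∀ n, n ≤ N → (Jg 0 - Jg n) + (J1 n - J1 0) ≤ (n : ℝ) * (1 / N * Bd)
        + 1 / N * (S 0 - S n) := by
      intro n
      induction n with
      | zero => intro _; simp
      | succ n ih =>
        intro hn
        have h1 := ih (by omega)
        have h2 := hone n hn
        push_cast
        linarith
    have hfin := hsum N le_rfl
    -- ends
    have hJg0 : Jg 0 = Phi K (fun x => 1 + g x) m y ey := by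
      simp only [hJg]
      have h1 := he 0 (by omega)
      rw [hp0] at h1
      rw [hp0]
      exact le_antisymm (h1 _) (hey _)
    have hJgN : Jg N = Phi K (fun x => 1 + g x) m z ez := by
      simp only [hJg]
      have h1 := he N le_rfl
      rw [hpN] at h1
      rw [hpN]
      exact le_antisymm (h1 _) (hez _)
    have hJ10 : J1 0 = Phi K (fun _ => 1) m y cy := by
      simp only [hJ1]
      have h1 := hc 0 (by omega)
      rw [hp0] at h1
      rw [hp0]
      exact le_antisymm (h1 _) (hcy _)
    have hJ1N : J1 N = Phi K (fun _ => 1) m z cz := by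
      simp only [hJ1]
      have h1 := hc N le_rfl
      rw [hpN] at h1
      rw [hpN]
      exact le_antisymm (h1 _) (hcz _)
    have hv : ∀ i, ‖y i - z i‖ ≤ 2 * R := by
      intro i
      calc ‖y i - z i‖ ≤ ‖y i‖ + ‖z i‖ := norm_sub_le _ _
        _ ≤ 2 * R := by linarith [hy i, hz i]
    have hS0 := plan_bound hK hA1 hm R hKR (p 0) (c 0) (hc 0 (by omega)) _ hv
    have hSN := plan_bound hK hA1 hm R hKR (p N) (c N) (hc N le_rfl) _ hv
    rw [hJg0, hJgN, hJ10, hJ1N] at hfin
    have e3 : (N : ℝ) * (1 / N * Bd) = Bd := by field_simp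
    rw [e3] at hfin
    have h6 : S 0 - S N ≤ 4 * R ^ 2 * ∑ i, m i := by
      have h7 := (abs_le.mp hS0).2
      have h8 := (abs_le.mp hSN).1
      simp only [hS]
      linarith
    calc X ≤ Bd + 1 / N * (S 0 - S N) := by rw [hX]; linarith
      _ ≤ _ := by gcongr
  -- N → ∞
  have hlim : Tendsto (fun N : ℕ => Bd + 1 / (N : ℝ) * (4 * R ^ 2 * ∑ i, m i)) atTop
      (𝓝 (Bd + 0 * (4 * R ^ 2 * ∑ i, m i))) := by
    apply Tendsto.const_add
    apply Tendsto.mul_const
    exact tendsto_one_div_atTop_nhds_zero_nat
  rw [zero_mul, add_zero] at hlim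
  apply ge_of_tendsto hlim
  filter_upwards [eventually_gt_atTop 0] with N hN
  exact hstep N hN

end Crest.Agent.S0109
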