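import Crest.Agent.S0109G

set_option autoImplicit false

namespace Crest.Agent.S0109

open MeasureTheory Filter Set
open scoped Topology ENNReal RealInnerProductSpace

variable {d : ℕ} {ι : Type} [Fintype ι] [Nonempty ι]

lemma Phi_perturb {K : Set (Eu d)} (hK : IsCompact K) (m : ι → ℝ) (g : Eu d → ℝ)
    (hg : Continuous g) (s : ℝ) (y : ι → Eu d) (c : ι → ℝ) :
    Phi K (fun x => 1 + s * g x) m y c = Phi K (fun _ => 1) m y c + s * ∫ x in K, pot y c x * g x := by
  unfold Phi
  have hc := continuous_pot y c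
  have e : (fun x => pot y c x * (1 + s * g x)) = fun x => pot y c x * 1 + s * (pot y c x * g x) := by
    funext x; ring
  have h1 : IntegrableOn (fun x => pot y c x * 1) K := integrableOn_of_cont hK (by fun_prop)
  have h2 : IntegrableOn (fun x => pot y c x * g x) K := integrableOn_of_cont hK (by fun_prop)
  rw [e, integral_add h1 (h2.const_mul s), integral_const_mul]
  ring

theorem L2_discrete {K : Set (Eu d)} (hK : IsCompact K) (hKc : Convex ℝ K)
    (hKi : (interior K).Nonempty)
    (R : ℝ) (hR : 0 < R) (hKR : ∀ x ∈ K, ‖x‖ ≤ R) (m : ι → ℝ) (hm : ∀ i, 0 < m i)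
    (hmass : ∑ i, m i = (volume K).toReal)
    (y z : ι → Eu d) (hy : ∀ i, ‖y i‖ ≤ R) (hz : ∀ i, ‖z i‖ ≤ R)
    (cy cz : ι → ℝ) (hcy : IsMin K (fun _ => 1) m y cy) (hcz : IsMin K (fun _ => 1) m z cz) :
    ∫ x in K, (pot y cy x - pot z cz x
      - (∫ x in K, (pot y cy x - pot z cz x)) / (volume K).toReal) ^ 2
      ≤ 8 * R ^ 2 * ∑ i, m i * ‖y i - z i‖ ^ 2 := by
  have hKm : MeasurableSet K := hK.isClosed.measurableSet
  set κ := (volume K).toReal with hκ
  have hκ0 : 0 < κ := by
    rw [← hmass]; exact Finset.sum_pos (fun i _ => hm i) Finset.univ_nonempty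
  set u : Eu d → ℝ := fun x => pot y cy x - pot z cz x with hu
  have huc : Continuous u := (continuous_pot y cy).sub (continuous_pot z cz)
  set ub := (∫ x in K, u x) / κ with hub
  set g : Eu d → ℝ := fun x => u x - ub with hg
  have hgc : Continuous g := huc.sub continuous_const
  have hgint : IntegrableOn g K := integrableOn_of_cont hK hgc
  have hg0 : ∫ x in K, g x = 0 := by
    simp only [hg]
    rw [integral_sub (integrableOn_of_cont hK huc) (integrableOn_of_cont hK continuous_const),
      setIntegral_const, Measure.real, ← hκ, smul_eq_mul, hub]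
    field_simp
    ring
  obtain ⟨G, hG⟩ := hK.exists_bound_of_continuousOn hgc.continuousOn
  have hG' : ∀ x ∈ K, |g x| ≤ G := fun x hx => by simpa using hG x hx
  have hG0 : 0 ≤ G := by
    obtain ⟨x, hx⟩ := hKi
    exact le_trans (abs_nonneg _) (hG' x (interior_subset hx))
  set s : ℕ → ℝ := fun n => 1 / (2 * (G + 1) * ((n : ℝ) + 1)) with hs
  have hs0 : ∀ n, 0 < s n := fun n => by simp only [hs]; positivity
  have hslim : Tendsto s atTop (𝓝 0) := by
    have h1 : Tendsto (fun n : ℕ => (1 / (2 * (G + 1))) * (1 / ((n : ℝ) + 1))) atTop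
        (𝓝 ((1 / (2 * (G + 1))) * 0)) := tendsto_one_div_add_atTop_nhds_zero_nat.const_mul _
    rw [mul_zero] at h1
    refine h1.congr (fun n => ?_)
    simp only [hs]; field_simp
  have hsb : ∀ n, ∀ x ∈ K, |s n * g x| ≤ 1 / 2 := by
    intro n x hx
    rw [abs_mul, abs_of_pos (hs0 n)]
    have h1 := hG' x hx
    have h2 : s n * (G + 1) ≤ 1 / 2 := by
      simp only [hs]
      have h3 : 1 / (2 * (G + 1) * ((n : ℝ) + 1)) * (G + 1) = 1 / (2 * ((n : ℝ) + 1)) := by
        field_simp
      rw [h3]
      apply one_div_le_one_div_of_le (by norm_num)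
      have : (0 : ℝ) ≤ n := Nat.cast_nonneg n
      linarith
    calc s n * |g x| ≤ s n * (G + 1) := by
          have := hs0 n
          gcongr; linarith
      _ ≤ 1 / 2 := h2
  have hAdm : ∀ n, Adm K m (fun x => 1 + s n * g x) := fun n =>
    { meas := measurable_const.add (hgc.measurable.const_mul _)
      lo := fun x hx => by have := (abs_le.mp (hsb n x hx)).1; linarith
      hi := fun x hx => by have := (abs_le.mp (hsb n x hx)).2; linarith
      mass := by
        rw [integral_add (integrableOn_of_cont hK continuous_const) (hgint.const_mul _),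
          integral_const_mul, hg0, mul_zero, add_zero]
        exact (adm_one hmass).mass }
  have hexy : ∀ n, ∃ e : ι → ℝ, (∀ i, 0 ≤ e i ∧ e i ≤ 2 * R ^ 2 * (∑ j, m j) / m i) ∧
      IsMin K (fun x => 1 + s n * g x) m y e := fun n => exists_min hK (hAdm n) hm R hKR y hy
  have hexz : ∀ n, ∃ e : ι → ℝ, (∀ i, 0 ≤ e i ∧ e i ≤ 2 * R ^ 2 * (∑ j, m j) / m i) ∧
      IsMin K (fun x => 1 + s n * g x) m z e := fun n => exists_min hK (hAdm n) hm R hKR z hz
  choose e he hemin using hexy
  choose f hf hfmin using hexz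
  set D2 := ∑ i, m i * ‖y i - z i‖ ^ 2 with hD2
  set G2 := ∫ x in K, g x ^ 2 with hG2
  have hbound : ∀ n, (∫ x in K, pot y (e n) x * g x) - ∫ x in K, pot z cz x * g x
      ≤ 4 * R ^ 2 * D2 + 1 / 2 * G2 := by
    intro n
    have hsn := hs0 n
    have h1 := telescoping hK hKc R hR.le hKR m hm hmass (fun x => s n * g x)
      (hgc.measurable.const_mul _) (hsb n) (by rw [integral_const_mul, hg0, mul_zero]) y z hy hz
      cy cz (e n) (f n) hcy hcz (hemin n) (hfmin n) (s n * (8 * R ^ 2)) (by positivity)
    have h2 : ∫ x in K, (s n * g x) ^ 2 = s n ^ 2 * G2 := by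
      rw [hG2, ← integral_const_mul]
      congr 1; funext x; ring
    rw [h2, ← hD2] at h1
    have h3 : 1 / 2 * (s n * (8 * R ^ 2)) * D2 + 4 * R ^ 2 / (s n * (8 * R ^ 2)) * (s n ^ 2 * G2)
        = s n * (4 * R ^ 2 * D2 + 1 / 2 * G2) := by
      field_simp
      ring
    rw [h3] at h1
    have h4 : Phi K (fun x => 1 + s n * g x) m z (f n) ≤ Phi K (fun _ => 1) m z cz
        + s n * ∫ x in K, pot z cz x * g x := by
      rw [← Phi_perturb hK m g hgc (s n) z cz]
      exact hfmin n cz
    have h5 : Phi K (fun _ => 1) m y cy + s n * ∫ x in K, pot y (e n) x * g x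
        ≤ Phi K (fun x => 1 + s n * g x) m y (e n) := by
      rw [Phi_perturb hK m g hgc (s n) y (e n)]
      have := hcy (e n)
      linarith
    have h6 : s n * ((∫ x in K, pot y (e n) x * g x) - ∫ x in K, pot z cz x * g x)
        ≤ s n * (4 * R ^ 2 * D2 + 1 / 2 * G2) := by
      rw [mul_sub]; linarith
    exact le_of_mul_le_mul_left h6 hsn
  -- compactness
  have hcomp : IsCompact (Icc (0 : ι → ℝ) (fun i => 2 * R ^ 2 * (∑ j, m j) / m i)) := isCompact_Icc
  obtain ⟨ei, -, φ, hφ, hφlim⟩ := hcomp.tendsto_subseq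
    (fun n => (⟨fun i => (he n i).1, fun i => (he n i).2⟩ : e n ∈ Icc (0 : ι → ℝ) _))
  have hpotlim : Tendsto (fun n => ∫ x in K, pot y (e (φ n)) x * g x) atTop
      (𝓝 (∫ x in K, pot y ei x * g x)) := by
    rw [tendsto_iff_norm_sub_tendsto_zero]
    have hnorm : Tendsto (fun n => ‖e (φ n) - ei‖ * ∫ x in K, |g x|) atTop (𝓝 0) := by
      have h1 := (tendsto_iff_norm_sub_tendsto_zero.mp hφlim).mul_const (∫ x in K, |g x|)
      rw [zero_mul] at h1
      exact h1
    refine squeeze_zero (fun _ => norm_nonneg _) (fun n => ?_) hnorm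
    have hc1 := continuous_pot y (e (φ n))
    have hc2 := continuous_pot y ei
    have hi1 : IntegrableOn (fun x => pot y (e (φ n)) x * g x) K :=
      integrableOn_of_cont hK (by fun_prop)
    have hi2 : IntegrableOn (fun x => pot y ei x * g x) K := integrableOn_of_cont hK (by fun_prop)
    rw [← integral_sub hi1 hi2, ← integral_const_mul]
    apply norm_integral_le_of_norm_le (hgint.norm.const_mul _)
    filter_upwards with x
    rw [← sub_mul, norm_mul]
    apply mul_le_mul_of_nonneg_right _ (norm_nonneg _)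
    rw [Real.norm_eq_abs, abs_le]
    have hcomp : ∀ i, |e (φ n) i - ei i| ≤ ‖e (φ n) - ei‖ := fun i => by
      have := norm_le_pi_norm (e (φ n) - ei) i
      simpa using this
    constructor
    · have := pot_le_pot_add y ei (e (φ n)) ‖e (φ n) - ei‖ (fun i => by
        have := (abs_le.mp (hcomp i)).2; linarith) x
      linarith
    · have := pot_le_pot_add y (e (φ n)) ei ‖e (φ n) - ei‖ (fun i => by
        have := (abs_le.mp (hcomp i)).1; linarith) x
      linarith
  have hlimbound : (∫ x in K, pot y ei x * g x) - ∫ x in K, pot z cz x * g x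
      ≤ 4 * R ^ 2 * D2 + 1 / 2 * G2 := by
    apply le_of_tendsto (hpotlim.sub_const _)
    filter_upwards with n
    exact hbound (φ n)
  -- the limit is a minimiser
  have heimin : IsMin K (fun _ => 1) m y ei := by
    intro c'
    have hsφ : Tendsto (fun n => s (φ n)) atTop (𝓝 0) := hslim.comp hφ.tendsto_atTop
    have h1 : Tendsto (fun n => Phi K (fun _ => 1) m y (e (φ n))
        + s (φ n) * ∫ x in K, pot y (e (φ n)) x * g x) atTop
        (𝓝 (Phi K (fun _ => 1) m y ei + 0 * ∫ x in K, pot y ei x * g x)) := by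
      apply Tendsto.add
      · exact ((continuous_Phi hK (adm_one hmass) hm y).tendsto ei).comp hφlim
      · exact hsφ.mul hpotlim
    have h2 : Tendsto (fun n => Phi K (fun _ => 1) m y c'
        + s (φ n) * ∫ x in K, pot y c' x * g x) atTop
        (𝓝 (Phi K (fun _ => 1) m y c' + 0 * ∫ x in K, pot y c' x * g x)) :=
      (hsφ.mul_const _).const_add _
    rw [zero_mul, add_zero] at h1 h2
    apply le_of_tendsto_of_tendsto' h1 h2
    intro n
    rw [← Phi_perturb hK m g hgc, ← Phi_perturb hK m g hgc]
    exact hemin (φ n) c'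
  obtain ⟨r, hr⟩ := heimin.unique hK (adm_one hmass) hKc hKi y ei cy hcy
  have h1 : ∫ x in K, pot y ei x * g x = ∫ x in K, pot y cy x * g x := by
    have hc1 := continuous_pot y cy
    have hi1 : IntegrableOn (fun x => pot y cy x * g x) K := integrableOn_of_cont hK (by fun_prop)
    have e1 : ∫ x in K, pot y ei x * g x = ∫ x in K, (pot y cy x * g x + r * g x) := by
      apply setIntegral_congr_fun hKm
      intro x hx
      simp only [hr x hx]; ring
    rw [e1, integral_add hi1 (hgint.const_mul r), integral_const_mul, hg0, mul_zero, add_zero]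
  rw [h1] at hlimbound
  have hc1 := continuous_pot y cy
  have hc2 := continuous_pot z cz
  have hi1 : IntegrableOn (fun x => pot y cy x * g x) K := integrableOn_of_cont hK (by fun_prop)
  have hi2 : IntegrableOn (fun x => pot z cz x * g x) K := integrableOn_of_cont hK (by fun_prop)
  have h2 : (∫ x in K, pot y cy x * g x) - ∫ x in K, pot z cz x * g x = G2 := by
    rw [← integral_sub hi1 hi2, hG2]
    have hi3 : IntegrableOn (fun x => g x ^ 2) K := integrableOn_of_cont hK (by fun_prop)
    have e1 : (fun x => pot y cy x * g x - pot z cz x * g x) = fun x => g x ^ 2 + ub * g x := by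
      funext x; simp only [hg, hu]; ring
    rw [e1, integral_add hi3 (hgint.const_mul ub), integral_const_mul, hg0, mul_zero, add_zero]
  rw [h2] at hlimbound
  show G2 ≤ 8 * R ^ 2 * D2
  linarith

end Crest.Agent.S0109
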