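import Crest.Agent.S0109H
import Mathlib.Probability.CDF
import Mathlib.Probability.Kernel.Representation

set_option autoImplicit false

namespace Crest.Agent.S0109

open MeasureTheory Filter Set
open scoped Topology ENNReal RealInnerProductSpace

lemma cdf_continuous (P : Measure ℝ) [IsProbabilityMeasure P] [NullSingletonClass P] :
    Continuous (ProbabilityTheory.cdf P) := by
  rw [continuous_iff_continuousAt]
  intro a
  have hmono := ProbabilityTheory.monotone_cdf P
  rw [hmono.continuousAt_iff_leftLim_eq_rightLim, StieltjesFunction.rightLim_eq]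
  have h1 : (ProbabilityTheory.cdf P).measure {a} = 0 := by
    rw [ProbabilityTheory.measure_cdf]; simp
  rw [StieltjesFunction.measure_singleton, ENNReal.ofReal_eq_zero] at h1
  have h2 := hmono.leftLim_le (le_refl a)
  linarith

lemma exists_uniformizer (P : Measure ℝ) [IsProbabilityMeasure P] [NullSingletonClass P] :
    ∃ U : ℝ → unitInterval, Measurable U ∧ P.map U = volume := by
  set F := ProbabilityTheory.cdf P with hF
  have hmono : Monotone F := ProbabilityTheory.monotone_cdf P
  have hcont : Continuous F := cdf_continuous P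
  have hsurj : ∀ t ∈ Ioo (0 : ℝ) 1, ∃ x, F x = t := by
    intro t ht
    have h0 := ProbabilityTheory.tendsto_cdf_atBot P
    have h1 := ProbabilityTheory.tendsto_cdf_atTop P
    have e0 : ∃ x, F x ≤ t := by
      have := h0.eventually (eventually_lt_nhds ht.1)
      obtain ⟨x, hx⟩ := this.exists
      exact ⟨x, hx.le⟩
    have e1 : ∃ x, t ≤ F x := by
      have := h1.eventually (eventually_gt_nhds ht.2)
      obtain ⟨x, hx⟩ := this.exists
      exact ⟨x, hx.le⟩
    exact mem_range_of_exists_le_of_exists_ge hcont e0 e1
  set U : ℝ → unitInterval := fun x =>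
    ⟨F x, ProbabilityTheory.cdf_nonneg P x, ProbabilityTheory.cdf_le_one P x⟩ with hU
  have hUm : Measurable U := by
    apply Measurable.subtype_mk
    exact hcont.measurable
  refine ⟨U, hUm, ?_⟩
  have : IsProbabilityMeasure (P.map U) := Measure.isProbabilityMeasure_map hUm.aemeasurable
  apply Measure.ext_of_Iic
  intro a
  rw [Measure.map_apply hUm measurableSet_Iic, unitInterval.volume_Iic]
  have hset : U ⁻¹' (Iic a) = {x | F x ≤ a} := by
    ext x
    simp only [mem_preimage, mem_Iic, hU]
    exact Iff.rfl
  rw [hset]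
  obtain ⟨t, ht0, ht1⟩ := a
  show P {x | F x ≤ t} = ENNReal.ofReal t
  apply le_antisymm
  · rcases eq_or_lt_of_le ht1 with h | h
    · rw [h, ENNReal.ofReal_one]; exact prob_le_one
    · have key : ∀ t' ∈ Ioo t 1, P {x | F x ≤ t} ≤ ENNReal.ofReal t' := by
        intro t' ht'
        obtain ⟨x', hx'⟩ := hsurj t' ⟨lt_of_le_of_lt ht0 ht'.1, ht'.2⟩
        calc P {x | F x ≤ t} ≤ P (Iic x') := by
              apply measure_mono
              intro y hy
              simp only [mem_ofPred_eq] at hy
              rw [mem_Iic]
              by_contra hlt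
              push Not at hlt
              have := hmono hlt.le
              have := ht'.1
              linarith
          _ = ENNReal.ofReal t' := by rw [← hx', ← ProbabilityTheory.ofReal_cdf]
      have hlim : Tendsto (fun t' => ENNReal.ofReal t') (𝓝[>] t) (𝓝 (ENNReal.ofReal t)) :=
        (ENNReal.continuous_ofReal.tendsto t).mono_left nhdsWithin_le_nhds
      apply ge_of_tendsto hlim
      filter_upwards [Ioo_mem_nhdsGT h] with t' ht'
      exact key t' ht'
  · rcases eq_or_lt_of_le ht0 with h | h
    · rw [← h]; simp
    · rcases eq_or_lt_of_le ht1 with h' | h'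
      · have : {x | F x ≤ t} = univ := by
          ext x
          simp only [mem_ofPred_eq, mem_univ, iff_true]
          rw [h']; exact ProbabilityTheory.cdf_le_one P x
        rw [this, h']; simp
      · obtain ⟨x, hx⟩ := hsurj t ⟨h, h'⟩
        calc ENNReal.ofReal t = P (Iic x) := by rw [← hx, ← ProbabilityTheory.ofReal_cdf]
          _ ≤ _ := by
            apply measure_mono
            intro y hy
            simp only [mem_ofPred_eq]
            rw [← hx]; exact hmono hy

variable {d : ℕ}

lemma coord_null (i : Fin d) (t : ℝ) : volume {x : Eu d | x i = t} = 0 := by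
  have h := ties_null (d := d) (![EuclideanSpace.single i (1 : ℝ), 0] : Fin 2 → EuclideanSpace ℝ (Fin d))
    (![0, -t]) 0 1 (by
      intro h
      have := congrArg (fun v : EuclideanSpace ℝ (Fin d) => v i) h
      simp at this)
  refine measure_mono_null ?_ h
  intro x hx
  simp only [mem_ofPred_eq] at hx ⊢
  simp only [aff]
  simp [EuclideanSpace.inner_single_right, hx]

theorem exists_transport (hd : 0 < d) (V : Set (Eu d)) (hV : MeasurableSet V)
    (hVfin : volume V ≠ ∞) (ν : Measure (Eu d)) (hν : ν univ = volume V) :
    ∃ g : Eu d → Eu d, Measurable g ∧ (volume.restrict V).map g = ν := by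
  by_cases h0 : volume V = 0
  · refine ⟨id, measurable_id, ?_⟩
    have h1 : ν = 0 := by rw [← Measure.measure_univ_eq_zero, hν, h0]
    have h2 : (volume.restrict V : Measure (Eu d)) = 0 := by
      rw [Measure.restrict_eq_zero]; exact h0
    rw [h1, h2]; simp
  set i0 : Fin d := ⟨0, hd⟩
  set P : Measure (Eu d) := (volume V)⁻¹ • volume.restrict V with hP
  have hPp : IsProbabilityMeasure P := by
    constructor
    rw [hP, Measure.smul_apply, Measure.restrict_apply_univ, smul_eq_mul]
    exact ENNReal.inv_mul_cancel h0 hVfin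
  set X : Eu d → ℝ := fun x => x i0 with hX
  have hXm : Measurable X := by
    simp only [hX]; fun_prop
  have hPX : IsProbabilityMeasure (P.map X) := Measure.isProbabilityMeasure_map hXm.aemeasurable
  have hPXna : NullSingletonClass (P.map X) := by
    constructor
    intro t
    rw [Measure.map_apply hXm (measurableSet_singleton t), hP, Measure.smul_apply]
    have : (volume.restrict V : Measure (Eu d)) (X ⁻¹' {t}) = 0 := by
      apply le_antisymm _ (zero_le)
      calc (volume.restrict V : Measure (Eu d)) (X ⁻¹' {t}) ≤ volume (X ⁻¹' {t}) :=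
            Measure.restrict_apply_le _ _
        _ = 0 := coord_null i0 t
    rw [this]; simp
  obtain ⟨U, hUm, hU⟩ := exists_uniformizer (P.map X)
  set ν' : Measure (Eu d) := (volume V)⁻¹ • ν with hν'
  have hν'p : IsProbabilityMeasure ν' := by
    constructor
    rw [hν', Measure.smul_apply, hν, smul_eq_mul]
    exact ENNReal.inv_mul_cancel h0 hVfin
  obtain ⟨f, hfm, hf⟩ := ν'.exists_measurable_map_eq
  refine ⟨fun x => f (U (X x)), hfm.comp (hUm.comp hXm), ?_⟩
  have h1 : P.map (fun x => f (U (X x))) = ν' := by
    rw [← hf, ← hU, Measure.map_map hUm hXm, Measure.map_map hfm (hUm.comp hXm)]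
    rfl
  have h2 : (volume.restrict V : Measure (Eu d)) = (volume V) • P := by
    rw [hP, smul_smul, ENNReal.mul_inv_cancel h0 hVfin, one_smul]
  rw [h2, Measure.map_smul, h1, hν', smul_smul, ENNReal.mul_inv_cancel h0 hVfin, one_smul]

/-- gluing of transports -/
theorem glue (hd : 0 < d) {α : Type*} (J : Finset α) (V Q : α → Set (Eu d))
    (hV : ∀ a, MeasurableSet (V a)) (hVd : (J : Set α).PairwiseDisjoint V)
    (K : Set (Eu d)) (hK : volume K ≠ ∞)
    (hVK : (volume.restrict K : Measure (Eu d)) = volume.restrict (⋃ a ∈ J, V a))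
    (μ : Measure (Eu d)) (hQ : ∀ a, MeasurableSet (Q a)) (hQd : (J : Set α).PairwiseDisjoint Q)
    (hμ : μ univ = volume K) (hmass : ∀ a ∈ J, volume (V a) = μ (Q a)) :
    ∃ S : Eu d → Eu d, Measurable S ∧ (volume.restrict K).map S = μ ∧
      ∀ a ∈ J, ∀ᵐ x ∂(volume.restrict (V a)), S x ∈ Q a := by
  classical
  have hKV : volume K = ∑ a ∈ J, volume (V a) := by
    have := congrArg (fun m : Measure (Eu d) => m univ) hVK
    simp only [Measure.restrict_apply_univ] at this
    rw [this, measure_biUnion_finset hVd (fun a _ => hV a)]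
  have hVfin : ∀ a ∈ J, volume (V a) ≠ ∞ := by
    intro a ha
    rw [hKV] at hK
    exact (ENNReal.sum_ne_top.mp hK) a ha
  have hex : ∀ a, ∃ g : Eu d → Eu d, Measurable g ∧
      (a ∈ J → (volume.restrict (V a)).map g = μ.restrict (Q a)) := by
    intro a
    by_cases ha : a ∈ J
    · obtain ⟨g, hg, hg2⟩ := exists_transport hd (V a) (hV a) (hVfin a ha) (μ.restrict (Q a)) (by
        rw [Measure.restrict_apply_univ, hmass a ha])
      exact ⟨g, hg, fun _ => hg2⟩
    · exact ⟨id, measurable_id, fun h => absurd h ha⟩
  choose g hgm hg using hex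
  set S : Eu d → Eu d := fun x => ∑ a ∈ J, (V a).indicator (g a) x with hS
  have hSV : ∀ a ∈ J, ∀ x ∈ V a, S x = g a x := by
    intro a ha x hx
    simp only [hS]
    rw [Finset.sum_eq_single a]
    · rw [indicator_of_mem hx]
    · intro b hb hba
      apply indicator_of_notMem
      intro hxb
      exact Set.disjoint_left.mp (hVd (Finset.mem_coe.mpr hb) (Finset.mem_coe.mpr ha) hba) hxb hx
    · intro h; exact absurd ha h
  have hSm : Measurable S := by
    simp only [hS]
    exact Finset.measurable_fun_sum J (fun a _ => (hgm a).indicator (hV a))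
  refine ⟨S, hSm, ?_, ?_⟩
  · ext s hs
    rw [Measure.map_apply hSm hs, hVK, Measure.restrict_apply (hSm hs), inter_iUnion₂,
      measure_biUnion_finset]
    · have hcompl : μ (⋃ a ∈ J, Q a)ᶜ = 0 := by
        have h1 : μ (⋃ a ∈ J, Q a) = μ univ := by
          rw [measure_biUnion_finset hQd (fun a _ => hQ a), hμ, hKV]
          exact Finset.sum_congr rfl (fun a ha => (hmass a ha).symm)
        rw [measure_compl (Finset.measurableSet_biUnion J (fun a _ => hQ a)) (by rw [h1, hμ]; exact hK),
          h1, tsub_self]
      have h2 : μ s = μ (s ∩ ⋃ a ∈ J, Q a) := by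
        rw [← measure_inter_add_sdiff s (Finset.measurableSet_biUnion J (fun a _ => hQ a))]
        have : μ (s \ ⋃ a ∈ J, Q a) = 0 := measure_mono_null (fun x hx => hx.2) hcompl
        rw [this, add_zero]
      rw [h2, inter_iUnion₂, measure_biUnion_finset]
      · apply Finset.sum_congr rfl
        intro a ha
        have h3 : S ⁻¹' s ∩ V a = (g a) ⁻¹' s ∩ V a := by
          ext x
          simp only [mem_inter_iff, mem_preimage]
          constructor
          · rintro ⟨h, h'⟩; rw [hSV a ha x h'] at h; exact ⟨h, h'⟩
          · rintro ⟨h, h'⟩; rw [← hSV a ha x h'] at h; exact ⟨h, h'⟩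
        rw [h3, ← Measure.restrict_apply (hgm a hs), ← Measure.map_apply (hgm a) hs, hg a ha,
          Measure.restrict_apply hs]
      · intro a ha b hb hab
        exact (hQd ha hb hab).mono inter_subset_right inter_subset_right
      · intro a _; exact hs.inter (hQ a)
    · intro a ha b hb hab
      exact (hVd ha hb hab).mono inter_subset_right inter_subset_right
    · intro a _; exact (hSm hs).inter (hV a)
  · intro a ha
    have h1 : ∀ᵐ p ∂((volume.restrict (V a)).map (g a)), p ∈ Q a := by
      rw [hg a ha]
      exact ae_restrict_mem (hQ a)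
    have h2 := ae_of_ae_map (hgm a).aemeasurable h1
    filter_upwards [h2, ae_restrict_mem (hV a)] with x hx hxV
    rw [hSV a ha x hxV]; exact hx

end Crest.Agent.S0109
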