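import Crest.Agent.S0109I

set_option autoImplicit false

namespace Crest.Agent.S0109

open MeasureTheory Filter Set
open scoped Topology ENNReal RealInnerProductSpace

variable {d : ℕ} {ι : Type} [Fintype ι] [Nonempty ι]

omit [Nonempty ι] in
lemma ae_no_ties (y : ι → Eu d) (c : ι → ℝ) :
    ∀ᵐ x : Eu d, ∀ i j, y i ≠ y j → aff y c i x ≠ aff y c j x := by
  rw [ae_all_iff]; intro i
  rw [ae_all_iff]; intro j
  by_cases h : y i = y j
  · filter_upwards with x hne; exact absurd h hne
  · have := ties_null y c i j h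
    rw [← compl_compl {x : Eu d | aff y c i x = aff y c j x}] at this
    have h2 : ∀ᵐ x : Eu d, x ∈ {x : Eu d | aff y c i x = aff y c j x}ᶜ := this
    filter_upwards [h2] with x hx _
    exact hx

/-- transport map adapted to the cells -/
theorem exists_S (hd : 0 < d) {K : Set (Eu d)} (hK : IsCompact K)
    (m : ι → ℝ) (hm : ∀ i, 0 < m i)
    (hmass : ∑ i, m i = (volume K).toReal)
    (y : ι → Eu d) (c : ι → ℝ) (hc : IsMin K (fun _ => 1) m y c)
    (μ : Measure (Eu d)) (hμ : μ univ = volume K)
    (θ : Eu d → Eu d) (hθ : Measurable θ)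
    (hθm : ∀ i, μ (θ ⁻¹' {y i}) = ENNReal.ofReal (gm y m i)) :
    ∃ S : Eu d → Eu d, Measurable S ∧ (volume.restrict K).map S = μ ∧
      ∀ᵐ x ∂(volume.restrict K), ∃ i, x ∈ cell K y c i ∧ θ (S x) = y i := by
  classical
  have hcc : Compat y c := hc.compat hm
  have hKfin : volume K ≠ ∞ := hK.measure_lt_top.ne
  set rep : Eu d → ι := Function.invFun y with hrep
  have hrepy : ∀ i, y (rep (y i)) = y i := fun i => Function.invFun_eq ⟨i, rfl⟩
  set J : Finset (Eu d) := Finset.univ.image y with hJ
  set V : Eu d → Set (Eu d) := fun a => {x | x ∈ K ∧ ∀ j, y j ≠ a → aff y c j x < aff y c (rep a) x}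
    with hV
  have hVm : ∀ a, MeasurableSet (V a) := by
    intro a
    have : V a = K ∩ ⋂ j, {x | y j ≠ a → aff y c j x < aff y c (rep a) x} := by
      ext x; simp [hV]
    rw [this]
    apply hK.isClosed.measurableSet.inter
    apply MeasurableSet.iInter
    intro j
    by_cases h : y j = a
    · have : {x | y j ≠ a → aff y c j x < aff y c (rep a) x} = univ := by
        ext x; simp [h]
      rw [this]; exact MeasurableSet.univ
    · have : {x | y j ≠ a → aff y c j x < aff y c (rep a) x}
          = {x | aff y c j x < aff y c (rep a) x} := by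
        ext x; simp [h]
      rw [this]
      exact measurableSet_lt (continuous_aff y c j).measurable (continuous_aff y c (rep a)).measurable
  have hVd : (J : Set (Eu d)).PairwiseDisjoint V := by
    intro a ha b hb hab
    rw [Function.onFun, Set.disjoint_left]
    rintro x ⟨_, hxa⟩ ⟨_, hxb⟩
    obtain ⟨i, -, rfl⟩ := Finset.mem_image.mp (Finset.mem_coe.mp ha)
    obtain ⟨j, -, rfl⟩ := Finset.mem_image.mp (Finset.mem_coe.mp hb)
    have h1 := hxa (rep (y j)) (by rw [hrepy]; exact hab.symm)
    have h2 := hxb (rep (y i)) (by rw [hrepy]; exact hab)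
    linarith
  have hVcell : ∀ i, V (y i) ⊆ cell K y c i := by
    rintro i x ⟨hxK, hx⟩
    refine ⟨hxK, fun j => ?_⟩
    have h0 : c (rep (y i)) = c i := hcc _ _ (hrepy i)
    have h1 : aff y c (rep (y i)) x = aff y c i x := by simp only [aff, hrepy, h0]
    by_cases h : y j = y i
    · have h2 : c j = c i := hcc _ _ h
      simp only [aff, h, h2]; exact le_refl _
    · rw [← h1]; exact (hx j h).le
  have hcellV : ∀ᵐ x : Eu d, ∀ i, x ∈ cell K y c i → x ∈ V (y i) := by
    filter_upwards [ae_no_ties y c] with x hx i hxi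
    refine ⟨hxi.1, fun j hj => ?_⟩
    have h0 : c (rep (y i)) = c i := hcc _ _ (hrepy i)
    have h1 : aff y c (rep (y i)) x = aff y c i x := by simp only [aff, hrepy, h0]
    rw [h1]
    exact lt_of_le_of_ne (hxi.2 j) (hx j i hj)
  have hcov : ∀ᵐ x : Eu d, x ∈ K ↔ x ∈ ⋃ a ∈ J, V a := by
    filter_upwards [hcellV] with x hx
    constructor
    · intro hxK
      obtain ⟨i, hi⟩ := exists_max_index y c x
      have := hx i ⟨hxK, hi⟩
      simp only [mem_iUnion]
      exact ⟨y i, Finset.mem_image.mpr ⟨i, Finset.mem_univ _, rfl⟩, this⟩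
    · intro h
      simp only [mem_iUnion] at h
      obtain ⟨a, _, h⟩ := h
      exact h.1
  have hVK : (volume.restrict K : Measure (Eu d)) = volume.restrict (⋃ a ∈ J, V a) := by
    apply Measure.restrict_congr_set
    filter_upwards [hcov] with x hx
    exact propext hx
  have hvol : ∀ i, volume (V (y i)) = ENNReal.ofReal (gm y m i) := by
    intro i
    have h1 : V (y i) =ᵐ[volume] cell K y c i := by
      filter_upwards [hcellV] with x hx
      exact propext ⟨fun h => hVcell i h, fun h => hx i h⟩
    rw [measure_congr h1]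
    have h2 := hc.mass hK (adm_one hmass) hm y c i
    rw [setIntegral_const, Measure.real, smul_eq_mul, mul_one] at h2
    rw [← h2, ENNReal.ofReal_toReal]
    exact ((measure_mono (cell_subset K y c i)).trans_lt hK.measure_lt_top).ne
  obtain ⟨S, hSm, hS, hSQ⟩ := glue hd J V (fun a => θ ⁻¹' {a}) hVm hVd K hKfin hVK μ
    (fun a => hθ (measurableSet_singleton a)) (by
      intro a _ b _ hab
      rw [Function.onFun, Set.disjoint_left]
      intro x hx hx'
      simp only [mem_preimage, mem_singleton_iff] at hx hx'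
      exact hab (hx.symm.trans hx')) hμ (by
      intro a ha
      obtain ⟨i, -, rfl⟩ := Finset.mem_image.mp ha
      rw [hvol i, hθm i])
  refine ⟨S, hSm, hS, ?_⟩
  have h1 : ∀ᵐ x : Eu d, ∀ i, x ∈ V (y i) → θ (S x) = y i := by
    rw [ae_all_iff]
    intro i
    have := hSQ (y i) (Finset.mem_image.mpr ⟨i, Finset.mem_univ _, rfl⟩)
    rw [ae_restrict_iff' (hVm _)] at this
    filter_upwards [this] with x hx hxV
    exact hx hxV
  rw [ae_restrict_iff' hK.isClosed.measurableSet]
  filter_upwards [h1, hcellV] with x hx hx2 hxK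
  obtain ⟨i, hi⟩ := exists_max_index y c x
  exact ⟨i, ⟨hxK, hi⟩, hx i (hx2 i ⟨hxK, hi⟩)⟩

omit [Fintype ι] [Nonempty ι]

/-- quantisation -/
lemma exists_quant {Y : Set (Eu d)} (hY : IsCompact Y) (hYn : Y.Nonempty) {δ : ℝ} (hδ : 0 < δ) :
    ∃ (A : Finset (Eu d)) (θ : Eu d → Eu d), Measurable θ ∧ (∀ p, θ p ∈ A) ∧ (∀ a ∈ A, a ∈ Y) ∧
      ∀ p ∈ Y, ‖θ p - p‖ ≤ δ := by
  classical
  obtain ⟨y0, hy0⟩ := hYn
  obtain ⟨t, htY, htf, hcov⟩ := hY.finite_cover_balls hδ
  have key : ∀ s : Finset (Eu d), ∃ θ : Eu d → Eu d, Measurable θ ∧ (∀ p, θ p ∈ insert y0 s) ∧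
      ∀ p, (∃ a ∈ s, p ∈ Metric.ball a δ) → ‖θ p - p‖ ≤ δ := by
    intro s
    induction s using Finset.induction_on with
    | empty => exact ⟨fun _ => y0, measurable_const, by simp, by simp⟩
    | insert a s ha ih =>
      obtain ⟨θ, hθm, hθA, hθ⟩ := ih
      refine ⟨fun p => if p ∈ Metric.ball a δ then a else θ p, 
        Measurable.ite measurableSet_ball measurable_const hθm, ?_, ?_⟩
      · intro p
        by_cases h : p ∈ Metric.ball a δ
        · simp only [h, if_true]; simp
        · simp only [h, if_false]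
          have := hθA p
          rw [Finset.mem_insert] at this ⊢
          rcases this with h | h
          · exact Or.inl h
          · exact Or.inr (Finset.mem_insert_of_mem h)
      · rintro p ⟨b, hb, hpb⟩
        by_cases h : p ∈ Metric.ball a δ
        · simp only [h, if_true]
          rw [Metric.mem_ball, dist_eq_norm] at h
          rw [norm_sub_rev]; exact h.le
        · simp only [h, if_false]
          apply hθ
          rw [Finset.mem_insert] at hb
          rcases hb with rfl | hb
          · exact absurd hpb h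
          · exact ⟨b, hb, hpb⟩
  obtain ⟨θ, hθm, hθA, hθ⟩ := key htf.toFinset
  refine ⟨insert y0 htf.toFinset, θ, hθm, hθA, ?_, ?_⟩
  · intro a ha
    rw [Finset.mem_insert] at ha
    rcases ha with rfl | ha
    · exact hy0
    · exact htY (htf.mem_toFinset.mp ha)
  · intro p hp
    apply hθ
    have := hcov hp
    simp only [mem_iUnion] at this
    obtain ⟨a, ha, hpa⟩ := this
    exact ⟨a, htf.mem_toFinset.mpr ha, hpa⟩

end Crest.Agent.S0109
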