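import Crest.Agent.S0109J

set_option autoImplicit false

namespace Crest.Agent.S0109

open MeasureTheory Filter Set
open scoped Topology ENNReal RealInnerProductSpace

variable {d : ℕ}

lemma sum_fibres (π : Measure (Eu d × Eu d)) [IsProbabilityMeasure π]
    (A : Finset (Eu d)) (θ : Eu d → Eu d) (hθ : Measurable θ) (hA : ∀ p, θ p ∈ A)
    (G : Eu d × Eu d → ℝ) :
    ∑ q ∈ A ×ˢ A, π.real {p | θ p.1 = q.1 ∧ θ p.2 = q.2} * G q = ∫ p, G (θ p.1, θ p.2) ∂π := by
  classical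
  have hW : ∀ q : Eu d × Eu d, MeasurableSet {p : Eu d × Eu d | θ p.1 = q.1 ∧ θ p.2 = q.2} := by
    intro q
    have h1 : MeasurableSet ((fun p : Eu d × Eu d => θ p.1) ⁻¹' {q.1}) :=
      (hθ.comp measurable_fst) (measurableSet_singleton _)
    have h2 : MeasurableSet ((fun p : Eu d × Eu d => θ p.2) ⁻¹' {q.2}) :=
      (hθ.comp measurable_snd) (measurableSet_singleton _)
    exact h1.inter h2
  have h1 : ∀ p : Eu d × Eu d, G (θ p.1, θ p.2)
      = ∑ q ∈ A ×ˢ A, ({p : Eu d × Eu d | θ p.1 = q.1 ∧ θ p.2 = q.2}).indicator (fun _ => G q) p := by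
    intro p
    rw [Finset.sum_eq_single (θ p.1, θ p.2)]
    · rw [indicator_of_mem]
      exact ⟨rfl, rfl⟩
    · intro q _ hq
      apply indicator_of_notMem
      rintro ⟨h, h'⟩
      apply hq
      exact Prod.ext h.symm h'.symm
    · intro h
      exact absurd (Finset.mem_product.mpr ⟨hA _, hA _⟩) h
  rw [integral_congr_ae (Eventually.of_forall h1), integral_finsetSum]
  · apply Finset.sum_congr rfl
    intro q _
    rw [integral_indicator_const _ (hW q), smul_eq_mul]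
  · intro q _
    exact (integrable_const _).indicator (hW q)

theorem exists_discr (κ : ℝ) (hκ : 0 < κ) (π : Measure (Eu d × Eu d)) [IsProbabilityMeasure π]
    (A : Finset (Eu d)) (θ : Eu d → Eu d) (hθ : Measurable θ) (hA : ∀ p, θ p ∈ A) :
    ∃ (ι : Type) (_ : Fintype ι) (_ : Nonempty ι) (m : ι → ℝ) (y z : ι → Eu d),
      (∀ i, 0 < m i) ∧ ∑ i, m i = κ ∧ (∀ i, y i ∈ A) ∧ (∀ i, z i ∈ A) ∧
      (∀ i, gm y m i = κ * (π.map Prod.fst).real (θ ⁻¹' {y i})) ∧
      (∀ i, gm z m i = κ * (π.map Prod.snd).real (θ ⁻¹' {z i})) ∧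
      ∑ i, m i * ‖y i - z i‖ ^ 2 = κ * ∫ p, ‖θ p.1 - θ p.2‖ ^ 2 ∂π := by
  classical
  set w : Eu d × Eu d → ℝ := fun q => π.real {p | θ p.1 = q.1 ∧ θ p.2 = q.2} with hw
  have hw0 : ∀ q, 0 ≤ w q := fun q => measureReal_nonneg
  set F : Finset (Eu d × Eu d) := (A ×ˢ A).filter (fun q => 0 < w q) with hF
  have key : ∀ G : Eu d × Eu d → ℝ, ∑ i : {q // q ∈ F}, (κ * w i.1) * G i.1
      = κ * ∫ p, G (θ p.1, θ p.2) ∂π := by
    intro G
    rw [← sum_fibres π A θ hθ hA G, Finset.mul_sum,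
      Finset.sum_coe_sort F (fun q => (κ * w q) * G q), hF, Finset.sum_filter]
    apply Finset.sum_congr rfl
    intro q _
    by_cases h : 0 < w q
    · rw [if_pos h]; simp only [hw]; ring
    · rw [if_neg h]
      have : w q = 0 := le_antisymm (not_lt.mp h) (hw0 q)
      simp only [hw] at this
      rw [this]; ring
  have hsum : ∑ i : {q // q ∈ F}, κ * w i.1 = κ := by
    have := key (fun _ => 1)
    simpa using this
  refine ⟨{q // q ∈ F}, inferInstance, ?_, fun i => κ * w i.1, fun i => i.1.1, fun i => i.1.2,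
    ?_, hsum, ?_, ?_, ?_, ?_, ?_⟩
  · by_contra h
    rw [not_nonempty_iff] at h
    rw [Finset.univ_eq_empty, Finset.sum_empty] at hsum
    linarith
  · rintro ⟨q, hq⟩
    rw [hF, Finset.mem_filter] at hq
    exact mul_pos hκ hq.2
  · rintro ⟨q, hq⟩
    rw [hF, Finset.mem_filter, Finset.mem_product] at hq
    exact hq.1.1
  · rintro ⟨q, hq⟩
    rw [hF, Finset.mem_filter, Finset.mem_product] at hq
    exact hq.1.2
  · intro i
    have h1 := key (fun q => if q.1 = i.1.1 then 1 else 0)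
    unfold gm
    rw [Finset.sum_filter]
    have h2 : ∑ a : {q // q ∈ F}, (if a.1.1 = i.1.1 then κ * w a.1 else 0)
        = ∑ a : {q // q ∈ F}, (κ * w a.1) * (if a.1.1 = i.1.1 then 1 else 0) := by
      apply Finset.sum_congr rfl; intro a _; split_ifs <;> simp
    rw [h2, h1]
    congr 1
    have h3 : MeasurableSet (θ ⁻¹' {i.1.1}) := hθ (measurableSet_singleton _)
    rw [map_measureReal_apply measurable_fst h3]
    have h4 : (fun p : Eu d × Eu d => if θ p.1 = i.1.1 then (1 : ℝ) else 0)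
        = (Prod.fst ⁻¹' (θ ⁻¹' {i.1.1})).indicator (fun _ => (1 : ℝ)) := by
      funext p
      by_cases h : θ p.1 = i.1.1
      · rw [if_pos h, indicator_of_mem]; exact h
      · rw [if_neg h, indicator_of_notMem]; exact h
    show ∫ p : Eu d × Eu d, (if θ p.1 = i.1.1 then (1 : ℝ) else 0) ∂π = _
    rw [h4, integral_indicator_const _ (measurable_fst h3), smul_eq_mul, mul_one]
  · intro i
    have h1 := key (fun q => if q.2 = i.1.2 then 1 else 0)
    unfold gm
    rw [Finset.sum_filter]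
    have h2 : ∑ a : {q // q ∈ F}, (if a.1.2 = i.1.2 then κ * w a.1 else 0)
        = ∑ a : {q // q ∈ F}, (κ * w a.1) * (if a.1.2 = i.1.2 then 1 else 0) := by
      apply Finset.sum_congr rfl; intro a _; split_ifs <;> simp
    rw [h2, h1]
    congr 1
    have h3 : MeasurableSet (θ ⁻¹' {i.1.2}) := hθ (measurableSet_singleton _)
    rw [map_measureReal_apply measurable_snd h3]
    have h4 : (fun p : Eu d × Eu d => if θ p.2 = i.1.2 then (1 : ℝ) else 0)
        = (Prod.snd ⁻¹' (θ ⁻¹' {i.1.2})).indicator (fun _ => (1 : ℝ)) := by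
      funext p
      by_cases h : θ p.2 = i.1.2
      · rw [if_pos h, indicator_of_mem]; exact h
      · rw [if_neg h, indicator_of_notMem]; exact h
    show ∫ p : Eu d × Eu d, (if θ p.2 = i.1.2 then (1 : ℝ) else 0) ∂π = _
    rw [h4, integral_indicator_const _ (measurable_snd h3), smul_eq_mul, mul_one]
  · exact key (fun q => ‖q.1 - q.2‖ ^ 2)

/-- conjugate restricted to `K` -/
noncomputable def conjK (K : Set (Eu d)) (φ : Eu d → ℝ) (p : Eu d) : ℝ :=
  sSup ((fun x => ⟪x, p⟫ - φ x) '' K)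

section conj
variable {K : Set (Eu d)} (hK : IsCompact K) (hKn : K.Nonempty) {φ : Eu d → ℝ} (hφ : Continuous φ)
include hK hφ

lemma le_conjK (p x : Eu d) (hx : x ∈ K) : ⟪x, p⟫ - φ x ≤ conjK K φ p := by
  apply le_csSup
  · exact (hK.image (by fun_prop)).bddAbove
  · exact ⟨x, hx, rfl⟩

include hKn

omit hK hφ in
lemma conjK_le (p : Eu d) (M : ℝ) (h : ∀ x ∈ K, ⟪x, p⟫ - φ x ≤ M) : conjK K φ p ≤ M := by
  apply csSup_le (hKn.image _)
  rintro _ ⟨x, hx, rfl⟩
  exact h x hx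

lemma conjK_lip (R : ℝ) (hKR : ∀ x ∈ K, ‖x‖ ≤ R) (p p' : Eu d) :
    conjK K φ p ≤ conjK K φ p' + R * ‖p - p'‖ := by
  apply conjK_le hKn
  intro x hx
  have h1 := le_conjK hK hφ p' x hx
  have h2 : ⟪x, p⟫ = ⟪x, p'⟫ + ⟪x, p - p'⟫ := by rw [inner_sub_right]; ring
  have h3 : ⟪x, p - p'⟫ ≤ R * ‖p - p'‖ := by
    calc ⟪x, p - p'⟫ ≤ ‖x‖ * ‖p - p'‖ := real_inner_le_norm _ _
      _ ≤ R * ‖p - p'‖ := by have := hKR x hx; gcongr
  linarith

lemma continuous_conjK (R : ℝ) (hR : 0 ≤ R) (hKR : ∀ x ∈ K, ‖x‖ ≤ R) : Continuous (conjK K φ) := by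
  have : LipschitzWith (Real.toNNReal R) (conjK K φ) := by
    apply LipschitzWith.of_le_add_mul
    intro p p'
    rw [Real.coe_toNNReal R hR, dist_eq_norm]
    exact conjK_lip hK hKn hφ R hKR p p'
  exact this.continuous

end conj

end Crest.Agent.S0109
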