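import Crest.Agent.S0109K

set_option autoImplicit false

namespace Crest.Agent.S0109

open MeasureTheory Filter Set
open scoped Topology ENNReal RealInnerProductSpace

variable {d : ℕ}

lemma integrableOn_of_ae_bdd {K : Set (Eu d)} (hK : IsCompact K) {F : Eu d → ℝ} (hF : Measurable F)
    (B : ℝ) (hB : ∀ᵐ x ∂(volume.restrict K), |F x| ≤ B) : IntegrableOn F K :=
  Measure.integrableOn_of_bounded (M := B) hK.measure_lt_top.ne hF.aestronglyMeasurable hB

lemma opt_inner {K : Set (Eu d)} (hK : IsCompact K) (R : ℝ) (hKR : ∀ x ∈ K, ‖x‖ ≤ R)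
    (T S : Eu d → Eu d) (hT : Measurable T) (hS : Measurable S) (μ : Measure (Eu d))
    (hTμ : (volume.restrict K).map T = μ) (hSμ : (volume.restrict K).map S = μ)
    (hb : ∀ᵐ p ∂μ, ‖p‖ ≤ R)
    (hopt : ∫⁻ x in K, ‖x - T x‖ₑ ^ 2 ≤ ∫⁻ x in K, ‖x - S x‖ₑ ^ 2) :
    ∫ x in K, ⟪x, S x⟫ ≤ ∫ x in K, ⟪x, T x⟫ := by
  have hKm : MeasurableSet K := hK.isClosed.measurableSet
  have hKae : ∀ᵐ x ∂(volume.restrict K), ‖x‖ ≤ R := by
    filter_upwards [ae_restrict_mem hKm] with x hx using hKR x hx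
  have gen : ∀ U : Eu d → Eu d, Measurable U → (volume.restrict K).map U = μ →
      (∫⁻ x in K, ‖x - U x‖ₑ ^ 2 = ENNReal.ofReal (∫ x in K, ‖x - U x‖ ^ 2)) ∧
      (∫ x in K, ‖x - U x‖ ^ 2 = (∫ x in K, ‖x‖ ^ 2) - 2 * (∫ x in K, ⟪x, U x⟫) + ∫ p, ‖p‖ ^ 2 ∂μ) := by
    intro U hU hUμ
    have hUb : ∀ᵐ x ∂(volume.restrict K), ‖U x‖ ≤ R := by
      rw [← hUμ] at hb
      exact ae_of_ae_map hU.aemeasurable hb
    have i1 : IntegrableOn (fun x => ‖x - U x‖ ^ 2) K := by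
      apply integrableOn_of_ae_bdd hK (by fun_prop) ((2 * R) ^ 2)
      filter_upwards [hKae, hUb] with x h1 h2
      rw [abs_of_nonneg (by positivity)]
      have : ‖x - U x‖ ≤ 2 * R := (norm_sub_le _ _).trans (by linarith)
      gcongr
    have i2 : IntegrableOn (fun x => ‖x‖ ^ 2) K := integrableOn_of_cont hK (by fun_prop)
    have i3 : IntegrableOn (fun x => ⟪x, U x⟫) K := by
      apply integrableOn_of_ae_bdd hK (by fun_prop) (R * R)
      filter_upwards [hKae, hUb] with x h1 h2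
      have h0 : 0 ≤ R := le_trans (norm_nonneg _) h1
      exact (abs_real_inner_le_norm _ _).trans (by gcongr)
    have i4 : IntegrableOn (fun x => ‖U x‖ ^ 2) K := by
      apply integrableOn_of_ae_bdd hK (by fun_prop) (R ^ 2)
      filter_upwards [hUb] with x h2
      rw [abs_of_nonneg (by positivity)]
      gcongr
    constructor
    · rw [ofReal_integral_eq_lintegral_ofReal i1 (Eventually.of_forall (fun x => by positivity))]
      apply lintegral_congr
      intro x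
      rw [ENNReal.ofReal_pow (norm_nonneg _), ofReal_norm]
    · have h1 : ∫ p, ‖p‖ ^ 2 ∂μ = ∫ x in K, ‖U x‖ ^ 2 := by
        rw [← hUμ, integral_map hU.aemeasurable]
        exact (by fun_prop : Measurable (fun p : Eu d => ‖p‖ ^ 2)).aestronglyMeasurable
      have i5 : IntegrableOn (fun x => ‖x‖ ^ 2 - 2 * ⟪x, U x⟫) K := i2.sub (i3.const_mul 2)
      rw [h1, ← integral_const_mul, ← integral_sub i2 (i3.const_mul 2),
        ← integral_add i5 i4]
      apply integral_congr_ae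
      apply Eventually.of_forall
      intro x
      show ‖x - U x‖ ^ 2 = ‖x‖ ^ 2 - 2 * ⟪x, U x⟫ + ‖U x‖ ^ 2
      rw [norm_sub_sq_real]
  obtain ⟨t1, t2⟩ := gen T hT hTμ
  obtain ⟨s1, s2⟩ := gen S hS hSμ
  rw [t1, s1, ENNReal.ofReal_le_ofReal_iff (integral_nonneg (fun x => by positivity))] at hopt
  linarith

theorem near_opt {ι : Type} [Fintype ι] [Nonempty ι] (hd : 0 < d) {K : Set (Eu d)} (hK : IsCompact K)
    (hKn : K.Nonempty) (R : ℝ) (hR : 0 ≤ R) (hKR : ∀ x ∈ K, ‖x‖ ≤ R)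
    (m : ι → ℝ) (hm : ∀ i, 0 < m i)
    (hmass : ∑ i, m i = (volume K).toReal)
    (y : ι → Eu d) (c : ι → ℝ) (hc : IsMin K (fun _ => 1) m y c)
    (μ : Measure (Eu d)) (hμ : μ univ = volume K)
    (θ : Eu d → Eu d) (hθ : Measurable θ) (δ : ℝ)
    (hθδ : ∀ᵐ p ∂μ, ‖θ p - p‖ ≤ δ)
    (hθm : ∀ i, μ (θ ⁻¹' {y i}) = ENNReal.ofReal (gm y m i))
    (T : Eu d → Eu d) (hT : Measurable T) (hTμ : (volume.restrict K).map T = μ)
    (hb : ∀ᵐ p ∂μ, ‖p‖ ≤ R)
    (hopt : ∀ S : Eu d → Eu d, Measurable S → (volume.restrict K).map S = μ →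
      ∫⁻ x in K, ‖x - T x‖ₑ ^ 2 ≤ ∫⁻ x in K, ‖x - S x‖ₑ ^ 2) :
    ∃ e : Eu d → ℝ, Measurable e ∧ (∀ x ∈ K, 0 ≤ e x) ∧ IntegrableOn e K ∧
      (∫ x in K, e x ≤ 2 * R * δ * (volume K).toReal) ∧
      ∀ x ∈ K, ∀ x' ∈ K, pot y c x + ⟪x' - x, T x⟫ - e x ≤ pot y c x' := by
  have hKm : MeasurableSet K := hK.isClosed.measurableSet
  have hKae : ∀ᵐ x ∂(volume.restrict K), ‖x‖ ≤ R := by
    filter_upwards [ae_restrict_mem hKm] with x hx using hKR x hx
  set φ := pot y c with hφd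
  have hφ : Continuous φ := continuous_pot y c
  set ψ := conjK K φ with hψd
  have hψ : Continuous ψ := continuous_conjK hK hKn hφ R hR hKR
  obtain ⟨S, hSm, hSμ, hSc⟩ := exists_S hd hK m hm hmass y c hc μ hμ θ hθ hθm
  have hin := opt_inner hK R hKR T S hT hSm μ hTμ hSμ hb (hopt S hSm hSμ)
  -- bound for ψ on ball
  obtain ⟨B, hB⟩ := (isCompact_closedBall (0 : Eu d) R).exists_bound_of_continuousOn hψ.continuousOn
  have hbdd : ∀ U : Eu d → Eu d, Measurable U → (volume.restrict K).map U = μ →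
      IntegrableOn (fun x => ψ (U x)) K ∧ IntegrableOn (fun x => ⟪x, U x⟫) K ∧
      ∫ x in K, ψ (U x) = ∫ p, ψ p ∂μ := by
    intro U hU hUμ
    have hUb : ∀ᵐ x ∂(volume.restrict K), ‖U x‖ ≤ R := by
      rw [← hUμ] at hb
      exact ae_of_ae_map hU.aemeasurable hb
    refine ⟨?_, ?_, ?_⟩
    · apply integrableOn_of_ae_bdd hK (hψ.measurable.comp hU) B
      filter_upwards [hUb] with x hx
      have := hB (U x) (by simpa using hx)
      simpa using this
    · apply integrableOn_of_ae_bdd hK (by fun_prop) (R * R)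
      filter_upwards [hKae, hUb] with x h1 h2
      exact (abs_real_inner_le_norm _ _).trans (by gcongr)
    · rw [← hUμ, integral_map hU.aemeasurable]
      exact hψ.measurable.aestronglyMeasurable
  obtain ⟨iT1, iT2, iT3⟩ := hbdd T hT hTμ
  obtain ⟨iS1, iS2, iS3⟩ := hbdd S hSm hSμ
  have iφ : IntegrableOn φ K := integrableOn_of_cont hK hφ
  refine ⟨fun x => φ x + ψ (T x) - ⟪x, T x⟫, ?_, ?_, ?_, ?_, ?_⟩
  · have := hψ.measurable.comp hT
    have h2 := hφ.measurable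
    exact (h2.add this).sub (by fun_prop)
  · intro x hx
    have := le_conjK hK hφ (T x) x hx
    show 0 ≤ φ x + ψ (T x) - ⟪x, T x⟫
    rw [hψd]; linarith
  · exact (iφ.add iT1).sub iT2
  · have e1 : ∫ x in K, (φ x + ψ (T x) - ⟪x, T x⟫)
        = (∫ x in K, φ x) + (∫ x in K, ψ (T x)) - ∫ x in K, ⟪x, T x⟫ := by
      rw [integral_sub (f := fun x => φ x + ψ (T x)) (iφ.add iT1) iT2, integral_add iφ iT1]
    have e2 : ∫ x in K, (φ x + ψ (S x) - ⟪x, S x⟫)
        = (∫ x in K, φ x) + (∫ x in K, ψ (S x)) - ∫ x in K, ⟪x, S x⟫ := by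
      rw [integral_sub (f := fun x => φ x + ψ (S x)) (iφ.add iS1) iS2, integral_add iφ iS1]
    have e3 : ∫ x in K, (φ x + ψ (S x) - ⟪x, S x⟫) ≤ ∫ x in K, (2 * R * δ) := by
      apply integral_mono_ae ((iφ.add iS1).sub iS2) (integrableOn_of_cont hK continuous_const)
      have hSδ : ∀ᵐ x ∂(volume.restrict K), ‖θ (S x) - S x‖ ≤ δ := by
        rw [← hSμ] at hθδ
        exact ae_of_ae_map hSm.aemeasurable hθδ
      filter_upwards [hSc, hSδ, hKae] with x hx hx2 hx3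
      obtain ⟨i, hi, hθi⟩ := hx
      rw [hθi] at hx2
      show φ x + ψ (S x) - ⟪x, S x⟫ ≤ 2 * R * δ
      have h1 : φ x = ⟪x, y i⟫ - c i := pot_eq_of_cell y c i x hi
      have h2 : ψ (y i) ≤ c i := by
        apply conjK_le hKn
        intro x' hx'
        have := aff_le_pot y c i x'
        simp only [aff] at this
        simp only [hφd]
        linarith
      have h3 := conjK_lip hK hKn hφ R hKR (S x) (y i)
      rw [norm_sub_rev] at h3
      have h4 : ⟪x, y i⟫ = ⟪x, S x⟫ + ⟪x, y i - S x⟫ := by rw [inner_sub_right]; ring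
      have h5 : ⟪x, y i - S x⟫ ≤ R * δ := by
        calc ⟪x, y i - S x⟫ ≤ ‖x‖ * ‖y i - S x‖ := real_inner_le_norm _ _
          _ ≤ R * δ := by gcongr
      have h6 : R * ‖y i - S x‖ ≤ R * δ := by gcongr
      linarith
    rw [setIntegral_const, Measure.real, smul_eq_mul] at e3
    rw [e2] at e3
    show ∫ x in K, (φ x + ψ (T x) - ⟪x, T x⟫) ≤ _
    rw [e1]
    linarith
  · intro x hx x' hx'
    show φ x + ⟪x' - x, T x⟫ - (φ x + ψ (T x) - ⟪x, T x⟫) ≤ φ x'
    have := le_conjK hK hφ (T x) x' hx'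
    rw [inner_sub_left]
    linarith

end Crest.Agent.S0109
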