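import Crest.Agent.S0109L

set_option autoImplicit false

namespace Crest.Agent.S0109

open MeasureTheory Filter Set
open scoped Topology ENNReal RealInnerProductSpace

variable {d : ℕ}

def Kp (K : Set (Eu d)) (w : Eu d) : Set (Eu d) := {x | x ∈ K ∧ x + w ∈ K}
def Km (K : Set (Eu d)) (w : Eu d) : Set (Eu d) := {x | x ∈ K ∧ x - w ∈ K}

lemma Kp_eq (K : Set (Eu d)) (w : Eu d) : (fun x => x + w) ⁻¹' (Km K w) = Kp K w := by
  ext x
  simp only [mem_preimage, Km, Kp, mem_ofPred_eq, add_sub_cancel_right]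
  exact and_comm

lemma measurableSet_Kp {K : Set (Eu d)} (hK : MeasurableSet K) (w : Eu d) :
    MeasurableSet (Kp K w) := by
  apply hK.inter
  exact (measurable_add_const w) hK

lemma measurableSet_Km {K : Set (Eu d)} (hK : MeasurableSet K) (w : Eu d) :
    MeasurableSet (Km K w) := by
  apply hK.inter
  exact (measurable_sub_const w) hK

lemma Kp_subset (K : Set (Eu d)) (w : Eu d) : Kp K w ⊆ K := fun _ h => h.1
lemma Km_subset (K : Set (Eu d)) (w : Eu d) : Km K w ⊆ K := fun _ h => h.1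

lemma setIntegral_shift (K : Set (Eu d)) (w : Eu d) (f : Eu d → ℝ) :
    ∫ x in Kp K w, f (x + w) = ∫ x in Km K w, f x := by
  rw [← Kp_eq]
  exact (measurePreserving_add_right volume w).setIntegral_preimage_emb
    (measurableEmbedding_addRight w) f (Km K w)

lemma integrableOn_shift {K : Set (Eu d)} (w : Eu d) {f : Eu d → ℝ} (hf : IntegrableOn f K) :
    IntegrableOn (fun x => f (x + w)) (Kp K w) := by
  rw [← Kp_eq]
  exact ((measurePreserving_add_right volume w).integrableOn_comp_preimage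
    (measurableEmbedding_addRight w)).mpr (hf.mono_set (Km_subset K w))

lemma volume_Km (K : Set (Eu d)) (hK : MeasurableSet K) (w : Eu d) :
    volume (Km K w) = volume (Kp K w) := by
  rw [← Kp_eq]
  exact ((measurePreserving_add_right volume w).measure_preimage
    (measurableSet_Km hK w).nullMeasurableSet).symm

/-- volume of the lost part -/
theorem vol_bound (hd : 0 < d) {K : Set (Eu d)} (hK : IsCompact K) (hKc : Convex ℝ K)
    (x₀ : Eu d) (r : ℝ) (hr : 0 < r) (hball : Metric.closedBall x₀ r ⊆ K)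
    (v : Eu d) (hv : ‖v‖ ≤ 1) (h : ℝ) (hh : 0 < h) :
    volume.real (K \ Kp K (h • v)) ≤ volume.real K * (d * (h / r)) := by
  have hKm : MeasurableSet K := hK.isClosed.measurableSet
  have hKfin : volume K ≠ ∞ := hK.measure_lt_top.ne
  set l := h / r with hl
  have hl0 : 0 < l := div_pos hh hr
  have hd1 : (1 : ℝ) ≤ d := by exact_mod_cast hd
  have hκ : 0 ≤ volume.real K := measureReal_nonneg
  rcases le_total 1 l with h1 | h1
  · calc volume.real (K \ Kp K (h • v)) ≤ volume.real K := measureReal_mono sdiff_subset hKfin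
      _ = volume.real K * (1 * 1) := by ring
      _ ≤ _ := by gcongr
  · have hx₀ : x₀ ∈ K := hball (Metric.mem_closedBall_self hr.le)
    have hsub : AffineMap.homothety x₀ (1 - l) '' K ⊆ Kp K (h • v) := by
      rintro _ ⟨k, hk, rfl⟩
      rw [AffineMap.homothety_apply]
      simp only [vsub_eq_sub, vadd_eq_add]
      constructor
      · have := hKc hk hx₀ (sub_nonneg.mpr h1) hl0.le (by ring)
        convert this using 1
        module
      · have h2 : x₀ + r • v ∈ K := by
          apply hball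
          rw [Metric.mem_closedBall, dist_eq_norm, add_sub_cancel_left, norm_smul, Real.norm_eq_abs,
            abs_of_pos hr]
          calc r * ‖v‖ ≤ r * 1 := by gcongr
            _ = r := mul_one r
        have := hKc hk h2 (sub_nonneg.mpr h1) hl0.le (by ring)
        convert this using 1
        have h3 : h • v = (l * r) • v := by rw [hl]; congr 1; field_simp
        rw [h3]
        module
    have hvol : volume (AffineMap.homothety x₀ (1 - l) '' K)
        = ENNReal.ofReal ((1 - l) ^ d) * volume K := by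
      rw [Measure.addHaar_image_homothety, finrank_euclideanSpace_fin,
        abs_of_nonneg (pow_nonneg (sub_nonneg.mpr h1) d)]
    have h2 : (1 - l) ^ d * volume.real K ≤ volume.real (Kp K (h • v)) := by
      have h3 : volume.real (AffineMap.homothety x₀ (1 - l) '' K) = (1 - l) ^ d * volume.real K := by
        rw [Measure.real, hvol, ENNReal.toReal_mul,
          ENNReal.toReal_ofReal (pow_nonneg (sub_nonneg.mpr h1) d), Measure.real]
      rw [← h3]
      exact measureReal_mono hsub ((measure_mono (Kp_subset K _)).trans_lt hK.measure_lt_top).ne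
    have h4 : 1 - d * l ≤ (1 - l) ^ d := by
      have := one_add_mul_le_pow (by linarith : (-2 : ℝ) ≤ -l) d
      calc 1 - d * l = 1 + d * (-l) := by ring
        _ ≤ (1 + -l) ^ d := this
        _ = _ := by ring
    rw [measureReal_sdiff (Kp_subset K _) (measurableSet_Kp hKm _) hKfin]
    nlinarith

/-- translation form of the Gagliardo–Nirenberg inequality for near-subgradients -/
theorem GN (hd : 0 < d) {K : Set (Eu d)} (hK : IsCompact K) (hKc : Convex ℝ K)
    (R : ℝ) (hR : 0 ≤ R)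
    (x₀ : Eu d) (r : ℝ) (hr : 0 < r) (hball : Metric.closedBall x₀ r ⊆ K)
    (T S : Eu d → Eu d) (hT : Measurable T) (hS : Measurable S)
    (hTb : ∀ᵐ x ∂(volume.restrict K), ‖T x‖ ≤ R) (hSb : ∀ᵐ x ∂(volume.restrict K), ‖S x‖ ≤ R)
    (φ ψ : Eu d → ℝ) (hφ : Continuous φ) (hψ : Continuous ψ)
    (eT eS : Eu d → ℝ) (heT0 : ∀ x ∈ K, 0 ≤ eT x) (heS0 : ∀ x ∈ K, 0 ≤ eS x)
    (heTi : IntegrableOn eT K) (heSi : IntegrableOn eS K)
    (subT : ∀ x ∈ K, ∀ x' ∈ K, φ x + ⟪x' - x, T x⟫ - eT x ≤ φ x')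
    (subS : ∀ x ∈ K, ∀ x' ∈ K, ψ x + ⟪x' - x, S x⟫ - eS x ≤ ψ x')
    (v : Eu d) (hv : ‖v‖ ≤ 1) (h : ℝ) (hh : 0 < h) :
    ∫ x in K, ⟪T x - S x, v⟫ ^ 2 ≤ 4 / h ^ 2 * (∫ x in K, (φ x - ψ x) ^ 2)
      + 20 * R ^ 2 * (volume.real K * (d * (h / r)))
      + 12 * R / h * ((∫ x in K, eT x) + ∫ x in K, eS x) := by
  have hKm' : MeasurableSet K := hK.isClosed.measurableSet
  have hKfin : volume K ≠ ∞ := hK.measure_lt_top.ne
  set w := h • v with hw
  have hvb := vol_bound hd hK hKc x₀ r hr hball v hv h hh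
  rw [← hw] at hvb
  set P := Kp K w with hP
  set Q := Km K w with hQ
  have hPm : MeasurableSet P := measurableSet_Kp hKm' w
  have hQm : MeasurableSet Q := measurableSet_Km hKm' w
  have hPK : P ⊆ K := Kp_subset K w
  have hQK : Q ⊆ K := Km_subset K w
  set D := volume.real (K \ P) with hD
  have hD' : volume.real (K \ Q) = D := by
    rw [hD, measureReal_sdiff hPK hPm hKfin, measureReal_sdiff hQK hQm hKfin, Measure.real,
      Measure.real, Measure.real, hQ, volume_Km K hKm' w]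
  have hD0 : 0 ≤ D := measureReal_nonneg
  -- bounds for the scalar products
  have hinner : ∀ U : Eu d → Eu d, ∀ x, ‖U x‖ ≤ R → |⟪U x, v⟫| ≤ R := by
    intro U x hx
    calc |⟪U x, v⟫| ≤ ‖U x‖ * ‖v‖ := abs_real_inner_le_norm _ _
      _ ≤ R * 1 := by gcongr
      _ = R := mul_one R
  -- generic one-map estimate
  have one : ∀ (U : Eu d → Eu d) (e : Eu d → ℝ), Measurable U →
      (∀ᵐ x ∂(volume.restrict K), ‖U x‖ ≤ R) → (∀ x ∈ K, 0 ≤ e x) → IntegrableOn e K →
      IntegrableOn (fun x => ⟪U (x + w), v⟫ - ⟪U x, v⟫ + (e x + e (x + w)) / h) P ∧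
      ∫ x in P, (⟪U (x + w), v⟫ - ⟪U x, v⟫ + (e x + e (x + w)) / h)
        ≤ 2 * R * D + 2 / h * ∫ x in K, e x := by
    intro U e hU hUb he0 hei
    have hti : IntegrableOn (fun x => ⟪U x, v⟫) K := by
      apply integrableOn_of_ae_bdd hK (by fun_prop) R
      filter_upwards [hUb] with x hx using hinner U x hx
    have i1 : IntegrableOn (fun x => ⟪U (x + w), v⟫) P := integrableOn_shift w hti
    have i2 : IntegrableOn (fun x => ⟪U x, v⟫) P := hti.mono_set hPK
    have i3 : IntegrableOn e P := hei.mono_set hPK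
    have i4 : IntegrableOn (fun x => e (x + w)) P := integrableOn_shift w hei
    have i5 : IntegrableOn (fun x => ⟪U (x + w), v⟫ - ⟪U x, v⟫) P := i1.sub i2
    have i6 : IntegrableOn (fun x => e x + e (x + w)) P := i3.add i4
    have i7 : IntegrableOn (fun x => (e x + e (x + w)) / h) P := i6.div_const h
    refine ⟨i5.add i7, ?_⟩
    rw [integral_add i5 i7, integral_sub i1 i2, integral_div, integral_add i3 i4,
      setIntegral_shift K w (fun x => ⟪U x, v⟫), setIntegral_shift K w e]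
    have hbd : ∀ Z : Set (Eu d), Z ⊆ K → MeasurableSet Z → volume.real (K \ Z) = D →
        |(∫ x in K, ⟪U x, v⟫) - ∫ x in Z, ⟪U x, v⟫| ≤ R * D := by
      intro Z hZK hZm hZD
      have h1 : (∫ x in K, ⟪U x, v⟫) - ∫ x in Z, ⟪U x, v⟫ = ∫ x in K \ Z, ⟪U x, v⟫ := by
        rw [setIntegral_sdiff hZm hti hZK]
      rw [h1, ← Real.norm_eq_abs, ← hZD]
      apply norm_setIntegral_le_of_norm_le_const_ae
      · exact (measure_mono sdiff_subset).trans_lt hK.measure_lt_top
      · have h2 : ∀ᵐ x ∂(volume.restrict (K \ Z)), ‖U x‖ ≤ R :=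
          ae_restrict_of_ae_restrict_of_subset sdiff_subset hUb
        filter_upwards [h2] with x hx
        exact hinner U x hx
    have b1 := abs_le.mp (hbd P hPK hPm rfl)
    have b2 := abs_le.mp (hbd Q hQK hQm hD')
    have hmono : ∀ Z : Set (Eu d), Z ⊆ K → ∫ x in Z, e x ≤ ∫ x in K, e x := by
      intro Z hZK
      apply setIntegral_mono_set hei _ hZK.eventuallyLE
      filter_upwards [ae_restrict_mem hKm'] with x hx using he0 x hx
    have m1 := hmono P hPK
    have m2 := hmono Q hQK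
    have hEh : ((∫ x in P, e x) + ∫ x in Q, e x) / h ≤ 2 / h * ∫ x in K, e x := by
      rw [div_mul_eq_mul_div]
      gcongr
      linarith
    show (∫ x in Q, ⟪U x, v⟫) - (∫ x in P, ⟪U x, v⟫) + ((∫ x in P, e x) + ∫ x in Q, e x) / h ≤ _
    linarith [b1.1, b1.2, b2.1, b2.2]
  obtain ⟨iT, hrT⟩ := one T eT hT hTb heT0 heTi
  obtain ⟨iS, hrS⟩ := one S eS hS hSb heS0 heSi
  -- the function u
  set u : Eu d → ℝ := fun x => φ x - ψ x with hu
  have huc : Continuous u := hφ.sub hψ
  have hui : IntegrableOn (fun x => u x ^ 2) K := integrableOn_of_cont hK (by fun_prop)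
  have hui2 : IntegrableOn (fun x => u (x + w) ^ 2) P := integrableOn_shift w hui
  have hU : 0 ≤ ∫ x in K, u x ^ 2 := integral_nonneg (fun x => by positivity)
  -- pointwise
  have hpt : ∀ᵐ x ∂(volume.restrict P), ⟪T x - S x, v⟫ ^ 2 ≤
      2 / h ^ 2 * (u (x + w) ^ 2 + u x ^ 2) + 4 * R * ((⟪T (x + w), v⟫ - ⟪T x, v⟫ + (eT x + eT (x + w)) / h)
        + (⟪S (x + w), v⟫ - ⟪S x, v⟫ + (eS x + eS (x + w)) / h) + (eT x + eS x) / h) := by
    have h1 : ∀ᵐ x ∂(volume.restrict P), ‖T x‖ ≤ R := ae_restrict_of_ae_restrict_of_subset hPK hTb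
    have h2 : ∀ᵐ x ∂(volume.restrict P), ‖S x‖ ≤ R := ae_restrict_of_ae_restrict_of_subset hPK hSb
    filter_upwards [h1, h2, ae_restrict_mem hPm] with x hTx hSx hx
    have hx1 : x ∈ K := hx.1
    have hx2 : x + w ∈ K := hx.2
    have a1 := subT x hx1 (x + w) hx2
    have a2 := subT (x + w) hx2 x hx1
    have a3 := subS x hx1 (x + w) hx2
    have a4 := subS (x + w) hx2 x hx1
    have e1 : x + w - x = w := by abel
    have e2 : x - (x + w) = -w := by abel
    rw [e1] at a1 a3
    rw [e2, inner_neg_left] at a2 a4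
    have e3 : ∀ z : Eu d, ⟪w, z⟫ = h * ⟪z, v⟫ := by
      intro z; rw [hw, inner_smul_left, real_inner_comm]; simp
    rw [e3] at a1 a2 a3 a4
    have p1 := heT0 x hx1
    have p2 := heT0 (x + w) hx2
    have p3 := heS0 x hx1
    have p4 := heS0 (x + w) hx2
    have bT := abs_le.mp (hinner T x hTx)
    have bS := abs_le.mp (hinner S x hSx)
    rw [inner_sub_left]
    set t := ⟪T x, v⟫
    set t' := ⟪T (x + w), v⟫
    set s := ⟪S x, v⟫
    set s' := ⟪S (x + w), v⟫
    set ρ := (t' - t + (eT x + eT (x + w)) / h) + (s' - s + (eS x + eS (x + w)) / h) + (eT x + eS x) / h with hρ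
    set Du := u (x + w) - u x with hDu
    have hρh : h * ρ = (h * t' - h * t + (eT x + eT (x + w))) + (h * s' - h * s + (eS x + eS (x + w))) + (eT x + eS x) := by
      rw [hρ]; field_simp
    have hDu' : Du = (φ (x + w) - φ x) - (ψ (x + w) - ψ x) := by
      simp only [hDu, hu]; ring
    have k1 : h * (t - s) - Du ≤ h * ρ := by
      rw [hρh, hDu']; linarith
    have k2 : -(h * ρ) ≤ h * (t - s) - Du := by
      rw [hρh, hDu']; linarith
    have k1' : (t - s) - Du / h ≤ ρ := by
      have : h * ((t - s) - Du / h) ≤ h * ρ := by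
        calc h * ((t - s) - Du / h) = h * (t - s) - Du := by field_simp
          _ ≤ _ := k1
      exact le_of_mul_le_mul_left this hh
    have k2' : -ρ ≤ (t - s) - Du / h := by
      have : h * (-ρ) ≤ h * ((t - s) - Du / h) := by
        calc h * (-ρ) = -(h * ρ) := by ring
          _ ≤ h * (t - s) - Du := k2
          _ = h * ((t - s) - Du / h) := by field_simp
      exact le_of_mul_le_mul_left this hh
    have hρ0 : 0 ≤ ρ := by linarith
    set q := Du / h with hq
    have hab : |t - s| ≤ 2 * R := by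
      rw [abs_le]; constructor <;> linarith [bT.1, bT.2, bS.1, bS.2]
    have hprod : (t - s) * ((t - s) - q) ≤ 2 * R * ρ := by
      calc (t - s) * ((t - s) - q) ≤ |(t - s) * ((t - s) - q)| := le_abs_self _
        _ = |t - s| * |(t - s) - q| := abs_mul _ _
        _ ≤ 2 * R * ρ := by
          gcongr
          rw [abs_le]; exact ⟨k2', k1'⟩
    have hsq : (t - s) ^ 2 ≤ q ^ 2 + 4 * R * ρ := by
      nlinarith [sq_nonneg ((t - s) - q)]
    have hq2 : q ^ 2 ≤ 2 / h ^ 2 * (u (x + w) ^ 2 + u x ^ 2) := by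
      rw [hq, div_pow, div_mul_eq_mul_div]
      gcongr
      rw [hDu]
      nlinarith [sq_nonneg (u (x + w) + u x)]
    linarith
  -- integrate
  have iρ1 : IntegrableOn (fun x => (eT x + eS x) / h) P :=
    ((heTi.mono_set hPK).add (heSi.mono_set hPK)).div_const h
  have hai : IntegrableOn (fun x => ⟪T x - S x, v⟫ ^ 2) K := by
    apply integrableOn_of_ae_bdd hK (by fun_prop) ((2 * R) ^ 2)
    filter_upwards [hTb, hSb] with x hTx hSx
    rw [abs_of_nonneg (by positivity), inner_sub_left, ← sq_abs]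
    have bT := abs_le.mp (hinner T x hTx)
    have bS := abs_le.mp (hinner S x hSx)
    have : |⟪T x, v⟫ - ⟪S x, v⟫| ≤ 2 * R := by
      rw [abs_le]; constructor <;> linarith [bT.1, bT.2, bS.1, bS.2]
    gcongr
  have hPint : ∫ x in P, ⟪T x - S x, v⟫ ^ 2 ≤ 4 / h ^ 2 * (∫ x in K, u x ^ 2)
      + 4 * R * ((2 * R * D + 2 / h * ∫ x in K, eT x) + (2 * R * D + 2 / h * ∫ x in K, eS x)
        + (1 / h) * ((∫ x in K, eT x) + ∫ x in K, eS x)) := by
    have j1 : IntegrableOn (fun x => 2 / h ^ 2 * (u (x + w) ^ 2 + u x ^ 2)) P :=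
      (hui2.add (hui.mono_set hPK)).const_mul _
    have j2 : IntegrableOn (fun x => (⟪T (x + w), v⟫ - ⟪T x, v⟫ + (eT x + eT (x + w)) / h)
        + (⟪S (x + w), v⟫ - ⟪S x, v⟫ + (eS x + eS (x + w)) / h)) P := iT.add iS
    have j3 : IntegrableOn (fun x => (⟪T (x + w), v⟫ - ⟪T x, v⟫ + (eT x + eT (x + w)) / h)
        + (⟪S (x + w), v⟫ - ⟪S x, v⟫ + (eS x + eS (x + w)) / h) + (eT x + eS x) / h) P := j2.add iρ1
    have h1 := integral_mono_ae (hai.mono_set hPK) (j1.add (j3.const_mul (4 * R))) hpt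
    have h2 : ∫ x in P, (2 / h ^ 2 * (u (x + w) ^ 2 + u x ^ 2)
        + 4 * R * ((⟪T (x + w), v⟫ - ⟪T x, v⟫ + (eT x + eT (x + w)) / h)
        + (⟪S (x + w), v⟫ - ⟪S x, v⟫ + (eS x + eS (x + w)) / h) + (eT x + eS x) / h))
        = 2 / h ^ 2 * ((∫ x in Q, u x ^ 2) + ∫ x in P, u x ^ 2)
          + 4 * R * ((∫ x in P, (⟪T (x + w), v⟫ - ⟪T x, v⟫ + (eT x + eT (x + w)) / h))
            + (∫ x in P, (⟪S (x + w), v⟫ - ⟪S x, v⟫ + (eS x + eS (x + w)) / h))
            + ((∫ x in P, eT x) + ∫ x in P, eS x) / h) := by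
      rw [integral_add j1 (j3.const_mul (4 * R)), integral_const_mul, integral_const_mul,
        integral_add hui2 (hui.mono_set hPK), integral_add j2 iρ1, integral_add iT iS,
        integral_div, integral_add (heTi.mono_set hPK) (heSi.mono_set hPK),
        setIntegral_shift K w (fun x => u x ^ 2)]
    have hmono : ∀ (Z : Set (Eu d)) (f : Eu d → ℝ), Z ⊆ K → IntegrableOn f K → (∀ x ∈ K, 0 ≤ f x) →
        ∫ x in Z, f x ≤ ∫ x in K, f x := by
      intro Z f hZK hf hf0
      apply setIntegral_mono_set hf _ hZK.eventuallyLE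
      filter_upwards [ae_restrict_mem hKm'] with x hx using hf0 x hx
    have m1 := hmono Q (fun x => u x ^ 2) hQK hui (fun x _ => by positivity)
    have m2 := hmono P (fun x => u x ^ 2) hPK hui (fun x _ => by positivity)
    have m3 := hmono P eT hPK heTi heT0
    have m4 := hmono P eS hPK heSi heS0
    have n1 : 2 / h ^ 2 * ((∫ x in Q, u x ^ 2) + ∫ x in P, u x ^ 2)
        ≤ 4 / h ^ 2 * ∫ x in K, u x ^ 2 := by
      calc 2 / h ^ 2 * ((∫ x in Q, u x ^ 2) + ∫ x in P, u x ^ 2)
          ≤ 2 / h ^ 2 * ((∫ x in K, u x ^ 2) + ∫ x in K, u x ^ 2) := by gcongr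
        _ = _ := by ring
    have n2 : ((∫ x in P, eT x) + ∫ x in P, eS x) / h
        ≤ (1 / h) * ((∫ x in K, eT x) + ∫ x in K, eS x) := by
      rw [one_div_mul_eq_div]
      gcongr
    calc ∫ x in P, ⟪T x - S x, v⟫ ^ 2 ≤ _ := h1
      _ = _ := h2
      _ ≤ _ := by
        gcongr
  have hrest : ∫ x in K \ P, ⟪T x - S x, v⟫ ^ 2 ≤ (2 * R) ^ 2 * D := by
    have h1 : ‖∫ x in K \ P, ⟪T x - S x, v⟫ ^ 2‖ ≤ (2 * R) ^ 2 * volume.real (K \ P) := by
      apply norm_setIntegral_le_of_norm_le_const_ae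
      · exact (measure_mono sdiff_subset).trans_lt hK.measure_lt_top
      · have h2 : ∀ᵐ x ∂(volume.restrict (K \ P)), ‖T x‖ ≤ R :=
          ae_restrict_of_ae_restrict_of_subset sdiff_subset hTb
        have h3 : ∀ᵐ x ∂(volume.restrict (K \ P)), ‖S x‖ ≤ R :=
          ae_restrict_of_ae_restrict_of_subset sdiff_subset hSb
        filter_upwards [h2, h3] with x hTx hSx
        rw [Real.norm_eq_abs, abs_of_nonneg (by positivity), inner_sub_left, ← sq_abs]
        have bT := abs_le.mp (hinner T x hTx)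
        have bS := abs_le.mp (hinner S x hSx)
        have : |⟪T x, v⟫ - ⟪S x, v⟫| ≤ 2 * R := by
          rw [abs_le]; constructor <;> linarith [bT.1, bT.2, bS.1, bS.2]
        gcongr
    exact (le_abs_self _).trans h1
  have hsplit : ∫ x in K, ⟪T x - S x, v⟫ ^ 2
      = (∫ x in P, ⟪T x - S x, v⟫ ^ 2) + ∫ x in K \ P, ⟪T x - S x, v⟫ ^ 2 := by
    rw [setIntegral_sdiff hPm hai hPK]; ring
  rw [hsplit]
  have hDR : R ^ 2 * D ≤ R ^ 2 * (volume.real K * (d * (h / r))) := by gcongr
  have hfin : 4 * R * ((2 * R * D + 2 / h * ∫ x in K, eT x) + (2 * R * D + 2 / h * ∫ x in K, eS x)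
        + (1 / h) * ((∫ x in K, eT x) + ∫ x in K, eS x))
      = 16 * (R ^ 2 * D) + 12 * R / h * ((∫ x in K, eT x) + ∫ x in K, eS x) := by
    field_simp
    ring
  rw [hfin] at hPint
  nlinarith

end Crest.Agent.S0109
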