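import Crest.Statements.S0110

set_option autoImplicit false
open MeasureTheory
open scoped ENNReal NNReal
open Crest.AnalysisR.OT
open Crest Crest.AnalysisR Crest.AnalysisR.OT

namespace Crest.Agent.S0110

section general

variable {E : Type*} [NormedAddCommGroup E] [InnerProductSpace ℝ E] [MeasurableSpace E]
  [BorelSpace E] [SecondCountableTopology E]

/-- duality: real-valued transport cost of a map into a bounded set -/
lemma cost_eq (ρ μ : Measure E) [IsProbabilityMeasure ρ] (R : ℝ) (hR : ∀ᵐ x ∂ρ, ‖x‖ ≤ R)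
    (A : Set E) (hA : μ Aᶜ = 0) (hA1 : ∀ y ∈ A, ‖y‖ ≤ 1) (S : E → E) (hS : Measurable S)
    (hm : ρ.map S = μ) :
    (∀ᵐ x ∂ρ, S x ∈ A) ∧
    Integrable (fun x => inner ℝ x (S x)) ρ ∧
    0 ≤ ∫ x, ‖x‖ ^ 2 ∂ρ + ∫ y, ‖y‖ ^ 2 ∂μ - 2 * ∫ x, inner ℝ x (S x) ∂ρ ∧
    ∫⁻ x, ‖x - S x‖ₑ ^ 2 ∂ρ =
      ENNReal.ofReal (∫ x, ‖x‖ ^ 2 ∂ρ + ∫ y, ‖y‖ ^ 2 ∂μ - 2 * ∫ x, inner ℝ x (S x) ∂ρ) := by
  have h1 : ∀ᵐ x ∂ρ, S x ∈ A := by
    have : ∀ᵐ y ∂(ρ.map S), y ∈ A := by rw [hm]; exact hA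
    exact ae_of_ae_map hS.aemeasurable this
  have hint1 : Integrable (fun x : E => ‖x‖ ^ 2) ρ := by
    refine Integrable.of_bound (C := R ^ 2) (by fun_prop) ?_
    filter_upwards [hR] with x hx
    rw [Real.norm_of_nonneg (by positivity)]
    gcongr
  have hint2 : Integrable (fun x : E => ‖S x‖ ^ 2) ρ := by
    refine Integrable.of_bound (C := 1) (by fun_prop) ?_
    filter_upwards [h1] with x hx
    rw [Real.norm_of_nonneg (by positivity)]
    have := hA1 _ hx
    calc ‖S x‖ ^ 2 ≤ 1 ^ 2 := by gcongr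
      _ = 1 := by norm_num
  have hint3 : Integrable (fun x : E => inner ℝ x (S x)) ρ := by
    refine Integrable.of_bound (C := R * 1) (by fun_prop) ?_
    filter_upwards [h1, hR] with x hx hx2
    refine (norm_inner_le_norm x (S x)).trans ?_
    have := hA1 _ hx
    gcongr
    exact (norm_nonneg _).trans hx2
  have e1 : ∫ y, ‖y‖ ^ 2 ∂μ = ∫ x, ‖S x‖ ^ 2 ∂ρ := by
    rw [← hm, integral_map hS.aemeasurable (by fun_prop)]
  have e2 : ∫ x, ‖x‖ ^ 2 ∂ρ + ∫ y, ‖y‖ ^ 2 ∂μ - 2 * ∫ x, inner ℝ x (S x) ∂ρ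
      = ∫ x, ‖x - S x‖ ^ 2 ∂ρ := by
    have a1 := integral_sub (hint1.add hint2) (hint3.const_mul 2)
    have a2 := integral_add hint1 hint2
    simp only [Pi.add_apply] at a1
    rw [e1, ← integral_const_mul, ← a2, ← a1]
    refine integral_congr_ae (Filter.Eventually.of_forall fun x => ?_)
    simp only [norm_sub_sq_real]
    ring
  refine ⟨h1, hint3, ?_, ?_⟩
  · rw [e2]
    exact integral_nonneg fun x => by positivity
  rw [e2, ofReal_integral_eq_lintegral_ofReal]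
  · refine lintegral_congr fun x => ?_
    rw [ENNReal.ofReal_pow (norm_nonneg _), ofReal_norm]
  · have : (fun x => ‖x - S x‖ ^ 2) = fun x => (‖x‖ ^ 2 + ‖S x‖ ^ 2) - 2 * inner ℝ x (S x) := by
      funext x
      simp only [norm_sub_sq_real]
      ring
    rw [this]
    exact (hint1.add hint2).sub (hint3.const_mul 2)
  · exact Filter.Eventually.of_forall fun x => by positivity

/-- Duality criterion for optimality. -/
lemma optimal_of_potential (ρ μ : Measure E) [IsProbabilityMeasure ρ] (R : ℝ)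
    (hR : ∀ᵐ x ∂ρ, ‖x‖ ≤ R)
    (A : Set E) (hA : μ Aᶜ = 0) (hA1 : ∀ y ∈ A, ‖y‖ ≤ 1) (φ : E → ℝ)
    (hφ : ∀ x, ∀ y ∈ A, inner ℝ x y ≤ φ x)
    (T : E → E) (hT : Measurable T) (hm : ρ.map T = μ) (hTφ : ∀ᵐ x ∂ρ, inner ℝ x (T x) = φ x) :
    IsOptimalMap ρ μ T ∧ ∀ S, IsOptimalMap ρ μ S → ∀ᵐ x ∂ρ, S x ∈ A ∧ inner ℝ x (S x) = φ x := by
  obtain ⟨hTA, hTi, hTn, hTc⟩ := cost_eq ρ μ R hR A hA hA1 T hT hm
  have hφi : Integrable φ ρ := hTi.congr hTφ
  have hφT : ∫ x, inner ℝ x (T x) ∂ρ = ∫ x, φ x ∂ρ := integral_congr_ae hTφ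
  refine ⟨⟨hT, hm, ?_⟩, ?_⟩
  · intro S hS hSm
    obtain ⟨hSA, hSi, hSn, hSc⟩ := cost_eq ρ μ R hR A hA hA1 S hS hSm
    rw [hTc, hSc, hφT]
    apply ENNReal.ofReal_le_ofReal
    have : ∫ x, inner ℝ x (S x) ∂ρ ≤ ∫ x, φ x ∂ρ := by
      refine integral_mono_ae hSi hφi ?_
      filter_upwards [hSA] with x hx
      exact hφ x _ hx
    linarith
  · rintro S ⟨hS, hSm, hSo⟩
    obtain ⟨hSA, hSi, hSn, hSc⟩ := cost_eq ρ μ R hR A hA hA1 S hS hSm
    have h1 := hSo T hT hm
    have hle : ∫ x, inner ℝ x (S x) ∂ρ ≤ ∫ x, φ x ∂ρ := by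
      refine integral_mono_ae hSi hφi ?_
      filter_upwards [hSA] with x hx
      exact hφ x _ hx
    rw [hTc, hSc, ENNReal.ofReal_le_ofReal_iff hTn, hφT] at h1
    have heq : ∫ x, inner ℝ x (S x) ∂ρ = ∫ x, φ x ∂ρ := by linarith
    have hz : ∫ x, (φ x - inner ℝ x (S x)) ∂ρ = 0 := by
      rw [integral_sub hφi hSi, heq, sub_self]
    have hae : (fun x => φ x - inner ℝ x (S x)) =ᵐ[ρ] 0 := by
      refine (integral_eq_zero_iff_of_nonneg_ae ?_ (hφi.sub hSi)).1 hz
      filter_upwards [hSA] with x hx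
      simpa using hφ x _ hx
    filter_upwards [hSA, hae] with x hx hx2
    refine ⟨hx, ?_⟩
    simp only [Pi.zero_apply] at hx2
    linarith

/-- push-forward by a map with three values -/
lemma map_three (ρ : Measure E) [IsFiniteMeasure ρ] (y : Fin 3 → E)
    (i : E → Fin 3) (hi : Measurable i) :
    ρ.map (fun x => y (i x)) =
      ∑ k, ENNReal.ofReal (ρ.real (i ⁻¹' {k})) • Measure.dirac (y k) := by
  classical
  have hmeas : Measurable (fun x => y (i x)) := (measurable_of_countable y).comp hi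
  ext s hs
  rw [Measure.map_apply hmeas hs]
  have e1 : (fun x => y (i x)) ⁻¹' s = ⋃ k ∈ (Finset.univ : Finset (Fin 3)),
      (if y k ∈ s then i ⁻¹' {k} else ∅) := by
    ext x
    simp only [Set.mem_preimage, Finset.mem_univ, Set.iUnion_true, Set.mem_iUnion]
    constructor
    · intro h
      exact ⟨i x, by rw [if_pos h]; rfl⟩
    · rintro ⟨k, hk⟩
      by_cases h : y k ∈ s
      · rw [if_pos h] at hk
        have : i x = k := hk
        rw [this]; exact h
      · rw [if_neg h] at hk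
        exact absurd hk (Set.notMem_empty x)
  rw [e1, measure_biUnion_finset]
  · simp only [Measure.coe_finsetSum, Finset.sum_apply, Measure.smul_apply, smul_eq_mul]
    refine Finset.sum_congr rfl fun k _ => ?_
    rw [Measure.dirac_apply' _ hs, Measure.real, ENNReal.ofReal_toReal (measure_ne_top _ _)]
    by_cases h : y k ∈ s
    · simp [h]
    · simp [h]
  · intro a _ b _ hab
    simp only [Function.onFun]
    rw [Set.disjoint_left]
    intro x hx hx2
    by_cases ha : y a ∈ s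
    · by_cases hb : y b ∈ s
      · rw [if_pos ha] at hx
        rw [if_pos hb] at hx2
        exact hab (by rw [← (hx : i x = a), ← (hx2 : i x = b)])
      · rw [if_neg hb] at hx2
        exact absurd hx2 (Set.notMem_empty x)
    · rw [if_neg ha] at hx
      exact absurd hx (Set.notMem_empty x)
  · intro k _
    by_cases h : y k ∈ s
    · rw [if_pos h]; exact hi (measurableSet_singleton k)
    · rw [if_neg h]; exact MeasurableSet.empty

end general

section cube

variable {d : ℕ}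

/-- the cube -/
def Q (d : ℕ) : Set (EuclideanSpace ℝ (Fin d)) := {x | ∀ i, |x i| ≤ 1}

lemma volume_box (s : Fin d → Set ℝ) (hs : ∀ i, MeasurableSet (s i)) :
    volume {x : EuclideanSpace ℝ (Fin d) | ∀ i, x i ∈ s i} = ∏ i, volume (s i) := by
  have h := (PiLp.volume_preserving_ofLp (Fin d)).measure_preimage
    (s := Set.pi Set.univ s) (MeasurableSet.univ_pi hs).nullMeasurableSet
  rw [volume_pi_pi] at h
  rw [← h]
  congr 1
  ext x
  simp [Set.mem_pi]

lemma Q_eq : Q d = {x : EuclideanSpace ℝ (Fin d) | ∀ i, x i ∈ Set.Icc (-1 : ℝ) 1} := by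
  ext x
  simp [Q, abs_le]

lemma measurableSet_box (s : Fin d → Set ℝ) (hs : ∀ i, MeasurableSet (s i)) :
    MeasurableSet {x : EuclideanSpace ℝ (Fin d) | ∀ i, x i ∈ s i} := by
  have : {x : EuclideanSpace ℝ (Fin d) | ∀ i, x i ∈ s i} = ⋂ i, (fun x => x i) ⁻¹' (s i) := by
    ext x; simp
  rw [this]
  refine MeasurableSet.iInter fun i => ?_
  have : Measurable (fun x : EuclideanSpace ℝ (Fin d) => x i) := by fun_prop
  exact this (hs i)

lemma measurableSet_Q : MeasurableSet (Q d) := by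
  rw [Q_eq]; exact measurableSet_box _ fun _ => measurableSet_Icc

lemma volume_Q : volume (Q d) = ∏ _i : Fin d, (2 : ℝ≥0∞) := by
  rw [Q_eq, volume_box _ fun _ => measurableSet_Icc]
  simp only [Real.volume_Icc]
  norm_num

lemma volume_Q_ne_zero : volume (Q d) ≠ 0 := by
  rw [volume_Q]; simp

lemma volume_Q_ne_top : volume (Q d) ≠ ∞ := by
  rw [volume_Q]; simp

/-- the uniform probability -/
noncomputable def rho (d : ℕ) : Measure (EuclideanSpace ℝ (Fin d)) := uniformProbOn (Q d)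

instance : IsProbabilityMeasure (rho d) := by
  constructor
  rw [rho, uniformProbOn, Measure.smul_apply, Measure.restrict_apply_univ, smul_eq_mul]
  exact ENNReal.inv_mul_cancel volume_Q_ne_zero volume_Q_ne_top

lemma rho_apply (s : Set (EuclideanSpace ℝ (Fin d))) (hs : MeasurableSet s) :
    rho d s = (volume (Q d))⁻¹ * volume (s ∩ Q d) := by
  rw [rho, uniformProbOn, Measure.smul_apply, Measure.restrict_apply hs, smul_eq_mul]

lemma rho_Q : ∀ᵐ x ∂(rho d), x ∈ Q d := by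
  rw [ae_iff]
  have : {a | a ∉ Q d} = (Q d)ᶜ := rfl
  rw [this, rho_apply _ measurableSet_Q.compl]
  simp

lemma rho_box (s : Fin d → Set ℝ) (hs : ∀ i, MeasurableSet (s i))
    (hs2 : ∀ i, s i ⊆ Set.Icc (-1 : ℝ) 1) (g : Fin d → ℝ≥0∞) (hg : ∀ i, volume (s i) = 2 * g i) :
    rho d {x : EuclideanSpace ℝ (Fin d) | ∀ i, x i ∈ s i} = ∏ i, g i := by
  rw [rho_apply _ (measurableSet_box s hs)]
  have : {x : EuclideanSpace ℝ (Fin d) | ∀ i, x i ∈ s i} ∩ Q d
      = {x : EuclideanSpace ℝ (Fin d) | ∀ i, x i ∈ s i} := by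
    rw [Set.inter_eq_left, Q_eq]
    intro x hx i
    exact hs2 i (hx i)
  rw [this, volume_box s hs]
  simp only [hg, Finset.prod_mul_distrib]
  rw [← volume_Q, ← mul_assoc, ENNReal.inv_mul_cancel volume_Q_ne_zero volume_Q_ne_top, one_mul]

/-- two-coordinate boxes -/
lemma rho_box2 {i0 i1 : Fin d} (hne : i0 ≠ i1) (A B : Set ℝ) (hA : MeasurableSet A)
    (hB : MeasurableSet B) (hA2 : A ⊆ Set.Icc (-1 : ℝ) 1) (hB2 : B ⊆ Set.Icc (-1 : ℝ) 1)
    (a b : ℝ≥0∞) (ha : volume A = 2 * a) (hb : volume B = 2 * b) :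
    rho d {x : EuclideanSpace ℝ (Fin d) | x i0 ∈ A ∧ x i1 ∈ B} = a * b := by
  classical
  set s : Fin d → Set ℝ := fun i => if i = i0 then A else if i = i1 then B else Set.Icc (-1 : ℝ) 1
    with hs
  have h1 : rho d {x : EuclideanSpace ℝ (Fin d) | x i0 ∈ A ∧ x i1 ∈ B}
      = rho d {x : EuclideanSpace ℝ (Fin d) | ∀ i, x i ∈ s i} := by
    apply measure_congr
    filter_upwards [rho_Q (d := d)] with x hx
    rw [Q_eq] at hx
    apply propext
    change (x i0 ∈ A ∧ x i1 ∈ B) ↔ ∀ i, x i ∈ s i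
    constructor
    · rintro ⟨h0, h1⟩ i
      simp only [hs]
      split_ifs with c1 c2
      · rw [c1]; exact h0
      · rw [c2]; exact h1
      · exact hx i
    · intro h
      refine ⟨?_, ?_⟩
      · have := h i0
        simpa [hs] using this
      · have := h i1
        simpa [hs, hne.symm] using this
  rw [h1, rho_box s ?_ ?_ (fun i => if i = i0 then a else if i = i1 then b else 1) ?_]
  · rw [Fintype.prod_eq_mul i0 i1 hne]
    · simp [hne.symm]
    · rintro i ⟨h0, h1⟩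
      simp [h0, h1]
  · intro i; simp only [hs]; split_ifs
    · exact hA
    · exact hB
    · exact measurableSet_Icc
  · intro i; simp only [hs]; split_ifs
    · exact hA2
    · exact hB2
    · exact subset_rfl
  · intro i; simp only [hs]; split_ifs
    · exact ha
    · exact hb
    · rw [Real.volume_Icc]; norm_num

end cube

section maps

variable {d : ℕ} (i0 i1 : Fin d)

/-- the three atoms -/
noncomputable def pts (k : ℝ) : Fin 3 → EuclideanSpace ℝ (Fin d) :=
  ![EuclideanSpace.single i0 (1 : ℝ), -EuclideanSpace.single i0 (1 : ℝ),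
    k • EuclideanSpace.single i1 (1 : ℝ)]

open Classical in
/-- index of the Laguerre cell -/
noncomputable def idx (k : ℝ) (x : EuclideanSpace ℝ (Fin d)) : Fin 3 :=
  if |x i0| < k * x i1 then 2 else if 0 ≤ x i0 then 0 else 1

/-- the optimal map -/
noncomputable def T (k : ℝ) (x : EuclideanSpace ℝ (Fin d)) : EuclideanSpace ℝ (Fin d) :=
  pts i0 i1 k (idx i0 i1 k x)

/-- the potential -/
noncomputable def phi (k : ℝ) (x : EuclideanSpace ℝ (Fin d)) : ℝ := max |x i0| (k * x i1)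

lemma measurable_idx (k : ℝ) : Measurable (idx i0 i1 k) := by
  unfold idx
  refine Measurable.ite ?_ measurable_const (Measurable.ite ?_ measurable_const measurable_const)
  · exact measurableSet_lt (by fun_prop) (by fun_prop)
  · exact measurableSet_le (by fun_prop) (by fun_prop)

lemma measurable_T (k : ℝ) : Measurable (T i0 i1 k) :=
  (measurable_of_countable (pts i0 i1 k)).comp (measurable_idx i0 i1 k)

lemma inner_pts0 (k : ℝ) (x : EuclideanSpace ℝ (Fin d)) : inner ℝ x (pts i0 i1 k 0) = x i0 := by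
  simp [pts, EuclideanSpace.inner_single_right]

lemma inner_pts1 (k : ℝ) (x : EuclideanSpace ℝ (Fin d)) : inner ℝ x (pts i0 i1 k 1) = -x i0 := by
  simp [pts, EuclideanSpace.inner_single_right, inner_neg_right]

lemma inner_pts2 (k : ℝ) (x : EuclideanSpace ℝ (Fin d)) :
    inner ℝ x (pts i0 i1 k 2) = k * x i1 := by
  simp [pts, EuclideanSpace.inner_single_right, inner_smul_right]

lemma inner_le_phi (k : ℝ) (x y : EuclideanSpace ℝ (Fin d)) (hy : y ∈ Set.range (pts i0 i1 k)) :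
    inner ℝ x y ≤ phi i0 i1 k x := by
  obtain ⟨j, rfl⟩ := hy
  fin_cases j
  · change inner ℝ x (pts i0 i1 k 0) ≤ _
    rw [inner_pts0]; exact (le_abs_self _).trans (le_max_left _ _)
  · change inner ℝ x (pts i0 i1 k 1) ≤ _
    rw [inner_pts1]; exact (neg_le_abs _).trans (le_max_left _ _)
  · change inner ℝ x (pts i0 i1 k 2) ≤ _
    rw [inner_pts2]; exact le_max_right _ _

lemma inner_T (k : ℝ) (x : EuclideanSpace ℝ (Fin d)) :
    inner ℝ x (T i0 i1 k x) = phi i0 i1 k x := by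
  unfold T idx phi
  split_ifs with h1 h2
  · rw [inner_pts2, max_eq_right h1.le]
  · rw [inner_pts0, max_eq_left (not_lt.1 h1), abs_of_nonneg h2]
  · rw [inner_pts1, max_eq_left (not_lt.1 h1), abs_of_neg (not_le.1 h2)]

lemma eq_T (k : ℝ) (x y : EuclideanSpace ℝ (Fin d)) (hy : y ∈ Set.range (pts i0 i1 k))
    (h : inner ℝ x y = phi i0 i1 k x) (h0 : x i0 ≠ 0 * x i1) (h1 : x i0 ≠ k * x i1)
    (h2 : x i0 ≠ (-k) * x i1) : y = T i0 i1 k x := by
  obtain ⟨j, rfl⟩ := hy
  unfold T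
  congr 1
  have ha : |x i0| ≤ phi i0 i1 k x := le_max_left _ _
  have hb : k * x i1 ≤ phi i0 i1 k x := le_max_right _ _
  rw [zero_mul] at h0
  unfold idx
  fin_cases j
  · change inner ℝ x (pts i0 i1 k 0) = _ at h
    rw [inner_pts0] at h
    rw [← h] at ha hb
    have hx : 0 ≤ x i0 := (abs_nonneg _).trans ha
    rw [if_neg (not_lt.2 (hb.trans (le_abs_self _))), if_pos hx]
    rfl
  · change inner ℝ x (pts i0 i1 k 1) = _ at h
    rw [inner_pts1] at h
    rw [← h] at ha hb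
    have hx : x i0 < 0 := lt_of_le_of_ne (by linarith [abs_nonneg (x i0)]) h0
    rw [if_neg (not_lt.2 (hb.trans (neg_le_abs _))), if_neg (not_le.2 hx)]
    rfl
  · change inner ℝ x (pts i0 i1 k 2) = _ at h
    rw [inner_pts2] at h
    rw [← h] at ha
    have : |x i0| < k * x i1 := by
      refine lt_of_le_of_ne ha ?_
      rcases abs_choice (x i0) with hc | hc
      · rw [hc]; exact h1
      · rw [hc]
        intro hcon
        apply h2
        linarith
    rw [if_pos this]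
    rfl

lemma null_hyper (hne : i0 ≠ i1) (c : ℝ) :
    ∀ᵐ x ∂(rho d), x i0 ≠ c * x i1 := by
  set L : EuclideanSpace ℝ (Fin d) →ₗ[ℝ] ℝ :=
    (EuclideanSpace.proj i0 : EuclideanSpace ℝ (Fin d) →L[ℝ] ℝ).toLinearMap
      - c • (EuclideanSpace.proj i1 : EuclideanSpace ℝ (Fin d) →L[ℝ] ℝ).toLinearMap with hL
  have h1 : (volume : Measure (EuclideanSpace ℝ (Fin d))) (LinearMap.ker L : Set _) = 0 := by
    apply Measure.addHaar_submodule
    intro htop
    have : EuclideanSpace.single i0 (1 : ℝ) ∈ LinearMap.ker L := by rw [htop]; trivial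
    rw [LinearMap.mem_ker, hL] at this
    simp [hne, hne.symm] at this
  have h2 : rho d {x | x i0 = c * x i1} = 0 := by
    have hm : MeasurableSet {x : EuclideanSpace ℝ (Fin d) | x i0 = c * x i1} :=
      measurableSet_eq_fun (by fun_prop) (by fun_prop)
    rw [rho_apply _ hm]
    have : volume ({x : EuclideanSpace ℝ (Fin d) | x i0 = c * x i1} ∩ Q d) = 0 := by
      refine measure_mono_null (Set.inter_subset_left.trans ?_) h1
      intro x hx
      have hx' : x i0 = c * x i1 := hx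
      rw [SetLike.mem_coe, LinearMap.mem_ker, hL]
      simp [hx']
    rw [this, mul_zero]
  rw [ae_iff]
  simpa using h2

lemma pts_mem_Q (hne : i0 ≠ i1) (k : ℝ) (hk : |k| ≤ 1) (j : Fin 3) : pts i0 i1 k j ∈ Q d := by
  intro i
  fin_cases j
  · simp only [pts]
    by_cases h : i = i0 <;> simp [h]
  · simp only [pts]
    by_cases h : i = i0 <;> simp [h]
  · simp only [pts]
    by_cases h : i = i1
    · simpa [h] using hk
    · simp [h]

lemma norm_pts (k : ℝ) (hk : |k| ≤ 1) (j : Fin 3) : ‖pts i0 i1 k j‖ ≤ 1 := by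
  fin_cases j
  · simp [pts]
  · simp [pts]
  · simpa [pts, norm_smul] using hk

lemma pts_injective (hne : i0 ≠ i1) (k : ℝ) (hk : k ≠ 0) : Function.Injective (pts i0 i1 k) := by
  have h01 : pts i0 i1 k 0 ≠ pts i0 i1 k 1 := by
    intro h
    have := congrArg (fun v : EuclideanSpace ℝ (Fin d) => v i0) h
    simp [pts] at this
    linarith
  have h02 : pts i0 i1 k 0 ≠ pts i0 i1 k 2 := by
    intro h
    have := congrArg (fun v : EuclideanSpace ℝ (Fin d) => v i0) h
    simp [pts, hne] at this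
  have h12 : pts i0 i1 k 1 ≠ pts i0 i1 k 2 := by
    intro h
    have := congrArg (fun v : EuclideanSpace ℝ (Fin d) => v i0) h
    simp [pts, hne] at this
  intro a b hab
  fin_cases a <;> fin_cases b <;> simp_all

open Classical in
/-- reflection in the coordinate `i1` -/
noncomputable def Rf (i1 : Fin d) : EuclideanSpace ℝ (Fin d) ≃ₗᵢ[ℝ] EuclideanSpace ℝ (Fin d) :=
  LinearIsometryEquiv.piLpCongrRight 2
    (fun i => if i = i1 then LinearIsometryEquiv.neg ℝ else LinearIsometryEquiv.refl ℝ ℝ)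

lemma Rf_apply_same (x : EuclideanSpace ℝ (Fin d)) : Rf i1 x i1 = - x i1 := by
  simp [Rf]

lemma Rf_apply_ne (i : Fin d) (h : i ≠ i1) (x : EuclideanSpace ℝ (Fin d)) : Rf i1 x i = x i := by
  simp [Rf, h]

lemma measurable_Rf : Measurable (Rf i1) := (Rf i1).continuous.measurable

lemma Rf_preserves : (rho d).map (Rf i1) = rho d := by
  ext s hs
  rw [Measure.map_apply (measurable_Rf i1) hs, rho_apply _ hs,
    rho_apply _ (measurable_Rf i1 hs)]
  congr 1
  have h1 : (Rf i1) ⁻¹' s ∩ Q d = (Rf i1) ⁻¹' (s ∩ Q d) := by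
    ext x
    simp only [Set.mem_inter_iff, Set.mem_preimage]
    refine and_congr_right fun _ => ?_
    simp only [Q, Set.mem_setOf_eq]
    refine forall_congr' fun i => ?_
    by_cases h : i = i1
    · rw [h, Rf_apply_same, abs_neg]
    · rw [Rf_apply_ne i1 i h]
  rw [h1]
  exact (Rf i1).measurePreserving.measure_preimage (hs.inter measurableSet_Q).nullMeasurableSet

lemma idx_neg (hne : i0 ≠ i1) (k : ℝ) (x : EuclideanSpace ℝ (Fin d)) :
    idx i0 i1 (-k) x = idx i0 i1 k (Rf i1 x) := by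
  unfold idx
  rw [Rf_apply_same, Rf_apply_ne i1 i0 hne]
  have : (-k) * x i1 = k * (-x i1) := by ring
  rw [this]

lemma Rf_pts (hne : i0 ≠ i1) (k : ℝ) (j : Fin 3) :
    Rf i1 (pts i0 i1 k j) = pts i0 i1 (-k) j := by
  ext i
  by_cases h : i = i1
  · rw [h, Rf_apply_same]
    fin_cases j <;> simp [pts, hne.symm]
  · rw [Rf_apply_ne i1 i h]
    fin_cases j
    · simp [pts]
    · simp [pts]
    · simp [pts, h]

lemma T_neg (hne : i0 ≠ i1) (k : ℝ) (x : EuclideanSpace ℝ (Fin d)) :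
    T i0 i1 (-k) x = Rf i1 (T i0 i1 k (Rf i1 x)) := by
  unfold T
  rw [Rf_pts i0 i1 hne, idx_neg i0 i1 hne]

/-- the target measure -/
noncomputable def tgt (k : ℝ) : Measure (EuclideanSpace ℝ (Fin d)) := (rho d).map (T i0 i1 k)

lemma tgt_prob (hne : i0 ≠ i1) (k : ℝ) (hk : |k| ≤ 1) : IsProbabilityOn (Q d) (tgt i0 i1 k) := by
  refine ⟨?_, ?_⟩
  · exact Measure.isProbabilityMeasure_map (measurable_T i0 i1 k).aemeasurable
  · rw [tgt, Measure.map_apply (measurable_T i0 i1 k) measurableSet_Q.compl]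
    have : T i0 i1 k ⁻¹' (Q d)ᶜ = ∅ := by
      ext x
      simp only [Set.mem_preimage, Set.mem_compl_iff, Set.mem_empty_iff_false, iff_false, not_not]
      exact pts_mem_Q i0 i1 hne k hk _
    rw [this, measure_empty]

lemma tgt_range (k : ℝ) : tgt i0 i1 k (Set.range (pts i0 i1 k))ᶜ = 0 := by
  rw [tgt, Measure.map_apply (measurable_T i0 i1 k)
    (Set.finite_range _).measurableSet.compl]
  have : T i0 i1 k ⁻¹' (Set.range (pts i0 i1 k))ᶜ = ∅ := by
    ext x
    simp only [Set.mem_preimage, Set.mem_compl_iff, Set.mem_empty_iff_false, iff_false, not_not]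
    exact ⟨_, rfl⟩
  rw [this, measure_empty]

/-- bounds for the cells, positive slope -/
lemma cell2_lower (hne : i0 ≠ i1) (h : ℝ) (h0 : 0 < h) (h1 : h < 1) :
    ENNReal.ofReal (h / 8) ≤ rho d (idx i0 i1 h ⁻¹' {2}) := by
  have e := rho_box2 (d := d) hne (Set.Ioo (-(h / 2)) (h / 2)) (Set.Ioc (1 / 2) 1) measurableSet_Ioo
    measurableSet_Ioc (fun x hx => ⟨by linarith [hx.1], by linarith [hx.2]⟩)
    (fun x hx => ⟨by linarith [hx.1], hx.2⟩) (ENNReal.ofReal (h / 2)) (ENNReal.ofReal (1 / 4))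
    (by
      rw [Real.volume_Ioo, show (2 : ℝ≥0∞) = ENNReal.ofReal 2 by norm_num,
        ← ENNReal.ofReal_mul (by norm_num)]
      congr 1; ring)
    (by
      rw [Real.volume_Ioc, show (2 : ℝ≥0∞) = ENNReal.ofReal 2 by norm_num,
        ← ENNReal.ofReal_mul (by norm_num)]
      congr 1; ring)
  rw [← ENNReal.ofReal_mul (by positivity)] at e
  have e2 : h / 2 * (1 / 4) = h / 8 := by ring
  rw [e2] at e
  rw [← e]
  apply measure_mono
  rintro x ⟨hx0, hx1⟩
  have h3 : |x i0| < h * x i1 := by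
    have : |x i0| < h / 2 := abs_lt.2 ⟨by linarith [hx0.1], hx0.2⟩
    have h4 : h * (1 / 2) < h * x i1 := by
      have := hx1.1
      gcongr
    linarith
  simp [idx, h3]

lemma cell2_upper (hne : i0 ≠ i1) (h : ℝ) (h0 : 0 < h) (h1 : h < 1) :
    rho d (idx i0 i1 h ⁻¹' {2}) ≤ ENNReal.ofReal h := by
  have e := rho_box2 (d := d) hne (Set.Icc (-h) h) (Set.Icc (-1) 1) measurableSet_Icc
    measurableSet_Icc (fun x hx => ⟨by linarith [hx.1], by linarith [hx.2]⟩)
    (fun x hx => hx) (ENNReal.ofReal h) 1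
    (by
      rw [Real.volume_Icc, show (2 : ℝ≥0∞) = ENNReal.ofReal 2 by norm_num,
        ← ENNReal.ofReal_mul (by norm_num)]
      congr 1; ring)
    (by
      rw [Real.volume_Icc]; norm_num)
  rw [mul_one] at e
  rw [← e]
  apply measure_mono_ae
  filter_upwards [rho_Q (d := d)] with x hx hx2
  have h3 : |x i0| < h * x i1 := by
    by_contra hcon
    have : idx i0 i1 h x = 2 := hx2
    unfold idx at this
    rw [if_neg hcon] at this
    split_ifs at this
    all_goals exact absurd this (by decide)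
  have h4 := abs_le.1 (hx i1)
  have h5 : h * x i1 ≤ h * 1 := by
    have := h4.2
    gcongr
  change x i0 ∈ Set.Icc (-h) h ∧ x i1 ∈ Set.Icc (-1) 1
  exact ⟨abs_le.1 (by linarith), h4⟩

lemma cell0_pos (hne : i0 ≠ i1) (h : ℝ) (h0 : 0 < h) (h1 : h < 1) :
    0 < rho d (idx i0 i1 h ⁻¹' {0}) := by
  have e := rho_box2 (d := d) hne (Set.Ioc h 1) (Set.Icc (-1) 1) measurableSet_Ioc
    measurableSet_Icc (fun x hx => ⟨by linarith [hx.1], by linarith [hx.2]⟩)
    (fun x hx => hx) (ENNReal.ofReal ((1 - h) / 2)) 1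
    (by
      rw [Real.volume_Ioc, show (2 : ℝ≥0∞) = ENNReal.ofReal 2 by norm_num,
        ← ENNReal.ofReal_mul (by norm_num)]
      congr 1; ring)
    (by
      rw [Real.volume_Icc]; norm_num)
  rw [mul_one] at e
  have hpos : 0 < ENNReal.ofReal ((1 - h) / 2) := ENNReal.ofReal_pos.2 (by linarith)
  rw [← e] at hpos
  refine hpos.trans_le (measure_mono ?_)
  rintro x ⟨hx0, hx1⟩
  have h3 : ¬ |x i0| < h * x i1 := by
    have h5 : h * x i1 ≤ h * 1 := by
      have := hx1.2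
      gcongr
    have := le_abs_self (x i0)
    have := hx0.1
    linarith
  have h4 : 0 ≤ x i0 := by linarith [hx0.1]
  simp [idx, h3, h4]

lemma cell1_pos (hne : i0 ≠ i1) (h : ℝ) (h0 : 0 < h) (h1 : h < 1) :
    0 < rho d (idx i0 i1 h ⁻¹' {1}) := by
  have e := rho_box2 (d := d) hne (Set.Ico (-1) (-h)) (Set.Icc (-1) 1) measurableSet_Ico
    measurableSet_Icc (fun x hx => ⟨by linarith [hx.1], by linarith [hx.2]⟩)
    (fun x hx => hx) (ENNReal.ofReal ((1 - h) / 2)) 1
    (by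
      rw [Real.volume_Ico, show (2 : ℝ≥0∞) = ENNReal.ofReal 2 by norm_num,
        ← ENNReal.ofReal_mul (by norm_num)]
      congr 1; ring)
    (by
      rw [Real.volume_Icc]; norm_num)
  rw [mul_one] at e
  have hpos : 0 < ENNReal.ofReal ((1 - h) / 2) := ENNReal.ofReal_pos.2 (by linarith)
  rw [← e] at hpos
  refine hpos.trans_le (measure_mono ?_)
  rintro x ⟨hx0, hx1⟩
  have h3 : ¬ |x i0| < h * x i1 := by
    have h5 : h * x i1 ≤ h * 1 := by
      have := hx1.2
      gcongr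
    have := neg_le_abs (x i0)
    have := hx0.2
    linarith
  have h4 : ¬ 0 ≤ x i0 := by
    have := hx0.2
    linarith
  simp [idx, h3, h4]

lemma cell_pos (hne : i0 ≠ i1) (h : ℝ) (h0 : 0 < h) (h1 : h < 1) (j : Fin 3) :
    0 < rho d (idx i0 i1 h ⁻¹' {j}) := by
  fin_cases j
  · exact cell0_pos i0 i1 hne h h0 h1
  · exact cell1_pos i0 i1 hne h h0 h1
  · exact (ENNReal.ofReal_pos.2 (by positivity)).trans_le (cell2_lower i0 i1 hne h h0 h1)

lemma cell_neg (hne : i0 ≠ i1) (h : ℝ) (j : Fin 3) :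
    rho d (idx i0 i1 (-h) ⁻¹' {j}) = rho d (idx i0 i1 h ⁻¹' {j}) := by
  have : idx i0 i1 (-h) ⁻¹' {j} = (Rf i1) ⁻¹' (idx i0 i1 h ⁻¹' {j}) := by
    ext x
    simp only [Set.mem_preimage, idx_neg i0 i1 hne]
  rw [this, ← Measure.map_apply (measurable_Rf i1)
    (measurable_idx i0 i1 h (measurableSet_singleton j)), Rf_preserves]

lemma tgt_three (hne : i0 ≠ i1) (k : ℝ) (hk : k ≠ 0)
    (hpos : ∀ j, 0 < rho d (idx i0 i1 k ⁻¹' {j})) : IsThreeAtomic (tgt i0 i1 k) := by
  refine ⟨pts i0 i1 k, pts_injective i0 i1 hne k hk,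
    fun j => (rho d).real (idx i0 i1 k ⁻¹' {j}), fun j => ?_, ?_⟩
  · exact ENNReal.toReal_pos (hpos j).ne' (measure_ne_top _ _)
  · exact map_three (rho d) (pts i0 i1 k) (idx i0 i1 k) (measurable_idx i0 i1 k)

lemma norm_le_of_Q : ∀ᵐ x ∂(rho d), ‖x‖ ≤ Real.sqrt d := by
  filter_upwards [rho_Q (d := d)] with x hx
  rw [EuclideanSpace.norm_eq]
  apply Real.sqrt_le_sqrt
  calc ∑ i, ‖x i‖ ^ 2 ≤ ∑ _i : Fin d, (1 : ℝ) := by
        refine Finset.sum_le_sum fun i _ => ?_
        have := hx i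
        rw [Real.norm_eq_abs]
        calc |x i| ^ 2 ≤ 1 ^ 2 := by gcongr
          _ = 1 := by norm_num
    _ = d := by simp

lemma optimal_T (k : ℝ) (hk : |k| ≤ 1) :
    IsOptimalMap (rho d) (tgt i0 i1 k) (T i0 i1 k) ∧
    ∀ S, IsOptimalMap (rho d) (tgt i0 i1 k) S → ∀ᵐ x ∂(rho d),
      S x ∈ Set.range (pts i0 i1 k) ∧ inner ℝ x (S x) = phi i0 i1 k x := by
  refine optimal_of_potential (rho d) (tgt i0 i1 k) (Real.sqrt d) norm_le_of_Q
    (Set.range (pts i0 i1 k)) (tgt_range i0 i1 k) ?_ (phi i0 i1 k)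
    (fun x y hy => inner_le_phi i0 i1 k x y hy) (T i0 i1 k) (measurable_T i0 i1 k) rfl
    (Filter.Eventually.of_forall fun x => inner_T i0 i1 k x)
  rintro _ ⟨j, rfl⟩
  exact norm_pts i0 i1 k hk j

lemma optimal_unique (hne : i0 ≠ i1) (k : ℝ) (hk : |k| ≤ 1)
    (S : EuclideanSpace ℝ (Fin d) → EuclideanSpace ℝ (Fin d))
    (hS : IsOptimalMap (rho d) (tgt i0 i1 k) S) : ∀ᵐ x ∂(rho d), S x = T i0 i1 k x := by
  filter_upwards [(optimal_T i0 i1 k hk).2 S hS, null_hyper i0 i1 hne 0, null_hyper i0 i1 hne k,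
    null_hyper i0 i1 hne (-k)] with x hx h0 h1 h2
  exact eq_T i0 i1 k x (S x) hx.1 hx.2 h0 h1 h2

/-- the coupling -/
noncomputable def coup (k : ℝ) : Measure (EuclideanSpace ℝ (Fin d) × EuclideanSpace ℝ (Fin d)) :=
  (rho d).map (fun x => (T i0 i1 k x, Rf i1 (T i0 i1 k x)))

lemma coup_isCoupling (hne : i0 ≠ i1) (k : ℝ) :
    IsPairCoupling (tgt i0 i1 k) (tgt i0 i1 (-k)) (coup i0 i1 k) := by
  have hm1 := measurable_T i0 i1 k
  have hm2 : Measurable (fun x => Rf i1 (T i0 i1 k x)) := (measurable_Rf i1).comp hm1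
  constructor
  · rw [coup, Measure.map_map measurable_fst (hm1.prodMk hm2)]
    rfl
  · rw [coup, Measure.map_map measurable_snd (hm1.prodMk hm2)]
    have e : T i0 i1 (-k) = (fun x => Rf i1 (T i0 i1 k x)) ∘ (Rf i1) := by
      funext x
      exact T_neg i0 i1 hne k x
    rw [tgt, e, ← Measure.map_map hm2 (measurable_Rf i1), Rf_preserves]
    rfl

lemma quadCost_coup (hne : i0 ≠ i1) (h : ℝ) (h0 : 0 < h) (h1 : h < 1) :
    quadCost (coup i0 i1 h) ≤ ENNReal.ofReal (4 * h ^ 3) := by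
  have hm1 := measurable_T i0 i1 h
  have hm2 : Measurable (fun x => Rf i1 (T i0 i1 h x)) := (measurable_Rf i1).comp hm1
  rw [quadCost, coup, lintegral_map (by fun_prop) (hm1.prodMk hm2)]
  have hle : ∀ x, ‖T i0 i1 h x - Rf i1 (T i0 i1 h x)‖ₑ ^ 2 ≤
      (idx i0 i1 h ⁻¹' {2}).indicator (fun _ => ENNReal.ofReal (4 * h ^ 2)) x := by
    intro x
    unfold T
    rw [Rf_pts i0 i1 hne]
    by_cases hx : x ∈ idx i0 i1 h ⁻¹' {2}
    · rw [Set.indicator_of_mem hx]
      have : idx i0 i1 h x = 2 := hx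
      rw [this]
      have e : pts i0 i1 h 2 - pts i0 i1 (-h) 2 = (2 * h) • EuclideanSpace.single i1 (1 : ℝ) := by
        simp only [pts]
        simp only [Matrix.cons_val]
        rw [← sub_smul]; congr 1; ring
      rw [e, ← ofReal_norm, norm_smul, Real.norm_of_nonneg (by positivity : (0 : ℝ) ≤ 2 * h),
        ← ENNReal.ofReal_pow (by positivity)]
      apply le_of_eq
      congr 1
      simp
      ring
    · rw [Set.indicator_of_notMem hx]
      have hj : ∀ j : Fin 3, j ≠ 2 → pts i0 i1 h j - pts i0 i1 (-h) j = 0 := by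
        intro j hj
        fin_cases j
        · simp [pts]
        · simp [pts]
        · exact absurd rfl hj
      rw [hj _ hx]
      simp
  calc ∫⁻ x, ‖T i0 i1 h x - Rf i1 (T i0 i1 h x)‖ₑ ^ 2 ∂(rho d)
      ≤ ∫⁻ x, (idx i0 i1 h ⁻¹' {2}).indicator (fun _ => ENNReal.ofReal (4 * h ^ 2)) x ∂(rho d) :=
        lintegral_mono hle
    _ = ENNReal.ofReal (4 * h ^ 2) * rho d (idx i0 i1 h ⁻¹' {2}) := by
        rw [lintegral_indicator_const (measurable_idx i0 i1 h (measurableSet_singleton 2))]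
    _ ≤ ENNReal.ofReal (4 * h ^ 2) * ENNReal.ofReal h := by
        gcongr
        exact cell2_upper i0 i1 hne h h0 h1
    _ = ENNReal.ofReal (4 * h ^ 3) := by
        rw [← ENNReal.ofReal_mul (by positivity)]
        congr 1; ring

lemma dist_lower (hne : i0 ≠ i1) (h : ℝ) (h0 : 0 < h) (h1 : h < 1)
    (S S' : EuclideanSpace ℝ (Fin d) → EuclideanSpace ℝ (Fin d))
    (hS : ∀ᵐ x ∂(rho d), S x = T i0 i1 h x) (hS' : ∀ᵐ x ∂(rho d), S' x = T i0 i1 (-h) x) :
    ENNReal.ofReal (h / 8) ≤ ∫⁻ x, ‖S x - S' x‖ₑ ^ 2 ∂(rho d) := by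
  refine (cell2_lower i0 i1 hne h h0 h1).trans ?_
  rw [← lintegral_indicator_one (measurable_idx i0 i1 h (measurableSet_singleton 2))]
  refine lintegral_mono_ae ?_
  filter_upwards [hS, hS'] with x hx hx'
  by_cases hxW : x ∈ idx i0 i1 h ⁻¹' {2}
  swap
  · rw [Set.indicator_of_notMem hxW]; exact zero_le
  rw [Set.indicator_of_mem hxW, Pi.one_apply, hx, hx']
  have h2 : idx i0 i1 h x = 2 := hxW
  have h3 : |x i0| < h * x i1 := by
    by_contra hcon
    unfold idx at h2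
    rw [if_neg hcon] at h2
    split_ifs at h2
    all_goals exact absurd h2 (by decide)
  have h4 : 0 < h * x i1 := (abs_nonneg _).trans_lt h3
  have h5 : idx i0 i1 (-h) x ≠ 2 := by
    unfold idx
    rw [if_neg (by
      have := abs_nonneg (x i0)
      rw [neg_mul]
      linarith)]
    split_ifs
    all_goals decide
  unfold T
  rw [h2]
  have key : ∀ j : Fin 3, j ≠ 2 → 1 ≤ ‖pts i0 i1 h 2 - pts i0 i1 (-h) j‖ := by
    intro j hj
    have hc : ∀ v : EuclideanSpace ℝ (Fin d), ‖v i0‖ ≤ ‖v‖ := fun v => PiLp.norm_apply_le v i0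
    refine le_trans ?_ (hc _)
    fin_cases j
    · simp [pts, hne]
    · simp [pts, hne]
    · exact absurd rfl hj
  have := key _ h5
  rw [← ofReal_norm, ← ENNReal.ofReal_pow (norm_nonneg _)]
  rw [show (1 : ℝ≥0∞) = ENNReal.ofReal 1 by simp]
  apply ENNReal.ofReal_le_ofReal
  calc (1 : ℝ) = 1 ^ 2 := by norm_num
    _ ≤ _ := by gcongr

end maps

theorem result
    (d : ℕ) (hd : 2 ≤ d) (α : ℝ) (hα : 1 / 3 < α) (C : ℝ≥0) :
    ∃ μ ν : Measure (EuclideanSpace ℝ (Fin d)),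
      IsProbabilityOn {x : EuclideanSpace ℝ (Fin d) | ∀ i, |x i| ≤ 1} μ ∧
      IsProbabilityOn {x : EuclideanSpace ℝ (Fin d) | ∀ i, |x i| ≤ 1} ν ∧
      IsThreeAtomic μ ∧ IsThreeAtomic ν ∧
      (∃ T, IsOptimalMap (uniformProbOn {x : EuclideanSpace ℝ (Fin d) | ∀ i, |x i| ≤ 1}) μ T) ∧
      (∃ T, IsOptimalMap (uniformProbOn {x : EuclideanSpace ℝ (Fin d) | ∀ i, |x i| ≤ 1}) ν T) ∧
      ∀ Tμ Tν : EuclideanSpace ℝ (Fin d) → EuclideanSpace ℝ (Fin d),
        IsOptimalMap (uniformProbOn {x : EuclideanSpace ℝ (Fin d) | ∀ i, |x i| ≤ 1}) μ Tμ →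
        IsOptimalMap (uniformProbOn {x : EuclideanSpace ℝ (Fin d) | ∀ i, |x i| ≤ 1}) ν Tν →
        ∃ π : Measure (EuclideanSpace ℝ (Fin d) × EuclideanSpace ℝ (Fin d)), IsPairCoupling μ ν π ∧
          (C : ℝ≥0∞) * quadCost π ^ α < ∫⁻ x, ‖Tμ x - Tν x‖ₑ ^ 2 ∂(uniformProbOn {x : EuclideanSpace ℝ (Fin d) | ∀ i, |x i| ≤ 1}) := by
  -- choose h
  have hlim : Filter.Tendsto (fun h : ℝ => (C : ℝ) * 4 ^ α * h ^ (3 * α - 1))
      (nhdsWithin 0 (Set.Ioi 0)) (nhds 0) := by
    have h1 : Filter.Tendsto (fun h : ℝ => h ^ (3 * α - 1)) (nhdsWithin 0 (Set.Ioi 0)) (nhds 0) := by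
      have := (Real.continuousAt_rpow_const (0 : ℝ) (3 * α - 1) (Or.inr (by linarith))).tendsto
      rw [Real.zero_rpow (by linarith)] at this
      exact this.mono_left nhdsWithin_le_nhds
    simpa using h1.const_mul ((C : ℝ) * 4 ^ α)
  have hev : ∀ᶠ h : ℝ in nhdsWithin 0 (Set.Ioi 0),
      (C : ℝ) * 4 ^ α * h ^ (3 * α - 1) < 1 / 8 ∧ 0 < h ∧ h < 1 := by
    refine (hlim.eventually (gt_mem_nhds (by norm_num))).and ?_
    have : Set.Ioo (0 : ℝ) 1 ∈ nhdsWithin (0 : ℝ) (Set.Ioi 0) := Ioo_mem_nhdsGT (by norm_num)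
    filter_upwards [this] with h hh
    exact hh
  obtain ⟨h, hC, h0, h1⟩ := hev.exists
  let i0 : Fin d := ⟨0, by omega⟩
  let i1 : Fin d := ⟨1, by omega⟩
  have hne : i0 ≠ i1 := by simp [i0, i1, Fin.ext_iff]
  have hk : |h| ≤ 1 := by rw [abs_of_pos h0]; exact h1.le
  have hk' : |-h| ≤ 1 := by rw [abs_neg]; exact hk
  refine ⟨tgt i0 i1 h, tgt i0 i1 (-h), tgt_prob i0 i1 hne h hk, tgt_prob i0 i1 hne (-h) hk',
    tgt_three i0 i1 hne h h0.ne' (cell_pos i0 i1 hne h h0 h1),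
    tgt_three i0 i1 hne (-h) (neg_ne_zero.2 h0.ne') (fun j => by
      rw [cell_neg i0 i1 hne]; exact cell_pos i0 i1 hne h h0 h1 j),
    ⟨T i0 i1 h, (optimal_T i0 i1 h hk).1⟩, ⟨T i0 i1 (-h), (optimal_T i0 i1 (-h) hk').1⟩, ?_⟩
  intro Tμ Tν hTμ hTν
  refine ⟨coup i0 i1 h, coup_isCoupling i0 i1 hne h, ?_⟩
  have e1 := optimal_unique i0 i1 hne h hk Tμ hTμ
  have e2 := optimal_unique i0 i1 hne (-h) hk' Tν hTν
  refine lt_of_lt_of_le ?_ (dist_lower i0 i1 hne h h0 h1 Tμ Tν e1 e2)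
  calc (C : ℝ≥0∞) * quadCost (coup i0 i1 h) ^ α
      ≤ (C : ℝ≥0∞) * (ENNReal.ofReal (4 * h ^ 3)) ^ α := by
        gcongr
        exact quadCost_coup i0 i1 hne h h0 h1
    _ = ENNReal.ofReal ((C : ℝ) * (4 * h ^ 3) ^ α) := by
        rw [ENNReal.ofReal_rpow_of_nonneg (by positivity) (by linarith),
          ENNReal.ofReal_mul (by positivity), ENNReal.ofReal_coe_nnreal]
    _ < ENNReal.ofReal (h / 8) := by
        rw [ENNReal.ofReal_lt_ofReal_iff (by positivity)]
        have e3 : (C : ℝ) * (4 * h ^ 3) ^ α = (C : ℝ) * 4 ^ α * h ^ (3 * α - 1) * h := by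
          rw [Real.mul_rpow (by norm_num) (by positivity)]
          have : (h ^ 3) ^ α = h ^ (3 * α - 1) * h := by
            rw [← Real.rpow_natCast h 3, ← Real.rpow_mul h0.le]
            conv_rhs => rw [← Real.rpow_one h]
            rw [← Real.rpow_mul h0.le, one_mul, ← Real.rpow_add h0]
            congr 1
            push_cast
            ring
          rw [this]; ring
        rw [e3]
        calc (C : ℝ) * 4 ^ α * h ^ (3 * α - 1) * h < 1 / 8 * h := by gcongr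
          _ = h / 8 := by ring

end Crest.Agent.S0110
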