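import Crest.Agent.S0112G

set_option autoImplicit false

namespace Crest.Agent.S0112

open Filter MeasureTheory Crest.OpAlg
open scoped Topology BoundedContinuousFunction InnerProductSpace

variable {H : Type*} [NormedAddCommGroup H] [InnerProductSpace ℂ H] [CompleteSpace H]

variable (S : ModularDatum H) (ω : Ultrafilter ℕ) (hω : (ω : Filter ℕ) ≤ Filter.atTop)

/-- the map `x ↦ T κ(D) x ξ` -/
noncomputable def testMap (T : H →L[ℂ] H) (κ : CB) : (H →L[ℂ] H) →ₗ[ℂ] H where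
  toFun x := T (S.D.apply κ (x S.vac))
  map_add' x y := by simp
  map_smul' c x := by simp

lemma testMap_apply (T : H →L[ℂ] H) (κ : CB) (x : H →L[ℂ] H) :
    testMap S T κ x = T (S.D.apply κ (x S.vac)) := rfl

lemma apply_comm_wave (κ : CB) (t : ℝ) (x : H) :
    S.D.apply κ (S.D.wave t x) = S.D.wave t (S.D.apply κ x) := by
  unfold LineCalculus.wave
  rw [← mul_apply_eq_comp, ← mul_apply_eq_comp, ← map_mul, ← map_mul, mul_comm]

include hω

/-- The main estimate: for `α > 0` and an element `a` of the algebra with `κ(D) a ξ` close to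
`h`, one finds `x' ∈ M` with large `½‖T κ(D) x' ξ‖² - α ‖x'⋆ x' ξ‖²`. -/
theorem exists_good (herg : S.Ergodic) (T : H →L[ℂ] H) (κ : CB) (a : H →L[ℂ] H)
    (ha : a ∈ S.M) (h : H) (c c' α B₁ ε₁ : ℝ) (hc : 0 < c) (hcc' : c ≤ c') (hα : 0 < α)
    (hg : Tendsto (avg (fun t => ‖T (S.D.wave t h)‖ ^ 2)) ω (𝓝 c'))
    (hB : 2 * ‖a S.vac‖ ^ 4 + 4 * (‖star a S.vac‖ ^ 2 * ‖a S.vac‖ ^ 2) ≤ B₁)
    (hαB : 4 * α * B₁ ≤ c / 4)
    (hclose : ‖S.D.apply κ (a S.vac) - h‖ ≤ ε₁) (hε₁ : ‖T‖ ^ 2 * ε₁ ^ 2 ≤ c / 16) :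
    ∃ x' ∈ S.M, c / 16 ≤ 1 / 2 * ‖T (S.D.apply κ (x' S.vac))‖ ^ 2
      - α * ‖(star x' * x') S.vac‖ ^ 2 := by
  set w := star a (a S.vac) with hw
  obtain ⟨N, hN⟩ := exists_nat_gt (16 * α * ‖w‖ ^ 2 / c)
  have hN0 : (0 : ℝ) < N := lt_of_le_of_lt (by positivity) hN
  have hN0' : 0 < N := by exact_mod_cast hN0
  have hNw : α / N * ‖w‖ ^ 2 ≤ c / 16 := by
    rw [div_lt_iff₀ hc] at hN
    rw [div_mul_eq_mul_div, div_le_iff₀ hN0]
    linarith
  set B := 2 * ‖a S.vac‖ ^ 4 + 4 * (‖star a S.vac‖ ^ 2 * ‖a S.vac‖ ^ 2) with hBdef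
  have hB0 : 0 ≤ B := by positivity
  obtain ⟨C, hC0, hC⟩ := GG_bound S a
  have hgcont : Continuous (fun t => ‖T (S.D.wave t h)‖ ^ 2) := by
    have := continuous_wave S.D h
    fun_prop
  obtain ⟨ts, hlen, hts⟩ := exists_times ω hω _ (GG S a) hgcont (continuous_GG S a) C hC0 hC c' B
    (4 * α / N) (c / 8) (by positivity) hB0 (by positivity) hg (tendsto_GG S ω hω herg a ha) N N
    le_rfl
  set r : ℝ := Real.sqrt (1 / N) with hr
  have hr2 : r ^ 2 = 1 / N := Real.sq_sqrt (by positivity)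
  have hr4 : r ^ 4 = 1 / N * (1 / N) := by
    have : r ^ 4 = r ^ 2 * r ^ 2 := by ring
    rw [this, hr2]
  obtain ⟨x', hx', hle⟩ := sAvg_exists
    (fun x => (1 / 2) * ‖testMap S T κ x‖ ^ 2 - α * ‖(star x * x + 0) S.vac‖ ^ 2)
    (fun x => x ∈ S.M) (fun x y hx hy => add_mem hx hy) (fun x y hx hy => sub_mem hx hy)
    (ts.map (sig S a r)) 0 (by
      intro v hv
      rw [List.mem_map] at hv
      obtain ⟨t, -, rfl⟩ := hv
      exact sig_mem S a ha r t) (zero_mem _)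
  refine ⟨x', hx', ?_⟩
  have hle2 : sAvg (fun x => (1 / 2) * ‖testMap S T κ x‖ ^ 2 - α * ‖(star x * x + 0) S.vac‖ ^ 2)
    (ts.map (sig S a r)) 0 ≤ 1 / 2 * ‖T (S.D.apply κ (x' S.vac))‖ ^ 2
      - α * ‖(star x' * x') S.vac‖ ^ 2 := by
    simpa [testMap_apply] using hle
  refine le_trans ?_ hle2
  rw [sAvg_sub, sAvg_norm, sAvg_quart]
  -- simplify the quartic part
  have hq1 : (star (0 : H →L[ℂ] H) * 0 + 0
      + ((ts.map (sig S a r)).map (fun v => star v * v)).sum) S.vac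
      = ((ts.map (sig S a r)).map (fun v => star v * v)).sum S.vac := by simp
  have hq2 : ((ts.map (sig S a r)).map (fun v => ‖(star (0 : H →L[ℂ] H) * v + star v * 0) S.vac‖ ^ 2)).sum
      = 0 := by
    simp [Function.comp_def]
  rw [hq1, hq2, map_zero, norm_zero]
  have hq := quart_bound S a r ts
  rw [hlen, hr4] at hq
  -- lower bound of the test part
  have hlow : 1 / 2 * (ts.map (fun t => ‖T (S.D.wave t h)‖ ^ 2)).sum - N * (c / 16)
      ≤ N * ((ts.map (sig S a r)).map (fun v => ‖testMap S T κ v‖ ^ 2)).sum := by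
    have hgen : ∀ l : List ℝ, 1 / 2 * (l.map (fun t => ‖T (S.D.wave t h)‖ ^ 2)).sum
        - l.length * (c / 16)
        ≤ N * ((l.map (sig S a r)).map (fun v => ‖testMap S T κ v‖ ^ 2)).sum := by
      intro l
      induction l with
      | nil => simp
      | cons t l ih =>
        simp only [List.map_cons, List.sum_cons, List.length_cons, Nat.cast_add, Nat.cast_one]
        have e1 : ‖testMap S T κ (sig S a r t)‖ ^ 2
            = 1 / N * ‖T (S.D.wave t (S.D.apply κ (a S.vac)))‖ ^ 2 := by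
          rw [testMap_apply, sig_vac, map_smul, map_smul, norm_smul, mul_pow, Complex.norm_real,
            Real.norm_eq_abs, sq_abs, hr2, apply_comm_wave]
        have e2 : N * ‖testMap S T κ (sig S a r t)‖ ^ 2
            = ‖T (S.D.wave t (S.D.apply κ (a S.vac)))‖ ^ 2 := by
          rw [e1]; field_simp
        have e3 : ‖T (S.D.wave t h)‖ ^ 2 ≤ 2 * ‖T (S.D.wave t (S.D.apply κ (a S.vac)))‖ ^ 2
            + 2 * (c / 16) := by
          have f1 : T (S.D.wave t h) = T (S.D.wave t (S.D.apply κ (a S.vac)))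
              - T (S.D.wave t (S.D.apply κ (a S.vac) - h)) := by
            simp only [map_sub]; abel
          have f2 : ‖T (S.D.wave t (S.D.apply κ (a S.vac) - h))‖ ≤ ‖T‖ * ε₁ := by
            calc _ ≤ ‖T‖ * ‖S.D.wave t (S.D.apply κ (a S.vac) - h)‖ := T.le_opNorm _
              _ = ‖T‖ * ‖S.D.apply κ (a S.vac) - h‖ := by rw [norm_wave]
              _ ≤ _ := by gcongr
          have f3 : ‖T (S.D.wave t (S.D.apply κ (a S.vac) - h))‖ ^ 2 ≤ c / 16 := by
            calc _ ≤ (‖T‖ * ε₁) ^ 2 := by gcongr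
              _ = ‖T‖ ^ 2 * ε₁ ^ 2 := by ring
              _ ≤ _ := hε₁
          have f4 := parallelogram_law_with_norm ℂ (T (S.D.wave t (S.D.apply κ (a S.vac))))
            (T (S.D.wave t (S.D.apply κ (a S.vac) - h)))
          have f5 : 0 ≤ ‖T (S.D.wave t (S.D.apply κ (a S.vac)))
            + T (S.D.wave t (S.D.apply κ (a S.vac) - h))‖ ^ 2 := by positivity
          rw [f1]
          nlinarith
        nlinarith
    have := hgen ts
    rw [hlen] at this
    exact this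
  set X := ((ts.map (sig S a r)).map (fun v => ‖testMap S T κ v‖ ^ 2)).sum with hX
  set Q := ‖((ts.map (sig S a r)).map (fun v => star v * v)).sum S.vac‖ ^ 2
      + qpairs S.vac (ts.map (sig S a r)) with hQ
  set Sg := (ts.map (fun t => ‖T (S.D.wave t h)‖ ^ 2)).sum with hSg
  set P := pairs (GG S a) ts with hP
  -- hts : N * (c' - 4α/N * (N*B) - c/8) ≤ Sg - 4α/N * P
  have h1 : (N : ℝ) * (c' - 4 * α / N * (N * B) - c / 8) = N * (c' - 4 * α * B - c / 8) := by
    field_simp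
  rw [h1] at hts
  have h2 : 4 * α * B ≤ c / 4 := le_trans (by gcongr) hαB
  have h3 : (N : ℝ) * (5 / 8 * c) ≤ Sg - 4 * α / N * P := by
    refine le_trans ?_ hts
    gcongr
    linarith
  have h4 : 1 / (2 * N) * (1 / 2 * Sg - N * (c / 16)) ≤ 1 / 2 * X := by
    have : 1 / 2 * X = 1 / (2 * N) * (N * X) := by field_simp
    rw [this]
    gcongr
  have h5 : α * Q ≤ α / N * ‖w‖ ^ 2 + α / N * (1 / N * P) := by
    calc α * Q ≤ α * (1 / N * (1 / N) * (N * ‖w‖ ^ 2 + P)) := by gcongr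
      _ = _ := by field_simp
  have h6 : 1 / (2 * N) * (1 / 2 * Sg - N * (c / 16))
      = 1 / (4 * N) * Sg - c / 32 := by field_simp; ring
  have h7 : 1 / (4 * N) * (N * (5 / 8 * c)) ≤ 1 / (4 * N) * (Sg - 4 * α / N * P) := by gcongr
  have h8 : 1 / (4 * (N : ℝ)) * (N * (5 / 8 * c)) = 5 / 32 * c := by field_simp; ring
  have h9 : 1 / (4 * (N : ℝ)) * (Sg - 4 * α / N * P) = 1 / (4 * N) * Sg - α / N * (1 / N * P) := by
    field_simp
  rw [h8, h9] at h7
  rw [h6] at h4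
  have h10 : (0 : ℝ) ^ 2 + X = X := by ring
  have h11 : ‖((ts.map (sig S a r)).map (fun v => star v * v)).sum S.vac‖ ^ 2 + 0
      + qpairs S.vac (ts.map (sig S a r)) = Q := by rw [hQ]; ring
  rw [h10, h11]
  linarith

end Crest.Agent.S0112
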