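import Crest.Statements.S0112
import Crest.Agent.S0112H

set_option autoImplicit false
open Crest Crest.AnalysisR Crest.AnalysisR.OperatorAlgebra

namespace Crest.Agent.S0112

open Filter Crest.OpAlg in
/-- one window -/
theorem window_step {H : Type*} [NormedAddCommGroup H] [InnerProductSpace ℂ H] [CompleteSpace H]
    (S : ModularDatum H) (herg : S.Ergodic)
    (ω : Ultrafilter ℕ) (hω : (ω : Filter ℕ) ≤ Filter.atTop)
    (T : H →L[ℂ] H) (c r₀ : ℝ) (hc : 0 < c) :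
    ∃ C : ℝ, ∀ (s δ : ℝ) (h : H), 0 < δ → s + 2 * δ ≤ r₀ → ‖h‖ = 1 →
      S.D.SupportedIn (Set.Icc (s - δ) (s + δ)) h →
      c ≤ ultraMean ω (fun t : ℝ => ‖T (S.D.wave t h)‖ ^ 2) →
      ∃ v ∈ S.M, ‖v‖ ≤ C ∧ Real.sqrt (c / 16) ≤ ‖T (v S.vac)‖ ∧
        S.D.SupportedIn (Set.Icc (s - 4 * δ) (s + 4 * δ)) (v S.vac) := by
  obtain ⟨C₀, hC₀, hkern⟩ := exists_kern
  set B₁ : ℝ := 2 * 2 ^ 4 + 4 * ((Real.exp (r₀ / 2) * 2) ^ 2 * 2 ^ 2) with hB₁
  have hB₁0 : 0 < B₁ := by positivity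
  set α : ℝ := c / (16 * B₁) with hα
  have hα0 : 0 < α := by positivity
  set K : ℝ := (‖T‖ ^ 2 + 1) / (4 * α) with hK
  have hK0 : 0 < K := by positivity
  refine ⟨C₀ * Real.sqrt (K / 4), ?_⟩
  intro s δ h hδ hsδ hh hband hmean
  obtain ⟨κ, hmass, hκ1, hκ2, hκ3⟩ := hkern s δ hδ
  have hκc : HasCompactSupport (κ.κ : ℝ → ℂ) := by
    apply HasCompactSupport.intro (K := Set.Icc (s - 2 * δ) (s + 2 * δ)) isCompact_Icc
    intro u hu
    by_contra hne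
    apply hu
    have := hκ2 u hne
    rw [abs_le] at this
    constructor <;> linarith
  -- approximate h
  set ε₁ : ℝ := min 1 (Real.sqrt (c / 16) / (‖T‖ + 1)) with hε₁
  have hε₁0 : 0 < ε₁ := by
    apply lt_min one_pos
    positivity
  have hTε : ‖T‖ ^ 2 * ε₁ ^ 2 ≤ c / 16 := by
    have h1 : ‖T‖ * ε₁ ≤ Real.sqrt (c / 16) := by
      calc ‖T‖ * ε₁ ≤ (‖T‖ + 1) * (Real.sqrt (c / 16) / (‖T‖ + 1)) := by
            gcongr
            · linarith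
            · exact min_le_right _ _
        _ = _ := by field_simp
    calc ‖T‖ ^ 2 * ε₁ ^ 2 = (‖T‖ * ε₁) ^ 2 := by ring
      _ ≤ (Real.sqrt (c / 16)) ^ 2 := by gcongr
      _ = _ := Real.sq_sqrt (by positivity)
  obtain ⟨_, ⟨b, rfl⟩, hb⟩ := Metric.mem_closure_iff.mp (S.cyclic h) ε₁ hε₁0
  simp only at hb
  rw [dist_eq_norm, norm_sub_rev] at hb
  have hκh : S.D.apply κ.κ h = h := by
    have h1 := hband (κ.κ - 1) (by
      intro u hu
      have : |u - s| ≤ δ := by rw [abs_le]; constructor <;> linarith [hu.1, hu.2]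
      simp [hκ1 u this])
    rw [map_sub, map_one, sub_apply] at h1
    exact sub_eq_zero.mp h1
  have hcontr : ∀ x : H, ‖S.D.apply κ.κ x‖ ≤ ‖x‖ := by
    intro x
    have := norm_apply_le S.D κ.κ 1 zero_le_one hκ3 x
    rwa [one_mul] at this
  set a := κ.smoothOp S.D b with ha
  have haM : a ∈ S.M := κ.smoothOp_mem S b b.2
  have hav : a S.vac = S.D.apply κ.κ ((b : H →L[ℂ] H) S.vac) := κ.smoothOp_vac S b
  have hclose1 : ‖a S.vac - h‖ ≤ ε₁ := by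
    calc ‖a S.vac - h‖ = ‖S.D.apply κ.κ ((b : H →L[ℂ] H) S.vac - h)‖ := by
          rw [map_sub, hκh, hav]
      _ ≤ _ := (hcontr _).trans hb.le
  have hclose : ‖S.D.apply κ.κ (a S.vac) - h‖ ≤ ε₁ := by
    calc ‖S.D.apply κ.κ (a S.vac) - h‖ = ‖S.D.apply κ.κ (a S.vac - h)‖ := by
          rw [map_sub, hκh]
      _ ≤ _ := (hcontr _).trans hclose1
  have hb2 : ‖(b : H →L[ℂ] H) S.vac‖ ≤ 2 := by
    have : (b : H →L[ℂ] H) S.vac = ((b : H →L[ℂ] H) S.vac - h) + h := by abel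
    rw [this]
    calc _ ≤ ‖(b : H →L[ℂ] H) S.vac - h‖ + ‖h‖ := norm_add_le _ _
      _ ≤ 1 + 1 := by
          rw [hh]; gcongr; exact hb.le.trans (min_le_left _ _)
      _ = 2 := by norm_num
  have ha2 : ‖a S.vac‖ ≤ 2 := by rw [hav]; exact (hcontr _).trans hb2
  have hsa : ‖star a S.vac‖ ≤ Real.exp (r₀ / 2) * 2 := by
    have h1 := norm_star_vac_le S a haM κ.κ hκc hκ3 r₀ (by
      intro u hu
      have := hκ2 u hu
      rw [abs_le] at this
      linarith) _ hav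
    calc _ ≤ _ := h1
      _ ≤ _ := by gcongr
  have hgb : ∀ t : ℝ, ‖‖T (S.D.wave t h)‖ ^ 2‖ ≤ (‖T‖ * ‖h‖) ^ 2 := by
    intro t
    rw [Real.norm_of_nonneg (by positivity)]
    gcongr
    calc _ ≤ ‖T‖ * ‖S.D.wave t h‖ := T.le_opNorm _
      _ = _ := by rw [norm_wave]
  obtain ⟨c', hc'⟩ := exists_lim ω (avg (fun t => ‖T (S.D.wave t h)‖ ^ 2)) ((‖T‖ * ‖h‖) ^ 2)
    (fun k => avg_norm_le _ _ (by positivity) hgb k)
  have hcc' : c ≤ c' := by
    have h1 : ultraMean ω (fun t : ℝ => ‖T (S.D.wave t h)‖ ^ 2) = c' := by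
      unfold ultraMean
      rw [windowMean_eq]
      exact hc'.limUnder_eq
    rw [← h1]; exact hmean
  obtain ⟨x', hx'M, hx'⟩ := exists_good S ω hω herg T κ.κ a haM h c c' α B₁ ε₁ hc hcc' hα0 hc'
    (by rw [hB₁]; gcongr) (by rw [hα]; apply le_of_eq; field_simp; norm_num) hclose hTε
  obtain ⟨v, hvM, hvn, hvd⟩ := exists_trunc S.M x' hx'M K hK0
  refine ⟨κ.smoothOp S.D v, κ.smoothOp_mem S v hvM, ?_, ?_, ?_⟩
  · calc _ ≤ κ.mass * ‖v‖ := κ.norm_smoothOp_le S.D v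
      _ ≤ _ := by rw [hmass]; gcongr
  · rw [κ.smoothOp_vac S v]
    apply Real.sqrt_le_iff.mpr
    refine ⟨norm_nonneg _, ?_⟩
    have h1 := parallelogram_law_with_norm ℂ (T (S.D.apply κ.κ (v S.vac)))
      (T (S.D.apply κ.κ (x' S.vac - v S.vac)))
    have h2 : T (S.D.apply κ.κ (v S.vac)) + T (S.D.apply κ.κ (x' S.vac - v S.vac))
        = T (S.D.apply κ.κ (x' S.vac)) := by
      simp only [map_sub]; abel
    rw [h2] at h1
    have h3 : ‖T (S.D.apply κ.κ (x' S.vac - v S.vac))‖ ^ 2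
        ≤ ‖T‖ ^ 2 * (1 / (4 * K) * ‖(star x' * x') S.vac‖ ^ 2) := by
      calc _ ≤ (‖T‖ * ‖x' S.vac - v S.vac‖) ^ 2 := by
            gcongr
            calc _ ≤ ‖T‖ * ‖S.D.apply κ.κ (x' S.vac - v S.vac)‖ := T.le_opNorm _
              _ ≤ _ := by gcongr; exact hcontr _
        _ = ‖T‖ ^ 2 * ‖x' S.vac - v S.vac‖ ^ 2 := by ring
        _ ≤ _ := by gcongr; exact hvd _
    have h4 : ‖T‖ ^ 2 * (1 / (4 * K)) ≤ α := by
      have : ‖T‖ ^ 2 * (1 / (4 * K)) = α * (‖T‖ ^ 2 / (‖T‖ ^ 2 + 1)) := by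
        rw [hK]; field_simp
      rw [this]
      calc α * (‖T‖ ^ 2 / (‖T‖ ^ 2 + 1)) ≤ α * 1 := by
            gcongr
            rw [div_le_one (by positivity)]; linarith
        _ = α := mul_one _
    have h5 : ‖T‖ ^ 2 * (1 / (4 * K) * ‖(star x' * x') S.vac‖ ^ 2)
        ≤ α * ‖(star x' * x') S.vac‖ ^ 2 := by
      rw [← mul_assoc]; gcongr
    have h6 : 0 ≤ ‖T (S.D.apply κ.κ (v S.vac)) - T (S.D.apply κ.κ (x' S.vac - v S.vac))‖ ^ 2 := by
      positivity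
    nlinarith
  · intro f hf
    rw [κ.smoothOp_vac S v, ← mul_apply_eq_comp, ← map_mul]
    have : f * κ.κ = 0 := by
      ext u
      simp only [BoundedContinuousFunction.coe_mul, Pi.mul_apply,
        BoundedContinuousFunction.coe_zero, Pi.zero_apply]
      by_cases h0 : κ.κ u = 0
      · rw [h0, mul_zero]
      · have := hκ2 u h0
        rw [abs_le] at this
        rw [hf u ⟨by linarith, by linarith⟩, zero_mul]
    rw [this, map_zero]; rfl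

/-- Bounded recovery. Let S be modular data on H (algebra M, cyclic separating unit vector ξ, D = log of the modular operator) with ergodic state, ω a free ultrafilter on ℕ, T a bounded operator, δₙ → 0 positive, hₙ unit vectors with D-spectral support in [s − δₙ, s + δₙ]. If some c > 0 bounds the ω-mean over t of ‖T exp(itD) hₙ‖² from below infinitely often, along a subsequence n_j there are v_j ∈ M, C and η > 0 with ‖v_j‖ ≤ C, ‖T (v_j ξ)‖ ≥ η, v_j ξ supported in [s − 4δ_{n_j}, s + 4δ_{n_j}]. -/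
theorem result
    {H : Type*} [NormedAddCommGroup H] [InnerProductSpace ℂ H] [CompleteSpace H]
    (S : Crest.OpAlg.ModularDatum H) (herg : S.Ergodic)
    (ω : Ultrafilter ℕ) (hω : (ω : Filter ℕ) ≤ Filter.atTop)
    (T : H →L[ℂ] H) (s : ℝ) (δ : ℕ → ℝ) (hδ : ∀ n, 0 < δ n)
    (hδ0 : Filter.Tendsto δ Filter.atTop (nhds 0))
    (h : ℕ → H) (hh : ∀ n, ‖h n‖ = 1)
    (hband : ∀ n, S.D.SupportedIn (Set.Icc (s - δ n) (s + δ n)) (h n))
    (hpos : ∃ c : ℝ, 0 < c ∧ ∃ᶠ n in Filter.atTop,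
      c ≤ Crest.OpAlg.ultraMean ω (fun t : ℝ => ‖T (S.D.wave t (h n))‖ ^ 2)) :
    ∃ (n' : ℕ → ℕ) (v : ℕ → (H →L[ℂ] H)) (C η : ℝ), StrictMono n' ∧ 0 < η ∧
      ∀ j : ℕ, v j ∈ S.M ∧ ‖v j‖ ≤ C ∧ η ≤ ‖T (v j S.vac)‖ ∧
        S.D.SupportedIn (Set.Icc (s - 4 * δ (n' j)) (s + 4 * δ (n' j))) (v j S.vac) := by
  obtain ⟨c, hc, hfreq⟩ := hpos
  obtain ⟨Δ, hΔ⟩ := hδ0.bddAbove_range
  obtain ⟨C, hC⟩ := window_step S herg ω hω T c (s + 2 * Δ) hc
  obtain ⟨n', hn', hn'c⟩ := Filter.extraction_of_frequently_atTop hfreq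
  have hstep : ∀ j : ℕ, ∃ v ∈ S.M, ‖v‖ ≤ C ∧ Real.sqrt (c / 16) ≤ ‖T (v S.vac)‖ ∧
        S.D.SupportedIn (Set.Icc (s - 4 * δ (n' j)) (s + 4 * δ (n' j))) (v S.vac) := by
    intro j
    apply hC s (δ (n' j)) (h (n' j)) (hδ _) _ (hh _) (hband _) (hn'c j)
    have := hΔ (Set.mem_range_self (n' j))
    linarith
  choose v hv using hstep
  exact ⟨n', v, C, Real.sqrt (c / 16), hn', by positivity, fun j => hv j⟩

end Crest.Agent.S0112
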