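import Mathlib
import Crest.Prelude.Def_ModularData

set_option autoImplicit false

namespace Crest.Agent.S0112

open Filter MeasureTheory Crest.OpAlg
open scoped Topology BoundedContinuousFunction InnerProductSpace

variable {H : Type*} [NormedAddCommGroup H] [InnerProductSpace ℂ H] [CompleteSpace H]

abbrev CB : Type := BoundedContinuousFunction ℝ ℂ

/-- Build a bounded continuous function from a compactly supported continuous function. -/
noncomputable def ofCompact (f : ℝ → ℂ) (hf : Continuous f) (hc : HasCompactSupport f) : CB :=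
  BoundedContinuousFunction.ofNormedAddCommGroup f hf
    (Classical.choose (hc.exists_bound_of_continuous hf))
    (Classical.choose_spec (hc.exists_bound_of_continuous hf))

@[simp] lemma ofCompact_apply (f : ℝ → ℂ) (hf : Continuous f) (hc : HasCompactSupport f) (u : ℝ) :
    ofCompact f hf hc u = f u := rfl

lemma apply_star_inner (D : LineCalculus H) (f : CB) (x y : H) :
    ⟪x, D.apply f y⟫_ℂ = ⟪D.apply (star f) x, y⟫_ℂ := by
  rw [map_star, ContinuousLinearMap.star_eq_adjoint, ContinuousLinearMap.adjoint_inner_left]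

lemma norm_apply_sq (D : LineCalculus H) (f : CB) (x : H) :
    ((‖D.apply f x‖ ^ 2 : ℝ) : ℂ) = ⟪x, D.apply (star f * f) x⟫_ℂ := by
  rw [map_mul, mul_apply_eq_comp, apply_star_inner, star_star,
    inner_self_eq_norm_sq_to_K]
  norm_cast

/-- Comparison: pointwise bound gives a norm bound. -/
lemma apply_le (D : LineCalculus H) (f h : CB) (c : ℝ) (hc : 0 ≤ c)
    (hle : ∀ u, ‖f u‖ ≤ c * ‖h u‖) (x : H) : ‖D.apply f x‖ ≤ c * ‖D.apply h x‖ := by
  -- q = sqrt (c^2 |h|^2 - |f|^2)
  have hcont : Continuous (fun u : ℝ => ((Real.sqrt (c ^ 2 * ‖h u‖ ^ 2 - ‖f u‖ ^ 2) : ℝ) : ℂ)) := by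
    have := f.continuous
    have := h.continuous
    fun_prop
  have hsq : ∀ u, 0 ≤ c ^ 2 * ‖h u‖ ^ 2 - ‖f u‖ ^ 2 := by
    intro u
    have h1 := hle u
    have h2 : ‖f u‖ ^ 2 ≤ (c * ‖h u‖) ^ 2 := by gcongr
    nlinarith
  have hbd : ∀ u, ‖((Real.sqrt (c ^ 2 * ‖h u‖ ^ 2 - ‖f u‖ ^ 2) : ℝ) : ℂ)‖ ≤ c * ‖h‖ := by
    intro u
    rw [Complex.norm_real, Real.norm_of_nonneg (Real.sqrt_nonneg _)]
    apply Real.sqrt_le_iff.mpr
    refine ⟨by positivity, ?_⟩
    have : ‖h u‖ ≤ ‖h‖ := h.norm_coe_le_norm u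
    have h3 : ‖h u‖ ^ 2 ≤ ‖h‖ ^ 2 := by gcongr
    nlinarith [sq_nonneg ‖f u‖, sq_nonneg c]
  set q : CB := BoundedContinuousFunction.ofNormedAddCommGroup _ hcont _ hbd with hq
  have hqu : ∀ u, q u = ((Real.sqrt (c ^ 2 * ‖h u‖ ^ 2 - ‖f u‖ ^ 2) : ℝ) : ℂ) := fun u => rfl
  have key : star f * f + star q * q = ((c ^ 2 : ℝ) : ℂ) • (star h * h) := by
    ext u
    simp only [BoundedContinuousFunction.coe_add, BoundedContinuousFunction.coe_mul, Pi.add_apply,
      Pi.mul_apply, BoundedContinuousFunction.coe_smul, BoundedContinuousFunction.star_apply, hqu]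
    have e1 : star (f u) * f u = ((‖f u‖ ^ 2 : ℝ) : ℂ) := by
      rw [RCLike.star_def, RCLike.conj_mul]; norm_cast
    have e2 : star (h u) * h u = ((‖h u‖ ^ 2 : ℝ) : ℂ) := by
      rw [RCLike.star_def, RCLike.conj_mul]; norm_cast
    rw [e1, e2, RCLike.star_def, RCLike.conj_mul]
    rw [smul_eq_mul]
    have e3 : (‖((Real.sqrt (c ^ 2 * ‖h u‖ ^ 2 - ‖f u‖ ^ 2) : ℝ) : ℂ)‖ : ℝ) ^ 2
        = c ^ 2 * ‖h u‖ ^ 2 - ‖f u‖ ^ 2 := by
      rw [Complex.norm_real, Real.norm_of_nonneg (Real.sqrt_nonneg _), Real.sq_sqrt (hsq u)]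
    have e4 : ((‖((Real.sqrt (c ^ 2 * ‖h u‖ ^ 2 - ‖f u‖ ^ 2) : ℝ) : ℂ)‖ : ℝ) : ℂ) ^ 2
        = ((c ^ 2 * ‖h u‖ ^ 2 - ‖f u‖ ^ 2 : ℝ) : ℂ) := by
      rw [← Complex.ofReal_pow, e3]
    erw [e4]
    push_cast
    ring
  have h1 : ((‖D.apply f x‖ ^ 2 + ‖D.apply q x‖ ^ 2 : ℝ) : ℂ)
      = ((c ^ 2 * ‖D.apply h x‖ ^ 2 : ℝ) : ℂ) := by
    rw [Complex.ofReal_add, norm_apply_sq, norm_apply_sq, ← inner_add_right,
      ← add_apply, ← map_add, key, map_smul, smul_apply,
      inner_smul_right, ← norm_apply_sq]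
    push_cast; ring
  have h2 : ‖D.apply f x‖ ^ 2 + ‖D.apply q x‖ ^ 2 = c ^ 2 * ‖D.apply h x‖ ^ 2 := by
    exact_mod_cast h1
  have h3 : ‖D.apply f x‖ ^ 2 ≤ (c * ‖D.apply h x‖) ^ 2 := by
    nlinarith [sq_nonneg ‖D.apply q x‖]
  exact abs_le_of_sq_le_sq' h3 (by positivity) |>.2

lemma norm_apply_le (D : LineCalculus H) (f : CB) (c : ℝ) (hc : 0 ≤ c)
    (hle : ∀ u, ‖f u‖ ≤ c) (x : H) : ‖D.apply f x‖ ≤ c * ‖x‖ := by
  have := apply_le D f 1 c hc (fun u => by simpa using hle u) x
  simpa using this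

lemma norm_apply_le' (D : LineCalculus H) (f : CB) (x : H) : ‖D.apply f x‖ ≤ ‖f‖ * ‖x‖ :=
  norm_apply_le D f ‖f‖ (norm_nonneg _) (fun u => f.norm_coe_le_norm u) x

/-- If compactly supported functions kill `x`, then `x = 0`. -/
lemma eq_zero_of_compact (D : LineCalculus H) (x : H)
    (h : ∀ f : CB, HasCompactSupport (f : ℝ → ℂ) → D.apply f x = 0) : x = 0 := by
  by_contra hx
  have hpos : 0 < ‖x‖ := norm_pos_iff.mpr hx
  obtain ⟨f, hf, hlt⟩ := D.window x ‖x‖ hpos
  rw [h f hf] at hlt
  simp at hlt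

lemma character_apply (t u : ℝ) : LineCalculus.character t u
    = Complex.exp (Complex.I * ((t * u : ℝ) : ℂ)) := rfl

lemma norm_character (t u : ℝ) : ‖LineCalculus.character t u‖ = 1 := by
  rw [character_apply, Complex.norm_exp]; simp

lemma character_add (s t : ℝ) : LineCalculus.character (s + t)
    = LineCalculus.character s * LineCalculus.character t := by
  ext u
  simp only [BoundedContinuousFunction.coe_mul, Pi.mul_apply, character_apply, ← Complex.exp_add]
  congr 1; push_cast; ring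

lemma character_zero : LineCalculus.character 0 = 1 := by
  ext u
  simp [character_apply]

lemma star_character (t : ℝ) : star (LineCalculus.character t) = LineCalculus.character (-t) := by
  ext u
  rw [BoundedContinuousFunction.star_apply, character_apply, character_apply, RCLike.star_def,
    ← Complex.exp_conj]
  congr 1
  simp

lemma wave_add (D : LineCalculus H) (s t : ℝ) : D.wave (s + t) = D.wave s * D.wave t := by
  simp [LineCalculus.wave, character_add]

lemma wave_zero (D : LineCalculus H) : D.wave 0 = 1 := by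
  simp [LineCalculus.wave, character_zero]

lemma star_wave (D : LineCalculus H) (t : ℝ) : star (D.wave t) = D.wave (-t) := by
  rw [LineCalculus.wave, LineCalculus.wave, ← map_star, star_character]

lemma wave_neg_mul (D : LineCalculus H) (t : ℝ) : D.wave (-t) * D.wave t = 1 := by
  rw [← wave_add, neg_add_cancel, wave_zero]

lemma wave_mul_neg (D : LineCalculus H) (t : ℝ) : D.wave t * D.wave (-t) = 1 := by
  rw [← wave_add, add_neg_cancel, wave_zero]

lemma wave_neg_apply (D : LineCalculus H) (t : ℝ) (x : H) : D.wave (-t) (D.wave t x) = x := by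
  rw [← mul_apply_eq_comp, wave_neg_mul]; rfl

lemma wave_apply_neg (D : LineCalculus H) (t : ℝ) (x : H) : D.wave t (D.wave (-t) x) = x := by
  rw [← mul_apply_eq_comp, wave_mul_neg]; rfl

lemma wave_add_apply (D : LineCalculus H) (s t : ℝ) (x : H) :
    D.wave (s + t) x = D.wave s (D.wave t x) := by
  rw [wave_add]; rfl

lemma inner_wave (D : LineCalculus H) (t : ℝ) (x y : H) :
    ⟪x, D.wave t y⟫_ℂ = ⟪D.wave (-t) x, y⟫_ℂ := by
  rw [LineCalculus.wave, apply_star_inner, star_character]; rfl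

lemma inner_wave_wave (D : LineCalculus H) (t : ℝ) (x y : H) :
    ⟪D.wave t x, D.wave t y⟫_ℂ = ⟪x, y⟫_ℂ := by
  rw [inner_wave, wave_neg_apply]

@[simp] lemma norm_wave (D : LineCalculus H) (t : ℝ) (x : H) : ‖D.wave t x‖ = ‖x‖ := by
  have h1 : ‖D.wave t x‖ ≤ ‖x‖ := by
    have := norm_apply_le D (LineCalculus.character t) 1 zero_le_one
      (fun u => (norm_character t u).le) x
    simpa [LineCalculus.wave] using this
  have h2 : ‖x‖ ≤ ‖D.wave t x‖ := by
    have := norm_apply_le D (LineCalculus.character (-t)) 1 zero_le_one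
      (fun u => (norm_character (-t) u).le) (D.wave t x)
    rw [one_mul] at this
    calc ‖x‖ = ‖D.wave (-t) (D.wave t x)‖ := by rw [wave_neg_apply]
      _ ≤ _ := this
  exact le_antisymm h1 h2

lemma norm_exp_sub_one_le (v : ℝ) : ‖Complex.exp (Complex.I * (v : ℂ)) - 1‖ ≤ |v| := by
  have := Real.norm_exp_I_mul_ofReal_sub_one_le (x := v)
  simpa using this

/-- Lipschitz estimate for characters. -/
lemma norm_character_sub (s t u : ℝ) :
    ‖LineCalculus.character s u - LineCalculus.character t u‖ ≤ |s - t| * |u| := by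
  have : LineCalculus.character s u - LineCalculus.character t u
      = LineCalculus.character t u * (Complex.exp (Complex.I * (((s - t) * u : ℝ) : ℂ)) - 1) := by
    rw [mul_sub, mul_one, character_apply, character_apply, ← Complex.exp_add]
    congr 2
    push_cast; ring
  rw [this, norm_mul, norm_character, one_mul, ← abs_mul]
  exact norm_exp_sub_one_le _

lemma exists_bound_support {f : ℝ → ℂ} (hf : HasCompactSupport f) :
    ∃ R : ℝ, 0 ≤ R ∧ ∀ u, f u ≠ 0 → |u| ≤ R := by
  obtain ⟨R, hR⟩ := hf.isCompact.isBounded.exists_norm_le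
  refine ⟨max R 0, le_max_right _ _, fun u hu => ?_⟩
  have := hR u (subset_tsupport _ hu)
  exact le_trans (by simpa using this) (le_max_left _ _)

/-- `t ↦ (character t) * f` is Lipschitz into `CB` for compactly supported `f`. -/
lemma norm_character_mul_sub (f : CB) (hf : HasCompactSupport (f : ℝ → ℂ)) :
    ∃ C : ℝ, 0 ≤ C ∧ ∀ s t : ℝ,
      ‖LineCalculus.character s * f - LineCalculus.character t * f‖ ≤ C * |s - t| := by
  obtain ⟨R, hR0, hR⟩ := exists_bound_support hf
  refine ⟨R * ‖f‖, by positivity, fun s t => ?_⟩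
  rw [BoundedContinuousFunction.norm_le (by positivity)]
  intro u
  rw [BoundedContinuousFunction.coe_sub, Pi.sub_apply, BoundedContinuousFunction.coe_mul,
    BoundedContinuousFunction.coe_mul, Pi.mul_apply, Pi.mul_apply, ← sub_mul, norm_mul]
  by_cases h0 : f u = 0
  · rw [h0, norm_zero, mul_zero]; positivity
  · have h1 := norm_character_sub s t u
    have h2 := hR u h0
    have h3 := f.norm_coe_le_norm u
    calc _ ≤ (|s - t| * |u|) * ‖f u‖ := by gcongr
      _ ≤ (|s - t| * R) * ‖f‖ := by gcongr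
      _ = R * ‖f‖ * |s - t| := by ring

lemma continuous_character_mul (f : CB) (hf : HasCompactSupport (f : ℝ → ℂ)) :
    Continuous (fun t : ℝ => LineCalculus.character t * f) := by
  obtain ⟨C, hC0, hC⟩ := norm_character_mul_sub f hf
  have : LipschitzWith (Real.toNNReal C) (fun t : ℝ => LineCalculus.character t * f) := by
    apply LipschitzWith.of_dist_le_mul
    intro s t
    rw [dist_eq_norm, Real.dist_eq, Real.coe_toNNReal _ hC0]
    exact hC s t
  exact this.continuous

/-- the functional calculus at a vector, as a continuous linear map on `CB`. -/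
noncomputable def applyCLM (D : LineCalculus H) (x : H) : CB →L[ℂ] H :=
  LinearMap.mkContinuous
    { toFun := fun f => D.apply f x
      map_add' := fun f g => by rw [map_add]; rfl
      map_smul' := fun c f => by rw [map_smul]; rfl } ‖x‖
    (fun f => by simpa [mul_comm] using norm_apply_le' D f x)

@[simp] lemma applyCLM_apply (D : LineCalculus H) (x : H) (f : CB) :
    applyCLM D x f = D.apply f x := rfl

/-- strong continuity of the wave group. -/
lemma continuous_wave (D : LineCalculus H) (x : H) : Continuous (fun t : ℝ => D.wave t x) := by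
  rw [Metric.continuous_iff]
  intro t ε hε
  obtain ⟨f, hf, hlt⟩ := D.window x (ε / 3) (by positivity)
  have hcont : Continuous (fun t : ℝ => D.wave t (D.apply f x)) := by
    have h1 : (fun t : ℝ => D.wave t (D.apply f x))
        = fun t => applyCLM D x (LineCalculus.character t * f) := by
      funext t
      rw [applyCLM_apply, map_mul]; rfl
    rw [h1]
    exact (applyCLM D x).continuous.comp (continuous_character_mul f hf)
  obtain ⟨δ, hδ, hd⟩ := Metric.continuous_iff.mp hcont t (ε / 3) (by positivity)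
  refine ⟨δ, hδ, fun s hs => ?_⟩
  have h2 := hd s hs
  rw [dist_eq_norm] at h2 ⊢
  have h3 : D.wave s x - D.wave t x = D.wave s (x - D.apply f x)
      + (D.wave s (D.apply f x) - D.wave t (D.apply f x)) + D.wave t (D.apply f x - x) := by
    simp only [map_sub]; abel
  rw [h3]
  calc _ ≤ ‖D.wave s (x - D.apply f x)‖ + ‖D.wave s (D.apply f x) - D.wave t (D.apply f x)‖
        + ‖D.wave t (D.apply f x - x)‖ := norm_add₃_le
    _ = ‖D.apply f x - x‖ + ‖D.wave s (D.apply f x) - D.wave t (D.apply f x)‖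
        + ‖D.apply f x - x‖ := by rw [norm_wave, norm_wave, norm_sub_rev]
    _ < ε / 3 + ε / 3 + ε / 3 := by gcongr
    _ = ε := by ring

/-- joint continuity: if `y` is continuous then `t ↦ wave t (y t)` is. -/
lemma continuous_wave_comp (D : LineCalculus H) {X : Type*} [TopologicalSpace X] (τ : X → ℝ)
    (y : X → H) (hτ : Continuous τ) (hy : Continuous y) :
    Continuous (fun p => D.wave (τ p) (y p)) := by
  rw [continuous_iff_continuousAt]
  intro p
  rw [ContinuousAt, Metric.tendsto_nhds]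
  intro ε hε
  have h1 : Tendsto (fun q => D.wave (τ q) (y p)) (𝓝 p) (𝓝 (D.wave (τ p) (y p))) :=
    (((continuous_wave D (y p)).comp hτ).tendsto p)
  have h2 := Metric.tendsto_nhds.mp h1 (ε / 2) (by positivity)
  have h3 := Metric.tendsto_nhds.mp (hy.tendsto p) (ε / 2) (by positivity)
  filter_upwards [h2, h3] with q hq2 hq3
  calc dist (D.wave (τ q) (y q)) (D.wave (τ p) (y p))
      ≤ dist (D.wave (τ q) (y q)) (D.wave (τ q) (y p)) + dist (D.wave (τ q) (y p)) (D.wave (τ p) (y p)) :=
        dist_triangle _ _ _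
    _ = dist (y q) (y p) + dist (D.wave (τ q) (y p)) (D.wave (τ p) (y p)) := by
        rw [dist_eq_norm, ← map_sub, norm_wave, ← dist_eq_norm]
    _ < ε / 2 + ε / 2 := by gcongr
    _ = ε := by ring

end Crest.Agent.S0112
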