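import Crest.Agent.S0112A

set_option autoImplicit false

namespace Crest.Agent.S0112

open Filter MeasureTheory Crest.OpAlg
open scoped Topology BoundedContinuousFunction InnerProductSpace

variable {H : Type*} [NormedAddCommGroup H] [InnerProductSpace ℂ H] [CompleteSpace H]

/-! ### conjugate-linear isometries -/

lemma inner_J_J (J : H ≃ₗᵢ⋆[ℂ] H) (x y : H) : ⟪J x, J y⟫_ℂ = ⟪y, x⟫_ℂ := by
  have hI : ∀ z : H, J (Complex.I • z) = -(Complex.I • J z) := by
    intro z
    rw [LinearIsometryEquiv.map_smulₛₗ]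
    simp
  rw [inner_eq_sum_norm_sq_div_four (J x) (J y), inner_eq_sum_norm_sq_div_four y x]
  have h1 : ‖J x + J y‖ = ‖y + x‖ := by rw [← map_add, J.norm_map, add_comm]
  have h2 : ‖J x - J y‖ = ‖y - x‖ := by rw [← map_sub, J.norm_map, norm_sub_rev]
  have h3 : ‖J x - Complex.I • J y‖ = ‖y - Complex.I • x‖ := by
    have : J x - Complex.I • J y = J (x + Complex.I • y) := by rw [map_add, hI]; abel
    rw [this, J.norm_map]
    have : x + Complex.I • y = Complex.I • (y - Complex.I • x) := by
      rw [smul_sub, smul_smul, Complex.I_mul_I]; simp [add_comm]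
    rw [this, norm_smul, Complex.norm_I, one_mul]
  have h4 : ‖J x + Complex.I • J y‖ = ‖y + Complex.I • x‖ := by
    have : J x + Complex.I • J y = J (x - Complex.I • y) := by rw [map_sub, hI]; abel
    rw [this, J.norm_map]
    have : x - Complex.I • y = (-Complex.I) • (y + Complex.I • x) := by
      rw [smul_add, smul_smul]; simp [add_comm, sub_eq_add_neg]
    rw [this, norm_smul, norm_neg, Complex.norm_I, one_mul]
  simp only [RCLike.I_to_complex] at *
  rw [h1, h2, h3, h4]

/-- multiply a compactly supported function by `exp (c u)`. -/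
noncomputable def mulExp (k : CB) (hk : HasCompactSupport (k : ℝ → ℂ)) (c : ℝ) : CB :=
  ofCompact (fun u => k u * ((Real.exp (c * u) : ℝ) : ℂ))
    (by have := k.continuous; fun_prop) hk.mul_right

@[simp] lemma mulExp_apply (k : CB) (hk : HasCompactSupport (k : ℝ → ℂ)) (c u : ℝ) :
    mulExp k hk c u = k u * ((Real.exp (c * u) : ℝ) : ℂ) := rfl

lemma mulExp_compact (k : CB) (hk : HasCompactSupport (k : ℝ → ℂ)) (c : ℝ) :
    HasCompactSupport (mulExp k hk c : ℝ → ℂ) := hk.mul_right

variable (S : ModularDatum H)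

lemma halfExp_mem (a : H →L[ℂ] H) (ha : a ∈ S.M) :
    S.D.HalfExp (a S.vac) (S.J (star a S.vac)) := by
  have h1 : ((a S.vac, star a S.vac) : H × H) ∈
      closure (Set.range fun a : S.M => ((a : H →L[ℂ] H) S.vac, star (a : H →L[ℂ] H) S.vac)) :=
    subset_closure ⟨⟨a, ha⟩, rfl⟩
  rw [S.tomita] at h1
  exact h1

lemma halfExp_vac : S.D.HalfExp S.vac (S.J S.vac) := by
  have := halfExp_mem S 1 (one_mem S.M)
  simpa using this

lemma closure_inner (p : H × H) (hp : S.D.HalfExp p.1 (S.J p.2)) :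
    ⟪p.2, S.vac⟫_ℂ = ⟪S.vac, p.1⟫_ℂ := by
  have h1 : p ∈ closure (Set.range fun a : S.M =>
      ((a : H →L[ℂ] H) S.vac, star (a : H →L[ℂ] H) S.vac)) := by
    rw [S.tomita]; exact hp
  have hclosed : IsClosed {p : H × H | ⟪p.2, S.vac⟫_ℂ = ⟪S.vac, p.1⟫_ℂ} := by
    apply isClosed_eq
    · fun_prop
    · fun_prop
  have hsub : (Set.range fun a : S.M =>
      ((a : H →L[ℂ] H) S.vac, star (a : H →L[ℂ] H) S.vac)) ⊆
      {p : H × H | ⟪p.2, S.vac⟫_ℂ = ⟪S.vac, p.1⟫_ℂ} := by
    rintro _ ⟨a, rfl⟩
    simp only [Set.mem_ofPred_eq]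
    rw [ContinuousLinearMap.star_eq_adjoint, ContinuousLinearMap.adjoint_inner_left]
  exact (closure_minimal hsub hclosed) h1

lemma vac_relation (k : CB) (hk : HasCompactSupport (k : ℝ → ℂ)) :
    S.D.apply (mulExp k hk 1) S.vac = S.D.apply k S.vac := by
  have step5 : ∀ (k : CB) (hk : HasCompactSupport (k : ℝ → ℂ)),
      S.D.apply (star (mulExp k hk (1 / 2))) (S.J S.vac) = S.D.apply (star k) S.vac := by
    intro k hk
    apply ext_inner_right ℂ
    intro z
    have hh : S.D.HalfExp (S.D.apply k z) (S.D.apply (mulExp k hk (1 / 2)) z) := by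
      intro f g hfg
      rw [← mul_apply_eq_comp, ← mul_apply_eq_comp, ← map_mul, ← map_mul]
      congr 2
      ext u
      simp only [BoundedContinuousFunction.coe_mul, Pi.mul_apply, mulExp_apply, hfg u]
      rw [one_div, inv_mul_eq_div]
      ring
    have h2 := closure_inner S (S.D.apply k z, S.J (S.D.apply (mulExp k hk (1 / 2)) z))
      (by simpa [S.J_J] using hh)
    simp only at h2
    have h3 : ⟪S.J (S.D.apply (mulExp k hk (1 / 2)) z), S.vac⟫_ℂ
        = ⟪S.J S.vac, S.D.apply (mulExp k hk (1 / 2)) z⟫_ℂ := by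
      conv_lhs => rw [← S.J_J S.vac]
      rw [inner_J_J]
    rw [h3] at h2
    rw [← apply_star_inner, ← apply_star_inner, h2]
  have hstar : ∀ (k : CB) (hk : HasCompactSupport (k : ℝ → ℂ)),
      S.D.apply (mulExp k hk (1 / 2)) (S.J S.vac) = S.D.apply k S.vac := by
    intro k hk
    have hk' : HasCompactSupport ((star k : CB) : ℝ → ℂ) := by
      have : ((star k : CB) : ℝ → ℂ) = (fun z : ℂ => star z) ∘ (k : ℝ → ℂ) := by
        funext u; simp
      rw [this]
      exact hk.comp_left (by simp)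
    have := step5 (star k) hk'
    have e1 : star (mulExp (star k) hk' (1 / 2)) = mulExp k hk (1 / 2) := by
      ext u
      simp only [BoundedContinuousFunction.star_apply, mulExp_apply, star_mul', star_star]
      congr 1
      rw [RCLike.star_def, Complex.conj_ofReal]
    rw [e1, star_star] at this
    exact this
  have h6 := halfExp_vac S (mulExp k hk (1 / 2)) (mulExp k hk 1) (by
    intro u
    simp only [mulExp_apply]
    rw [mul_assoc, ← Complex.ofReal_mul, ← Real.exp_add]
    congr 3; ring)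
  rw [← h6, hstar k hk]

lemma abs_le_exp_mul (R u : ℝ) (hu : |u| ≤ R) : |u| ≤ Real.exp R * |Real.exp u - 1| := by
  rcases le_total 0 u with h | h
  · have h1 : u ≤ Real.exp u - 1 := by linarith [Real.add_one_le_exp u]
    have h2 : 0 ≤ Real.exp u - 1 := by linarith
    rw [abs_of_nonneg h, abs_of_nonneg h2]
    have hR : 0 ≤ R := le_trans (abs_nonneg u) hu
    have h3 : 1 ≤ Real.exp R := Real.one_le_exp hR
    nlinarith
  · have h1 : -u ≤ Real.exp (-u) - 1 := by linarith [Real.add_one_le_exp (-u)]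
    have hu' : -u ≤ R := by rw [abs_of_nonpos h] at hu; exact hu
    have h2 : Real.exp u - 1 ≤ 0 := by
      have : Real.exp u ≤ 1 := Real.exp_le_one_iff.mpr h
      linarith
    rw [abs_of_nonpos h, abs_of_nonpos h2]
    have h3 : Real.exp (-u) ≤ Real.exp R := Real.exp_le_exp.mpr hu'
    have h4 : Real.exp (-u) * Real.exp u = 1 := by rw [← Real.exp_add]; simp
    have h5 : 0 < Real.exp u := Real.exp_pos u
    have h6 : Real.exp (-u) - 1 = Real.exp (-u) * (1 - Real.exp u) := by
      rw [mul_sub, h4]; ring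
    have h7 : 0 ≤ 1 - Real.exp u := by linarith
    calc -u ≤ Real.exp (-u) * (1 - Real.exp u) := by rw [← h6]; exact h1
      _ ≤ Real.exp R * (1 - Real.exp u) := by gcongr
      _ = _ := by ring

theorem wave_vac (t : ℝ) : S.D.wave t S.vac = S.vac := by
  rw [← sub_eq_zero]
  apply eq_zero_of_compact S.D
  intro f hf
  obtain ⟨R, hR0, hR⟩ := exists_bound_support hf
  have h1 : S.D.apply (mulExp f hf 1 - f) S.vac = 0 := by
    rw [map_sub, sub_apply, vac_relation, sub_self]
  have h2 : S.D.apply f (S.D.wave t S.vac - S.vac)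
      = S.D.apply (f * (LineCalculus.character t - 1)) S.vac := by
    have h2' : S.D.apply (f * (LineCalculus.character t - 1))
        = S.D.apply f * (S.D.wave t - 1) := by
      rw [map_mul, map_sub S.D.apply, map_one]; rfl
    rw [h2']; rfl
  rw [h2]
  have h3 := apply_le S.D (f * (LineCalculus.character t - 1)) (mulExp f hf 1 - f)
    (|t| * Real.exp R) (by positivity) (by
      intro u
      simp only [BoundedContinuousFunction.coe_mul, Pi.mul_apply, BoundedContinuousFunction.coe_sub,
        Pi.sub_apply, mulExp_apply, BoundedContinuousFunction.coe_one, Pi.one_apply]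
      by_cases h0 : f u = 0
      · simp [h0]
      · have e1 : f u * ((Real.exp (1 * u) : ℝ) : ℂ) - f u
            = f u * (((Real.exp u - 1 : ℝ)) : ℂ) := by push_cast; ring_nf
        rw [e1, norm_mul, norm_mul, Complex.norm_real, Real.norm_eq_abs]
        have e2 : ‖LineCalculus.character t u - 1‖ ≤ |t * u| := by
          rw [character_apply]; exact norm_exp_sub_one_le _
        have e3 := abs_le_exp_mul R u (hR u h0)
        rw [abs_mul] at e2
        calc ‖f u‖ * ‖LineCalculus.character t u - 1‖ ≤ ‖f u‖ * (|t| * |u|) := by gcongr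
          _ ≤ ‖f u‖ * (|t| * (Real.exp R * |Real.exp u - 1|)) := by gcongr
          _ = _ := by ring) S.vac
  rw [h1, norm_zero, mul_zero] at h3
  exact norm_le_zero_iff.mp h3

/-- Tomita relation for windowed elements -/
theorem J_star_vac (a : H →L[ℂ] H) (ha : a ∈ S.M) (κ : CB) (hκ : HasCompactSupport (κ : ℝ → ℂ))
    (z : H) (haz : a S.vac = S.D.apply κ z) :
    S.J (star a S.vac) = S.D.apply (mulExp κ hκ (1 / 2)) z := by
  rw [← sub_eq_zero]
  apply eq_zero_of_compact S.D
  intro f hf
  have h1 := halfExp_mem S a ha f (mulExp f hf (1 / 2)) (by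
    intro u
    simp only [mulExp_apply]
    rw [one_div, inv_mul_eq_div])
  rw [map_sub, h1, haz, sub_eq_zero, ← mul_apply_eq_comp, ← mul_apply_eq_comp, ← map_mul,
    ← map_mul]
  congr 2
  ext u
  simp only [BoundedContinuousFunction.coe_mul, Pi.mul_apply, mulExp_apply]
  ring

theorem norm_star_vac_le (a : H →L[ℂ] H) (ha : a ∈ S.M) (κ : CB)
    (hκ : HasCompactSupport (κ : ℝ → ℂ)) (hκ1 : ∀ u, ‖κ u‖ ≤ 1) (r : ℝ)
    (hr : ∀ u, κ u ≠ 0 → u ≤ r)
    (z : H) (haz : a S.vac = S.D.apply κ z) :
    ‖star a S.vac‖ ≤ Real.exp (r / 2) * ‖z‖ := by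
  rw [← S.J.norm_map, J_star_vac S a ha κ hκ z haz]
  apply norm_apply_le _ _ _ (Real.exp_pos _).le
  intro u
  rw [mulExp_apply]
  by_cases h0 : κ u = 0
  · rw [h0]; simp; positivity
  · rw [norm_mul, Complex.norm_real, Real.norm_of_nonneg (Real.exp_pos _).le]
    have h1 := hκ1 u
    have h2 : Real.exp (1 / 2 * u) ≤ Real.exp (r / 2) := by
      apply Real.exp_le_exp.mpr; have := hr u h0; linarith
    calc ‖κ u‖ * Real.exp (1 / 2 * u) ≤ 1 * Real.exp (r / 2) := by gcongr
      _ = _ := one_mul _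

end Crest.Agent.S0112
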