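import Crest.Agent.S0112B

set_option autoImplicit false

namespace Crest.Agent.S0112

open Filter MeasureTheory Crest.OpAlg
open scoped Topology BoundedContinuousFunction InnerProductSpace FourierTransform ContDiff

variable {H : Type*} [NormedAddCommGroup H] [InnerProductSpace ℂ H] [CompleteSpace H]

/-- A smoothing kernel: `κ u = ∫ k t * exp (i θ(t) u) dt`. -/
structure Kern where
  k : ℝ → ℂ
  θ : ℝ → ℝ
  hk : Integrable k
  hθ : Continuous θ
  κ : CB
  hκ : ∀ u, κ u = ∫ t, k t * LineCalculus.character (θ t) u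

namespace Kern

variable (K : Kern) (D : LineCalculus H)

/-- L1 norm of the kernel -/
noncomputable def mass : ℝ := ∫ t, ‖K.k t‖

lemma mass_nonneg : 0 ≤ K.mass := integral_nonneg (fun _ => norm_nonneg _)

lemma integrable_smul (y : ℝ → H) (hy : Continuous y) (C : ℝ) (hC : ∀ t, ‖y t‖ ≤ C) :
    Integrable (fun t => K.k t • y t) := by
  have hC0 : 0 ≤ C := le_trans (norm_nonneg _) (hC 0)
  refine Integrable.mono' (g := fun t => ‖K.k t‖ * C) (K.hk.norm.mul_const C)
    (K.hk.aestronglyMeasurable.smul hy.aestronglyMeasurable) ?_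
  filter_upwards with t
  rw [norm_smul]
  exact mul_le_mul_of_nonneg_left (hC t) (norm_nonneg _)

lemma norm_integral_smul_le (y : ℝ → H) (C : ℝ) (hC : ∀ t, ‖y t‖ ≤ C) :
    ‖∫ t, K.k t • y t‖ ≤ K.mass * C := by
  calc ‖∫ t, K.k t • y t‖ ≤ ∫ t, ‖K.k t‖ * C := by
        apply norm_integral_le_of_norm_le (K.hk.norm.mul_const C)
        filter_upwards with t
        rw [norm_smul]
        exact mul_le_mul_of_nonneg_left (hC t) (norm_nonneg _)
    _ = K.mass * C := by rw [integral_mul_const]; rfl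

lemma kappa_mul (f : CB) (hf : HasCompactSupport (f : ℝ → ℂ)) :
    Integrable (fun t => K.k t • (LineCalculus.character (K.θ t) * f)) ∧
    K.κ * f = ∫ t, K.k t • (LineCalculus.character (K.θ t) * f) := by
  have hcont : Continuous (fun t => LineCalculus.character (K.θ t) * f) :=
    (continuous_character_mul f hf).comp K.hθ
  have hint : Integrable (fun t => K.k t • (LineCalculus.character (K.θ t) * f)) := by
    refine Integrable.mono' (g := fun t => ‖K.k t‖ * ‖f‖) (K.hk.norm.mul_const _)
      (K.hk.aestronglyMeasurable.smul hcont.aestronglyMeasurable) ?_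
    filter_upwards with t
    rw [norm_smul]
    apply mul_le_mul_of_nonneg_left _ (norm_nonneg _)
    rw [BoundedContinuousFunction.norm_le (norm_nonneg _)]
    intro u
    rw [BoundedContinuousFunction.coe_mul, Pi.mul_apply, norm_mul, norm_character, one_mul]
    exact f.norm_coe_le_norm u
  refine ⟨hint, ?_⟩
  ext u
  have h1 := (BoundedContinuousFunction.evalCLM ℂ u : CB →L[ℂ] ℂ).integral_comp_comm hint
  have h2 : (BoundedContinuousFunction.evalCLM ℂ u : CB →L[ℂ] ℂ)
      (∫ t, K.k t • (LineCalculus.character (K.θ t) * f))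
      = (∫ t, K.k t • (LineCalculus.character (K.θ t) * f) : CB) u := rfl
  rw [← h2, ← h1, BoundedContinuousFunction.coe_mul, Pi.mul_apply, K.hκ u, ← integral_mul_const]
  apply integral_congr_ae
  filter_upwards with t
  simp [mul_assoc]

theorem apply_eq (x : H) : D.apply K.κ x = ∫ t, K.k t • D.wave (K.θ t) x := by
  have hpart : ∀ (f : CB), HasCompactSupport (f : ℝ → ℂ) →
      D.apply K.κ (D.apply f x) = ∫ t, K.k t • D.wave (K.θ t) (D.apply f x) := by
    intro f hf
    obtain ⟨hint, heq⟩ := K.kappa_mul f hf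
    have h1 := (applyCLM D x).integral_comp_comm hint
    rw [← heq] at h1
    have h2 : applyCLM D x (K.κ * f) = D.apply K.κ (D.apply f x) := by
      rw [applyCLM_apply, map_mul]; rfl
    rw [← h2, ← h1]
    apply integral_congr_ae
    filter_upwards with t
    rw [map_smul, applyCLM_apply, map_mul]; rfl
  rw [← sub_eq_zero, ← norm_le_zero_iff]
  apply le_of_forall_pos_le_add
  intro ε hε
  set C := ‖K.κ‖ + K.mass + 1 with hCdef
  have hCpos : 0 < C := by have := K.mass_nonneg; positivity
  obtain ⟨f, hf, hlt⟩ := D.window x (ε / C) (by positivity)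
  have hi1 : Integrable (fun t => K.k t • D.wave (K.θ t) x) :=
    K.integrable_smul _ ((continuous_wave D x).comp K.hθ) ‖x‖ (fun t => by simp)
  have hi2 : Integrable (fun t => K.k t • D.wave (K.θ t) (D.apply f x)) :=
    K.integrable_smul _ ((continuous_wave D _).comp K.hθ) ‖D.apply f x‖ (fun t => by simp)
  have e1 : D.apply K.κ x - ∫ t, K.k t • D.wave (K.θ t) x
      = -(D.apply K.κ (D.apply f x - x)) + ∫ t, K.k t • D.wave (K.θ t) (D.apply f x - x) := by
    have : ∫ t, K.k t • D.wave (K.θ t) (D.apply f x - x)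
        = (∫ t, K.k t • D.wave (K.θ t) (D.apply f x)) - ∫ t, K.k t • D.wave (K.θ t) x := by
      rw [← integral_sub hi2 hi1]
      congr 1; funext t; rw [map_sub, smul_sub]
    rw [this, map_sub, hpart f hf]
    abel
  rw [e1, zero_add]
  calc ‖-(D.apply K.κ (D.apply f x - x)) + ∫ t, K.k t • D.wave (K.θ t) (D.apply f x - x)‖
      ≤ ‖K.κ‖ * ‖D.apply f x - x‖ + K.mass * ‖D.apply f x - x‖ := by
        refine (norm_add_le _ _).trans (add_le_add ?_ ?_)
        · rw [norm_neg]; exact norm_apply_le' D _ _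
        · exact K.norm_integral_smul_le _ _ (fun t => by rw [norm_wave])
    _ = (‖K.κ‖ + K.mass) * ‖D.apply f x - x‖ := by ring
    _ ≤ C * (ε / C) := by gcongr; linarith
    _ = ε := by field_simp

lemma continuous_flow (v : H →L[ℂ] H) (y : H) :
    Continuous (fun t => D.wave (K.θ t) (v (D.wave (-(K.θ t)) y))) := by
  apply continuous_wave_comp D K.θ _ K.hθ
  exact v.continuous.comp (continuous_wave_comp D _ _ K.hθ.neg continuous_const)

lemma norm_flow_le (v : H →L[ℂ] H) (y : H) (t : ℝ) :
    ‖D.wave t (v (D.wave (-t) y))‖ ≤ ‖v‖ * ‖y‖ := by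
  rw [norm_wave]
  calc _ ≤ ‖v‖ * ‖D.wave (-t) y‖ := v.le_opNorm _
    _ = _ := by rw [norm_wave]

lemma integrable_flow (v : H →L[ℂ] H) (y : H) :
    Integrable (fun t => K.k t • D.wave (K.θ t) (v (D.wave (-(K.θ t)) y))) :=
  K.integrable_smul _ (K.continuous_flow D v y) (‖v‖ * ‖y‖) (fun t => norm_flow_le D v y _)

/-- smoothing of an operator -/
noncomputable def smoothOp (v : H →L[ℂ] H) : H →L[ℂ] H :=
  LinearMap.mkContinuous
    { toFun := fun y => ∫ t, K.k t • D.wave (K.θ t) (v (D.wave (-(K.θ t)) y))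
      map_add' := fun x y => by
        rw [← integral_add (K.integrable_flow D v x) (K.integrable_flow D v y)]
        congr 1; funext t; simp only [map_add, smul_add]
      map_smul' := fun c x => by
        rw [RingHom.id_apply, ← integral_smul]
        congr 1; funext t; simp only [map_smul]; rw [smul_comm] } (K.mass * ‖v‖)
    (fun y => by
      rw [mul_assoc]
      exact K.norm_integral_smul_le _ _ (fun _ => norm_flow_le D v y _))

lemma smoothOp_apply (v : H →L[ℂ] H) (y : H) :
    K.smoothOp D v y = ∫ t, K.k t • D.wave (K.θ t) (v (D.wave (-(K.θ t)) y)) := rfl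

lemma norm_smoothOp_le (v : H →L[ℂ] H) : ‖K.smoothOp D v‖ ≤ K.mass * ‖v‖ :=
  LinearMap.mkContinuous_norm_le _ (mul_nonneg K.mass_nonneg (norm_nonneg _)) _

lemma smoothOp_mem (S : ModularDatum H) (v : H →L[ℂ] H) (hv : v ∈ S.M) :
    K.smoothOp S.D v ∈ S.M := by
  rw [← VonNeumannAlgebra.commutant_commutant S.M, VonNeumannAlgebra.mem_commutant_iff]
  intro z hz
  rw [VonNeumannAlgebra.mem_commutant_iff] at hz
  ext y
  rw [mul_apply_eq_comp, mul_apply_eq_comp, smoothOp_apply, smoothOp_apply,
    ← z.integral_comp_comm (K.integrable_flow S.D v y)]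
  apply integral_congr_ae
  filter_upwards with t
  rw [map_smul]
  congr 1
  have h1 := hz _ (S.flow_mem (K.θ t) v hv)
  have h2 := congrArg (fun A : H →L[ℂ] H => A y) h1
  simp only [mul_apply_eq_comp] at h2
  exact h2.symm

lemma smoothOp_vac (S : ModularDatum H) (v : H →L[ℂ] H) :
    K.smoothOp S.D v S.vac = S.D.apply K.κ (v S.vac) := by
  rw [smoothOp_apply, apply_eq]
  simp only [wave_vac]

end Kern

/-- Existence of kernels adapted to a window. -/
theorem exists_kern : ∃ C : ℝ, 0 ≤ C ∧ ∀ (s δ : ℝ), 0 < δ → ∃ K : Kern, K.mass = C ∧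
    (∀ u, |u - s| ≤ δ → K.κ u = 1) ∧ (∀ u, K.κ u ≠ 0 → |u - s| ≤ 2 * δ) ∧
    (∀ u, ‖K.κ u‖ ≤ 1) := by
  let b : ContDiffBump (0 : ℝ) := ⟨1, 2, zero_lt_one, one_lt_two⟩
  let g : ℝ → ℂ := fun x => ((b x : ℝ) : ℂ)
  have hgs : HasCompactSupport g := b.hasCompactSupport.comp_left (g := fun x : ℝ => (x : ℂ)) (by simp)
  have hgc : ContDiff ℝ ∞ g := Complex.ofRealCLM.contDiff.comp b.contDiff
  let G : SchwartzMap ℝ ℂ := hgs.toSchwartzMap hgc
  let k₁ : SchwartzMap ℝ ℂ := 𝓕⁻ G
  have hk1 : ∀ v : ℝ, g v = ∫ t, Complex.exp (((-2 * Real.pi * t * v : ℝ) : ℂ) * Complex.I) * k₁ t := by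
    intro v
    have h1 : 𝓕 k₁ = G := FourierTransform.fourier_fourierInv_eq G
    have h2 : (𝓕 k₁ : SchwartzMap ℝ ℂ) v = G v := by rw [h1]
    rw [SchwartzMap.fourier_coe, Real.fourier_real_eq_integral_exp_smul] at h2
    simp only [smul_eq_mul] at h2
    rw [h2]; rfl
  refine ⟨∫ t, ‖k₁ t‖, integral_nonneg (fun _ => norm_nonneg _), ?_⟩
  intro s δ hδ
  have hcont : Continuous (fun u : ℝ => g ((u - s) / δ)) := by
    have := hgc.continuous
    fun_prop
  have hb1 : ∀ v : ℝ, ‖g v‖ ≤ 1 := by
    intro v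
    simp only [g]
    rw [Complex.norm_real, Real.norm_of_nonneg b.nonneg]
    exact b.le_one
  let κ : CB := BoundedContinuousFunction.ofNormedAddCommGroup (fun u : ℝ => g ((u - s) / δ)) hcont 1
    (fun u => hb1 _)
  have hκ : ∀ u, κ u = g ((u - s) / δ) := fun u => rfl
  let k : ℝ → ℂ := fun t => Complex.exp (((2 * Real.pi * t * s / δ : ℝ) : ℂ) * Complex.I) * k₁ t
  have hnorm : ∀ t, ‖k t‖ = ‖k₁ t‖ := by
    intro t
    simp only [k]
    rw [norm_mul, Complex.norm_exp_ofReal_mul_I, one_mul]
  have hkint : Integrable k := by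
    refine Integrable.mono' (g := fun t => ‖k₁ t‖) k₁.integrable.norm ?_ ?_
    · apply Continuous.aestronglyMeasurable
      have := k₁.continuous
      fun_prop
    · filter_upwards with t
      exact (hnorm t).le
  refine ⟨⟨k, fun t => -2 * Real.pi * t / δ, hkint, by fun_prop, κ, ?_⟩, ?_, ?_, ?_, ?_⟩
  · intro u
    rw [hκ, hk1]
    apply integral_congr_ae
    filter_upwards with t
    simp only [k]
    rw [character_apply]
    have e : ∀ A B w : ℂ, Complex.exp A * w * Complex.exp B = Complex.exp (A + B) * w := by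
      intro A B w; rw [Complex.exp_add]; ring
    rw [e]
    congr 2
    push_cast
    field_simp
    ring
  · simp only [Kern.mass]
    congr 1; funext t; exact hnorm t
  · intro u hu
    show g ((u - s) / δ) = 1
    simp only [g]
    rw [b.one_of_mem_closedBall]
    · simp
    · rw [mem_closedBall_zero_iff, Real.norm_eq_abs, abs_div, abs_of_pos hδ]
      show |u - s| / δ ≤ 1
      rw [div_le_one hδ]; exact hu
  · intro u hu
    by_contra hcon
    push Not at hcon
    apply hu
    show g ((u - s) / δ) = 0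
    simp only [g]
    rw [b.zero_of_le_dist]
    · simp
    · rw [dist_zero_right, Real.norm_eq_abs, abs_div, abs_of_pos hδ]
      show 2 ≤ |u - s| / δ
      rw [le_div_iff₀ hδ]; exact hcon.le
  · intro u; exact hb1 _

end Crest.Agent.S0112
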