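import Crest.Agent.S0112C

set_option autoImplicit false

namespace Crest.Agent.S0112

open Filter MeasureTheory Crest.OpAlg
open scoped Topology BoundedContinuousFunction InnerProductSpace

section means

variable {E : Type*} [NormedAddCommGroup E] [NormedSpace ℝ E]

/-- window averages -/
noncomputable def avg (f : ℝ → E) (k : ℕ) : E := (2 * (k : ℝ))⁻¹ • ∫ t in (-(k : ℝ))..(k : ℝ), f t

lemma windowMean_eq (f : ℝ → ℝ) : windowMean f = avg f := by
  funext k
  rw [windowMean, avg, setAverage_eq, intervalIntegral.integral_of_le (by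
    have : (0 : ℝ) ≤ k := Nat.cast_nonneg k
    linarith), integral_Icc_eq_integral_Ioc]
  congr 2
  rw [Measure.real, Real.volume_Icc, ENNReal.toReal_ofReal]
  · ring
  · have : (0 : ℝ) ≤ k := Nat.cast_nonneg k
    linarith

lemma avg_norm_le (f : ℝ → E) (C : ℝ) (hC : 0 ≤ C) (hf : ∀ t, ‖f t‖ ≤ C) (k : ℕ) :
    ‖avg f k‖ ≤ C := by
  rcases Nat.eq_zero_or_pos k with h | h
  · subst h; simp [avg, hC]
  · have hk : (0 : ℝ) < k := Nat.cast_pos.mpr h
    rw [avg, norm_smul]
    have h1 := intervalIntegral.norm_integral_le_of_norm_le_const (a := -(k : ℝ)) (b := (k : ℝ))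
      (f := f) (C := C) (fun t _ => hf t)
    have h2 : |(k : ℝ) - -(k : ℝ)| = 2 * k := by rw [abs_of_nonneg] <;> linarith
    rw [h2] at h1
    have h3 : ‖(2 * (k : ℝ))⁻¹‖ = (2 * (k : ℝ))⁻¹ := by
      rw [Real.norm_of_nonneg]; positivity
    rw [h3]
    calc (2 * (k : ℝ))⁻¹ * ‖∫ t in (-(k : ℝ))..(k : ℝ), f t‖ ≤ (2 * (k : ℝ))⁻¹ * (C * (2 * k)) := by
          gcongr
      _ = C := by field_simp

lemma avg_add (f g : ℝ → E) (hf : Continuous f) (hg : Continuous g) (k : ℕ) :
    avg (fun t => f t + g t) k = avg f k + avg g k := by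
  rw [avg, avg, avg, intervalIntegral.integral_add (hf.intervalIntegrable _ _)
    (hg.intervalIntegrable _ _), smul_add]

lemma avg_sub (f g : ℝ → E) (hf : Continuous f) (hg : Continuous g) (k : ℕ) :
    avg (fun t => f t - g t) k = avg f k - avg g k := by
  rw [avg, avg, avg, intervalIntegral.integral_sub (hf.intervalIntegrable _ _)
    (hg.intervalIntegrable _ _), smul_sub]

lemma avg_clm {F : Type*} [NormedAddCommGroup F] [NormedSpace ℝ F] [CompleteSpace E]
    [CompleteSpace F] (L : E →L[ℝ] F)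
    (f : ℝ → E) (hf : Continuous f) (k : ℕ) : avg (fun t => L (f t)) k = L (avg f k) := by
  rw [avg, avg, map_smul, L.intervalIntegral_comp_comm (hf.intervalIntegrable _ _)]

lemma avg_const (c : E) [CompleteSpace E] (k : ℕ) (hk : 0 < k) : avg (fun _ => c) k = c := by
  have hk' : (0 : ℝ) < k := Nat.cast_pos.mpr hk
  rw [avg, intervalIntegral.integral_const, smul_smul]
  have : (2 * (k : ℝ))⁻¹ * ((k : ℝ) - -(k : ℝ)) = 1 := by field_simp; ring
  rw [this, one_smul]

lemma avg_neg_arg (f : ℝ → E) (k : ℕ) : avg (fun t => f (-t)) k = avg f k := by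
  rw [avg, avg, intervalIntegral.integral_comp_neg, neg_neg]

lemma avg_shift (f : ℝ → E) (hf : Continuous f) (C : ℝ) (hC : 0 ≤ C) (hb : ∀ t, ‖f t‖ ≤ C) (s : ℝ) :
    Tendsto (fun k : ℕ => avg (fun t => f (t - s)) k - avg f k) atTop (𝓝 0) := by
  have key : ∀ k : ℕ, ‖avg (fun t => f (t - s)) k - avg f k‖ ≤ (2 * (k : ℝ))⁻¹ * (2 * (C * |s|)) := by
    intro k
    rw [avg, avg, ← smul_sub, norm_smul]
    have h3 : ‖(2 * (k : ℝ))⁻¹‖ = (2 * (k : ℝ))⁻¹ := by
      rw [Real.norm_of_nonneg]; positivity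
    rw [h3]
    gcongr
    rw [intervalIntegral.integral_comp_sub_right]
    have hi : ∀ a b, IntervalIntegrable f volume a b := fun a b => hf.intervalIntegrable a b
    have e1 : ((∫ x in (-(k : ℝ) - s)..((k : ℝ) - s), f x) - ∫ x in (-(k : ℝ))..(k : ℝ), f x)
        = (∫ x in (-(k : ℝ) - s)..(-(k : ℝ)), f x) - ∫ x in ((k : ℝ) - s)..(k : ℝ), f x := by
      rw [intervalIntegral.integral_interval_sub_interval_comm (hi _ _) (hi _ _) (hi _ _)]
    rw [e1]
    have h4 := intervalIntegral.norm_integral_le_of_norm_le_const (a := -(k : ℝ) - s)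
      (b := -(k : ℝ)) (f := f) (C := C) (fun t _ => hb t)
    have h5 := intervalIntegral.norm_integral_le_of_norm_le_const (a := (k : ℝ) - s)
      (b := (k : ℝ)) (f := f) (C := C) (fun t _ => hb t)
    have e2 : |-(k : ℝ) - (-(k : ℝ) - s)| = |s| := by congr 1; ring
    have e3 : |(k : ℝ) - ((k : ℝ) - s)| = |s| := by congr 1; ring
    rw [e2] at h4
    rw [e3] at h5
    calc _ ≤ _ := norm_sub_le _ _
      _ ≤ C * |s| + C * |s| := add_le_add h4 h5
      _ = _ := by ring
  rw [tendsto_zero_iff_norm_tendsto_zero]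
  refine squeeze_zero (fun _ => norm_nonneg _) key ?_
  have h6 : Tendsto (fun k : ℕ => (2 * (k : ℝ))⁻¹) atTop (𝓝 0) := by
    apply Tendsto.inv_tendsto_atTop
    exact Tendsto.const_mul_atTop (by norm_num) tendsto_natCast_atTop_atTop
  simpa using h6.mul_const (2 * (C * |s|))

lemma exists_lim [ProperSpace E] (ω : Ultrafilter ℕ) (a : ℕ → E) (C : ℝ) (ha : ∀ k, ‖a k‖ ≤ C) :
    ∃ L, Tendsto a (ω : Filter ℕ) (𝓝 L) := by
  have hc : IsCompact (Metric.closedBall (0 : E) C) := isCompact_closedBall _ _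
  have h1 : ((ω.map a : Ultrafilter E) : Filter E) ≤ 𝓟 (Metric.closedBall (0 : E) C) := by
    rw [Filter.le_principal_iff]
    rw [Ultrafilter.mem_coe, Ultrafilter.mem_map]
    have : a ⁻¹' Metric.closedBall (0 : E) C = Set.univ := by
      ext k; simp [ha k]
    rw [this]; exact Filter.univ_mem
  obtain ⟨L, -, hL⟩ := hc.ultrafilter_le_nhds _ h1
  exact ⟨L, hL⟩

end means

section selection

variable (ω : Ultrafilter ℕ) (hω : (ω : Filter ℕ) ≤ Filter.atTop)

/-- pair sums over a list -/
noncomputable def pairs (G : ℝ → ℝ) : List ℝ → ℝ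
  | [] => 0
  | t :: ts => pairs G ts + (ts.map (fun s => G (t - s))).sum

include hω

lemma avg_list_shift (G : ℝ → ℝ) (hG : Continuous G) (C : ℝ) (hC : 0 ≤ C) (hb : ∀ t, ‖G t‖ ≤ C)
    (B : ℝ) (hB : Tendsto (avg G) ω (𝓝 B)) (ts : List ℝ) :
    Continuous (fun t => (ts.map (fun s => G (t - s))).sum) ∧
    Tendsto (avg (fun t => (ts.map (fun s => G (t - s))).sum)) ω (𝓝 (ts.length * B)) := by
  induction ts with
  | nil =>
    simp only [List.map_nil, List.sum_nil, List.length_nil, Nat.cast_zero, zero_mul]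
    refine ⟨continuous_const, ?_⟩
    have : avg (fun _ : ℝ => (0 : ℝ)) = fun _ => 0 := by
      funext k; simp [avg]
    rw [this]; exact tendsto_const_nhds
  | cons s ts ih =>
    simp only [List.map_cons, List.sum_cons, List.length_cons, Nat.cast_add, Nat.cast_one]
    have hc1 : Continuous (fun t => G (t - s)) := hG.comp (continuous_id.sub continuous_const)
    refine ⟨hc1.add ih.1, ?_⟩
    have h1 : avg (fun t => G (t - s) + (ts.map (fun s => G (t - s))).sum)
        = fun k => (avg (fun t => G (t - s)) k - avg G k) + avg G k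
          + avg (fun t => (ts.map (fun s => G (t - s))).sum) k := by
      funext k
      rw [avg_add _ _ hc1 ih.1]; ring
    rw [h1]
    have h2 := ((((avg_shift G hG C hC hb s).mono_left hω).add hB).add ih.2)
    convert h2 using 2
    ring

lemma exists_time (g G : ℝ → ℝ) (hg : Continuous g) (hG : Continuous G)
    (C : ℝ) (hC : 0 ≤ C) (hb : ∀ t, ‖G t‖ ≤ C) (c B l η : ℝ) (hη : 0 < η)
    (hgc : Tendsto (avg g) ω (𝓝 c)) (hB : Tendsto (avg G) ω (𝓝 B)) (ts : List ℝ) :
    ∃ t, c - l * (ts.length * B) - η ≤ g t - l * (ts.map (fun s => G (t - s))).sum := by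
  by_contra hcon
  push Not at hcon
  obtain ⟨hc1, h1⟩ := avg_list_shift ω hω G hG C hC hb B hB ts
  have hlim : Tendsto (avg (fun t => g t - l * (ts.map (fun s => G (t - s))).sum)) ω
      (𝓝 (c - l * (ts.length * B))) := by
    have e : avg (fun t => g t - l * (ts.map (fun s => G (t - s))).sum)
        = fun k => avg g k - l * avg (fun t => (ts.map (fun s => G (t - s))).sum) k := by
      funext k
      rw [avg_sub g (fun t => l * (ts.map (fun s => G (t - s))).sum) hg
        (continuous_const.mul hc1)]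
      congr 1
      simp only [avg, smul_eq_mul]
      rw [intervalIntegral.integral_const_mul]
      ring
    rw [e]
    exact hgc.sub (h1.const_mul l)
  have hle : ∀ᶠ k in (ω : Filter ℕ),
      avg (fun t => g t - l * (ts.map (fun s => G (t - s))).sum) k
        ≤ c - l * (ts.length * B) - η := by
    filter_upwards [hω (eventually_ge_atTop 1)] with k hk
    have hk' : (0 : ℝ) < k := by exact_mod_cast hk
    rw [avg, smul_eq_mul]
    have hcc : Continuous (fun t => g t - l * (ts.map (fun s => G (t - s))).sum) :=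
      hg.sub (continuous_const.mul hc1)
    have h2 : ∫ t in (-(k : ℝ))..(k : ℝ), (g t - l * (ts.map (fun s => G (t - s))).sum)
        ≤ ∫ t in (-(k : ℝ))..(k : ℝ), (c - l * (ts.length * B) - η) := by
      apply intervalIntegral.integral_mono_on (by linarith) (hcc.intervalIntegrable _ _)
        (continuous_const.intervalIntegrable _ _)
      intro t _
      exact (hcon t).le
    rw [intervalIntegral.integral_const, smul_eq_mul] at h2
    calc _ ≤ (2 * (k : ℝ))⁻¹ * (((k : ℝ) - -(k : ℝ)) * (c - l * (ts.length * B) - η)) := by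
          gcongr
      _ = _ := by field_simp; ring
  have := le_of_tendsto hlim hle
  linarith

lemma exists_times (g G : ℝ → ℝ) (hg : Continuous g) (hG : Continuous G)
    (C : ℝ) (hC : 0 ≤ C) (hb : ∀ t, ‖G t‖ ≤ C) (c B l η : ℝ) (hl : 0 ≤ l) (hB0 : 0 ≤ B) (hη : 0 < η)
    (hgc : Tendsto (avg g) ω (𝓝 c)) (hB : Tendsto (avg G) ω (𝓝 B)) (N : ℕ) :
    ∀ n ≤ N, ∃ ts : List ℝ, ts.length = n ∧
      n * (c - l * (N * B) - η) ≤ (ts.map g).sum - l * pairs G ts := by
  intro n
  induction n with
  | zero => intro _; exact ⟨[], rfl, by simp [pairs]⟩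
  | succ n ih =>
    intro hn
    obtain ⟨ts, hlen, hts⟩ := ih (by omega)
    obtain ⟨t, ht⟩ := exists_time ω hω g G hg hG C hC hb c B l η hη hgc hB ts
    refine ⟨t :: ts, by simp [hlen], ?_⟩
    simp only [List.map_cons, List.sum_cons, pairs]
    rw [hlen] at ht
    have h1 : (n : ℝ) * B ≤ N * B := by
      have : (n : ℝ) ≤ N := by exact_mod_cast (by omega : n ≤ N)
      gcongr
    have h2 : l * (n * B) ≤ l * (N * B) := by gcongr
    push_cast
    linarith

end selection

end Crest.Agent.S0112
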