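import Crest.Agent.S0112D

set_option autoImplicit false

namespace Crest.Agent.S0112

open Filter MeasureTheory Crest.OpAlg
open scoped Topology BoundedContinuousFunction InnerProductSpace

variable {H : Type*} [NormedAddCommGroup H] [InnerProductSpace ℂ H] [CompleteSpace H]

section erg

variable (S : ModularDatum H) (ω : Ultrafilter ℕ) (hω : (ω : Filter ℕ) ≤ Filter.atTop)

/-- matrix coefficient of the flow -/
noncomputable def coef (b : H →L[ℂ] H) (y z : H) (t : ℝ) : ℂ :=
  ⟪y, S.D.wave t (b (S.D.wave (-t) z))⟫_ℂ

lemma continuous_coef (b : H →L[ℂ] H) (y z : H) : Continuous (coef S b y z) := by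
  have h1 : Continuous (fun t => S.D.wave t (b (S.D.wave (-t) z))) := by
    apply continuous_wave_comp S.D (fun t => t) _ continuous_id
    exact b.continuous.comp (continuous_wave_comp S.D _ _ continuous_neg continuous_const)
  exact continuous_const.inner h1

lemma norm_coef_le (b : H →L[ℂ] H) (y z : H) (t : ℝ) : ‖coef S b y z t‖ ≤ ‖b‖ * ‖y‖ * ‖z‖ := by
  calc ‖coef S b y z t‖ ≤ ‖y‖ * ‖S.D.wave t (b (S.D.wave (-t) z))‖ := norm_inner_le_norm _ _
    _ ≤ ‖y‖ * (‖b‖ * ‖z‖) := by gcongr; exact Kern.norm_flow_le S.D b z t
    _ = _ := by ring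

noncomputable def beta (b : H →L[ℂ] H) (y z : H) : ℂ :=
  limUnder (ω : Filter ℕ) (avg (coef S b y z))

lemma tendsto_beta (b : H →L[ℂ] H) (y z : H) :
    Tendsto (avg (coef S b y z)) ω (𝓝 (beta S ω b y z)) := by
  obtain ⟨L, hL⟩ := exists_lim ω (avg (coef S b y z)) (‖b‖ * ‖y‖ * ‖z‖) (fun k =>
    avg_norm_le _ _ (by positivity) (fun t => norm_coef_le S b y z t) k)
  exact tendsto_nhds_limUnder ⟨L, hL⟩

lemma beta_eq (b : H →L[ℂ] H) (y z : H) (L : ℂ)
    (h : Tendsto (avg (coef S b y z)) ω (𝓝 L)) : beta S ω b y z = L :=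
  tendsto_nhds_unique (tendsto_beta S ω b y z) h

lemma norm_beta_le (b : H →L[ℂ] H) (y z : H) : ‖beta S ω b y z‖ ≤ ‖b‖ * ‖y‖ * ‖z‖ := by
  apply le_of_tendsto (tendsto_beta S ω b y z).norm
  filter_upwards with k
  exact avg_norm_le _ _ (by positivity) (fun t => norm_coef_le S b y z t) k

lemma avg_const_mul (c : ℂ) (f : ℝ → ℂ) (k : ℕ) : avg (fun t => c * f t) k = c * avg f k := by
  simp only [avg, Complex.real_smul]
  rw [intervalIntegral.integral_const_mul]; ring

/-- the limiting sesquilinear form -/
noncomputable def betaForm (b : H →L[ℂ] H) : H →L⋆[ℂ] H →L[ℂ] ℂ :=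
  LinearMap.mkContinuous₂
    (LinearMap.mk₂'ₛₗ (starRingEnd ℂ) (RingHom.id ℂ) (fun y z => beta S ω b y z)
      (by
        intro y y' z
        apply beta_eq
        have e : coef S b (y + y') z = fun t => coef S b y z t + coef S b y' z t := by
          funext t; simp [coef, inner_add_left]
        have e2 : avg (coef S b (y + y') z) = fun k => avg (coef S b y z) k + avg (coef S b y' z) k := by
          funext k
          rw [e, avg_add _ _ (continuous_coef S b y z) (continuous_coef S b y' z)]
        rw [e2]
        exact (tendsto_beta S ω b y z).add (tendsto_beta S ω b y' z))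
      (by
        intro c y z
        apply beta_eq
        have e : coef S b (c • y) z = fun t => (starRingEnd ℂ c) * coef S b y z t := by
          funext t; simp [coef, mul_comm]
        have e2 : avg (coef S b (c • y) z) = fun k => (starRingEnd ℂ c) * avg (coef S b y z) k := by
          funext k
          rw [e, avg_const_mul]
        rw [e2]
        exact (tendsto_beta S ω b y z).const_mul _)
      (by
        intro y z z'
        apply beta_eq
        have e : coef S b y (z + z') = fun t => coef S b y z t + coef S b y z' t := by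
          funext t; simp [coef, inner_add_right]
        have e2 : avg (coef S b y (z + z')) = fun k => avg (coef S b y z) k + avg (coef S b y z') k := by
          funext k
          rw [e, avg_add _ _ (continuous_coef S b y z) (continuous_coef S b y z')]
        rw [e2]
        exact (tendsto_beta S ω b y z).add (tendsto_beta S ω b y z'))
      (by
        intro c y z
        apply beta_eq
        have e : coef S b y (c • z) = fun t => c * coef S b y z t := by
          funext t; simp [coef, inner_smul_right]
        have e2 : avg (coef S b y (c • z)) = fun k => c * avg (coef S b y z) k := by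
          funext k
          rw [e, avg_const_mul]
        rw [e2]
        exact (tendsto_beta S ω b y z).const_mul _)) ‖b‖
    (fun y z => norm_beta_le S ω b y z)

lemma betaForm_apply (b : H →L[ℂ] H) (y z : H) : betaForm S ω b y z = beta S ω b y z := rfl

/-- adjoint of the averaged operator -/
noncomputable def bOp (b : H →L[ℂ] H) : H →L[ℂ] H :=
  InnerProductSpace.continuousLinearMapOfBilin (betaForm S ω b)

lemma inner_bOp (b : H →L[ℂ] H) (y z : H) : ⟪bOp S ω b y, z⟫_ℂ = beta S ω b y z := by
  rw [bOp, InnerProductSpace.continuousLinearMapOfBilin_apply, betaForm_apply]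

lemma bOp_mem (b : H →L[ℂ] H) (hb : b ∈ S.M) : bOp S ω b ∈ S.M := by
  rw [← VonNeumannAlgebra.commutant_commutant S.M, VonNeumannAlgebra.mem_commutant_iff]
  intro x hx
  have hx' : star x ∈ S.M.commutant := star_mem hx
  rw [VonNeumannAlgebra.mem_commutant_iff] at hx'
  ext y
  apply ext_inner_right ℂ
  intro z
  rw [mul_apply_eq_comp, mul_apply_eq_comp, inner_bOp]
  have h1 : ⟪x (bOp S ω b y), z⟫_ℂ = beta S ω b y (star x z) := by
    rw [← inner_bOp, ContinuousLinearMap.star_eq_adjoint, ContinuousLinearMap.adjoint_inner_right]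
  rw [h1]
  unfold beta
  congr 2
  funext t
  unfold coef
  have h2 := hx' _ (S.flow_mem t b hb)
  have h3 := congrArg (fun A : H →L[ℂ] H => A z) h2
  simp only [mul_apply_eq_comp] at h3
  rw [h3, ContinuousLinearMap.star_eq_adjoint, ContinuousLinearMap.adjoint_inner_right]

include hω

lemma beta_invariant (b : H →L[ℂ] H) (y z : H) (s : ℝ) :
    beta S ω b (S.D.wave s y) (S.D.wave s z) = beta S ω b y z := by
  apply beta_eq
  have e : coef S b (S.D.wave s y) (S.D.wave s z) = fun t => coef S b y z (t - s) := by
    funext t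
    unfold coef
    rw [show (-(t - s)) = -t + s by ring, wave_add_apply, show t - s = -s + t by ring,
      wave_add_apply, inner_wave S.D (-s), neg_neg]
  rw [e]
  have h1 := (avg_shift (coef S b y z) (continuous_coef S b y z) (‖b‖ * ‖y‖ * ‖z‖)
    (by positivity) (fun t => norm_coef_le S b y z t) s).mono_left hω
  have h2 := h1.add (tendsto_beta S ω b y z)
  simpa using h2

/-- the ergodic averages converge weakly to the state. -/
theorem beta_ergodic (herg : S.Ergodic) (b : H →L[ℂ] H) (hb : b ∈ S.M) (y z : H) :
    beta S ω b y z = ⟪S.vac, b S.vac⟫_ℂ * ⟪y, z⟫_ℂ := by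
  have hmem : star (bOp S ω b) ∈ S.M := star_mem (bOp_mem S ω b hb)
  have hflow : ∀ t : ℝ, S.flow t (star (bOp S ω b)) = star (bOp S ω b) := by
    intro t
    ext x
    apply ext_inner_left ℂ
    intro y
    simp only [ModularDatum.flow, mul_apply_eq_comp]
    rw [inner_wave, ContinuousLinearMap.star_eq_adjoint, ContinuousLinearMap.adjoint_inner_right,
      ContinuousLinearMap.adjoint_inner_right, inner_bOp, inner_bOp, beta_invariant S ω hω]
  obtain ⟨c, hc⟩ := herg _ hmem hflow
  have h1 : ∀ y z : H, beta S ω b y z = c * ⟪y, z⟫_ℂ := by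
    intro y z
    rw [← inner_bOp, ← ContinuousLinearMap.adjoint_inner_right,
      ← ContinuousLinearMap.star_eq_adjoint, hc]
    simp [inner_smul_right]
  have h2 : beta S ω b S.vac S.vac = ⟪S.vac, b S.vac⟫_ℂ := by
    apply beta_eq
    have e : coef S b S.vac S.vac = fun _ => ⟪S.vac, b S.vac⟫_ℂ := by
      funext t
      unfold coef
      rw [wave_vac, inner_wave, wave_vac]
    rw [e]
    apply Tendsto.congr' _ tendsto_const_nhds
    filter_upwards [hω (eventually_ge_atTop 1)] with k hk
    rw [avg_const _ k hk]
  have h3 := h1 S.vac S.vac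
  rw [h2, inner_self_eq_norm_sq_to_K, S.norm_vac] at h3
  simp only [map_one, one_pow, mul_one] at h3
  rw [h1 y z, ← h3]

end erg

end Crest.Agent.S0112
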