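import Crest.Agent.S0112E

set_option autoImplicit false

namespace Crest.Agent.S0112

open Filter MeasureTheory Crest.OpAlg
open scoped Topology BoundedContinuousFunction InnerProductSpace

variable {H : Type*} [NormedAddCommGroup H] [InnerProductSpace ℂ H] [CompleteSpace H]

section signs

/-- average over all sign choices -/
noncomputable def sAvg {B : Type*} [AddCommGroup B] (Ψ : B → ℝ) : List B → B → ℝ
  | [], x => Ψ x
  | v :: l, x => (sAvg Ψ l (x + v) + sAvg Ψ l (x - v)) / 2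

lemma sAvg_exists {B : Type*} [AddCommGroup B] (Ψ : B → ℝ) (P : B → Prop)
    (hadd : ∀ x y, P x → P y → P (x + y)) (hsub : ∀ x y, P x → P y → P (x - y)) :
    ∀ (l : List B) (x : B), (∀ v ∈ l, P v) → P x → ∃ x', P x' ∧ sAvg Ψ l x ≤ Ψ x' := by
  intro l
  induction l with
  | nil => intro x _ hx; exact ⟨x, hx, le_refl _⟩
  | cons v l ih =>
    intro x hl hx
    have hv : P v := hl v (by simp)
    have hl' : ∀ w ∈ l, P w := fun w hw => hl w (by simp [hw])
    rcases le_total (sAvg Ψ l (x + v)) (sAvg Ψ l (x - v)) with h | h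
    · obtain ⟨x', hx', hle⟩ := ih (x - v) hl' (hsub _ _ hx hv)
      refine ⟨x', hx', ?_⟩
      simp only [sAvg]; linarith
    · obtain ⟨x', hx', hle⟩ := ih (x + v) hl' (hadd _ _ hx hv)
      refine ⟨x', hx', ?_⟩
      simp only [sAvg]; linarith

lemma sAvg_sub {B : Type*} [AddCommGroup B] (Ψ₁ Ψ₂ : B → ℝ) (c d : ℝ) :
    ∀ (l : List B) (x : B), sAvg (fun x => c * Ψ₁ x - d * Ψ₂ x) l x
      = c * sAvg Ψ₁ l x - d * sAvg Ψ₂ l x := by
  intro l
  induction l with
  | nil => intro x; rfl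
  | cons v l ih =>
    intro x
    simp only [sAvg, ih]; ring

lemma sAvg_norm (L : (H →L[ℂ] H) →ₗ[ℂ] H) :
    ∀ (l : List (H →L[ℂ] H)) (x : H →L[ℂ] H), sAvg (fun x => ‖L x‖ ^ 2) l x
      = ‖L x‖ ^ 2 + (l.map (fun v => ‖L v‖ ^ 2)).sum := by
  intro l
  induction l with
  | nil => intro x; simp [sAvg]
  | cons v l ih =>
    intro x
    simp only [sAvg, ih, List.map_cons, List.sum_cons, map_add, map_sub]
    have := parallelogram_law_with_norm ℂ (L x) (L v)
    nlinarith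

/-- pair sums for the quartic term -/
noncomputable def qpairs (ξ : H) : List (H →L[ℂ] H) → ℝ
  | [] => 0
  | v :: l => qpairs ξ l + (l.map (fun w => ‖(star v * w + star w * v) ξ‖ ^ 2)).sum

lemma sAvg_quart (ξ : H) :
    ∀ (l : List (H →L[ℂ] H)) (x p : H →L[ℂ] H), sAvg (fun x => ‖(star x * x + p) ξ‖ ^ 2) l x
      = ‖(star x * x + p + (l.map (fun v => star v * v)).sum) ξ‖ ^ 2
        + (l.map (fun v => ‖(star x * v + star v * x) ξ‖ ^ 2)).sum + qpairs ξ l := by
  intro l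
  induction l with
  | nil => intro x p; simp [sAvg, qpairs]
  | cons v l ih =>
    intro x p
    simp only [sAvg, ih, List.map_cons, List.sum_cons, qpairs]
    have h1 := parallelogram_law_with_norm ℂ
      ((star x * x + p + (star v * v + (l.map (fun v => star v * v)).sum)) ξ)
      ((star x * v + star v * x) ξ)
    have e1 : (star (x + v) * (x + v) + p + (l.map (fun v => star v * v)).sum) ξ
        = (star x * x + p + (star v * v + (l.map (fun v => star v * v)).sum)) ξ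
          + (star x * v + star v * x) ξ := by
      rw [← add_apply]; congr 1
      rw [star_add]; noncomm_ring
    have e2 : (star (x - v) * (x - v) + p + (l.map (fun v => star v * v)).sum) ξ
        = (star x * x + p + (star v * v + (l.map (fun v => star v * v)).sum)) ξ
          - (star x * v + star v * x) ξ := by
      rw [← sub_apply]; congr 1
      rw [star_sub]; noncomm_ring
    have h2 : (l.map (fun w => ‖(star (x + v) * w + star w * (x + v)) ξ‖ ^ 2)).sum
        + (l.map (fun w => ‖(star (x - v) * w + star w * (x - v)) ξ‖ ^ 2)).sum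
        = 2 * ((l.map (fun w => ‖(star x * w + star w * x) ξ‖ ^ 2)).sum
          + (l.map (fun w => ‖(star v * w + star w * v) ξ‖ ^ 2)).sum) := by
      rw [← List.sum_map_add, ← List.sum_map_add, ← List.sum_map_mul_left]
      congr 1
      apply List.map_congr_left
      intro w _
      have h3 := parallelogram_law_with_norm ℂ ((star x * w + star w * x) ξ)
        ((star v * w + star w * v) ξ)
      have e3 : (star (x + v) * w + star w * (x + v)) ξ
          = (star x * w + star w * x) ξ + (star v * w + star w * v) ξ := by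
        rw [← add_apply]; congr 1
        rw [star_add]; noncomm_ring
      have e4 : (star (x - v) * w + star w * (x - v)) ξ
          = (star x * w + star w * x) ξ - (star v * w + star w * v) ξ := by
        rw [← sub_apply]; congr 1
        rw [star_sub]; noncomm_ring
      rw [e3, e4]
      nlinarith
    rw [e1, e2]
    nlinarith

end signs

section resolvent

/-- key algebraic inequality -/
lemma resolvent_ineq (x : H →L[ℂ] H) (K : ℝ) (hK : 0 < K) (ζ : H) :
    4 / K * ‖x ζ‖ ^ 2 ≤ ‖ζ + ((K⁻¹ : ℝ) : ℂ) • (star x * x) ζ‖ ^ 2 := by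
  set p := (star x * x) ζ with hp
  have h1 : ⟪ζ, p⟫_ℂ = ((‖x ζ‖ ^ 2 : ℝ) : ℂ) := by
    rw [hp, mul_apply_eq_comp, ContinuousLinearMap.star_eq_adjoint,
      ContinuousLinearMap.adjoint_inner_right, inner_self_eq_norm_sq_to_K]
    norm_cast
  have h2 : ‖ζ + ((K⁻¹ : ℝ) : ℂ) • p‖ ^ 2
      = ‖ζ‖ ^ 2 + 2 * (K⁻¹ * ‖x ζ‖ ^ 2) + K⁻¹ ^ 2 * ‖p‖ ^ 2 := by
    rw [@norm_add_sq ℂ, inner_smul_right, h1, norm_smul]
    rw [Complex.norm_real, Real.norm_of_nonneg (inv_nonneg.mpr hK.le)]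
    have : RCLike.re (((K⁻¹ : ℝ) : ℂ) * ((‖x ζ‖ ^ 2 : ℝ) : ℂ)) = K⁻¹ * ‖x ζ‖ ^ 2 := by
      rw [← Complex.ofReal_mul]; exact Complex.ofReal_re _
    rw [this]; ring
  have h3 : 0 ≤ ‖ζ - ((K⁻¹ : ℝ) : ℂ) • p‖ ^ 2 := by positivity
  have h4 : ‖ζ - ((K⁻¹ : ℝ) : ℂ) • p‖ ^ 2
      = ‖ζ‖ ^ 2 - 2 * (K⁻¹ * ‖x ζ‖ ^ 2) + K⁻¹ ^ 2 * ‖p‖ ^ 2 := by
    rw [@norm_sub_sq ℂ, inner_smul_right, h1, norm_smul]
    rw [Complex.norm_real, Real.norm_of_nonneg (inv_nonneg.mpr hK.le)]
    have : RCLike.re (((K⁻¹ : ℝ) : ℂ) * ((‖x ζ‖ ^ 2 : ℝ) : ℂ)) = K⁻¹ * ‖x ζ‖ ^ 2 := by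
      rw [← Complex.ofReal_mul]; exact Complex.ofReal_re _
    rw [this]; ring
  rw [h2]
  rw [h4] at h3
  have : 4 / K * ‖x ζ‖ ^ 2 = 4 * (K⁻¹ * ‖x ζ‖ ^ 2) := by field_simp
  rw [this]
  linarith

/-- the operator `1 + x*x/K` is invertible. -/
lemma isUnit_one_add (x : H →L[ℂ] H) (K : ℝ) (hK : 0 < K) :
    IsUnit (1 + ((K⁻¹ : ℝ) : ℂ) • (star x * x)) := by
  have h1 : -K ∉ spectrum ℝ (star x * x) := by
    intro h
    have := spectrum_star_mul_self_nonneg (b := x) (-K) h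
    linarith
  rw [spectrum.notMem_iff] at h1
  have h2 : (1 : H →L[ℂ] H) + ((K⁻¹ : ℝ) : ℂ) • (star x * x)
      = (algebraMap ℝ (H →L[ℂ] H) (-K⁻¹)) * (algebraMap ℝ (H →L[ℂ] H) (-K) - star x * x) := by
    rw [mul_sub, ← map_mul, Algebra.algebraMap_eq_smul_one, Algebra.algebraMap_eq_smul_one]
    have e1 : -K⁻¹ * -K = 1 := by field_simp
    rw [e1, one_smul, smul_mul_assoc, one_mul, neg_smul, sub_neg_eq_add]
    rfl
  rw [h2]
  refine IsUnit.mul ?_ h1
  exact (IsUnit.mk0 _ (neg_ne_zero.mpr (inv_ne_zero hK.ne'))).map (algebraMap ℝ (H →L[ℂ] H))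

/-- truncation of an element of the algebra -/
theorem exists_trunc (M : VonNeumannAlgebra H) (x : H →L[ℂ] H) (hx : x ∈ M) (K : ℝ) (hK : 0 < K) :
    ∃ v ∈ M, ‖v‖ ≤ Real.sqrt (K / 4) ∧
      ∀ ξ : H, ‖x ξ - v ξ‖ ^ 2 ≤ 1 / (4 * K) * ‖(star x * x) ξ‖ ^ 2 := by
  obtain ⟨U, hU⟩ := isUnit_one_add x K hK
  set r : H →L[ℂ] H := ((U⁻¹ : (H →L[ℂ] H)ˣ) : H →L[ℂ] H) with hr
  have hUr : ∀ η : H, r η + ((K⁻¹ : ℝ) : ℂ) • (star x * x) (r η) = η := by
    intro η
    have : ((1 + ((K⁻¹ : ℝ) : ℂ) • (star x * x)) * r) η = η := by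
      rw [← hU, hr, Units.mul_inv]; rfl
    simpa using this
  have hrU : ∀ η : H, r (η + ((K⁻¹ : ℝ) : ℂ) • (star x * x) η) = η := by
    intro η
    have : (r * (1 + ((K⁻¹ : ℝ) : ℂ) • (star x * x))) η = η := by
      rw [← hU, hr, Units.inv_mul]; rfl
    simpa using this
  have hrM : r ∈ M := by
    rw [← VonNeumannAlgebra.commutant_commutant M, VonNeumannAlgebra.mem_commutant_iff]
    intro z hz
    rw [VonNeumannAlgebra.mem_commutant_iff] at hz
    have hzU : Commute z (U : H →L[ℂ] H) := by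
      rw [hU]
      have h1 : Commute z (star x * x) := (hz _ (mul_mem (star_mem hx) hx)).symm
      exact (Commute.one_right z).add_right (h1.smul_right _)
    exact (hzU.units_inv_right).eq
  refine ⟨x * r, mul_mem hx hrM, ?_, ?_⟩
  · apply ContinuousLinearMap.opNorm_le_bound _ (Real.sqrt_nonneg _)
    intro η
    have h1 := resolvent_ineq x K hK (r η)
    rw [hUr] at h1
    have h2 : ‖x (r η)‖ ^ 2 ≤ (Real.sqrt (K / 4) * ‖η‖) ^ 2 := by
      rw [mul_pow, Real.sq_sqrt (by positivity)]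
      have : ‖x (r η)‖ ^ 2 = K / 4 * (4 / K * ‖x (r η)‖ ^ 2) := by field_simp
      rw [this]
      gcongr
    exact abs_le_of_sq_le_sq' h2 (by positivity) |>.2
  · intro ξ
    have e1 : x ξ - (x * r) ξ = ((K⁻¹ : ℝ) : ℂ) • x ((star x * x) (r ξ)) := by
      have h : x ξ = x (r ξ + ((K⁻¹ : ℝ) : ℂ) • (star x * x) (r ξ)) := by rw [hUr]
      have h' : (x * r) ξ = x (r ξ) := rfl
      rw [h, h', map_add, map_smul, add_sub_cancel_left]
    have h1 := resolvent_ineq x K hK ((star x * x) (r ξ))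
    have e2 : (star x * x) (r ξ) + ((K⁻¹ : ℝ) : ℂ) • (star x * x) ((star x * x) (r ξ))
        = (star x * x) ξ := by
      conv_rhs => rw [← hUr ξ]
      simp only [map_add, map_smul]
    rw [e2] at h1
    rw [e1, norm_smul, Complex.norm_real, Real.norm_of_nonneg (inv_nonneg.mpr hK.le), mul_pow]
    calc K⁻¹ ^ 2 * ‖x ((star x * x) (r ξ))‖ ^ 2
        = 1 / (4 * K) * (4 / K * ‖x ((star x * x) (r ξ))‖ ^ 2) := by field_simp
      _ ≤ _ := by gcongr

end resolvent

end Crest.Agent.S0112
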