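import Crest.Agent.S0112F

set_option autoImplicit false

namespace Crest.Agent.S0112

open Filter MeasureTheory Crest.OpAlg
open scoped Topology BoundedContinuousFunction InnerProductSpace

variable {H : Type*} [NormedAddCommGroup H] [InnerProductSpace ℂ H] [CompleteSpace H]

variable (S : ModularDatum H) (ω : Ultrafilter ℕ) (hω : (ω : Filter ℕ) ≤ Filter.atTop)

noncomputable def F1 (a : H →L[ℂ] H) (t : ℝ) : ℝ := ‖star a (S.D.wave (-t) (a S.vac))‖ ^ 2

noncomputable def F2 (a : H →L[ℂ] H) (t : ℝ) : ℝ :=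
  RCLike.re ⟪star a (a S.vac), S.D.wave t (star a (a S.vac))⟫_ℂ

noncomputable def GG (a : H →L[ℂ] H) (t : ℝ) : ℝ :=
  2 * F2 S a t + (2 * F1 S a t + 2 * F1 S a (-t))

lemma F1_eq (a : H →L[ℂ] H) (t : ℝ) :
    F1 S a t = RCLike.re (coef S (a * star a) (a S.vac) (a S.vac) t) := by
  unfold F1 coef
  rw [inner_wave, mul_apply_eq_comp]
  have : ⟪S.D.wave (-t) (a S.vac), a (star a (S.D.wave (-t) (a S.vac)))⟫_ℂ
      = ((‖star a (S.D.wave (-t) (a S.vac))‖ ^ 2 : ℝ) : ℂ) := by
    rw [← ContinuousLinearMap.adjoint_inner_left, ← ContinuousLinearMap.star_eq_adjoint,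
      inner_self_eq_norm_sq_to_K]
    norm_cast
  rw [this]; rfl

lemma F2_eq (a : H →L[ℂ] H) (t : ℝ) :
    F2 S a t = RCLike.re (coef S (star a * a) (star a (a S.vac)) S.vac t) := by
  unfold F2 coef
  rw [wave_vac, mul_apply_eq_comp]

lemma continuous_re_coef (b : H →L[ℂ] H) (y z : H) :
    Continuous (fun t => RCLike.re (coef S b y z t)) :=
  RCLike.continuous_re.comp (continuous_coef S b y z)

lemma tendsto_re (b : H →L[ℂ] H) (y z : H) :
    Tendsto (avg (fun t => RCLike.re (coef S b y z t))) ω (𝓝 (RCLike.re (beta S ω b y z))) := by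
  have h1 : avg (fun t => RCLike.re (coef S b y z t)) = fun k => RCLike.re (avg (coef S b y z) k) := by
    funext k
    exact avg_clm Complex.reCLM (coef S b y z) (continuous_coef S b y z) k
  rw [h1]
  exact ((RCLike.continuous_re.tendsto _).comp (tendsto_beta S ω b y z))

lemma continuous_F1 (a : H →L[ℂ] H) : Continuous (F1 S a) := by
  have : F1 S a = fun t => RCLike.re (coef S (a * star a) (a S.vac) (a S.vac) t) := by
    funext t; exact F1_eq S a t
  rw [this]; exact continuous_re_coef S _ _ _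

lemma continuous_F2 (a : H →L[ℂ] H) : Continuous (F2 S a) := by
  have : F2 S a = fun t => RCLike.re (coef S (star a * a) (star a (a S.vac)) S.vac t) := by
    funext t; exact F2_eq S a t
  rw [this]; exact continuous_re_coef S _ _ _

lemma continuous_GG (a : H →L[ℂ] H) : Continuous (GG S a) := by
  have h1 := continuous_F1 S a
  have h2 := continuous_F2 S a
  unfold GG
  fun_prop

lemma GG_bound (a : H →L[ℂ] H) : ∃ C : ℝ, 0 ≤ C ∧ ∀ t, ‖GG S a t‖ ≤ C := by
  refine ⟨2 * ‖star a (a S.vac)‖ ^ 2 + (2 * (‖star a‖ * ‖a S.vac‖) ^ 2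
    + 2 * (‖star a‖ * ‖a S.vac‖) ^ 2), by positivity, fun t => ?_⟩
  have h1 : ∀ t, ‖F1 S a t‖ ≤ (‖star a‖ * ‖a S.vac‖) ^ 2 := by
    intro t
    unfold F1
    rw [Real.norm_of_nonneg (by positivity)]
    gcongr
    calc _ ≤ ‖star a‖ * ‖S.D.wave (-t) (a S.vac)‖ := (star a).le_opNorm _
      _ = _ := by rw [norm_wave]
  have h2 : ‖F2 S a t‖ ≤ ‖star a (a S.vac)‖ ^ 2 := by
    unfold F2
    calc _ ≤ ‖⟪star a (a S.vac), S.D.wave t (star a (a S.vac))⟫_ℂ‖ := RCLike.norm_re_le_norm _
      _ ≤ ‖star a (a S.vac)‖ * ‖S.D.wave t (star a (a S.vac))‖ := norm_inner_le_norm _ _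
      _ = _ := by rw [norm_wave]; ring
  unfold GG
  calc _ ≤ ‖2 * F2 S a t‖ + ‖2 * F1 S a t + 2 * F1 S a (-t)‖ := norm_add_le _ _
    _ ≤ ‖2 * F2 S a t‖ + (‖2 * F1 S a t‖ + ‖2 * F1 S a (-t)‖) := by
        gcongr; exact norm_add_le _ _
    _ = 2 * ‖F2 S a t‖ + (2 * ‖F1 S a t‖ + 2 * ‖F1 S a (-t)‖) := by
        simp only [norm_mul, Real.norm_ofNat]
    _ ≤ _ := by gcongr; exacts [h1 t, h1 (-t)]

include hω

lemma tendsto_GG (herg : S.Ergodic) (a : H →L[ℂ] H) (ha : a ∈ S.M) :
    Tendsto (avg (GG S a)) ω (𝓝 (2 * ‖a S.vac‖ ^ 4 + 4 * (‖star a S.vac‖ ^ 2 * ‖a S.vac‖ ^ 2))) := by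
  have hsa : star a ∈ S.M := star_mem ha
  have hF1 : Tendsto (avg (F1 S a)) ω (𝓝 (‖star a S.vac‖ ^ 2 * ‖a S.vac‖ ^ 2)) := by
    have h := tendsto_re S ω (a * star a) (a S.vac) (a S.vac)
    rw [beta_ergodic S ω hω herg _ (mul_mem ha hsa)] at h
    have e1 : ⟪S.vac, (a * star a) S.vac⟫_ℂ = ((‖star a S.vac‖ ^ 2 : ℝ) : ℂ) := by
      rw [mul_apply_eq_comp, ← ContinuousLinearMap.adjoint_inner_left,
        ← ContinuousLinearMap.star_eq_adjoint, inner_self_eq_norm_sq_to_K]
      norm_cast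
    have e2 : ⟪a S.vac, a S.vac⟫_ℂ = ((‖a S.vac‖ ^ 2 : ℝ) : ℂ) := by
      rw [inner_self_eq_norm_sq_to_K]; norm_cast
    rw [e1, e2, ← Complex.ofReal_mul] at h
    have e3 : avg (F1 S a) = avg (fun t => RCLike.re (coef S (a * star a) (a S.vac) (a S.vac) t)) := by
      congr 1; funext t; exact F1_eq S a t
    rw [e3]
    exact h
  have hF2 : Tendsto (avg (F2 S a)) ω (𝓝 (‖a S.vac‖ ^ 4)) := by
    have h := tendsto_re S ω (star a * a) (star a (a S.vac)) S.vac
    rw [beta_ergodic S ω hω herg _ (mul_mem hsa ha)] at h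
    have e1 : ⟪S.vac, (star a * a) S.vac⟫_ℂ = ((‖a S.vac‖ ^ 2 : ℝ) : ℂ) := by
      rw [mul_apply_eq_comp, ContinuousLinearMap.star_eq_adjoint,
        ContinuousLinearMap.adjoint_inner_right, inner_self_eq_norm_sq_to_K]
      norm_cast
    have e2 : ⟪star a (a S.vac), S.vac⟫_ℂ = ((‖a S.vac‖ ^ 2 : ℝ) : ℂ) := by
      rw [ContinuousLinearMap.star_eq_adjoint, ContinuousLinearMap.adjoint_inner_left,
        inner_self_eq_norm_sq_to_K]
      norm_cast
    rw [e1, e2, ← Complex.ofReal_mul] at h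
    have e3 : avg (F2 S a)
        = avg (fun t => RCLike.re (coef S (star a * a) (star a (a S.vac)) S.vac t)) := by
      congr 1; funext t; exact F2_eq S a t
    rw [e3]
    have e4 : ‖a S.vac‖ ^ 4 = ‖a S.vac‖ ^ 2 * ‖a S.vac‖ ^ 2 := by ring
    rw [e4]
    exact h
  have hc1 := continuous_F1 S a
  have hc2 := continuous_F2 S a
  have hmul : ∀ (f : ℝ → ℝ) (k : ℕ), avg (fun t => 2 * f t) k = 2 * avg f k := by
    intro f k
    simp only [avg, smul_eq_mul]
    rw [intervalIntegral.integral_const_mul]; ring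
  have e : avg (GG S a) = fun k => 2 * avg (F2 S a) k + (2 * avg (F1 S a) k + 2 * avg (F1 S a) k) := by
    funext k
    have : GG S a = fun t => 2 * F2 S a t + (2 * F1 S a t + 2 * F1 S a (-t)) := rfl
    rw [this, avg_add (fun t => 2 * F2 S a t) (fun t => 2 * F1 S a t + 2 * F1 S a (-t))
      (by fun_prop) (by fun_prop), avg_add (fun t => 2 * F1 S a t) (fun t => 2 * F1 S a (-t))
      (by fun_prop) (by fun_prop), hmul, hmul, hmul (fun t => F1 S a (-t)), avg_neg_arg]
  rw [e]
  have h := (hF2.const_mul 2).add ((hF1.const_mul 2).add (hF1.const_mul 2))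
  convert h using 2
  ring

omit hω

lemma pairs_add (G₁ G₂ : ℝ → ℝ) (ts : List ℝ) :
    pairs (fun t => G₁ t + G₂ t) ts = pairs G₁ ts + pairs G₂ ts := by
  induction ts with
  | nil => simp [pairs]
  | cons t ts ih =>
    simp only [pairs, ih, List.sum_map_add]; ring

lemma norm_sum_wave (w : H) (ts : List ℝ) :
    ‖(ts.map (fun t => S.D.wave t w)).sum‖ ^ 2
      = ts.length * ‖w‖ ^ 2 + pairs (fun t => 2 * RCLike.re ⟪w, S.D.wave t w⟫_ℂ) ts := by
  induction ts with
  | nil => simp [pairs]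
  | cons t ts ih =>
    simp only [List.map_cons, List.sum_cons, pairs, List.length_cons, Nat.cast_add, Nat.cast_one]
    rw [@norm_add_sq ℂ, ih, norm_wave]
    have h1 : RCLike.re ⟪S.D.wave t w, (ts.map (fun t => S.D.wave t w)).sum⟫_ℂ
        = (ts.map (fun s => RCLike.re ⟪w, S.D.wave (t - s) w⟫_ℂ)).sum := by
      clear ih
      induction ts with
      | nil => simp
      | cons s ts ih2 =>
        simp only [List.map_cons, List.sum_cons, inner_add_right, map_add, ih2]
        congr 1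
        rw [inner_wave S.D s, ← wave_add_apply, ← inner_conj_symm, RCLike.conj_re]
        congr 3; ring
    rw [h1, List.sum_map_mul_left]
    ring

/-- the flow of `a`. -/
noncomputable def sig (a : H →L[ℂ] H) (r : ℝ) (t : ℝ) : H →L[ℂ] H :=
  (r : ℂ) • (S.D.wave t * a * S.D.wave (-t))

lemma sig_mem (a : H →L[ℂ] H) (ha : a ∈ S.M) (r t : ℝ) : sig S a r t ∈ S.M := by
  unfold sig
  have h := S.flow_mem t a ha
  exact S.M.toStarSubalgebra.smul_mem h (r : ℂ)

lemma star_sig (a : H →L[ℂ] H) (r t : ℝ) :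
    star (sig S a r t) = (r : ℂ) • (S.D.wave t * star a * S.D.wave (-t)) := by
  unfold sig
  rw [star_smul, star_mul, star_mul, star_wave, star_wave, neg_neg, RCLike.star_def,
    Complex.conj_ofReal, mul_assoc]

lemma sig_vac (a : H →L[ℂ] H) (r t : ℝ) : sig S a r t S.vac = (r : ℂ) • S.D.wave t (a S.vac) := by
  unfold sig
  rw [smul_apply, mul_apply_eq_comp, mul_apply_eq_comp, wave_vac]

lemma star_sig_mul_sig_vac (a : H →L[ℂ] H) (r t s : ℝ) :
    (star (sig S a r t) * sig S a r s) S.vac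
      = ((r : ℂ) * (r : ℂ)) • S.D.wave t (star a (S.D.wave (-(t - s)) (a S.vac))) := by
  rw [mul_apply_eq_comp, sig_vac, star_sig, map_smul, smul_apply, smul_smul, mul_apply_eq_comp,
    mul_apply_eq_comp, ← wave_add_apply]
  congr 5; ring

lemma quart_bound (a : H →L[ℂ] H) (r : ℝ) (ts : List ℝ) :
    ‖((ts.map (sig S a r)).map (fun v => star v * v)).sum S.vac‖ ^ 2
      + qpairs S.vac (ts.map (sig S a r))
      ≤ r ^ 4 * (ts.length * ‖star a (a S.vac)‖ ^ 2 + pairs (GG S a) ts) := by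
  have h1 : ((ts.map (sig S a r)).map (fun v => star v * v)).sum S.vac
      = ((r : ℂ) * (r : ℂ)) • (ts.map (fun t => S.D.wave t (star a (a S.vac)))).sum := by
    induction ts with
    | nil => simp
    | cons t ts ih =>
      simp only [List.map_cons, List.sum_cons, smul_add, add_apply, ih]
      congr 1
      rw [star_sig_mul_sig_vac, sub_self, neg_zero, wave_zero]; rfl
  have h2 : qpairs S.vac (ts.map (sig S a r))
      ≤ r ^ 4 * pairs (fun t => 2 * F1 S a t + 2 * F1 S a (-t)) ts := by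
    clear h1
    induction ts with
    | nil => simp [qpairs, pairs]
    | cons t ts ih =>
      simp only [List.map_cons, qpairs, pairs, mul_add]
      apply add_le_add ih
      clear ih
      induction ts with
      | nil => simp
      | cons s ts ih2 =>
        simp only [List.map_cons, List.sum_cons, mul_add] at ih2 ⊢
        apply add_le_add _ ih2
        have e1 : ‖(star (sig S a r t) * sig S a r s) S.vac‖ ^ 2 = r ^ 4 * F1 S a (t - s) := by
          rw [star_sig_mul_sig_vac, norm_smul, norm_wave, F1, mul_pow]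
          congr 1
          rw [← Complex.ofReal_mul, Complex.norm_real, Real.norm_eq_abs, sq_abs]; ring
        have e2 : ‖(star (sig S a r s) * sig S a r t) S.vac‖ ^ 2 = r ^ 4 * F1 S a (-(t - s)) := by
          rw [star_sig_mul_sig_vac, norm_smul, norm_wave, F1, mul_pow]
          congr 1
          · rw [← Complex.ofReal_mul, Complex.norm_real, Real.norm_eq_abs, sq_abs]; ring
          · rw [show -(t - s) = s - t by ring]
        have e3 : (star (sig S a r t) * sig S a r s + star (sig S a r s) * sig S a r t) S.vac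
            = (star (sig S a r t) * sig S a r s) S.vac + (star (sig S a r s) * sig S a r t) S.vac := rfl
        rw [e3]
        have e4 := parallelogram_law_with_norm ℂ ((star (sig S a r t) * sig S a r s) S.vac)
          ((star (sig S a r s) * sig S a r t) S.vac)
        have e5 : 0 ≤ ‖(star (sig S a r t) * sig S a r s) S.vac
          - (star (sig S a r s) * sig S a r t) S.vac‖ ^ 2 := by positivity
        nlinarith
  have h3 : ‖((ts.map (sig S a r)).map (fun v => star v * v)).sum S.vac‖ ^ 2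
      = r ^ 4 * (ts.length * ‖star a (a S.vac)‖ ^ 2 + pairs (fun t => 2 * F2 S a t) ts) := by
    rw [h1, norm_smul, mul_pow, norm_sum_wave]
    congr 1
    rw [← Complex.ofReal_mul, Complex.norm_real, Real.norm_eq_abs, sq_abs]; ring
  have h4 : pairs (GG S a) ts = pairs (fun t => 2 * F2 S a t) ts
      + pairs (fun t => 2 * F1 S a t + 2 * F1 S a (-t)) ts := by
    rw [← pairs_add]; rfl
  rw [h3, h4]
  nlinarith

end Crest.Agent.S0112
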