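import Mathlib
import Crest.Prelude.Def_BernoulliConv

set_option autoImplicit false

namespace Crest.Agent.S0137

open Polynomial Crest.AnalysisR

/-- small linear independence statement for a number with minimal polynomial of degree four -/
lemma lin_indep {β : ℝ} (hdeg : (minpoly ℚ β).natDegree = 4) (c0 c1 c2 c3 : ℤ)
    (h : (c3 : ℝ) * β ^ 3 + c2 * β ^ 2 + c1 * β + c0 = 0) :
    c0 = 0 ∧ c1 = 0 ∧ c2 = 0 ∧ c3 = 0 := by
  set q : ℚ[X] := C (c3 : ℚ) * X ^ 3 + C (c2 : ℚ) * X ^ 2 + C (c1 : ℚ) * X + C (c0 : ℚ) with hq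
  have hroot : aeval β q = 0 := by
    simp only [hq, map_add, map_mul, aeval_C, map_pow, aeval_X]
    simpa using h
  have hq0 : q = 0 := by
    by_contra hne
    have h1 : (minpoly ℚ β).degree ≤ q.degree := minpoly.degree_le_of_ne_zero ℚ β hne hroot
    have h2 : (minpoly ℚ β).natDegree ≤ q.natDegree := natDegree_le_natDegree h1
    have h3 : q.natDegree ≤ 3 := by
      rw [hq]; compute_degree
    omega
  have e0 : q.coeff 0 = c0 := by
    simp only [hq, coeff_add, coeff_C_mul, coeff_X_pow, coeff_X, coeff_C]; norm_num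
  have e1 : q.coeff 1 = c1 := by
    simp only [hq, coeff_add, coeff_C_mul, coeff_X_pow, coeff_X, coeff_C]; norm_num
  have e2 : q.coeff 2 = c2 := by
    simp only [hq, coeff_add, coeff_C_mul, coeff_X_pow, coeff_X, coeff_C]; norm_num
  have e3 : q.coeff 3 = c3 := by
    simp only [hq, coeff_add, coeff_C_mul, coeff_X_pow, coeff_X, coeff_C]; norm_num
  rw [hq0] at e0 e1 e2 e3
  simp only [coeff_zero] at e0 e1 e2 e3
  refine ⟨?_, ?_, ?_, ?_⟩ <;> [exact_mod_cast e0.symm; exact_mod_cast e1.symm; exact_mod_cast e2.symm; exact_mod_cast e3.symm]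

theorem exists_conj {β : ℝ} (hβ : IsQuarticSalem β) :
    ∃ z : ℂ, ‖z‖ = 1 ∧ (∀ n : ℕ, ∃ m : ℤ, β ^ n + (β⁻¹) ^ n + 2 * (z ^ n).re = m) ∧
      (∀ P : ℤ[X], aeval β P = 0 → aeval z P = 0) := by
  obtain ⟨h1, hint, hdeg, hinv, hroots⟩ := hβ
  have hβ0 : β ≠ 0 := by positivity
  set P : ℤ[X] := minpoly ℤ β with hP
  have hmap : minpoly ℚ β = P.map (algebraMap ℤ ℚ) :=
    minpoly.isIntegrallyClosed_eq_field_fractions' ℚ hint
  have hPmonic : P.Monic := minpoly.monic hint
  have hPdeg : P.natDegree = 4 := by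
    rw [hmap, hPmonic.natDegree_map] at hdeg
    exact hdeg
  have hPsum : P = C (P.coeff 0) + C (P.coeff 1) * X + C (P.coeff 2) * X ^ 2
      + C (P.coeff 3) * X ^ 3 + X ^ 4 := by
    conv_lhs => rw [P.as_sum_range_C_mul_X_pow, hPdeg]
    have : P.coeff 4 = 1 := by
      have := hPmonic.coeff_natDegree
      rwa [hPdeg] at this
    simp [Finset.sum_range_succ, this]
  set p0 := P.coeff 0
  set p1 := P.coeff 1
  set p2 := P.coeff 2
  set p3 := P.coeff 3
  have hev : aeval β P = 0 := minpoly.aeval ℤ β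
  have e1 : (β : ℝ) ^ 4 + p3 * β ^ 3 + p2 * β ^ 2 + p1 * β + p0 = 0 := by
    rw [hPsum] at hev
    simp only [map_add, map_mul, aeval_C, map_pow, aeval_X, algebraMap_int_eq, Int.coe_castRingHom] at hev
    linarith
  have hev' : aeval β⁻¹ P = 0 := by
    rw [hmap, aeval_map_algebraMap] at hinv
    exact hinv
  have e2' : (β⁻¹ : ℝ) ^ 4 + p3 * β⁻¹ ^ 3 + p2 * β⁻¹ ^ 2 + p1 * β⁻¹ + p0 = 0 := by
    rw [hPsum] at hev'
    simp only [map_add, map_mul, aeval_C, map_pow, aeval_X, algebraMap_int_eq, Int.coe_castRingHom] at hev'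
    linarith
  have e2 : (1 : ℝ) + p3 * β + p2 * β ^ 2 + p1 * β ^ 3 + p0 * β ^ 4 = 0 := by
    have := congrArg (fun x => β ^ 4 * x) e2'
    simp only [mul_zero] at this
    field_simp at this
    linarith
  have hlin := lin_indep hdeg (1 - p0 * p0) (p3 - p0 * p1) (p2 - p0 * p2) (p1 - p0 * p3) (by
    push_cast
    linear_combination e2 - (p0 : ℝ) * e1)
  obtain ⟨l0, l1, l2, l3⟩ := hlin
  have hp0 : p0 = 1 := by
    have : p0 * p0 = 1 := by linarith
    rcases mul_self_eq_one_iff.mp this with h | h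
    · exact h
    · exfalso
      rw [h] at l1 l2 l3
      have hp2 : p2 = 0 := by linarith
      have hp1 : p1 = -p3 := by linarith
      have e3 : (β ^ 2 - 1) * (β ^ 2 + p3 * β + 1) = 0 := by
        rw [h, hp2, hp1] at e1
        push_cast at e1
        linear_combination e1
      have hne : (β ^ 2 - 1) ≠ 0 := by nlinarith
      have e4 : β ^ 2 + p3 * β + 1 = 0 := by
        rcases mul_eq_zero.mp e3 with h' | h'
        · exact absurd h' hne
        · exact h'
      have := lin_indep hdeg 1 p3 1 0 (by push_cast; linarith)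
      omega
  have hp1 : p1 = p3 := by rw [hp0] at l3; linarith
  -- now set up u, v
  set u : ℝ := β + β⁻¹ with hu
  set v : ℝ := -(p3 : ℝ) - u with hv
  have huv : u + v = ((-p3 : ℤ) : ℝ) := by rw [hv]; push_cast; ring
  have huv2 : u * v = ((p2 - 2 : ℤ) : ℝ) := by
    have e5 : β ^ 2 + β⁻¹ ^ 2 + p3 * (β + β⁻¹) + p2 = 0 := by
      have : (β ^ 4 + p3 * β ^ 3 + p2 * β ^ 2 + p3 * β + 1) * (β⁻¹) ^ 2 = 0 := by
        rw [hp1, hp0] at e1
        push_cast at e1
        rw [e1]; ring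
      rw [← this]
      field_simp
      ring
    have hb : β * β⁻¹ = 1 := mul_inv_cancel₀ hβ0
    have : u * u = β ^ 2 + β⁻¹ ^ 2 + 2 := by
      rw [hu]; linear_combination 2 * hb
    push_cast
    rw [hv, mul_sub, this]
    linear_combination -e5
  -- existence of z
  obtain ⟨z, hz⟩ : ∃ z : ℂ, z ^ 2 - v * z + 1 = 0 := by
    obtain ⟨s, hs⟩ := IsAlgClosed.exists_pow_nat_eq ((v : ℂ) ^ 2 - 4) (n := 2) (by norm_num)
    refine ⟨(v + s) / 2, ?_⟩
    linear_combination (1 / 4 : ℂ) * hs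
  have hz0 : z ≠ 0 := by
    rintro rfl
    simp at hz
  have huvC : (u : ℂ) + v = (-p3 : ℤ) := by exact_mod_cast congrArg (fun x : ℝ => (x : ℂ)) huv
  have huv2C : (u : ℂ) * v = (p2 - 2 : ℤ) := by exact_mod_cast congrArg (fun x : ℝ => (x : ℂ)) huv2
  have hzP : aeval z P = 0 := by
    rw [hPsum]
    simp only [map_add, map_mul, aeval_C, map_pow, aeval_X, algebraMap_int_eq, Int.coe_castRingHom]
    rw [hp1, hp0]
    push_cast at huvC huv2C ⊢
    have h3 : (p3 : ℂ) = -(u + v) := by linear_combination huvC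
    have h2 : (p2 : ℂ) = u * v + 2 := by linear_combination -huv2C
    rw [h3, h2]
    linear_combination (z ^ 2 - u * z + 1) * hz
  have hzQ : aeval z (minpoly ℚ β) = 0 := by
    rw [hmap, aeval_map_algebraMap]
    exact hzP
  have hvu : v ≠ u := by
    intro h
    have h2 : 2 * u = -(p3 : ℝ) := by rw [h] at huv; push_cast at huv; linarith
    have h3 : 2 * β ^ 2 + p3 * β + 2 = 0 := by
      rw [hu] at h2
      have hb : β * β⁻¹ = 1 := mul_inv_cancel₀ hβ0
      linear_combination β * h2 - 2 * hb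
    have := lin_indep hdeg 2 p3 2 0 (by push_cast; linarith)
    omega
  have hz1 : ‖z‖ = 1 := by
    rcases hroots z hzQ with h | h | h
    · exfalso
      apply hvu
      rw [h] at hz
      have hz' : β ^ 2 - v * β + 1 = 0 := by exact_mod_cast hz
      rw [hu]
      field_simp
      linarith
    · exfalso
      apply hvu
      rw [h] at hz
      have hz' : β⁻¹ ^ 2 - v * β⁻¹ + 1 = 0 := by exact_mod_cast hz
      rw [hu]
      have hb : β * β⁻¹ = 1 := mul_inv_cancel₀ hβ0
      have : β * (β⁻¹ ^ 2 - v * β⁻¹ + 1) = 0 := by rw [hz']; ring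
      have h5 : β * β⁻¹ * β⁻¹ - v * (β * β⁻¹) + β = 0 := by linarith
      rw [hb] at h5
      linarith
    · exact h
  have hconj : z * (starRingEnd ℂ) z = 1 := by
    rw [Complex.mul_conj, Complex.normSq_eq_norm_sq, hz1]; norm_num
  have hre : 2 * z.re = v := by
    have h2 : z + (starRingEnd ℂ) z = v := by
      have : z * (z + (starRingEnd ℂ) z) = z * v := by
        linear_combination hconj + hz
      exact mul_left_cancel₀ hz0 this
    rw [Complex.add_conj] at h2
    exact_mod_cast h2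
  refine ⟨z, hz1, ?_, ?_⟩
  · -- integrality
    have hU : ∀ n, β ^ (n + 2) + β⁻¹ ^ (n + 2) = u * (β ^ (n + 1) + β⁻¹ ^ (n + 1)) - (β ^ n + β⁻¹ ^ n) := by
      intro n
      have hb : β * β⁻¹ = 1 := mul_inv_cancel₀ hβ0
      rw [hu, pow_succ, pow_succ, pow_succ, pow_succ]
      linear_combination (-(β ^ n) - (β⁻¹ ^ n)) * hb
    have hV : ∀ n, 2 * (z ^ (n + 2)).re = v * (2 * (z ^ (n + 1)).re) - 2 * (z ^ n).re := by
      intro n
      have : z ^ (n + 2) = v * z ^ (n + 1) - z ^ n := by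
        rw [pow_succ, pow_succ]
        linear_combination (z ^ n) * hz
      rw [this, Complex.sub_re, Complex.re_ofReal_mul]
      ring
    have key : ∀ n : ℕ, (∃ m : ℤ, β ^ n + (β⁻¹) ^ n + 2 * (z ^ n).re = m) ∧
        (∃ m : ℤ, v * (β ^ n + (β⁻¹) ^ n) + u * (2 * (z ^ n).re) = m) ∧
        (∃ m : ℤ, β ^ (n + 1) + (β⁻¹) ^ (n + 1) + 2 * (z ^ (n + 1)).re = m) ∧
        (∃ m : ℤ, v * (β ^ (n + 1) + (β⁻¹) ^ (n + 1)) + u * (2 * (z ^ (n + 1)).re) = m) := by
      intro n
      induction n with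
      | zero =>
        refine ⟨⟨4, by simp; norm_num⟩, ⟨2 * (-p3), ?_⟩, ⟨-p3, ?_⟩, ⟨2 * (p2 - 2), ?_⟩⟩
        · push_cast at huv ⊢
          simp only [pow_zero, Complex.one_re]
          linear_combination 2 * huv
        · simp only [zero_add, pow_one]
          rw [hre, ← huv]
        · simp only [zero_add, pow_one]
          rw [hre, ← hu]
          push_cast at huv2 ⊢
          linear_combination 2 * huv2
      | succ n ih =>
        obtain ⟨⟨t0, ht0⟩, ⟨w0, hw0⟩, ⟨t1, ht1⟩, ⟨w1, hw1⟩⟩ := ih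
        refine ⟨⟨t1, ht1⟩, ⟨w1, hw1⟩, ⟨(-p3) * t1 - w1 - t0, ?_⟩, ⟨(p2 - 2) * t1 - w0, ?_⟩⟩
        · rw [hU, hV]
          push_cast at huv ⊢
          rw [← ht0, ← ht1, ← hw1, ← huv]
          ring
        · rw [hU, hV]
          push_cast at huv2 ⊢
          rw [← ht1, ← hw0, ← huv2]
          ring
    exact fun n => (key n).1
  · intro R hR
    have hdvd : P ∣ R := (minpoly.isIntegrallyClosed_dvd_iff hint R).mp hR
    obtain ⟨S, hS⟩ := hdvd
    rw [hS, map_mul, hzP, zero_mul]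

end Crest.Agent.S0137
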