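import Mathlib
import Crest.Prelude.Def_BernoulliConv

set_option autoImplicit false

namespace Crest.Agent.S0137

open MeasureTheory ProbabilityTheory Crest.AnalysisR Filter Topology

instance instProbFairCoin : IsProbabilityMeasure fairCoin :=
  ⟨by simp [fairCoin, ENNReal.inv_two_add_inv_two]⟩

lemma charFun_coin (a t : ℝ) :
    charFun (fairCoin.map (fun b : Bool => if b then a else -a)) t = (Real.cos (a * t) : ℂ) := by
  rw [charFun_apply_real, integral_map (by fun_prop) (by fun_prop)]
  have hint : ∀ μ : Measure Bool, IsFiniteMeasure μ → Integrable (fun b : Bool => Complex.exp (t * ((if b then a else -a : ℝ) : ℂ) * Complex.I)) μ := by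
    intro μ _
    exact Integrable.of_finite
  have hf1 : IsFiniteMeasure ((2⁻¹ : ENNReal) • Measure.dirac true : Measure Bool) :=
    Measure.smul_finite _ (by simp)
  have hf2 : IsFiniteMeasure ((2⁻¹ : ENNReal) • Measure.dirac false : Measure Bool) :=
    Measure.smul_finite _ (by simp)
  rw [fairCoin, integral_add_measure (hint _ hf1) (hint _ hf2),
    integral_smul_measure, integral_smul_measure, integral_dirac, integral_dirac]
  simp only [if_true, Bool.false_eq_true, if_false]
  rw [Complex.ofReal_cos, Complex.cos]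
  simp only [ENNReal.toReal_inv, ENNReal.toReal_ofNat, Complex.real_smul, Complex.ofReal_neg, Complex.ofReal_mul]
  push_cast
  rw [show (t : ℂ) * a * Complex.I = (a * t) * Complex.I by ring,
    show (t : ℂ) * -a * Complex.I = -(a * t) * Complex.I by ring]
  ring

/-- partial sums -/
noncomputable def partS (c : ℝ) (n : ℕ) (ε : ℕ → Bool) : ℝ :=
  ∑ k ∈ Finset.range n, (if ε k then c ^ k else -(c ^ k))

lemma measurable_partS (c : ℝ) (n : ℕ) : Measurable (partS c n) := by
  unfold partS
  refine Finset.measurable_sum _ (fun k _ => ?_)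
  exact (measurable_of_countable (fun b : Bool => if b then c ^ k else -(c ^ k))).comp (measurable_pi_apply k)

lemma tendsto_partS {c : ℝ} (hc0 : 0 ≤ c) (hc1 : c < 1) (ε : ℕ → Bool) :
    Tendsto (fun n => partS c n ε) atTop (𝓝 (signedPowerSum c ε)) := by
  have hs : Summable (fun k => (if ε k then c ^ k else -(c ^ k))) := by
    refine Summable.of_norm_bounded (summable_geometric_of_lt_one hc0 hc1) (fun k => ?_)
    split_ifs <;> simp [abs_of_nonneg hc0]
  exact hs.hasSum.tendsto_sum_nat

lemma measurable_signed {c : ℝ} (hc0 : 0 ≤ c) (hc1 : c < 1) : Measurable (signedPowerSum c) :=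
  measurable_of_tendsto_metrizable (measurable_partS c)
    (tendsto_pi_nhds.mpr (fun ε => tendsto_partS hc0 hc1 ε))

lemma isProb_bc {c : ℝ} (hc0 : 0 ≤ c) (hc1 : c < 1) :
    IsProbabilityMeasure (bernoulliConvolution c) :=
  Measure.isProbabilityMeasure_map (measurable_signed hc0 hc1).aemeasurable

lemma charFun_partS (c : ℝ) (n : ℕ) (t : ℝ) :
    charFun ((Measure.infinitePi (fun _ : ℕ => fairCoin)).map (partS c n)) t
      = ((∏ k ∈ Finset.range n, Real.cos (c ^ k * t) : ℝ) : ℂ) := by
  set X : ℕ → (ℕ → Bool) → ℝ := fun k ε => (if ε k then c ^ k else -(c ^ k)) with hX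
  have hm : ∀ k, Measurable (fun b : Bool => if b then c ^ k else -(c ^ k)) :=
    fun k => measurable_of_countable _
  have hind : iIndepFun X (Measure.infinitePi (fun _ : ℕ => fairCoin)) :=
    iIndepFun_infinitePi (X := fun k (b : Bool) => if b then c ^ k else -(c ^ k)) hm
  have h1 : (Measure.infinitePi (fun _ : ℕ => fairCoin)).map (partS c n)
      = (Measure.infinitePi (fun _ : ℕ => fairCoin)).map (fun ω => ∑ i ∈ Finset.range n, X i ω) := rfl
  have hmX : ∀ i, AEMeasurable (X i) (Measure.infinitePi (fun _ : ℕ => fairCoin)) :=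
    fun i => ((hm i).comp (measurable_pi_apply i)).aemeasurable
  rw [h1, iIndepFun.charFun_map_fun_finsetSum_eq_prod
    (X := X) (fun i _ => hmX i) (hind.restrict _)]
  rw [Finset.prod_apply]
  push_cast
  refine Finset.prod_congr rfl (fun k _ => ?_)
  have h2 : (Measure.infinitePi (fun _ : ℕ => fairCoin)).map (X k)
      = fairCoin.map (fun b : Bool => if b then c ^ k else -(c ^ k)) := by
    have : X k = (fun b : Bool => if b then c ^ k else -(c ^ k)) ∘ (fun ε : ℕ → Bool => ε k) := rfl
    rw [this, ← Measure.map_map (hm k) (measurable_pi_apply k), Measure.infinitePi_map_eval]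
  rw [h2, charFun_coin]
  push_cast
  rfl

lemma tendsto_charFun {c : ℝ} (hc0 : 0 ≤ c) (hc1 : c < 1) (t : ℝ) :
    Tendsto (fun n => ((∏ k ∈ Finset.range n, Real.cos (c ^ k * t) : ℝ) : ℂ)) atTop
      (𝓝 (charFun (bernoulliConvolution c) t)) := by
  have h1 : (fun n => ((∏ k ∈ Finset.range n, Real.cos (c ^ k * t) : ℝ) : ℂ))
      = fun n => ∫ ε, Complex.exp (t * (partS c n ε : ℂ) * Complex.I) ∂(Measure.infinitePi (fun _ : ℕ => fairCoin)) := by
    funext n
    rw [← charFun_partS, charFun_apply_real,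
      integral_map (measurable_partS c n).aemeasurable (by fun_prop)]
  have h2 : charFun (bernoulliConvolution c) t
      = ∫ ε, Complex.exp (t * (signedPowerSum c ε : ℂ) * Complex.I) ∂(Measure.infinitePi (fun _ : ℕ => fairCoin)) := by
    rw [bernoulliConvolution, charFun_apply_real,
      integral_map (measurable_signed hc0 hc1).aemeasurable (by fun_prop)]
  rw [h1, h2]
  refine tendsto_integral_of_dominated_convergence (fun _ => (1 : ℝ)) ?_ (integrable_const _) ?_ ?_
  · intro n
    have := measurable_partS c n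
    exact (by fun_prop : Measurable _).aestronglyMeasurable
  · intro n
    refine Eventually.of_forall (fun ε => ?_)
    rw [← Complex.ofReal_mul, Complex.norm_exp_ofReal_mul_I]
  · refine Eventually.of_forall (fun ε => ?_)
    have h3 := tendsto_partS hc0 hc1 ε
    have h4 : Continuous (fun x : ℝ => Complex.exp (t * (x : ℂ) * Complex.I)) := by fun_prop
    exact (h4.tendsto _).comp h3

theorem charFun_bc {c : ℝ} (hc0 : 0 ≤ c) (hc1 : c < 1) (t : ℝ) :
    charFun (bernoulliConvolution c) t = (Real.cos t : ℂ) * charFun (bernoulliConvolution c) (c * t) := by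
  have h1 := (tendsto_add_atTop_iff_nat 1).mpr (tendsto_charFun hc0 hc1 t)
  have h2 := (tendsto_charFun hc0 hc1 (c * t)).const_mul (Real.cos t : ℂ)
  refine tendsto_nhds_unique h1 (h2.congr (fun n => ?_))
  rw [Finset.prod_range_succ']
  push_cast
  rw [mul_comm]
  congr 1
  · refine Finset.prod_congr rfl (fun k _ => ?_)
    rw [pow_succ]; congr 1; ring
  · simp

/-! ### Pure type -/

lemma map_affine_ac {c a : ℝ} (hc : c ≠ 0) {μ : Measure ℝ} (h : μ ≪ volume) :
    μ.map (fun x => a + c * x) ≪ volume := by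
  have hm : Measurable (fun x : ℝ => a + c * x) := by fun_prop
  refine (h.map hm).trans ?_
  refine Measure.AbsolutelyContinuous.mk (fun s hs h0 => ?_)
  rw [Measure.map_apply hm hs]
  have h1 : (fun x : ℝ => a + c * x) ⁻¹' s = (fun x => c * x) ⁻¹' ((fun x => a + x) ⁻¹' s) := rfl
  rw [h1, Real.volume_preimage_mul_left hc, measure_preimage_add, h0, mul_zero]

lemma map_affine_sing {c a : ℝ} (hc : c ≠ 0) {μ : Measure ℝ} (h : μ ⟂ₘ volume) :
    μ.map (fun x => a + c * x) ⟂ₘ volume := by
  obtain ⟨s, hs, h0, h1⟩ := h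
  have hm : Measurable (fun x : ℝ => a + c * x) := by fun_prop
  have hm' : Measurable (fun y : ℝ => c⁻¹ * (-a + y)) := by fun_prop
  refine ⟨(fun y => c⁻¹ * (-a + y)) ⁻¹' s, hm' hs, ?_, ?_⟩
  · rw [Measure.map_apply hm (hm' hs)]
    have : (fun x : ℝ => a + c * x) ⁻¹' ((fun y => c⁻¹ * (-a + y)) ⁻¹' s) = s := by
      ext x
      simp only [Set.mem_preimage]
      rw [show c⁻¹ * (-a + (a + c * x)) = x by field_simp; ring]
    rw [this, h0]
  · have h2 : ((fun y : ℝ => c⁻¹ * (-a + y)) ⁻¹' s)ᶜ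
        = (fun y => -a + y) ⁻¹' ((fun y => c⁻¹ * y) ⁻¹' sᶜ) := rfl
    rw [h2, measure_preimage_add, Real.volume_preimage_mul_left (inv_ne_zero hc), h1, mul_zero]

/-- the self-similarity operator -/
noncomputable def Phi (c : ℝ) (μ : Measure ℝ) : Measure ℝ :=
  (2⁻¹ : ENNReal) • μ.map (fun x => 1 + c * x) + (2⁻¹ : ENNReal) • μ.map (fun x => -1 + c * x)

lemma isFinite_Phi (c : ℝ) (μ : Measure ℝ) [IsFiniteMeasure μ] : IsFiniteMeasure (Phi c μ) := by
  have h1 : IsFiniteMeasure ((2⁻¹ : ENNReal) • μ.map (fun x => 1 + c * x)) :=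
    Measure.smul_finite _ (by simp)
  have h2 : IsFiniteMeasure ((2⁻¹ : ENNReal) • μ.map (fun x => -1 + c * x)) :=
    Measure.smul_finite _ (by simp)
  unfold Phi; infer_instance

lemma charFun_Phi (c : ℝ) (μ : Measure ℝ) [IsFiniteMeasure μ] (t : ℝ) :
    charFun (Phi c μ) t = (Real.cos t : ℂ) * charFun μ (c * t) := by
  have hint : ∀ μ : Measure ℝ, IsFiniteMeasure μ →
      Integrable (fun x : ℝ => Complex.exp (t * (x : ℂ) * Complex.I)) μ := by
    intro μ _
    refine Integrable.mono' (integrable_const (1 : ℝ)) (by fun_prop) (Eventually.of_forall (fun x => ?_))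
    rw [← Complex.ofReal_mul, Complex.norm_exp_ofReal_mul_I]
  have h1 : IsFiniteMeasure ((2⁻¹ : ENNReal) • μ.map (fun x => 1 + c * x)) :=
    Measure.smul_finite _ (by simp)
  have h2 : IsFiniteMeasure ((2⁻¹ : ENNReal) • μ.map (fun x => -1 + c * x)) :=
    Measure.smul_finite _ (by simp)
  have e : ∀ a : ℝ, ∫ x, Complex.exp (t * (x : ℂ) * Complex.I) ∂(μ.map (fun x => a + c * x))
      = charFun μ (c * t) * Complex.exp (a * t * Complex.I) := by
    intro a
    rw [integral_map (by fun_prop) (by fun_prop), charFun_apply_real, ← integral_mul_const]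
    refine integral_congr_ae (Eventually.of_forall (fun x => ?_))
    simp only
    rw [← Complex.exp_add]
    congr 1
    push_cast
    ring
  rw [charFun_apply_real, Phi, integral_add_measure (hint _ h1) (hint _ h2),
    integral_smul_measure, integral_smul_measure, e 1, e (-1)]
  simp only [ENNReal.toReal_inv, ENNReal.toReal_ofNat, Complex.real_smul]
  rw [Complex.ofReal_cos, Complex.cos]
  push_cast
  ring_nf

lemma Phi_bc {c : ℝ} (hc0 : 0 ≤ c) (hc1 : c < 1) :
    Phi c (bernoulliConvolution c) = bernoulliConvolution c := by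
  have := isProb_bc hc0 hc1
  have := isFinite_Phi c (bernoulliConvolution c)
  apply Measure.ext_of_charFun
  funext t
  rw [charFun_Phi, ← charFun_bc hc0 hc1]

lemma charFun_iter {c : ℝ} {h : ℝ → ℂ} (hh : ∀ t, h t = (Real.cos t : ℂ) * h (c * t)) (n : ℕ) (t : ℝ) :
    h t = ((∏ k ∈ Finset.range n, Real.cos (c ^ k * t) : ℝ) : ℂ) * h (c ^ n * t) := by
  induction n with
  | zero => simp
  | succ n ih =>
    rw [ih, hh (c ^ n * t), Finset.prod_range_succ]
    push_cast
    rw [pow_succ]
    ring_nf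

lemma eq_smul_of_Phi {c : ℝ} (hc0 : 0 ≤ c) (hc1 : c < 1) {μ : Measure ℝ} [IsFiniteMeasure μ]
    (hμ : Phi c μ = μ) : μ = μ Set.univ • bernoulliConvolution c := by
  have hP := isProb_bc hc0 hc1
  have hfin : IsFiniteMeasure (μ Set.univ • bernoulliConvolution c) :=
    Measure.smul_finite _ (measure_ne_top _ _)
  have hh : ∀ t, charFun μ t = (Real.cos t : ℂ) * charFun μ (c * t) := by
    intro t
    conv_lhs => rw [← hμ]
    exact charFun_Phi c μ t
  apply Measure.ext_of_charFun
  funext t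
  have h1 : Tendsto (fun n : ℕ => ((∏ k ∈ Finset.range n, Real.cos (c ^ k * t) : ℝ) : ℂ) * charFun μ (c ^ n * t))
      atTop (𝓝 (charFun (bernoulliConvolution c) t * charFun μ 0)) := by
    refine (tendsto_charFun hc0 hc1 t).mul ?_
    have h2 : Tendsto (fun n : ℕ => c ^ n * t) atTop (𝓝 0) := by
      simpa using (tendsto_pow_atTop_nhds_zero_of_lt_one hc0 hc1).mul_const t
    exact ((continuous_charFun (μ := μ)).tendsto 0).comp h2
  have h2 : charFun μ t = charFun (bernoulliConvolution c) t * charFun μ 0 := by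
    refine tendsto_nhds_unique ?_ h1
    have : (fun n : ℕ => ((∏ k ∈ Finset.range n, Real.cos (c ^ k * t) : ℝ) : ℂ) * charFun μ (c ^ n * t))
        = fun _ => charFun μ t := by
      funext n
      exact (charFun_iter hh n t).symm
    rw [this]
    exact tendsto_const_nhds
  rw [h2, charFun_zero]
  have h3 : charFun (μ Set.univ • bernoulliConvolution c) t
      = (μ Set.univ).toReal • charFun (bernoulliConvolution c) t := by
    rw [charFun_apply_real, charFun_apply_real, integral_smul_measure]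
  rw [h3, Complex.real_smul, mul_comm]
  rfl

theorem pure_type {c : ℝ} (hc0 : 0 < c) (hc1 : c < 1) :
    bernoulliConvolution c ⟂ₘ volume ∨ bernoulliConvolution c ≪ volume := by
  have hP := isProb_bc hc0.le hc1
  set ν := bernoulliConvolution c with hν
  set νs := ν.singularPart volume with hνs
  set νa := volume.withDensity (ν.rnDeriv volume) with hνa
  have hdec : ν = νs + νa := ν.haveLebesgueDecomposition_add volume
  have hsing : νs ⟂ₘ volume := Measure.mutuallySingular_singularPart _ _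
  have hac : νa ≪ volume := withDensity_absolutelyContinuous _ _
  have hfs : IsFiniteMeasure νs := by rw [hνs]; infer_instance
  have hfa : IsFiniteMeasure νa := by rw [hνa]; infer_instance
  have hPhi : ν = Phi c νs + Phi c νa := by
    have h1 : Phi c ν = ν := Phi_bc hc0.le hc1
    have hm1 : Measurable (fun x : ℝ => 1 + c * x) := by fun_prop
    have hm2 : Measurable (fun x : ℝ => -1 + c * x) := by fun_prop
    conv_lhs => rw [← h1, hdec]
    unfold Phi
    rw [Measure.map_add _ _ hm1, Measure.map_add _ _ hm2, smul_add, smul_add]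
    abel
  have hs' : Phi c νs ⟂ₘ volume := by
    unfold Phi
    exact ((map_affine_sing hc0.ne' hsing).smul _).add_left ((map_affine_sing hc0.ne' hsing).smul _)
  have ha' : Phi c νa ≪ volume := by
    unfold Phi
    refine Measure.AbsolutelyContinuous.add_left ?_ ?_
    · exact (map_affine_ac hc0.ne' hac).smul_left _
    · exact (map_affine_ac hc0.ne' hac).smul_left _
  have hfPa := isFinite_Phi c νa
  have hPs : Phi c νs = νs := by
    refine Measure.eq_singularPart (f := (Phi c νa).rnDeriv volume) (Measure.measurable_rnDeriv _ _) hs' ?_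
    rw [Measure.withDensity_rnDeriv_eq _ _ ha']
    exact hPhi
  have hmul := eq_smul_of_Phi hc0.le hc1 hPs
  by_cases hz : νs Set.univ = 0
  · right
    rw [← Measure.singularPart_eq_zero]
    exact Measure.measure_univ_eq_zero.mp hz
  · left
    have h1 : ν = (νs Set.univ)⁻¹ • νs := by
      have h2 : (νs Set.univ)⁻¹ • νs = (νs Set.univ)⁻¹ • (νs Set.univ • ν) := by
        rw [hν, ← hmul]
      rw [h2, smul_smul, ENNReal.inv_mul_cancel hz (measure_ne_top _ _), one_smul]
    rw [h1]
    exact hsing.smul _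

/-! ### The contradiction with absolute continuity -/

theorem ac_bound {ν γ : Measure ℝ} [IsProbabilityMeasure ν] [IsFiniteMeasure γ] (h : ν ≪ γ) :
    ∃ δ : ℝ, 0 < δ ∧ ∀ F : ℝ → ℂ, Continuous F → (∃ C : ℝ, ∀ x, ‖F x‖ ≤ C) →
      ∫ x, ‖F x‖ ^ 2 ∂γ ≤ δ → ∫ x, ‖F x‖ ^ 2 ∂ν ≤ 18 → ‖∫ x, F x ∂ν‖ < 1 / 2 := by
  have hf : ∫⁻ x, ν.rnDeriv γ x ∂γ ≠ ⊤ := (Measure.lintegral_rnDeriv_lt_top ν γ).ne
  obtain ⟨δ0, hδ0, hδ⟩ := exists_pos_setLIntegral_lt_of_measure_lt hf
    (ε := ENNReal.ofReal (1 / 1000)) (by simp)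
  obtain ⟨δ1, hδ1, hδ1'⟩ : ∃ δ1 : ℝ, 0 < δ1 ∧ ENNReal.ofReal δ1 < δ0 := by
    rcases eq_or_ne δ0 ⊤ with h | h
    · exact ⟨1, one_pos, by rw [h]; exact ENNReal.ofReal_lt_top⟩
    · refine ⟨δ0.toReal / 2, by have := ENNReal.toReal_pos hδ0.ne' h; positivity, ?_⟩
      rw [ENNReal.ofReal_lt_iff_lt_toReal (by positivity) h]
      have := ENNReal.toReal_pos hδ0.ne' h
      linarith
  refine ⟨δ1 / 16, by positivity, fun F hF ⟨C, hC⟩ h1 h2 => ?_⟩
  have hint : ∀ μ : Measure ℝ, IsFiniteMeasure μ → Integrable (fun x => ‖F x‖ ^ 2) μ := by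
    intro μ _
    refine Integrable.mono' (integrable_const (C ^ 2)) (by fun_prop) (Eventually.of_forall (fun x => ?_))
    rw [Real.norm_eq_abs, abs_of_nonneg (by positivity)]
    exact pow_le_pow_left₀ (norm_nonneg _) (hC x) 2
  have hintF : ∀ μ : Measure ℝ, IsFiniteMeasure μ → Integrable F μ := by
    intro μ _
    exact Integrable.mono' (integrable_const C) (by fun_prop) (Eventually.of_forall hC)
  set E : Set ℝ := {x | 1 / 16 ≤ ‖F x‖ ^ 2} with hE
  have hEm : MeasurableSet E := measurableSet_le measurable_const (by fun_prop)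
  have hγE : γ.real E ≤ δ1 := by
    have := mul_meas_ge_le_integral_of_nonneg (μ := γ) (f := fun x => ‖F x‖ ^ 2)
      (Eventually.of_forall (fun x => by positivity)) (hint γ inferInstance) (1 / 16)
    linarith
  have hγE' : γ E < δ0 := by
    refine lt_of_le_of_lt ?_ hδ1'
    rw [← ENNReal.ofReal_toReal (measure_ne_top γ E)]
    exact ENNReal.ofReal_le_ofReal hγE
  have hνE : ν.real E ≤ 1 / 1000 := by
    have h3 := hδ E hγE'
    rw [Measure.setLIntegral_rnDeriv h] at h3
    have : ν.real E ≤ (ENNReal.ofReal (1 / 1000)).toReal := ENNReal.toReal_mono (by simp) h3.le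
    rwa [ENNReal.toReal_ofReal (by norm_num)] at this
  have hpt : ∀ x, ‖F x‖ ≤ 1 / 4 + 36 * E.indicator (fun _ => (1 : ℝ)) x + ‖F x‖ ^ 2 / 144 := by
    intro x
    by_cases hx : x ∈ E
    · rw [Set.indicator_of_mem hx]
      nlinarith [sq_nonneg (‖F x‖ / 12 - 6)]
    · rw [Set.indicator_of_notMem hx]
      have h4 : ‖F x‖ ^ 2 < 1 / 16 := by simpa [hE] using hx
      have h5 : ‖F x‖ ≤ 1 / 4 := by
        by_contra hcon
        push Not at hcon
        nlinarith
      have : 0 ≤ ‖F x‖ ^ 2 / 144 := by positivity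
      linarith
  have hI1 : Integrable (fun x => E.indicator (fun _ => (1 : ℝ)) x) ν :=
    (integrable_const (1 : ℝ)).indicator hEm
  calc ‖∫ x, F x ∂ν‖ ≤ ∫ x, ‖F x‖ ∂ν := norm_integral_le_integral_norm _
    _ ≤ ∫ x, (1 / 4 + 36 * E.indicator (fun _ => (1 : ℝ)) x + ‖F x‖ ^ 2 / 144) ∂ν := by
        refine integral_mono (hintF ν inferInstance).norm ?_ hpt
        exact ((integrable_const _).add (hI1.const_mul 36)).add ((hint ν inferInstance).div_const 144)
    _ = 1 / 4 + 36 * ν.real E + (∫ x, ‖F x‖ ^ 2 ∂ν) / 144 := by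
        have hA : Integrable (fun x => 1 / 4 + 36 * E.indicator (fun _ => (1 : ℝ)) x) ν :=
          (integrable_const _).add (hI1.const_mul 36)
        rw [integral_add hA ((hint ν inferInstance).div_const 144),
          integral_add (integrable_const _) (hI1.const_mul 36), integral_const_mul,
          integral_indicator_const _ hEm, integral_div (144 : ℝ) (fun x => ‖F x‖ ^ 2)]
        simp
    _ < 1 / 2 := by linarith

/-- trigonometric sums -/
noncomputable def trig {ι : Type*} (s : Finset ι) (σ : ι → ℂ) (ω : ι → ℝ) (x : ℝ) : ℂ :=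
  ∑ j ∈ s, σ j * Complex.exp (ω j * x * Complex.I)

lemma continuous_trig {ι : Type*} (s : Finset ι) (σ : ι → ℂ) (ω : ι → ℝ) : Continuous (trig s σ ω) := by
  unfold trig; fun_prop

lemma integrable_exp' (μ : Measure ℝ) [IsFiniteMeasure μ] (t : ℝ) :
    Integrable (fun x : ℝ => Complex.exp (t * (x : ℂ) * Complex.I)) μ := by
  refine Integrable.mono' (integrable_const (1 : ℝ)) (by fun_prop) (Eventually.of_forall (fun x => ?_))
  rw [← Complex.ofReal_mul, Complex.norm_exp_ofReal_mul_I]

lemma norm_trig_le {ι : Type*} (s : Finset ι) (σ : ι → ℂ) (ω : ι → ℝ) (x : ℝ) :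
    ‖trig s σ ω x‖ ≤ ∑ j ∈ s, ‖σ j‖ := by
  unfold trig
  refine (norm_sum_le _ _).trans (Finset.sum_le_sum (fun j _ => ?_))
  rw [norm_mul, ← Complex.ofReal_mul, Complex.norm_exp_ofReal_mul_I, mul_one]

lemma integral_trig {ι : Type*} (s : Finset ι) (σ : ι → ℂ) (ω : ι → ℝ) (μ : Measure ℝ) [IsFiniteMeasure μ] :
    ∫ x, trig s σ ω x ∂μ = ∑ j ∈ s, σ j * charFun μ (ω j) := by
  unfold trig
  rw [integral_finsetSum _ (fun j _ => (integrable_exp' μ (ω j)).const_mul _)]
  refine Finset.sum_congr rfl (fun j _ => ?_)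
  rw [integral_const_mul, charFun_apply_real]

lemma integral_trig_sq {ι : Type*} (s : Finset ι) (σ : ι → ℂ) (ω : ι → ℝ) (μ : Measure ℝ) [IsFiniteMeasure μ] :
    ∫ x, ‖trig s σ ω x‖ ^ 2 ∂μ ≤ ∑ j ∈ s, ∑ l ∈ s, ‖σ j‖ * ‖σ l‖ * ‖charFun μ (ω j - ω l)‖ := by
  have h1 : ((∫ x, ‖trig s σ ω x‖ ^ 2 ∂μ : ℝ) : ℂ)
      = ∑ j ∈ s, ∑ l ∈ s, σ j * (starRingEnd ℂ) (σ l) * charFun μ (ω j - ω l) := by
    have h2 : ∀ x, ((‖trig s σ ω x‖ ^ 2 : ℝ) : ℂ)
        = ∑ j ∈ s, ∑ l ∈ s, σ j * (starRingEnd ℂ) (σ l) * Complex.exp ((ω j - ω l : ℝ) * x * Complex.I) := by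
      intro x
      have : ((‖trig s σ ω x‖ ^ 2 : ℝ) : ℂ) = trig s σ ω x * (starRingEnd ℂ) (trig s σ ω x) := by
        rw [Complex.mul_conj, Complex.normSq_eq_norm_sq]
      rw [this]
      unfold trig
      rw [map_sum, Finset.sum_mul_sum]
      refine Finset.sum_congr rfl (fun j _ => Finset.sum_congr rfl (fun l _ => ?_))
      rw [map_mul, ← Complex.exp_conj]
      simp only [map_mul, Complex.conj_ofReal, Complex.conj_I]
      rw [show ((ω j - ω l : ℝ) : ℂ) * x * Complex.I = ω j * x * Complex.I + ω l * x * (-Complex.I) by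
        push_cast; ring, Complex.exp_add]
      ring
    rw [← integral_complex_ofReal]
    simp_rw [h2]
    rw [integral_finsetSum _ (fun j _ => integrable_finsetSum _ (fun l _ => (integrable_exp' μ (ω j - ω l)).const_mul _))]
    refine Finset.sum_congr rfl (fun j _ => ?_)
    rw [integral_finsetSum _ (fun l _ => (integrable_exp' μ (ω j - ω l)).const_mul _)]
    refine Finset.sum_congr rfl (fun l _ => ?_)
    rw [integral_const_mul, charFun_apply_real]
  have h3 : ∫ x, ‖trig s σ ω x‖ ^ 2 ∂μ = ‖((∫ x, ‖trig s σ ω x‖ ^ 2 ∂μ : ℝ) : ℂ)‖ := by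
    rw [Complex.norm_real, Real.norm_eq_abs, abs_of_nonneg]
    exact integral_nonneg (fun x => by positivity)
  rw [h3, h1]
  refine (norm_sum_le _ _).trans (Finset.sum_le_sum (fun j _ => ?_))
  refine (norm_sum_le _ _).trans (Finset.sum_le_sum (fun l _ => ?_))
  rw [norm_mul, norm_mul, RCLike.norm_conj]

end Crest.Agent.S0137
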