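import Crest.Agent.S0137Upd

set_option autoImplicit false

namespace Crest.Agent.S0137

open Finset Filter Topology Polynomial

/-- pointwise small phases -/
theorem small_run' {n : ℕ} {ψ : ℕ → ℝ} (hψ : ∀ k < n, |ψ k| ≤ 1 / 4) :
    (∀ k < n, Real.cos (Real.pi * ψ k) ≠ 0) ∧
    (∑ k ∈ range n, |Real.tan (Real.pi * ψ k)| ≤ 2 * Real.pi * ∑ k ∈ range n, |ψ k|) := by
  have hpi := Real.pi_pos
  have hpi2 : Real.pi ^ 2 ≤ 10 := pi_sq_le
  have hc2 : ∀ k < n, 1 / 2 ≤ Real.cos (Real.pi * ψ k) := by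
    intro k hk
    have h1 := @Real.one_sub_sq_div_two_le_cos (Real.pi * ψ k)
    rw [mul_pow] at h1
    have h2 := hψ k hk
    have h3 : (ψ k) ^ 2 ≤ 1 / 16 := by
      rw [← sq_abs]; nlinarith [abs_nonneg (ψ k)]
    nlinarith
  refine ⟨fun k hk => (lt_of_lt_of_le (by norm_num) (hc2 k hk)).ne', ?_⟩
  rw [mul_sum]
  refine sum_le_sum (fun k hk => ?_)
  have h1 := hc2 k (mem_range.mp hk)
  rw [Real.tan_eq_sin_div_cos, abs_div, abs_of_pos (lt_of_lt_of_le (by norm_num) h1), div_le_iff₀ (by linarith)]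
  have h2 : |Real.sin (Real.pi * ψ k)| ≤ Real.pi * |ψ k| := by
    have := @Real.abs_sin_le_abs (Real.pi * ψ k)
    rwa [abs_mul, abs_of_pos hpi] at this
  have h3 : 0 ≤ Real.pi * |ψ k| := by positivity
  nlinarith

section
variable {β c b : ℝ} {z : ℂ} {N : ℝ → ℝ}

lemma third_part (h : Ctx β c b z N) {A B : ℝ} {C : ℂ} {r L : ℝ} {K : ℕ}
    (S : State β c b z A B C r K L) (g : ℕ) :
    (∀ k < K, |A * (β ^ (K + g) - 1) * c ^ (K + g + k) - A * c ^ k| ≤ b * c ^ g) := by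
  have h0 := h.c0
  have h1 := h.c1
  intro k hk
  have e : A * (β ^ (K + g) - 1) * c ^ (K + g + k) - A * c ^ k = - (A * c ^ K * (c ^ g * c ^ k)) := by
    have e1 : β ^ (K + g) * c ^ (K + g) = 1 := by rw [← mul_pow, h.hβc, one_pow]
    rw [pow_add c (K + g) k]
    have e2 : c ^ (K + g) = c ^ K * c ^ g := pow_add _ _ _
    have e3 : A * (β ^ (K + g) - 1) * (c ^ (K + g) * c ^ k) - A * c ^ k
        = A * c ^ k * (β ^ (K + g) * c ^ (K + g) - 1) - A * c ^ (K + g) * c ^ k := by ring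
    rw [e3, e1, e2]; ring
  rw [e, abs_neg]
  have e4 : 0 ≤ A * c ^ K := mul_nonneg (by linarith [S.A1]) (pow_nonneg h0.le _)
  have e5 : c ^ g * c ^ k ≤ c ^ g := mul_le_of_le_one_right (pow_nonneg h0.le _) (pow_le_one₀ h0.le h1.le)
  rw [abs_of_nonneg (by positivity)]
  exact mul_le_mul S.Ak e5 (by positivity) h.b0.le

lemma zinv (hz : ‖z‖ = 1) (k : ℕ) : z ^ k * (starRingEnd ℂ z) ^ k = 1 := by
  rw [← mul_pow, Complex.mul_conj, Complex.normSq_eq_norm_sq, hz]; norm_num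

lemma first_part (h : Ctx β c b z N) {A B : ℝ} {C : ℂ} {r L : ℝ} {K : ℕ}
    (S : State β c b z A B C r K L) (hr : 0 ≤ r) (g : ℕ) {ρ : ℝ} (hρ : ‖z ^ (K + g) - 1‖ ≤ ρ) :
    (∃ x : ℕ → ℝ, (∀ k < K, |Real.cos (Real.pi * (A * (β ^ (K + g) - 1) * c ^ k))| = |Real.cos (Real.pi * x k)| ∧
        |Real.tan (Real.pi * (A * (β ^ (K + g) - 1) * c ^ k))| = |Real.tan (Real.pi * x k)|) ∧
      (∀ k < K, |x k - (A * c ^ k + 2 * (C * (starRingEnd ℂ z) ^ k).re)| ≤ b * c ^ g + 2 * (r * ρ))) := by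
  have h0 := h.c0
  have h1 := h.c1
  refine ⟨fun k => A * c ^ k + (B * c ^ (K + g - k) + 2 * (C * z ^ (K + g - k)).re), ?_, ?_⟩
  · intro k hk
    obtain ⟨m, hm⟩ := phase h.hβc S.int (q := K + g) (k := k) (by omega)
    rw [hm, abs_cos_int_sub, abs_tan_int_sub]
    exact ⟨rfl, rfl⟩
  · intro k hk
    have e : A * c ^ k + (B * c ^ (K + g - k) + 2 * (C * z ^ (K + g - k)).re)
        - (A * c ^ k + 2 * (C * (starRingEnd ℂ z) ^ k).re)
        = B * c ^ (K + g - k) + 2 * (C * (z ^ (K + g - k) - (starRingEnd ℂ z) ^ k)).re := by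
      rw [mul_sub, Complex.sub_re]; ring
    simp only
    rw [e]
    refine (abs_add_le _ _).trans (add_le_add ?_ ?_)
    · rw [abs_mul, abs_of_nonneg (pow_nonneg h0.le _)]
      exact mul_le_mul S.B1 (pow_le_pow_of_le_one h0.le h1.le (by omega)) (pow_nonneg h0.le _) h.b0.le
    · rw [abs_mul, abs_two]
      refine mul_le_mul_of_nonneg_left ?_ (by norm_num)
      refine (Complex.abs_re_le_norm _).trans ?_
      rw [norm_mul]
      refine mul_le_mul S.C1 ?_ (norm_nonneg _) hr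
      have e1 : z ^ (K + g - k) - (starRingEnd ℂ z) ^ k = (starRingEnd ℂ z) ^ k * (z ^ (K + g) - 1) := by
        have e2 : z ^ (K + g) = z ^ (K + g - k) * z ^ k := by rw [← pow_add]; congr 1; omega
        rw [e2]
        have := zinv h.hz k
        linear_combination (-(z ^ (K + g - k))) * this
      rw [e1, norm_mul, norm_pow, RCLike.norm_conj, h.hz, one_pow, one_mul]
      exact hρ

/-- seed step -/
theorem seed_step (h : Ctx β c b z N) {A B : ℝ} {C : ℂ} {L L' : ℝ} {K : ℕ}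
    (S : State β c b z A B C (1 / 200) K L)
    (hne : ∀ k < K, Real.cos (Real.pi * (A * c ^ k + 2 * (C * (starRingEnd ℂ z) ^ k).re)) ≠ 0)
    (hL' : ∑ k ∈ range K, |Real.tan (Real.pi * (A * c ^ k + 2 * (C * (starRingEnd ℂ z) ^ k).re))| ≤ L')
    {E : ℝ} (hE1 : 1 ≤ E) (hEL : L ≤ E) (hEL' : L' ≤ E) (hEK : K ≤ E)
    {g : ℕ} (hg : c ^ g * E ≤ 1) {ρ : ℝ} (hρE : ρ * E ≤ 1)
    (hβq : 2 ≤ β ^ (K + g)) (hρ : ‖z ^ (K + g) - 1‖ ≤ ρ) :
    State β c b z (A * (β ^ (K + g) - 1)) (B * (c ^ (K + g) - 1)) (C * (z ^ (K + g) - 1)) (ρ * (1 / 200))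
      (K + g + K) (4 * E + 3 + 7 / 100 * g) := by
  have h0 := h.c0
  have h1 := h.c1
  have hb0 := h.b0
  have hb1 := h.b1
  have hb2 := h.b2
  have hpi := Real.pi_pos
  have hpi' := pi_le
  have hpi2 := pi_sq_le
  have hE0 : 0 < E := by linarith
  have hρ0 : 0 ≤ ρ := (norm_nonneg _).trans hρ
  have hK0 : (0 : ℝ) ≤ K := Nat.cast_nonneg K
  have hcg0 : 0 ≤ c ^ g := pow_nonneg h0.le _
  set η : ℝ := b * c ^ g + 2 * ((1 / 200) * ρ) with hηdef
  have hη : 0 ≤ η := by positivity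
  have hηE : η * E ≤ 1 / 50 := by
    have : η * E = b * (c ^ g * E) + 1 / 100 * (ρ * E) := by rw [hηdef]; ring
    rw [this]
    have e1 : b * (c ^ g * E) ≤ b := mul_le_of_le_one_right hb0.le hg
    linarith
  have hη1 : η ≤ 1 / 50 := by
    have : η * 1 ≤ η * E := mul_le_mul_of_nonneg_left hE1 hη
    linarith
  have hKη : K * η ≤ 1 / 50 := by
    have : K * η ≤ E * η := mul_le_mul_of_nonneg_right hEK hη
    linarith
  have hsmall : ∀ L0 : ℝ, L0 ≤ E → K * (Real.pi * η) ^ 2 / 2 + Real.pi * η * L0 ≤ 1 / 2 := by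
    intro L0 hL0
    have e1 : K * (Real.pi * η) ^ 2 / 2 = Real.pi ^ 2 * ((K * η) * η) / 2 := by ring
    have e2 : Real.pi ^ 2 * ((K * η) * η) ≤ 10 * ((1 / 50) * (1 / 50)) :=
      mul_le_mul hpi2 (mul_le_mul hKη hη1 hη (by norm_num)) (by positivity) (by norm_num)
    have e3 : Real.pi * η * L0 ≤ 3.15 * (1 / 50) := by
      have : Real.pi * η * L0 ≤ Real.pi * (η * E) := by
        rw [mul_assoc]
        exact mul_le_mul_of_nonneg_left (mul_le_mul_of_nonneg_left hL0 hη) hpi.le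
      refine this.trans ?_
      exact mul_le_mul hpi' hηE (by positivity) (by norm_num)
    rw [e1]
    norm_num at e2 e3 ⊢
    linarith
  obtain ⟨x, hx1, hx2⟩ := first_part h S (by norm_num) g hρ
  obtain ⟨-, ⟨ψ, hψ1, hψ2⟩, -⟩ := three_parts h S (by norm_num) g
  have hx3 : ∀ k < K, |A * (β ^ (K + g) - 1) * c ^ (K + g + k) - A * c ^ k| ≤ η := by
    intro k hk
    refine (third_part h S g k hk).trans ?_
    rw [hηdef]
    have : 0 ≤ 2 * (1 / 200 * ρ) := by positivity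
    linarith
  have blk1 := block (x := x) hη hx2 hne hL' (hsmall _ hEL')
  have blk3 := block (x := fun k => A * (β ^ (K + g) - 1) * c ^ (K + g + k)) hη hx3 S.ne S.tan (hsmall _ hEL)
  have hgeo1 := geom_le h g
  have hgeo2 := geom_le' h g
  have hb3 : b * (1 / (1 - c)) ≤ 1 / 100 := by
    rw [mul_one_div, div_le_iff₀ (by linarith)]
    linarith
  have hsum1 : ∑ j ∈ range g, |ψ j| ≤ 1 / 50 + 1 / 100 * g := by
    calc ∑ j ∈ range g, |ψ j| ≤ ∑ j ∈ range g, (b * c ^ j + b * c ^ (g - j) + 2 * (1 / 200)) :=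
          sum_le_sum (fun j hj => hψ2 j (mem_range.mp hj))
      _ = b * (∑ j ∈ range g, c ^ j) + b * (∑ j ∈ range g, c ^ (g - j)) + 1 / 100 * g := by
          rw [sum_add_distrib, sum_add_distrib, mul_sum, mul_sum, sum_const, card_range, nsmul_eq_mul]; ring
      _ ≤ 1 / 50 + 1 / 100 * g := by
          have e1 := mul_le_mul_of_nonneg_left hgeo1 hb0.le
          have e2 := mul_le_mul_of_nonneg_left hgeo2 hb0.le
          linarith
  have hψ4 : ∀ j < g, |ψ j| ≤ 1 / 4 := by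
    intro j hj
    refine (hψ2 j hj).trans ?_
    have e3' : b * c ^ j ≤ b := mul_le_of_le_one_right hb0.le (pow_le_one₀ h0.le h1.le)
    have e4' : b * c ^ (g - j) ≤ b := mul_le_of_le_one_right hb0.le (pow_le_one₀ h0.le h1.le)
    linarith
  have run := small_run' hψ4
  refine ⟨G_step S.int _, ?_, ?_, ?_, ?_, ?_, ?_⟩
  · have e1 := S.A1
    have e2 : 1 * 1 ≤ A * (β ^ (K + g) - 1) := mul_le_mul e1 (by linarith) (by norm_num) (by linarith)
    linarith
  · rw [abs_mul]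
    have e1 : |c ^ (K + g) - 1| ≤ 1 := by
      rw [abs_le]
      have := pow_nonneg h0.le (K + g)
      have := pow_le_one₀ h0.le h1.le (n := K + g)
      constructor <;> linarith
    exact (mul_le_of_le_one_right (abs_nonneg _) e1).trans S.B1
  · rw [norm_mul, mul_comm]
    exact mul_le_mul hρ S.C1 (norm_nonneg _) ((norm_nonneg _).trans hρ)
  · have e1 : A * (β ^ (K + g) - 1) * c ^ (K + g + K) = A * c ^ K * (β ^ (K + g) * c ^ (K + g) - c ^ (K + g)) := by
      rw [pow_add c (K + g) K]; ring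
    rw [e1, ← mul_pow, h.hβc, one_pow]
    have e2 : 0 ≤ A * c ^ K := mul_nonneg (by linarith [S.A1]) (pow_nonneg h0.le _)
    have e3 : 1 - c ^ (K + g) ≤ 1 := by
      have := pow_nonneg h0.le (K + g); linarith
    exact (mul_le_of_le_one_right e2 e3).trans S.Ak
  · intro k hk
    rw [← abs_ne_zero]
    by_cases hk1 : k < K
    · rw [(hx1 k hk1).1, abs_ne_zero]
      exact blk1.1 k hk1
    · by_cases hk2 : k < K + g
      · obtain ⟨j, rfl⟩ := Nat.exists_eq_add_of_le (not_lt.mp hk1)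
        rw [(hψ1 j (by omega)).1, abs_ne_zero]
        exact run.1 j (by omega)
      · obtain ⟨j, rfl⟩ := Nat.exists_eq_add_of_le (not_lt.mp hk2)
        rw [abs_ne_zero]
        exact blk3.1 j (by omega)
  · rw [sum_range_add, sum_range_add]
    have e1 : ∑ k ∈ range K, |Real.tan (Real.pi * (A * (β ^ (K + g) - 1) * c ^ k))| ≤ 2 * (L' + K * (Real.pi * η)) := by
      rw [sum_congr rfl (fun k hk => (hx1 k (mem_range.mp hk)).2)]
      exact blk1.2.1
    have e2 : ∑ j ∈ range g, |Real.tan (Real.pi * (A * (β ^ (K + g) - 1) * c ^ (K + j)))| ≤ 2 * Real.pi * (1 / 50 + 1 / 100 * g) := by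
      rw [sum_congr rfl (fun j hj => (hψ1 j (mem_range.mp hj)).2)]
      refine run.2.trans ?_
      exact mul_le_mul_of_nonneg_left hsum1 (by positivity)
    have e3 := blk3.2.1
    have e4 : K * (Real.pi * η) ≤ 3.15 * (1 / 50) := by
      rw [show K * (Real.pi * η) = Real.pi * (K * η) by ring]
      exact mul_le_mul hpi' hKη (by positivity) (by norm_num)
    have e5 : 2 * Real.pi * (1 / 50 + 1 / 100 * (g : ℝ)) ≤ 2 * 3.15 * (1 / 50 + 1 / 100 * g) :=
      mul_le_mul_of_nonneg_right (by linarith) (by positivity)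
    have e6 : (0 : ℝ) ≤ g := Nat.cast_nonneg g
    norm_num at e4 e5 ⊢
    linarith

/-- symmetric traces -/
lemma sym_trace (hβc : β * c = 1) (hz : ‖z‖ = 1)
    (hint : ∀ n : ℕ, ∃ m : ℤ, β ^ n + c ^ n + 2 * (z ^ n).re = m) (a k : ℕ) :
    ∃ m : ℤ, β ^ a * c ^ k + c ^ a * β ^ k + 2 * (z ^ a * (starRingEnd ℂ z) ^ k).re = m := by
  have hz' := fun k => zinv hz k
  rcases le_total k a with h | h
  · obtain ⟨m, hm⟩ := hint (a - k)
    refine ⟨m, ?_⟩
    rw [← hm]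
    obtain ⟨d, rfl⟩ := Nat.exists_eq_add_of_le h
    have e1 : β ^ (k + d) * c ^ k = β ^ d := by
      rw [pow_add, mul_comm (β ^ k), mul_assoc, ← mul_pow, hβc, one_pow, mul_one]
    have e2 : c ^ (k + d) * β ^ k = c ^ d := by
      rw [pow_add, mul_comm (c ^ k), mul_assoc, ← mul_pow, mul_comm c β, hβc, one_pow, mul_one]
    have e3 : z ^ (k + d) * (starRingEnd ℂ z) ^ k = z ^ d := by
      rw [pow_add, mul_comm (z ^ k), mul_assoc, hz', mul_one]
    rw [e1, e2, e3, Nat.add_sub_cancel_left]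
  · obtain ⟨m, hm⟩ := hint (k - a)
    refine ⟨m, ?_⟩
    rw [← hm]
    obtain ⟨d, rfl⟩ := Nat.exists_eq_add_of_le h
    have e1 : β ^ a * c ^ (a + d) = c ^ d := by
      rw [pow_add, ← mul_assoc, ← mul_pow, hβc, one_pow, one_mul]
    have e2 : c ^ a * β ^ (a + d) = β ^ d := by
      rw [pow_add, ← mul_assoc, ← mul_pow, mul_comm c β, hβc, one_pow, one_mul]
    have e3 : z ^ a * (starRingEnd ℂ z) ^ (a + d) = (starRingEnd ℂ z) ^ d := by
      rw [pow_add, ← mul_assoc, hz', one_mul]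
    rw [e1, e2, e3, Nat.add_sub_cancel_left]
    have : ((starRingEnd ℂ z) ^ d).re = (z ^ d).re := by rw [← map_pow, Complex.conj_re]
    rw [this]; ring

lemma cos_ne_of_not_half {x : ℝ} (hx : ∀ m : ℤ, 2 * x ≠ 2 * m + 1) : Real.cos (Real.pi * x) ≠ 0 := by
  intro h
  rw [Real.cos_eq_zero_iff] at h
  obtain ⟨m, hm⟩ := h
  apply hx m
  have hpi := Real.pi_pos.ne'
  field_simp at hm
  linarith

lemma odd_norm (m : ℤ) : (1 : ℝ) ≤ |(2 * (m : ℝ) + 1)| := by
  have h : (1 : ℤ) ≤ |2 * m + 1| := Int.one_le_abs (by omega)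
  have : ((1 : ℤ) : ℝ) ≤ ((|2 * m + 1| : ℤ) : ℝ) := by exact_mod_cast h
  push_cast at this
  exact this

theorem seed (h : Ctx β c b z N)
    (hint : ∀ n : ℕ, ∃ m : ℤ, β ^ n + c ^ n + 2 * (z ^ n).re = m)
    (hconj : ∀ P : ℤ[X], aeval β P = 0 → aeval z P = 0) :
    ∀ ε : ℝ, 0 < ε → ∃ (A r : ℝ) (K : ℕ), r ≤ ε ∧ St β c b z A r K := by
  have h0 := h.c0
  have h1 := h.c1
  have hβ := h.hβ
  have hb0 := h.b0
  have hpi := Real.pi_pos
  have hpi' := pi_le
  -- S1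
  obtain ⟨S1, hS1a, hS1b⟩ : ∃ S1 : ℕ, c ^ S1 ≤ b ∧ 1 ≤ β ^ S1 * (β - 1) := by
    have e1 : ∀ᶠ n : ℕ in atTop, c ^ n < b :=
      (tendsto_pow_atTop_nhds_zero_of_lt_one h0.le h1).eventually (gt_mem_nhds hb0)
    have e2 : ∀ᶠ n : ℕ in atTop, 1 / (β - 1) ≤ β ^ n :=
      (tendsto_pow_atTop_atTop_of_one_lt hβ).eventually_ge_atTop _
    obtain ⟨n, hn1, hn2⟩ := (e1.and e2).exists
    refine ⟨n, hn1.le, ?_⟩
    rwa [div_le_iff₀ (by linarith)] at hn2
  -- q0
  obtain ⟨q0, hq0, -, hq0z⟩ := dirichlet h.hz (Q := 2000) (by norm_num)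
  have hz200 : ‖z ^ q0 - 1‖ ≤ 1 / 200 := by
    refine hq0z.trans ?_
    rw [div_le_iff₀ (by positivity)]
    push_cast
    linarith
  set A : ℝ := 1 * β ^ S1 * (β ^ q0 - 1) with hA
  set B : ℝ := 1 * c ^ S1 * (c ^ q0 - 1) with hB
  set C : ℂ := 1 * z ^ S1 * (z ^ q0 - 1) with hC
  have hG1 : G β c z 1 1 1 := by
    intro n
    obtain ⟨m, hm⟩ := hint n
    exact ⟨m, by rw [← hm]; simp⟩
  have hG : G β c z A B C := G_step (G_shift hG1 S1) q0
  set K : ℕ := q0 + 2 * S1 with hK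
  -- non-vanishing
  have hpoly : ∀ (a k : ℕ) (m : ℤ), 2 * (β ^ a * (β ^ q0 - 1)) ≠ (2 * m + 1) * β ^ k := by
    intro a k m heq
    have hP := hconj (2 * (X ^ a * (X ^ q0 - 1)) - (2 * Polynomial.C m + 1) * X ^ k) (by
      simp only [map_sub, map_mul, map_ofNat, map_pow, aeval_X, map_one, map_add, aeval_C,
        algebraMap_int_eq, Int.coe_castRingHom]
      linarith)
    simp only [map_sub, map_mul, map_ofNat, map_pow, aeval_X, map_one, map_add, aeval_C,
        algebraMap_int_eq, Int.coe_castRingHom] at hP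
    have h2 : 2 * (z ^ a * (z ^ q0 - 1)) = (2 * (m : ℂ) + 1) * z ^ k := by linear_combination hP
    have h3 := congrArg norm h2
    rw [norm_mul, norm_mul, norm_mul, norm_pow, norm_pow, h.hz, one_pow, one_pow, one_mul, mul_one] at h3
    have h4 : ‖(2 * (m : ℂ) + 1)‖ = |2 * (m : ℝ) + 1| := by
      have : (2 * (m : ℂ) + 1) = ((2 * (m : ℝ) + 1 : ℝ) : ℂ) := by push_cast; rfl
      rw [this, Complex.norm_real, Real.norm_eq_abs]
    rw [h4, RCLike.norm_ofNat] at h3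
    have h5 := odd_norm m
    linarith
  have hneA : ∀ k : ℕ, Real.cos (Real.pi * (A * c ^ k)) ≠ 0 := by
    intro k
    apply cos_ne_of_not_half
    intro m hm
    apply hpoly S1 k m
    have e1 : c ^ k * β ^ k = 1 := by rw [← mul_pow, mul_comm c, h.hβc, one_pow]
    rw [hA] at hm
    linear_combination (β ^ k) * hm - 2 * β ^ S1 * (β ^ q0 - 1) * e1
  have hneB : ∀ k : ℕ, Real.cos (Real.pi * (A * c ^ k + 2 * (C * (starRingEnd ℂ z) ^ k).re)) ≠ 0 := by
    intro k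
    apply cos_ne_of_not_half
    intro m hm
    obtain ⟨m1, hm1⟩ := sym_trace h.hβc h.hz hint (S1 + q0) k
    obtain ⟨m2, hm2⟩ := sym_trace h.hβc h.hz hint S1 k
    have e0 : A * c ^ k + 2 * (C * (starRingEnd ℂ z) ^ k).re + B * β ^ k = m1 - m2 := by
      rw [← hm1, ← hm2, hA, hB, hC]
      have : 1 * z ^ S1 * (z ^ q0 - 1) * (starRingEnd ℂ) z ^ k
          = z ^ (S1 + q0) * (starRingEnd ℂ) z ^ k - z ^ S1 * (starRingEnd ℂ) z ^ k := by
        rw [pow_add]; ring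
      rw [this, Complex.sub_re, pow_add, pow_add]
      ring
    -- 2 B β^k is odd
    have e1 : 2 * (B * β ^ k) = 2 * ((m1 - m2 - m - 1 : ℤ) : ℝ) + 1 := by
      push_cast
      linarith
    apply hpoly k (S1 + q0) (-(m1 - m2 - m - 1) - 1)
    have e2 : c ^ S1 * β ^ S1 = 1 := by rw [← mul_pow, mul_comm c, h.hβc, one_pow]
    have e3 : c ^ q0 * β ^ q0 = 1 := by rw [← mul_pow, mul_comm c, h.hβc, one_pow]
    rw [hB] at e1
    rw [pow_add]
    push_cast at e1 ⊢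
    linear_combination (-(β ^ S1 * β ^ q0)) * e1 + (2 * β ^ k * β ^ q0 * (c ^ q0 - 1)) * e2 + 2 * β ^ k * e3
  set L : ℝ := ∑ k ∈ range K, |Real.tan (Real.pi * (A * c ^ k))| with hL
  set L' : ℝ := ∑ k ∈ range K, |Real.tan (Real.pi * (A * c ^ k + 2 * (C * (starRingEnd ℂ z) ^ k).re))| with hL'
  have hL0 : 0 ≤ L := sum_nonneg (fun _ _ => abs_nonneg _)
  have hL0' : 0 ≤ L' := sum_nonneg (fun _ _ => abs_nonneg _)
  have S : State β c b z A B C (1 / 200) K L := by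
    refine ⟨hG, ?_, ?_, ?_, ?_, fun k _ => hneA k, le_refl _⟩
    · have e1 : β ≤ β ^ q0 := le_self_pow₀ hβ.le (by omega)
      have e2 : β ^ S1 * (β - 1) ≤ β ^ S1 * (β ^ q0 - 1) :=
        mul_le_mul_of_nonneg_left (by linarith) (by positivity)
      rw [hA]; linarith
    · rw [hB, abs_mul, one_mul, abs_of_nonneg (pow_nonneg h0.le _)]
      have e1 : |c ^ q0 - 1| ≤ 1 := by
        rw [abs_le]
        have := pow_nonneg h0.le q0
        have := pow_le_one₀ h0.le h1.le (n := q0)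
        constructor <;> linarith
      exact (mul_le_of_le_one_right (pow_nonneg h0.le _) e1).trans hS1a
    · rw [hC, norm_mul, norm_mul, norm_one, norm_pow, h.hz, one_pow, one_mul, one_mul]
      exact hz200
    · have e2 : β ^ S1 * c ^ S1 = 1 := by rw [← mul_pow, h.hβc, one_pow]
      have e3 : β ^ q0 * c ^ q0 = 1 := by rw [← mul_pow, h.hβc, one_pow]
      have e4 : A * c ^ K = (1 - c ^ q0) * c ^ S1 := by
        rw [hA, hK, pow_add, two_mul, pow_add]
        linear_combination (c ^ q0 * (β ^ q0 - 1) * c ^ S1) * e2 + c ^ S1 * e3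
      rw [e4]
      have : 1 - c ^ q0 ≤ 1 := by have := pow_nonneg h0.le q0; linarith
      exact (mul_le_of_le_one_left (pow_nonneg h0.le _) this).trans hS1a
  set E : ℝ := L + L' + K + 1 with hE
  have hK0 : (0 : ℝ) ≤ K := Nat.cast_nonneg K
  have hE1 : 1 ≤ E := by rw [hE]; linarith
  -- gap g0
  obtain ⟨g0, hg0a, hg0b⟩ : ∃ g0 : ℕ, c ^ g0 * E ≤ 1 ∧ 2 ≤ β ^ g0 := by
    have e1 : ∀ᶠ n : ℕ in atTop, c ^ n < 1 / E :=
      (tendsto_pow_atTop_nhds_zero_of_lt_one h0.le h1).eventually (gt_mem_nhds (by positivity))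
    have e2 : ∀ᶠ n : ℕ in atTop, 2 ≤ β ^ n :=
      (tendsto_pow_atTop_atTop_of_one_lt hβ).eventually_ge_atTop _
    obtain ⟨n, hn1, hn2⟩ := (e1.and e2).exists
    refine ⟨n, ?_, hn2⟩
    rw [lt_div_iff₀ (by linarith)] at hn1
    exact hn1.le
  set s : ℕ := K + g0 with hs
  have hs1 : 1 ≤ s := by omega
  have hs1' : (1 : ℝ) ≤ s := by exact_mod_cast hs1
  have hKs : (K : ℝ) ≤ s := by rw [hs]; push_cast; linarith [(Nat.cast_nonneg g0 : (0 : ℝ) ≤ g0)]
  intro ε hε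
  -- choice of the target ρ*
  set D : ℝ := 4 * E + 3 + s with hD
  have hD0 : 0 < D := by positivity
  set ρs : ℝ := min ε (1 / D) with hρs
  have hρs0 : 0 < ρs := by positivity
  have hρsD : ρs * D ≤ 1 := by
    have : ρs ≤ 1 / D := min_le_right _ _
    rwa [le_div_iff₀ hD0] at this
  obtain ⟨Q, hQ⟩ := exists_nat_gt (2 * s * (2 * Real.pi) / ρs)
  have hQ0 : 0 < Q := by
    have : (0 : ℝ) < Q := lt_of_le_of_lt (by positivity) hQ
    exact_mod_cast this
  have hQ1 : (0 : ℝ) < (Q : ℝ) + 1 := by positivity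
  have hQρ : 2 * s * (2 * Real.pi / (Q + 1)) ≤ ρs := by
    rw [div_lt_iff₀ hρs0] at hQ
    rw [← mul_div_assoc, div_le_iff₀ hQ1]
    have : ρs * (Q + 1) = Q * ρs + ρs := by ring
    rw [this]; linarith
  obtain ⟨q, hsq, hq⟩ := choose_q h.hz hQ0 hs1
  obtain ⟨g, rfl⟩ : ∃ g, q = K + g := ⟨q - K, by omega⟩
  have hgg : g0 ≤ g := by omega
  have hcg : c ^ g * E ≤ 1 := by
    refine le_trans (mul_le_mul_of_nonneg_right ?_ (by linarith)) hg0a
    exact pow_le_pow_of_le_one h0.le h1.le hgg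
  have hβq : 2 ≤ β ^ (K + g) := hg0b.trans (pow_le_pow_right₀ hβ.le (by omega))
  have hg0' : (0 : ℝ) ≤ g := Nat.cast_nonneg g
  have hρ1 : 0 < 2 * Real.pi / ((Q : ℝ) + 1) := by positivity
  rcases hq with ⟨hqQ, hq⟩ | ⟨hqs, hq⟩
  · set ρ : ℝ := 2 * Real.pi / ((Q : ℝ) + 1) with hρ
    have hρρs : ρ ≤ ρs := by
      refine le_trans ?_ hQρ
      have : 1 * ρ ≤ 2 * s * ρ := mul_le_mul_of_nonneg_right (by linarith) hρ1.le
      linarith
    have hρD : ρ * D ≤ 1 := (mul_le_mul_of_nonneg_right hρρs hD0.le).trans hρsD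
    have hρE : ρ * E ≤ 1 := le_trans (mul_le_mul_of_nonneg_left (by rw [hD]; linarith) hρ1.le) hρD
    have st := seed_step h S (fun k _ => hneB k) (le_refl L') hE1 (by rw [hE]; linarith) (by rw [hE]; linarith)
      (by rw [hE]; linarith) hcg hρE hβq hq
    have hqQ' : (K : ℝ) + g ≤ Q := by exact_mod_cast hqQ
    have hsq' : (s : ℝ) ≤ K + g := by exact_mod_cast hsq
    have hρQ : ρ * Q ≤ 2 * Real.pi := by
      rw [hρ, div_mul_eq_mul_div, div_le_iff₀ hQ1]
      nlinarith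
    refine ⟨_, ρ * (1 / 200), K + g + K, ?_, _, _, _, st, by positivity, by positivity, ?_, ?_⟩
    · have : ρ ≤ ε := hρρs.trans (min_le_left _ _)
      linarith
    · have e1 : ρ * (1 / 200) * (4 * E + 3 + 7 / 100 * g) = (ρ * (4 * E + 3)) / 200 + 7 / 20000 * (ρ * g) := by ring
      rw [e1]
      have e2 : ρ * (4 * E + 3) ≤ 1 := le_trans (mul_le_mul_of_nonneg_left (by rw [hD]; linarith) hρ1.le) hρD
      have e3 : ρ * g ≤ ρ * Q := mul_le_mul_of_nonneg_left (by linarith) hρ1.le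
      linarith
    · push_cast
      have e1 : ((K : ℝ) + g + K) * (ρ * (1 / 200)) ≤ (2 * Q) * (ρ * (1 / 200)) :=
        mul_le_mul_of_nonneg_right (by linarith) (by positivity)
      linarith
  · set ρ : ℝ := 2 * s * (2 * Real.pi / ((Q : ℝ) + 1)) with hρ
    have hρ0 : 0 < ρ := by positivity
    have hρD : ρ * D ≤ 1 := (mul_le_mul_of_nonneg_right hQρ hD0.le).trans hρsD
    have hρE : ρ * E ≤ 1 := le_trans (mul_le_mul_of_nonneg_left (by rw [hD]; linarith) hρ0.le) hρD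
    have st := seed_step h S (fun k _ => hneB k) (le_refl L') hE1 (by rw [hE]; linarith) (by rw [hE]; linarith)
      (by rw [hE]; linarith) hcg hρE hβq hq
    have hqs' : (K : ℝ) + g ≤ 2 * s := by exact_mod_cast hqs
    refine ⟨_, ρ * (1 / 200), K + g + K, ?_, _, _, _, st, by positivity, by positivity, ?_, ?_⟩
    · have : ρ ≤ ε := hQρ.trans (min_le_left _ _)
      linarith
    · have e1 : ρ * (1 / 200) * (4 * E + 3 + 7 / 100 * g) ≤ ρ * (1 / 200) * (4 * E + 3 + s) :=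
        mul_le_mul_of_nonneg_left (by linarith) (by positivity)
      have e2 : ρ * (1 / 200) * (4 * E + 3 + s) = (ρ * D) / 200 := by rw [hD]; ring
      linarith
    · push_cast
      have e1 : ((K : ℝ) + g + K) * (ρ * (1 / 200)) ≤ (3 * D) * (ρ * (1 / 200)) :=
        mul_le_mul_of_nonneg_right (by rw [hD]; linarith) (by positivity)
      linarith

end

end Crest.Agent.S0137
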