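import Crest.Statements.S0137
import Crest.Agent.S0137Alg
import Crest.Agent.S0137Meas
import Crest.Agent.S0137Seed

set_option autoImplicit false
open MeasureTheory Crest.AnalysisR
open Crest Crest.AnalysisR

namespace Crest.Agent.S0137

open Finset ProbabilityTheory

lemma pair_bound {β c b : ℝ} {z : ℂ} {N : ℝ → ℝ} (h : Ctx β c b z N) {A B : ℝ} {C : ℂ} {r L : ℝ} {K : ℕ}
    (S : State β c b z A B C r K L) (hr : 0 ≤ r) (hL : 0 ≤ L) (hrL : r * L ≤ 1 / 40)
    {g0 : ℕ} (hg : c ^ g0 * (L + K + 1) ≤ 1) {j l : ℕ} (hjl : l < j) :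
    N (A * β ^ (j * (K + g0)) - A * β ^ (l * (K + g0))) ≤ 16 * (N A) ^ 2 := by
  have h0 := h.c0
  have h1 := h.c1
  obtain ⟨d, rfl⟩ := Nat.exists_eq_add_of_lt hjl
  have e1 : A * β ^ ((l + d + 1) * (K + g0)) - A * β ^ (l * (K + g0))
      = A * (β ^ (K + (g0 + d * (K + g0))) - 1) * β ^ (l * (K + g0)) := by
    have : (l + d + 1) * (K + g0) = (K + (g0 + d * (K + g0))) + l * (K + g0) := by ring
    rw [this, pow_add]; ring
  rw [e1]
  refine (N_beta_le h _ _).trans ?_
  refine corr h S hr hL hrL ?_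
  refine le_trans (mul_le_mul_of_nonneg_right ?_ (by positivity)) hg
  exact pow_le_pow_of_le_one h0.le h1.le (by omega)

lemma gap_bound {β : ℝ} (hβ : 1 < β) {A : ℝ} (hA : 1 ≤ A) {S j l : ℕ} {X : ℝ} (hX : X ≤ β ^ S - 1) (hX0 : 0 ≤ X)
    (hjl : l < j) : X ≤ A * β ^ (j * S) - A * β ^ (l * S) := by
  obtain ⟨d, rfl⟩ := Nat.exists_eq_add_of_lt hjl
  have e1 : A * β ^ ((l + d + 1) * S) - A * β ^ (l * S) = A * (β ^ (l * S) * (β ^ (S + d * S) - 1)) := by
    have : (l + d + 1) * S = l * S + (S + d * S) := by ring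
    rw [this, pow_add]; ring
  have e2 : β ^ S ≤ β ^ (S + d * S) := pow_le_pow_right₀ hβ.le (by omega)
  have e3 : 1 ≤ β ^ (l * S) := one_le_pow₀ hβ.le
  have e4 : X ≤ β ^ (S + d * S) - 1 := by linarith
  have e5 : X ≤ β ^ (l * S) * (β ^ (S + d * S) - 1) := by
    calc X = 1 * X := (one_mul _).symm
      _ ≤ β ^ (l * S) * (β ^ (S + d * S) - 1) := mul_le_mul e3 e4 hX0 (by linarith)
  rw [e1]
  calc X = 1 * X := (one_mul _).symm
    _ ≤ A * (β ^ (l * S) * (β ^ (S + d * S) - 1)) := mul_le_mul hA e5 hX0 (by linarith)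

lemma exp_neg_le {x : ℝ} (hx : 0 < x) : Real.exp (-x) ≤ 1 / x := by
  rw [Real.exp_neg, inv_eq_one_div]
  exact one_div_le_one_div_of_le hx (by linarith [Real.add_one_le_exp x])

lemma double_sum_bound {J : ℕ} (hJ : 0 < J) {κ : ℝ} {f : ℕ → ℕ → ℝ} {s : ℝ}
    (hdiag : ∀ j, f j j ≤ 1) (hoff : ∀ j l, j ≠ l → f j l ≤ s) (hs : 0 ≤ s) (hκ : 0 ≤ κ) :
    ∑ j ∈ range J, ∑ l ∈ range J, κ * κ * f j l ≤ κ ^ 2 * (J + J ^ 2 * s) := by
  have h1 : ∀ j ∈ range J, ∑ l ∈ range J, κ * κ * f j l ≤ κ ^ 2 * (1 + J * s) := by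
    intro j hj
    calc ∑ l ∈ range J, κ * κ * f j l ≤ ∑ l ∈ range J, κ ^ 2 * ((if l = j then 1 else 0) + s) := by
          refine sum_le_sum (fun l _ => ?_)
          rw [← sq]
          refine mul_le_mul_of_nonneg_left ?_ (sq_nonneg _)
          split_ifs with h
          · rw [h]; linarith [hdiag j]
          · rw [zero_add]; exact hoff j l (fun h' => h h'.symm)
      _ = κ ^ 2 * (1 + J * s) := by
          rw [← mul_sum, sum_add_distrib, sum_ite_eq' (range J) j, if_pos hj, sum_const, card_range, nsmul_eq_mul]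
  refine (sum_le_sum h1).trans ?_
  rw [sum_const, card_range, nsmul_eq_mul]
  exact le_of_eq (by ring)

/-- Let β be a Salem number of degree four with 1 < β < 2: an algebraic integer whose minimal polynomial over ℚ has degree 4, has β⁻¹ as a root, and has its remaining complex roots on the unit circle. Then the unbiased Bernoulli convolution with parameter β⁻¹ — the distribution of ∑ₙ ±β⁻ⁿ with independent fair signs, built as the push-forward of the infinite product of fair coins — is singular with respect to Lebesgue measure on the line. -/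
theorem result
    (β : ℝ) (hβ : IsQuarticSalem β) (hβ₂ : β < 2) :
    (bernoulliConvolution β⁻¹).MutuallySingular (volume : Measure ℝ) := by
  have hβ1 : 1 < β := hβ.1
  obtain ⟨z, hz, hint, hconj⟩ := exists_conj hβ
  have hc0 : 0 < β⁻¹ := by positivity
  have hc1 : β⁻¹ < 1 := inv_lt_one_of_one_lt₀ hβ1
  rcases pure_type hc0 hc1 with hsing | hac
  · exact hsing
  exfalso
  have hP := isProb_bc hc0.le hc1
  set c : ℝ := β⁻¹ with hc
  set ν := bernoulliConvolution c with hν
  have hβc : β * c = 1 := mul_inv_cancel₀ (by positivity)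
  have hpi := Real.pi_pos
  set N : ℝ → ℝ := fun x => ‖charFun ν (Real.pi * x)‖ with hN
  -- the context
  obtain ⟨b0, hb0, hb0'⟩ : ∃ b0 : ℝ, 0 < b0 ∧ ∀ x, |x| ≤ b0 → 1 / 2 ≤ N x := by
    have hcont : Continuous N := by
      have : Continuous (charFun ν) := continuous_charFun
      exact (this.comp (continuous_const.mul continuous_id)).norm
    have hN0 : N 0 = 1 := by
      simp only [hN, mul_zero, charFun_zero]
      simp
    have h1 : ∀ᶠ x in nhds (0 : ℝ), 1 / 2 < N x := by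
      have := hcont.tendsto 0
      rw [hN0] at this
      exact this.eventually (lt_mem_nhds (by norm_num))
    obtain ⟨ε, hε, hε'⟩ := Metric.eventually_nhds_iff.mp h1
    refine ⟨ε / 2, by positivity, fun x hx => (hε' ?_).le⟩
    rw [Real.dist_eq, sub_zero]
    linarith
  set b : ℝ := min b0 (min (1 / 100) ((1 - c) / 100)) with hb
  have hctx : Ctx β c b z N := by
    refine ⟨hβ1, hβc, hz, ?_, ?_, ?_, ?_, fun x => norm_nonneg _, fun x => norm_charFun_le_one _, ?_⟩
    · have : 0 < (1 - c) / 100 := by linarith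
      positivity
    · exact (min_le_right _ _).trans (min_le_left _ _)
    · exact (min_le_right _ _).trans (min_le_right _ _)
    · intro x
      simp only [hN]
      rw [hν, charFun_bc hc0.le hc1, norm_mul, Complex.norm_real, Real.norm_eq_abs]
      congr 3
      ring
    · intro x hx
      exact hb0' x (hx.trans (min_le_left _ _))
  have hseed := seed hctx hint hconj
  -- the reference measure
  set γ : Measure ℝ := gaussianReal 0 1 with hγ
  have hνγ : ν ≪ γ := hac.trans (gaussianReal_absolutelyContinuous' 0 (by norm_num))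
  obtain ⟨δ, hδ, hbound⟩ := ac_bound hνγ
  obtain ⟨r0, hr0, hgap⟩ := exists_gap hβ1
  obtain ⟨A, r, K, hrε, ⟨B, C, L, S, hr, hL, hrL, hKr⟩, hK4, hM⟩ :=
    iterate hctx hseed (min r0 (1 / 1000)) (max 1600 (1600 / δ)) (by positivity)
  have hrr0 : r ≤ r0 := hrε.trans (min_le_left _ _)
  have hr1 : r ≤ 1 / 1000 := hrε.trans (min_le_right _ _)
  obtain ⟨g0, hg01, hg02, hg03⟩ := hgap r hr hrr0
  have h0 := hctx.c0
  set a : ℝ := N A with ha
  have ha0 : 0 < a := N_pos hctx S
  have ha1 : a ≤ 1 := hctx.N1 A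
  have hA1 := S.A1
  have hroot : ∀ n : ℕ, (2 * (n : ℝ)) ^ 4 * r ^ 3 ≤ 1 → 2 * (n : ℝ) * r ≤ 1 := by
    intro n hn
    by_contra hcon
    push Not at hcon
    have h2 : (1 : ℝ) < (2 * (n : ℝ) * r) ^ 4 := one_lt_pow₀ hcon (by norm_num)
    have h3 : (2 * (n : ℝ) * r) ^ 4 = ((2 * (n : ℝ)) ^ 4 * r ^ 3) * r := by ring
    rw [h3] at h2
    have h4 : ((2 * (n : ℝ)) ^ 4 * r ^ 3) * r ≤ 1 * 1 := mul_le_mul hn (by linarith) hr.le (by norm_num)
    linarith
  set s : ℕ := K + g0 with hs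
  have hsr : (s : ℝ) * r ≤ 1 := by
    have e1 := hroot K hK4
    have e2 := hroot g0 hg03
    rw [hs]; push_cast; linarith
  have hs1 : (1 : ℝ) ≤ s := by
    have : 1 ≤ s := by omega
    exact_mod_cast this
  have hX : c ^ g0 * (L + K + 1) ≤ 1 := by
    have e1 : r * (L + K + 1) ≤ 3 := by
      have : r * (L + K + 1) = r * L + K * r + r := by ring
      rw [this]; linarith
    have e2 : r * (L + K + 1) ≤ r * β ^ g0 := e1.trans hg02
    have e3 : L + K + 1 ≤ β ^ g0 := le_of_mul_le_mul_left e2 hr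
    have e5 : c ^ g0 * β ^ g0 = 1 := by rw [← mul_pow, mul_comm, hβc, one_pow]
    calc c ^ g0 * (L + K + 1) ≤ c ^ g0 * β ^ g0 := mul_le_mul_of_nonneg_left e3 (pow_nonneg h0.le _)
      _ = 1 := e5
  -- number of terms
  set J : ℕ := ⌊1 / (400 * (r ^ 2 * s))⌋₊ with hJ
  have hrs0 : 0 < r ^ 2 * s := by positivity
  have hrs1 : r ^ 2 * s ≤ r := by
    have : r ^ 2 * s = r * (s * r) := by ring
    rw [this]
    exact mul_le_of_le_one_right hr.le hsr
  have hJ1 : (J : ℝ) * (r ^ 2 * s) ≤ 1 / 400 := by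
    have : (J : ℝ) ≤ 1 / (400 * (r ^ 2 * s)) := Nat.floor_le (by positivity)
    rw [le_div_iff₀ (by positivity)] at this
    linarith
  have hJ0 : 0 < J := by
    rw [hJ, Nat.floor_pos, le_div_iff₀ (by positivity)]
    linarith
  have hJ0' : (1 : ℝ) ≤ J := by exact_mod_cast hJ0
  have hJ2 : 1 / 800 < (J : ℝ) * r := by
    have h1 : 1 / (400 * (r ^ 2 * s)) < (J : ℝ) + 1 := Nat.lt_floor_add_one _
    rw [div_lt_iff₀ (by positivity)] at h1
    have h2 : ((J : ℝ) + 1) * (400 * (r ^ 2 * s)) ≤ (2 * J) * (400 * r) :=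
      mul_le_mul (by linarith) (by linarith) (by positivity) (by positivity)
    linarith
  -- J a^2 large
  have hJa : max 1600 (1600 / δ) / 800 ≤ J * a ^ 2 := by
    have h1 : J * (max 1600 (1600 / δ) * r) ≤ J * a ^ 2 := mul_le_mul_of_nonneg_left hM (by positivity)
    have h2 : 0 < max 1600 (1600 / δ) := by positivity
    have h3 : max 1600 (1600 / δ) * (1 / 800) ≤ max 1600 (1600 / δ) * (J * r) :=
      mul_le_mul_of_nonneg_left hJ2.le h2.le
    linarith
  have hJa1 : 2 ≤ J * a ^ 2 := by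
    have := le_max_left 1600 (1600 / δ)
    linarith
  have hJa2 : 2 / δ ≤ J * a ^ 2 := by
    have h1 := le_max_right 1600 (1600 / δ)
    have h2 : 1600 / δ / 800 = 2 / δ := by ring
    linarith
  -- the test function
  set ω : ℕ → ℝ := fun j => Real.pi * (A * β ^ (j * s)) with hω
  have hNω : ∀ j < J, a / 2 ≤ ‖charFun ν (ω j)‖ := by
    intro j hj
    refine N_grow hctx S hr.le (t := j * s) ?_ (by linarith)
    push_cast
    have : (j : ℝ) ≤ J := by exact_mod_cast hj.le
    have h1 : (j : ℝ) * (r ^ 2 * s) ≤ J * (r ^ 2 * s) := mul_le_mul_of_nonneg_right this hrs0.le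
    linarith
  set κ : ℝ := 1 / (J * a) with hκ
  have hκ0 : 0 < κ := by positivity
  set σ : ℕ → ℂ := fun j => κ * ((starRingEnd ℂ) (charFun ν (ω j)) / ‖charFun ν (ω j)‖) with hσ
  have hσn : ∀ j, ‖σ j‖ ≤ κ := by
    intro j
    simp only [hσ]
    rw [norm_mul, Complex.norm_real, Real.norm_eq_abs, abs_of_pos hκ0, norm_div, RCLike.norm_conj,
      Complex.norm_real, norm_norm]
    exact mul_le_of_le_one_right hκ0.le (div_self_le_one _)
  have hint1 : ∫ x, trig (range J) σ ω x ∂ν = ((κ * ∑ j ∈ range J, ‖charFun ν (ω j)‖ : ℝ) : ℂ) := by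
    rw [integral_trig]
    push_cast
    rw [mul_sum]
    refine sum_congr rfl (fun j hj => ?_)
    have hne : (‖charFun ν (ω j)‖ : ℂ) ≠ 0 := by
      have := hNω j (mem_range.mp hj)
      have h2 : 0 < ‖charFun ν (ω j)‖ := by linarith
      exact_mod_cast h2.ne'
    simp only [hσ]
    rw [mul_assoc]
    congr 1
    rw [div_mul_eq_mul_div, mul_comm, Complex.mul_conj, Complex.normSq_eq_norm_sq, div_eq_iff hne]
    push_cast
    ring
  have hlow : 1 / 2 ≤ ‖∫ x, trig (range J) σ ω x ∂ν‖ := by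
    rw [hint1, Complex.norm_real, Real.norm_eq_abs]
    refine le_trans ?_ (le_abs_self _)
    have h1 : ∑ j ∈ range J, (a / 2) ≤ ∑ j ∈ range J, ‖charFun ν (ω j)‖ :=
      sum_le_sum (fun j hj => hNω j (mem_range.mp hj))
    rw [sum_const, card_range, nsmul_eq_mul] at h1
    calc (1 / 2 : ℝ) = κ * (J * (a / 2)) := by
          rw [hκ]; field_simp
      _ ≤ _ := mul_le_mul_of_nonneg_left h1 hκ0.le
  -- second moments
  have hsq : ∀ (μ : Measure ℝ) [IsProbabilityMeasure μ] (t : ℝ), 0 ≤ t →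
      (∀ j l : ℕ, l < j → ‖charFun μ (ω j - ω l)‖ ≤ t) →
      ∫ x, ‖trig (range J) σ ω x‖ ^ 2 ∂μ ≤ κ ^ 2 * (J + J ^ 2 * t) := by
    intro μ _ t ht hμ
    refine (integral_trig_sq _ _ _ μ).trans ?_
    refine le_trans ?_ (double_sum_bound hJ0 (f := fun j l => ‖charFun μ (ω j - ω l)‖) ?_ ?_ ht hκ0.le)
    · refine sum_le_sum (fun j _ => sum_le_sum (fun l _ => ?_))
      exact mul_le_mul_of_nonneg_right (mul_le_mul (hσn j) (hσn l) (norm_nonneg _) hκ0.le) (norm_nonneg _)
    · intro j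
      exact norm_charFun_le_one _
    · intro j l hjl
      rcases lt_or_gt_of_ne hjl with h | h
      · have : ω j - ω l = -(ω l - ω j) := by ring
        rw [this, charFun_neg, RCLike.norm_conj]
        exact hμ l j h
      · exact hμ j l h
  have hν2 : ∫ x, ‖trig (range J) σ ω x‖ ^ 2 ∂ν ≤ 18 := by
    refine (hsq ν (16 * a ^ 2) (by positivity) ?_).trans ?_
    · intro j l hjl
      have := pair_bound hctx S hr.le hL hrL hX hjl
      have e : ω j - ω l = Real.pi * (A * β ^ (j * (K + g0)) - A * β ^ (l * (K + g0))) := by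
        simp only [hω, hs]; ring
      rw [e]
      exact this
    · have e1 : κ ^ 2 * (J + J ^ 2 * (16 * a ^ 2)) = 1 / (J * a ^ 2) + 16 := by
        rw [hκ]; field_simp
      rw [e1]
      have : 1 / (J * a ^ 2) ≤ 1 / 2 := one_div_le_one_div_of_le (by norm_num) hJa1
      linarith
  have hγ2 : ∫ x, ‖trig (range J) σ ω x‖ ^ 2 ∂γ ≤ δ := by
    refine (hsq γ (1 / J) (by positivity) ?_).trans ?_
    · intro j l hjl
      have h1 : 2 / r ≤ β ^ s - 1 := by
        have e1 : β ^ g0 ≤ β ^ s := pow_le_pow_right₀ hβ1.le (by omega)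
        have e2 : 3 / r ≤ β ^ g0 := by rw [div_le_iff₀ hr]; linarith
        have e3 : 1 ≤ 1 / r := by rw [le_div_iff₀ hr]; linarith
        have e4 : 3 / r = 2 / r + 1 / r := by ring
        linarith
      have h2 := gap_bound hβ1 hA1 h1 (by positivity) hjl
      have h3 : 2 / r ≤ ω j - ω l := by
        have e : ω j - ω l = Real.pi * (A * β ^ (j * s) - A * β ^ (l * s)) := by simp only [hω]; ring
        rw [e]
        have : 1 ≤ Real.pi := by linarith [Real.pi_gt_three]
        have h4 : 0 ≤ 2 / r := by positivity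
        nlinarith
      rw [hγ, charFun_gaussianReal]
      have e2 : (((ω j - ω l : ℝ) : ℂ) * ((0 : ℝ) : ℂ) * Complex.I - ((1 : NNReal) : ℝ) * ((ω j - ω l : ℝ) : ℂ) ^ 2 / 2)
          = ((-((ω j - ω l) ^ 2 / 2) : ℝ) : ℂ) := by
        push_cast; ring
      rw [e2, Complex.norm_exp, Complex.ofReal_re]
      have h5 : (2 / r) ^ 2 ≤ (ω j - ω l) ^ 2 := pow_le_pow_left₀ (by positivity) h3 2
      have h6 : 0 < (ω j - ω l) ^ 2 / 2 := by
        have : 0 < (2 / r) ^ 2 := by positivity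
        linarith
      refine (exp_neg_le h6).trans ?_
      refine one_div_le_one_div_of_le (by positivity) ?_
      -- J ≤ (ω j - ω l)^2/2
      have h7 : (J : ℝ) * r ^ 2 ≤ 1 := by
        have : (J : ℝ) * r ^ 2 ≤ (J : ℝ) * (r ^ 2 * s) :=
          mul_le_mul_of_nonneg_left (le_mul_of_one_le_right (by positivity) hs1) (by positivity)
        linarith
      have h8 : (J : ℝ) ≤ 1 / r ^ 2 := by rwa [le_div_iff₀ (by positivity)]
      have h9 : (2 / r) ^ 2 = 4 * (1 / r ^ 2) := by field_simp; norm_num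
      have h10 : 0 < 1 / r ^ 2 := by positivity
      linarith
    · have e1 : κ ^ 2 * (J + J ^ 2 * (1 / J)) = 2 / (J * a ^ 2) := by
        rw [hκ]; field_simp; norm_num
      rw [e1, div_le_iff₀ (by positivity)]
      rw [div_le_iff₀ hδ] at hJa2
      linarith
  have hfin := hbound (trig (range J) σ ω) (continuous_trig _ _ _)
    ⟨_, norm_trig_le (range J) σ ω⟩ hγ2 hν2
  linarith

end Crest.Agent.S0137
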