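import Mathlib

set_option autoImplicit false

namespace Crest.Agent.S0137

open Finset

/-! ### Elementary inequalities -/

lemma one_sub_sum_le_prod (n : ℕ) (a : ℕ → ℝ) (h : ∀ k < n, 0 ≤ a k) (hs : ∑ k ∈ range n, a k ≤ 1) :
    1 - ∑ k ∈ range n, a k ≤ ∏ k ∈ range n, (1 - a k) := by
  induction n with
  | zero => simp
  | succ n ih =>
    rw [sum_range_succ] at hs ⊢
    rw [prod_range_succ]
    have hn := h n (Nat.lt_succ_self n)
    have h0 : 0 ≤ ∑ k ∈ range n, a k := sum_nonneg (fun k hk => h k (Nat.lt_succ_of_lt (mem_range.mp hk)))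
    have ih' := ih (fun k hk => h k (Nat.lt_succ_of_lt hk)) (by linarith)
    have h1 : 0 ≤ 1 - a n := by linarith
    nlinarith [mul_le_mul_of_nonneg_right ih' h1, mul_nonneg h0 hn]

lemma cos_add_lower {x η : ℝ} (hx : Real.cos x ≠ 0) :
    |Real.cos x| * (1 - (η ^ 2 / 2 + |Real.tan x| * |η|)) ≤ |Real.cos (x + η)| := by
  have h1 : Real.cos (x + η) = Real.cos x * (Real.cos η - Real.tan x * Real.sin η) := by
    rw [Real.cos_add, Real.tan_eq_sin_div_cos]
    field_simp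
  rw [h1, abs_mul]
  refine mul_le_mul_of_nonneg_left ?_ (abs_nonneg _)
  have h2 : 1 - η ^ 2 / 2 ≤ Real.cos η := Real.one_sub_sq_div_two_le_cos
  have h3 : |Real.tan x * Real.sin η| ≤ |Real.tan x| * |η| := by
    rw [abs_mul]
    exact mul_le_mul_of_nonneg_left Real.abs_sin_le_abs (abs_nonneg _)
  have h4 := le_abs_self (Real.cos η - Real.tan x * Real.sin η)
  have h5 := le_abs_self (Real.tan x * Real.sin η)
  linarith

lemma cos_add_upper {x η : ℝ} (hx : Real.cos x ≠ 0) :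
    |Real.cos (x + η)| ≤ |Real.cos x| * (1 + |Real.tan x| * |η|) := by
  have h1 : Real.cos (x + η) = Real.cos x * (Real.cos η - Real.tan x * Real.sin η) := by
    rw [Real.cos_add, Real.tan_eq_sin_div_cos]
    field_simp
  rw [h1, abs_mul]
  refine mul_le_mul_of_nonneg_left ?_ (abs_nonneg _)
  have h2 : |Real.cos η| ≤ 1 := Real.abs_cos_le_one η
  have h3 : |Real.tan x * Real.sin η| ≤ |Real.tan x| * |η| := by
    rw [abs_mul]
    exact mul_le_mul_of_nonneg_left Real.abs_sin_le_abs (abs_nonneg _)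
  have h4 := abs_sub (Real.cos η) (Real.tan x * Real.sin η)
  linarith

lemma tan_add_bound {x η : ℝ} (hx : Real.cos x ≠ 0) (h : η ^ 2 / 2 + |Real.tan x| * |η| ≤ 1 / 2) :
    Real.cos (x + η) ≠ 0 ∧ |Real.tan (x + η)| ≤ 2 * (|Real.tan x| + |η|) := by
  have h1 := cos_add_lower (η := η) hx
  have hpos : 0 < |Real.cos x| := abs_pos.mpr hx
  have h2 : |Real.cos x| / 2 ≤ |Real.cos (x + η)| := by
    refine le_trans ?_ h1
    nlinarith
  have h3 : 0 < |Real.cos (x + η)| := by linarith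
  refine ⟨abs_pos.mp h3, ?_⟩
  rw [Real.tan_eq_sin_div_cos (x + η), abs_div, div_le_iff₀ h3]
  have h4 : |Real.sin (x + η)| ≤ |Real.cos x| * (|Real.tan x| + |η|) := by
    rw [Real.sin_add]
    have h5 : |Real.sin x * Real.cos η| ≤ |Real.cos x| * |Real.tan x| := by
      rw [abs_mul, Real.tan_eq_sin_div_cos, abs_div, mul_div_cancel₀ _ hpos.ne']
      exact mul_le_of_le_one_right (abs_nonneg _) (Real.abs_cos_le_one _)
    have h6 : |Real.cos x * Real.sin η| ≤ |Real.cos x| * |η| := by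
      rw [abs_mul]
      exact mul_le_mul_of_nonneg_left Real.abs_sin_le_abs (abs_nonneg _)
    have := abs_add_le (Real.sin x * Real.cos η) (Real.cos x * Real.sin η)
    nlinarith
  have h7 : 0 ≤ |Real.tan x| + |η| := by positivity
  nlinarith

/-- Perturbation of a block of phases. -/
theorem block {n : ℕ} {x y : ℕ → ℝ} {η L : ℝ} (hη : 0 ≤ η)
    (hxy : ∀ k < n, |x k - y k| ≤ η) (hy : ∀ k < n, Real.cos (Real.pi * y k) ≠ 0)
    (hL : ∑ k ∈ range n, |Real.tan (Real.pi * y k)| ≤ L)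
    (hsmall : n * (Real.pi * η) ^ 2 / 2 + Real.pi * η * L ≤ 1 / 2) :
    (∀ k < n, Real.cos (Real.pi * x k) ≠ 0) ∧
    (∑ k ∈ range n, |Real.tan (Real.pi * x k)| ≤ 2 * (L + n * (Real.pi * η))) ∧
    ((∏ k ∈ range n, |Real.cos (Real.pi * y k)|) / 2 ≤ ∏ k ∈ range n, |Real.cos (Real.pi * x k)|) := by
  have hpi := Real.pi_pos
  set e : ℕ → ℝ := fun k => Real.pi * (x k - y k) with he
  have hxe : ∀ k, Real.pi * x k = Real.pi * y k + e k := fun k => by simp only [he]; ring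
  have hek : ∀ k < n, |e k| ≤ Real.pi * η := by
    intro k hk
    simp only [he, abs_mul, abs_of_pos hpi]
    exact mul_le_mul_of_nonneg_left (hxy k hk) hpi.le
  set a : ℕ → ℝ := fun k => (Real.pi * η) ^ 2 / 2 + |Real.tan (Real.pi * y k)| * (Real.pi * η) with ha
  have ha0 : ∀ k, 0 ≤ a k := fun k => by simp only [ha]; positivity
  have hasum : ∑ k ∈ range n, a k ≤ 1 / 2 := by
    simp only [ha]
    rw [sum_add_distrib, ← sum_mul, sum_const, card_range, nsmul_eq_mul]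
    have : (∑ k ∈ range n, |Real.tan (Real.pi * y k)|) * (Real.pi * η) ≤ L * (Real.pi * η) :=
      mul_le_mul_of_nonneg_right hL (by positivity)
    linarith
  have hak : ∀ k < n, a k ≤ 1 / 2 := by
    intro k hk
    exact le_trans (single_le_sum (f := a) (fun i _ => ha0 i) (mem_range.mpr hk)) hasum
  have hea : ∀ k < n, (e k) ^ 2 / 2 + |Real.tan (Real.pi * y k)| * |e k| ≤ a k := by
    intro k hk
    simp only [ha]
    have h1 := hek k hk
    have h2 : (e k) ^ 2 ≤ (Real.pi * η) ^ 2 := by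
      rw [← sq_abs (e k)]
      exact pow_le_pow_left₀ (abs_nonneg _) h1 2
    have h3 := mul_le_mul_of_nonneg_left h1 (abs_nonneg (Real.tan (Real.pi * y k)))
    linarith
  refine ⟨?_, ?_, ?_⟩
  · intro k hk
    rw [hxe]
    exact (tan_add_bound (hy k hk) ((hea k hk).trans (hak k hk))).1
  · calc ∑ k ∈ range n, |Real.tan (Real.pi * x k)|
        ≤ ∑ k ∈ range n, 2 * (|Real.tan (Real.pi * y k)| + Real.pi * η) := by
          refine sum_le_sum (fun k hk => ?_)
          rw [hxe]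
          have hk' := mem_range.mp hk
          refine ((tan_add_bound (hy k hk') ((hea k hk').trans (hak k hk'))).2).trans ?_
          have := hek k hk'
          linarith
      _ = 2 * ((∑ k ∈ range n, |Real.tan (Real.pi * y k)|) + n * (Real.pi * η)) := by
          rw [← mul_sum, sum_add_distrib, sum_const, card_range, nsmul_eq_mul]
      _ ≤ 2 * (L + n * (Real.pi * η)) := by linarith
  · have h1 : ∏ k ∈ range n, (|Real.cos (Real.pi * y k)| * (1 - a k)) ≤ ∏ k ∈ range n, |Real.cos (Real.pi * x k)| := by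
      refine prod_le_prod ?_ ?_
      · intro k hk
        have := hak k (mem_range.mp hk)
        exact mul_nonneg (abs_nonneg _) (by linarith)
      · intro k hk
        have hk' := mem_range.mp hk
        rw [hxe]
        refine le_trans ?_ (cos_add_lower (hy k hk'))
        exact mul_le_mul_of_nonneg_left (by linarith [hea k hk']) (abs_nonneg _)
    rw [prod_mul_distrib] at h1
    refine le_trans ?_ h1
    rw [div_eq_mul_inv]
    refine mul_le_mul_of_nonneg_left ?_ (prod_nonneg (fun k _ => abs_nonneg _))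
    have h2 := one_sub_sum_le_prod n a (fun k _ => ha0 k) (by linarith)
    linarith

/-- Upper perturbation bound. -/
theorem block_upper {n : ℕ} {x y : ℕ → ℝ} {η L : ℝ} (hη : 0 ≤ η)
    (hxy : ∀ k < n, |x k - y k| ≤ η) (hy : ∀ k < n, Real.cos (Real.pi * y k) ≠ 0)
    (hL : ∑ k ∈ range n, |Real.tan (Real.pi * y k)| ≤ L)
    (hsmall : Real.pi * η * L ≤ 1 / 2) :
    ∏ k ∈ range n, |Real.cos (Real.pi * x k)| ≤ 2 * ∏ k ∈ range n, |Real.cos (Real.pi * y k)| := by
  have hpi := Real.pi_pos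
  have h1 : ∏ k ∈ range n, |Real.cos (Real.pi * x k)|
      ≤ ∏ k ∈ range n, (|Real.cos (Real.pi * y k)| * (1 + |Real.tan (Real.pi * y k)| * (Real.pi * η))) := by
    refine prod_le_prod (fun k _ => abs_nonneg _) ?_
    intro k hk
    have hk' := mem_range.mp hk
    rw [show Real.pi * x k = Real.pi * y k + Real.pi * (x k - y k) by ring]
    refine (cos_add_upper (hy k hk')).trans ?_
    refine mul_le_mul_of_nonneg_left ?_ (abs_nonneg _)
    have : |Real.pi * (x k - y k)| ≤ Real.pi * η := by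
      rw [abs_mul, abs_of_pos hpi]
      exact mul_le_mul_of_nonneg_left (hxy k hk') hpi.le
    have := mul_le_mul_of_nonneg_left this (abs_nonneg (Real.tan (Real.pi * y k)))
    linarith
  rw [prod_mul_distrib] at h1
  refine h1.trans ?_
  rw [mul_comm 2]
  refine mul_le_mul_of_nonneg_left ?_ (prod_nonneg (fun k _ => abs_nonneg _))
  refine (Real.prod_one_add_le_exp_sum _ (fun k => by positivity)).trans ?_
  rw [← sum_mul]
  have h2 : (∑ k ∈ range n, |Real.tan (Real.pi * y k)|) * (Real.pi * η) ≤ 1 / 2 := by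
    have := mul_le_mul_of_nonneg_right hL (show 0 ≤ Real.pi * η by positivity)
    linarith
  have h3 : Real.exp (1 / 2) ≤ 2 := by
    have : Real.exp 1 < 4 := lt_trans Real.exp_one_lt_d9 (by norm_num)
    have h4 : Real.exp (1 / 2) * Real.exp (1 / 2) = Real.exp 1 := by rw [← Real.exp_add]; norm_num
    nlinarith [Real.exp_pos (1 / 2)]
  exact (Real.exp_le_exp.mpr h2).trans h3

/-- A run of small phases. -/
theorem small_run {n : ℕ} {ψ : ℕ → ℝ} (hψ : ∀ k < n, |ψ k| ≤ 1 / 4)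
    (hs : ∑ k ∈ range n, (ψ k) ^ 2 ≤ 1 / 20) :
    (∀ k < n, Real.cos (Real.pi * ψ k) ≠ 0) ∧
    (∑ k ∈ range n, |Real.tan (Real.pi * ψ k)| ≤ 2 * Real.pi * ∑ k ∈ range n, |ψ k|) ∧
    (1 / 2 ≤ ∏ k ∈ range n, |Real.cos (Real.pi * ψ k)|) := by
  have hpi := Real.pi_pos
  have hpi2 : Real.pi ^ 2 ≤ 10 := by
    have := Real.pi_lt_d2
    nlinarith
  have hc : ∀ k < n, 1 - Real.pi ^ 2 * (ψ k) ^ 2 / 2 ≤ Real.cos (Real.pi * ψ k) := by
    intro k _
    have := @Real.one_sub_sq_div_two_le_cos (Real.pi * ψ k)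
    rw [mul_pow] at this
    exact this
  have hc2 : ∀ k < n, 1 / 2 ≤ Real.cos (Real.pi * ψ k) := by
    intro k hk
    have h1 := hc k hk
    have h2 := hψ k hk
    have h3 : (ψ k) ^ 2 ≤ 1 / 16 := by
      rw [← sq_abs]; nlinarith [abs_nonneg (ψ k)]
    nlinarith
  refine ⟨fun k hk => (lt_of_lt_of_le (by norm_num) (hc2 k hk)).ne', ?_, ?_⟩
  · rw [mul_sum]
    refine sum_le_sum (fun k hk => ?_)
    have h1 := hc2 k (mem_range.mp hk)
    rw [Real.tan_eq_sin_div_cos, abs_div, abs_of_pos (lt_of_lt_of_le (by norm_num) h1), div_le_iff₀ (by linarith)]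
    have h2 : |Real.sin (Real.pi * ψ k)| ≤ Real.pi * |ψ k| := by
      have := @Real.abs_sin_le_abs (Real.pi * ψ k)
      rwa [abs_mul, abs_of_pos hpi] at this
    have h3 : 0 ≤ Real.pi * |ψ k| := by positivity
    nlinarith
  · have h1 : ∏ k ∈ range n, (1 - Real.pi ^ 2 * (ψ k) ^ 2 / 2) ≤ ∏ k ∈ range n, |Real.cos (Real.pi * ψ k)| := by
      refine prod_le_prod ?_ ?_
      · intro k hk
        have h2 := hψ k (mem_range.mp hk)
        have h3 : (ψ k) ^ 2 ≤ 1 / 16 := by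
          rw [← sq_abs]; nlinarith [abs_nonneg (ψ k)]
        nlinarith
      · intro k hk
        exact (hc k (mem_range.mp hk)).trans (le_abs_self _)
    refine le_trans ?_ h1
    have h2 : ∑ k ∈ range n, Real.pi ^ 2 * (ψ k) ^ 2 / 2 ≤ 1 / 2 := by
      have : ∑ k ∈ range n, Real.pi ^ 2 * (ψ k) ^ 2 / 2 = Real.pi ^ 2 / 2 * ∑ k ∈ range n, (ψ k) ^ 2 := by
        rw [mul_sum]; refine sum_congr rfl (fun k _ => by ring)
      rw [this]
      have h0 : 0 ≤ ∑ k ∈ range n, (ψ k) ^ 2 := sum_nonneg (fun k _ => sq_nonneg _)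
      nlinarith [sq_nonneg Real.pi]
    have h3 := one_sub_sum_le_prod n (fun k => Real.pi ^ 2 * (ψ k) ^ 2 / 2) (fun k _ => by positivity) (by linarith)
    linarith

/-! ### phases modulo integers -/

lemma abs_cos_int_sub (m : ℤ) (x : ℝ) : |Real.cos (Real.pi * (m - x))| = |Real.cos (Real.pi * x)| := by
  rw [mul_sub, Real.cos_sub, mul_comm Real.pi (m : ℝ), Real.sin_int_mul_pi, zero_mul, add_zero, abs_mul]
  have : |Real.cos (m * Real.pi)| = 1 := by
    rw [Real.cos_int_mul_pi]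
    rcases Int.even_or_odd m with h | h
    · rw [h.neg_one_zpow]; simp
    · rw [h.neg_one_zpow]; simp
  rw [this, one_mul]

lemma abs_tan_int_sub (m : ℤ) (x : ℝ) : |Real.tan (Real.pi * (m - x))| = |Real.tan (Real.pi * x)| := by
  have : Real.pi * (m - x) = -(Real.pi * x) + m * Real.pi := by ring
  rw [this, Real.tan_add_int_mul_pi, Real.tan_neg, abs_neg]

/-! ### The context and the states -/

structure Ctx (β c b : ℝ) (z : ℂ) (N : ℝ → ℝ) : Prop where
  hβ : 1 < β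
  hβc : β * c = 1
  hz : ‖z‖ = 1
  b0 : 0 < b
  b1 : b ≤ 1 / 100
  b2 : b ≤ (1 - c) / 100
  hN : ∀ x, N x = |Real.cos (Real.pi * x)| * N (x * c)
  N0 : ∀ x, 0 ≤ N x
  N1 : ∀ x, N x ≤ 1
  Nb : ∀ x, |x| ≤ b → 1 / 2 ≤ N x

/-- the integrality relation -/
def G (β c : ℝ) (z : ℂ) (A B : ℝ) (C : ℂ) : Prop :=
  ∀ n : ℕ, ∃ m : ℤ, A * β ^ n + B * c ^ n + 2 * (C * z ^ n).re = m

structure State (β c b : ℝ) (z : ℂ) (A B : ℝ) (C : ℂ) (r : ℝ) (K : ℕ) (L : ℝ) : Prop where
  int : G β c z A B C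
  A1 : 1 ≤ A
  B1 : |B| ≤ b
  C1 : ‖C‖ ≤ r
  Ak : A * c ^ K ≤ b
  ne : ∀ k < K, Real.cos (Real.pi * (A * c ^ k)) ≠ 0
  tan : ∑ k ∈ range K, |Real.tan (Real.pi * (A * c ^ k))| ≤ L

section
variable {β c b : ℝ} {z : ℂ} {N : ℝ → ℝ}

lemma Ctx.c0 (h : Ctx β c b z N) : 0 < c := by
  have h1 := h.hβ
  have h2 := h.hβc
  by_contra hcon
  push Not at hcon
  nlinarith

lemma Ctx.c1 (h : Ctx β c b z N) : c < 1 := by
  have h1 := h.hβ
  have h2 := h.hβc
  have h3 := h.c0
  by_contra hcon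
  push Not at hcon
  nlinarith

lemma N_iter (h : Ctx β c b z N) (n : ℕ) (x : ℝ) :
    N x = (∏ k ∈ range n, |Real.cos (Real.pi * (x * c ^ k))|) * N (x * c ^ n) := by
  induction n with
  | zero => simp
  | succ n ih =>
    rw [prod_range_succ, mul_assoc, pow_succ, ← mul_assoc x, ← h.hN]
    exact ih

lemma G_step {A B : ℝ} {C : ℂ} (hG : G β c z A B C) (q : ℕ) :
    G β c z (A * (β ^ q - 1)) (B * (c ^ q - 1)) (C * (z ^ q - 1)) := by
  intro n
  obtain ⟨m1, h1⟩ := hG (n + q)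
  obtain ⟨m2, h2⟩ := hG n
  refine ⟨m1 - m2, ?_⟩
  push_cast
  rw [← h1, ← h2]
  rw [pow_add, pow_add, pow_add]
  have : C * (z ^ q - 1) * z ^ n = C * (z ^ n * z ^ q) - C * z ^ n := by ring
  rw [this, Complex.sub_re]
  ring

lemma G_shift {A B : ℝ} {C : ℂ} (hG : G β c z A B C) (q : ℕ) :
    G β c z (A * β ^ q) (B * c ^ q) (C * z ^ q) := by
  intro n
  obtain ⟨m1, h1⟩ := hG (n + q)
  refine ⟨m1, ?_⟩
  rw [← h1, pow_add, pow_add, pow_add, mul_assoc, mul_comm (β ^ q), mul_assoc B, mul_comm (c ^ q), mul_assoc C, mul_comm (z ^ q)]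

lemma phase (hβc : β * c = 1) {A B : ℝ} {C : ℂ} (hG : G β c z A B C) {q k : ℕ} (hk : k ≤ q) :
    ∃ m : ℤ, A * (β ^ q - 1) * c ^ k
      = m - (A * c ^ k + (B * c ^ (q - k) + 2 * (C * z ^ (q - k)).re)) := by
  obtain ⟨m, hm⟩ := hG (q - k)
  refine ⟨m, ?_⟩
  rw [← hm]
  have : β ^ q * c ^ k = β ^ (q - k) := by
    have h1 : β ^ q = β ^ (q - k) * β ^ k := by rw [← pow_add, Nat.sub_add_cancel hk]
    rw [h1, mul_assoc, ← mul_pow, hβc, one_pow, mul_one]
  linear_combination A * this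

lemma abs_re_le {C : ℂ} {r : ℝ} (hC : ‖C‖ ≤ r) (hz : ‖z‖ = 1) (n : ℕ) : |2 * (C * z ^ n).re| ≤ 2 * r := by
  rw [abs_mul, abs_two]
  have h1 := Complex.abs_re_le_norm (C * z ^ n)
  rw [norm_mul, norm_pow, hz, one_pow, mul_one] at h1
  linarith

lemma geom_le (h : Ctx β c b z N) (n : ℕ) : ∑ k ∈ range n, c ^ k ≤ 1 / (1 - c) := by
  have h0 := h.c0
  have h1 := h.c1
  rw [geom_sum_eq h1.ne]
  rw [show (c ^ n - 1) / (c - 1) = (1 - c ^ n) / (1 - c) by rw [← neg_sub, ← neg_sub (1 : ℝ) c, neg_div_neg_eq]]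
  exact div_le_div_of_nonneg_right (by have := pow_nonneg h0.le n; linarith) (by linarith)

lemma geom_le' (h : Ctx β c b z N) (n : ℕ) : ∑ k ∈ range n, c ^ (n - k) ≤ 1 / (1 - c) := by
  have h0 := h.c0
  have h1 := h.c1
  refine le_trans ?_ (geom_le h n)
  rw [← sum_range_reflect (fun k => c ^ k) n]
  refine sum_le_sum (fun k hk => ?_)
  have hk' := mem_range.mp hk
  exact pow_le_pow_of_le_one h0.le h1.le (by omega)

/-- The three parts of the phases of `A (β^q - 1)`, `q = K + g`. -/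
theorem three_parts (h : Ctx β c b z N) {A B : ℝ} {C : ℂ} {r L : ℝ} {K : ℕ}
    (S : State β c b z A B C r K L) (hr : 0 ≤ r) (g : ℕ) :
    (∃ x : ℕ → ℝ, (∀ k < K, |Real.cos (Real.pi * (A * (β ^ (K + g) - 1) * c ^ k))| = |Real.cos (Real.pi * x k)| ∧
        |Real.tan (Real.pi * (A * (β ^ (K + g) - 1) * c ^ k))| = |Real.tan (Real.pi * x k)|) ∧
      (∀ k < K, |x k - A * c ^ k| ≤ b * c ^ g + 2 * r)) ∧
    (∃ ψ : ℕ → ℝ, (∀ j < g, |Real.cos (Real.pi * (A * (β ^ (K + g) - 1) * c ^ (K + j)))| = |Real.cos (Real.pi * ψ j)| ∧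
        |Real.tan (Real.pi * (A * (β ^ (K + g) - 1) * c ^ (K + j)))| = |Real.tan (Real.pi * ψ j)|) ∧
      (∀ j < g, |ψ j| ≤ b * c ^ j + b * c ^ (g - j) + 2 * r)) ∧
    (∀ k < K, |A * (β ^ (K + g) - 1) * c ^ (K + g + k) - A * c ^ k| ≤ b * c ^ g + 2 * r) := by
  have h0 := h.c0
  have h1 := h.c1
  refine ⟨⟨fun k => A * c ^ k + (B * c ^ (K + g - k) + 2 * (C * z ^ (K + g - k)).re), ?_, ?_⟩,
    ⟨fun j => A * c ^ (K + j) + (B * c ^ (K + g - (K + j)) + 2 * (C * z ^ (K + g - (K + j))).re), ?_, ?_⟩, ?_⟩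
  · intro k hk
    obtain ⟨m, hm⟩ := phase h.hβc S.int (q := K + g) (k := k) (by omega)
    rw [hm, abs_cos_int_sub, abs_tan_int_sub]
    exact ⟨rfl, rfl⟩
  · intro k hk
    have e : A * c ^ k + (B * c ^ (K + g - k) + 2 * (C * z ^ (K + g - k)).re) - A * c ^ k
        = B * c ^ (K + g - k) + 2 * (C * z ^ (K + g - k)).re := by ring
    simp only
    rw [e]
    refine (abs_add_le _ _).trans (add_le_add ?_ (abs_re_le S.C1 h.hz _))
    rw [abs_mul, abs_of_nonneg (pow_nonneg h0.le _)]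
    exact mul_le_mul S.B1 (pow_le_pow_of_le_one h0.le h1.le (by omega)) (pow_nonneg h0.le _) h.b0.le
  · intro j hj
    obtain ⟨m, hm⟩ := phase h.hβc S.int (q := K + g) (k := K + j) (by omega)
    rw [hm, abs_cos_int_sub, abs_tan_int_sub]
    exact ⟨rfl, rfl⟩
  · intro j hj
    rw [add_assoc]
    refine (abs_add_le _ _).trans (add_le_add ?_ ?_)
    · rw [abs_of_nonneg (mul_nonneg (by linarith [S.A1]) (pow_nonneg h0.le _)), pow_add, ← mul_assoc]
      exact mul_le_mul_of_nonneg_right S.Ak (pow_nonneg h0.le _)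
    · refine (abs_add_le _ _).trans (add_le_add ?_ (abs_re_le S.C1 h.hz _))
      rw [abs_mul, abs_of_nonneg (pow_nonneg h0.le _), show K + g - (K + j) = g - j by omega]
      exact mul_le_mul_of_nonneg_right S.B1 (pow_nonneg h0.le _)
  · intro k hk
    have e : A * (β ^ (K + g) - 1) * c ^ (K + g + k) - A * c ^ k = - (A * c ^ K * (c ^ g * c ^ k)) := by
      have e1 : β ^ (K + g) * c ^ (K + g) = 1 := by rw [← mul_pow, h.hβc, one_pow]
      rw [pow_add c (K + g) k]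
      have e2 : c ^ (K + g) = c ^ K * c ^ g := pow_add _ _ _
      have e3 : A * (β ^ (K + g) - 1) * (c ^ (K + g) * c ^ k) - A * c ^ k
          = A * c ^ k * (β ^ (K + g) * c ^ (K + g) - 1) - A * c ^ (K + g) * c ^ k := by ring
      rw [e3, e1, e2]; ring
    rw [e, abs_neg]
    have e4 : 0 ≤ A * c ^ K := mul_nonneg (by linarith [S.A1]) (pow_nonneg h0.le _)
    have e5 : c ^ g * c ^ k ≤ c ^ g := mul_le_of_le_one_right (pow_nonneg h0.le _) (pow_le_one₀ h0.le h1.le)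
    rw [abs_of_nonneg (by positivity)]
    have : A * c ^ K * (c ^ g * c ^ k) ≤ b * c ^ g :=
      mul_le_mul S.Ak e5 (by positivity) h.b0.le
    linarith

lemma pi_le : Real.pi ≤ 3.15 := Real.pi_lt_d2.le

lemma pi_sq_le : Real.pi ^ 2 ≤ 10 := by
  have h1 := pi_le
  have h2 := Real.pi_pos
  nlinarith

lemma sq3 (u v w : ℝ) : (u + v + w) ^ 2 ≤ 3 * (u ^ 2 + v ^ 2 + w ^ 2) := by
  nlinarith [sq_nonneg (u - v), sq_nonneg (u - w), sq_nonneg (v - w)]

lemma sq2 (u v : ℝ) : (u + v) ^ 2 ≤ 2 * u ^ 2 + 2 * v ^ 2 := by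
  nlinarith [sq_nonneg (u - v)]

lemma b_sq {b : ℝ} (h0 : 0 < b) (h1 : b ≤ 1 / 100) : b ^ 2 ≤ 1 / 10000 := by nlinarith

theorem step (h : Ctx β c b z N) {A B : ℝ} {C : ℂ} {r L : ℝ} {K : ℕ}
    (S : State β c b z A B C r K L) (hr : 0 ≤ r) (hL : 0 ≤ L) (hrL : r * L ≤ 1 / 40)
    {g : ℕ} (hg1 : 1 ≤ g) (hg : c ^ g * (L + K + 1) ≤ 1) (hq : r ^ 2 * (K + g : ℕ) ≤ 1 / 400)
    (hβq : 2 ≤ β ^ (K + g)) {ρ : ℝ} (hρ : ‖z ^ (K + g) - 1‖ ≤ ρ) :
    State β c b z (A * (β ^ (K + g) - 1)) (B * (c ^ (K + g) - 1)) (C * (z ^ (K + g) - 1)) (ρ * r)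
      (K + g + K) (4 * L + 1 + 40 * r * (K + g : ℕ)) ∧
    (N A) ^ 2 / 16 ≤ N (A * (β ^ (K + g) - 1)) := by
  have h0 := h.c0
  have h1 := h.c1
  have hb0 := h.b0
  have hb1 := h.b1
  have hb2 := h.b2
  have hpi := Real.pi_pos
  have hpi' := pi_le
  have hpi2 : Real.pi ^ 2 ≤ 10 := pi_sq_le
  have hcg0 : 0 ≤ c ^ g := pow_nonneg h0.le _
  have hcg1 : c ^ g ≤ 1 := pow_le_one₀ h0.le h1.le
  have hcgL : c ^ g * L ≤ 1 := by
    have : 0 ≤ c ^ g * ((K : ℝ) + 1) := by positivity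
    linarith
  have hcgK : c ^ g * K ≤ 1 := by
    have : 0 ≤ c ^ g * (L + 1) := by positivity
    linarith
  have hK0 : (0 : ℝ) ≤ K := Nat.cast_nonneg K
  have hg0 : (1 : ℝ) ≤ g := by exact_mod_cast hg1
  push_cast at hq
  have hr2K0 : 0 ≤ r ^ 2 * K := by positivity
  have hr2g0 : 0 ≤ r ^ 2 * g := by positivity
  have hr2K : r ^ 2 * K ≤ 1 / 400 := by linarith
  have hr2g : r ^ 2 * g ≤ 1 / 400 := by linarith
  have hr20 : r ≤ 1 / 20 := by
    have e0 : r ^ 2 * 1 ≤ r ^ 2 * g := mul_le_mul_of_nonneg_left hg0 (sq_nonneg r)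
    have : r ^ 2 ≤ (1 / 20) ^ 2 := by linarith
    exact le_of_sq_le_sq this (by norm_num) |> fun h => h
  set η : ℝ := b * c ^ g + 2 * r with hηdef
  have hη : 0 ≤ η := by positivity
  have hηL : η * L ≤ b + 1 / 20 := by
    have : η * L = b * (c ^ g * L) + 2 * (r * L) := by rw [hηdef]; ring
    rw [this]
    have e0 : b * (c ^ g * L) ≤ b := mul_le_of_le_one_right hb0.le hcgL
    linarith
  have hKη : K * η ≤ b + 2 * r * K := by
    have : K * η = b * (c ^ g * K) + 2 * r * K := by rw [hηdef]; ring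
    rw [this]
    have e0 : b * (c ^ g * K) ≤ b := mul_le_of_le_one_right hb0.le hcgK
    linarith
  have hKη2 : K * η ^ 2 ≤ 2 * b ^ 2 + 1 / 50 := by
    have e1 : η ^ 2 ≤ 2 * (b * c ^ g) ^ 2 + 2 * (2 * r) ^ 2 := sq2 _ _
    have e2 : K * η ^ 2 ≤ K * (2 * (b * c ^ g) ^ 2 + 2 * (2 * r) ^ 2) := mul_le_mul_of_nonneg_left e1 hK0
    have e3 : K * (2 * (b * c ^ g) ^ 2 + 2 * (2 * r) ^ 2) = 2 * b ^ 2 * ((c ^ g * K) * c ^ g) + 8 * (r ^ 2 * K) := by ring
    have e4 : (c ^ g * K) * c ^ g ≤ 1 := mul_le_one₀ hcgK hcg0 hcg1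
    have e5 : 2 * b ^ 2 * ((c ^ g * K) * c ^ g) ≤ 2 * b ^ 2 :=
      mul_le_of_le_one_right (by positivity) e4
    linarith
  have hsmall : K * (Real.pi * η) ^ 2 / 2 + Real.pi * η * L ≤ 1 / 2 := by
    have e1 : K * (Real.pi * η) ^ 2 / 2 = Real.pi ^ 2 * (K * η ^ 2) / 2 := by ring
    have e2 : Real.pi ^ 2 * (K * η ^ 2) ≤ 10 * (2 * b ^ 2 + 1 / 50) :=
      mul_le_mul hpi2 hKη2 (by positivity) (by norm_num)
    have e3 : Real.pi * η * L ≤ 3.15 * (b + 1 / 20) := by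
      rw [mul_assoc]
      exact mul_le_mul hpi' hηL (by positivity) (by norm_num)
    have e4 : b ^ 2 ≤ 1 / 10000 := b_sq hb0 hb1
    rw [e1]
    linarith
  obtain ⟨⟨x, hx1, hx2⟩, ⟨ψ, hψ1, hψ2⟩, hx3⟩ := three_parts h S hr g
  have blk1 := block hη hx2 S.ne S.tan hsmall
  have blk3 := block (x := fun k => A * (β ^ (K + g) - 1) * c ^ (K + g + k)) hη hx3 S.ne S.tan hsmall
  -- the middle run
  have hgeo1 := geom_le h g
  have hgeo2 := geom_le' h g
  have hb3 : b * (1 / (1 - c)) ≤ 1 / 100 := by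
    rw [mul_one_div, div_le_iff₀ (by linarith)]
    linarith
  have hsum1 : ∑ j ∈ range g, |ψ j| ≤ 1 / 50 + 2 * r * g := by
    calc ∑ j ∈ range g, |ψ j| ≤ ∑ j ∈ range g, (b * c ^ j + b * c ^ (g - j) + 2 * r) :=
          sum_le_sum (fun j hj => hψ2 j (mem_range.mp hj))
      _ = b * (∑ j ∈ range g, c ^ j) + b * (∑ j ∈ range g, c ^ (g - j)) + 2 * r * g := by
          rw [sum_add_distrib, sum_add_distrib, mul_sum, mul_sum, sum_const, card_range, nsmul_eq_mul]; ring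
      _ ≤ 1 / 50 + 2 * r * g := by
          have e1 := mul_le_mul_of_nonneg_left hgeo1 hb0.le
          have e2 := mul_le_mul_of_nonneg_left hgeo2 hb0.le
          linarith
  have hsum2 : ∑ j ∈ range g, (ψ j) ^ 2 ≤ 1 / 20 := by
    calc ∑ j ∈ range g, (ψ j) ^ 2 ≤ ∑ j ∈ range g, 3 * (b * (b * c ^ j) + b * (b * c ^ (g - j)) + 4 * r ^ 2) := by
          refine sum_le_sum (fun j hj => ?_)
          have e1 := hψ2 j (mem_range.mp hj)
          have e2 : (ψ j) ^ 2 ≤ (b * c ^ j + b * c ^ (g - j) + 2 * r) ^ 2 := by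
            rw [← sq_abs (ψ j)]
            exact pow_le_pow_left₀ (abs_nonneg _) e1 2
          have e3 : 0 ≤ c ^ j := pow_nonneg h0.le _
          have e3' : c ^ j ≤ 1 := pow_le_one₀ h0.le h1.le
          have e4 : 0 ≤ c ^ (g - j) := pow_nonneg h0.le _
          have e4' : c ^ (g - j) ≤ 1 := pow_le_one₀ h0.le h1.le
          have e5 : (b * c ^ j) ^ 2 ≤ b * (b * c ^ j) := by
            have : (b * c ^ j) ^ 2 = b * (b * c ^ j) * c ^ j := by ring
            rw [this]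
            exact mul_le_of_le_one_right (by positivity) e3'
          have e6 : (b * c ^ (g - j)) ^ 2 ≤ b * (b * c ^ (g - j)) := by
            have : (b * c ^ (g - j)) ^ 2 = b * (b * c ^ (g - j)) * c ^ (g - j) := by ring
            rw [this]
            exact mul_le_of_le_one_right (by positivity) e4'
          have e7 : (b * c ^ j + b * c ^ (g - j) + 2 * r) ^ 2
              ≤ 3 * ((b * c ^ j) ^ 2 + (b * c ^ (g - j)) ^ 2 + (2 * r) ^ 2) := sq3 _ _ _
          have e8 : (2 * r) ^ 2 = 4 * r ^ 2 := by ring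
          linarith
      _ = 3 * (b * (b * (∑ j ∈ range g, c ^ j)) + b * (b * (∑ j ∈ range g, c ^ (g - j))) + 4 * (r ^ 2 * g)) := by
          rw [← mul_sum, sum_add_distrib, sum_add_distrib, mul_sum, mul_sum, mul_sum, mul_sum, sum_const, card_range, nsmul_eq_mul]; ring
      _ ≤ 1 / 20 := by
          have e1 := mul_le_mul_of_nonneg_left hgeo1 hb0.le
          have e2 := mul_le_mul_of_nonneg_left hgeo2 hb0.le
          have e3 : b * (b * (∑ j ∈ range g, c ^ j)) ≤ b * (1 / 100) := mul_le_mul_of_nonneg_left (by linarith) hb0.le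
          have e4 : b * (b * (∑ j ∈ range g, c ^ (g - j))) ≤ b * (1 / 100) := mul_le_mul_of_nonneg_left (by linarith) hb0.le
          linarith
  have hψ4 : ∀ j < g, |ψ j| ≤ 1 / 4 := by
    intro j hj
    refine (hψ2 j hj).trans ?_
    have e3' : b * c ^ j ≤ b := mul_le_of_le_one_right hb0.le (pow_le_one₀ h0.le h1.le)
    have e4' : b * c ^ (g - j) ≤ b := mul_le_of_le_one_right hb0.le (pow_le_one₀ h0.le h1.le)
    linarith
  have run := small_run hψ4 hsum2
  refine ⟨⟨G_step S.int _, ?_, ?_, ?_, ?_, ?_, ?_⟩, ?_⟩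
  · have e1 := S.A1
    have e2 : 1 * 1 ≤ A * (β ^ (K + g) - 1) := mul_le_mul e1 (by linarith) (by norm_num) (by linarith)
    linarith
  · rw [abs_mul]
    have e1 : |c ^ (K + g) - 1| ≤ 1 := by
      rw [abs_le]
      have := pow_nonneg h0.le (K + g)
      have := pow_le_one₀ h0.le h1.le (n := K + g)
      constructor <;> linarith
    exact (mul_le_of_le_one_right (abs_nonneg _) e1).trans S.B1
  · rw [norm_mul, mul_comm]
    exact mul_le_mul hρ S.C1 (norm_nonneg _) ((norm_nonneg _).trans hρ)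
  · have e1 : A * (β ^ (K + g) - 1) * c ^ (K + g + K) = A * c ^ K * (β ^ (K + g) * c ^ (K + g) - c ^ (K + g)) := by
      rw [pow_add c (K + g) K]; ring
    rw [e1, ← mul_pow, h.hβc, one_pow]
    have e2 : 0 ≤ A * c ^ K := mul_nonneg (by linarith [S.A1]) (pow_nonneg h0.le _)
    have e3 : 1 - c ^ (K + g) ≤ 1 := by
      have := pow_nonneg h0.le (K + g); linarith
    exact (mul_le_of_le_one_right e2 e3).trans S.Ak
  · intro k hk
    rw [← abs_ne_zero]
    by_cases hk1 : k < K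
    · rw [(hx1 k hk1).1, abs_ne_zero]
      exact blk1.1 k hk1
    · by_cases hk2 : k < K + g
      · obtain ⟨j, rfl⟩ := Nat.exists_eq_add_of_le (not_lt.mp hk1)
        rw [(hψ1 j (by omega)).1, abs_ne_zero]
        exact run.1 j (by omega)
      · obtain ⟨j, rfl⟩ := Nat.exists_eq_add_of_le (not_lt.mp hk2)
        rw [abs_ne_zero]
        exact blk3.1 j (by omega)
  · rw [sum_range_add, sum_range_add]
    have e1 : ∑ k ∈ range K, |Real.tan (Real.pi * (A * (β ^ (K + g) - 1) * c ^ k))| ≤ 2 * (L + K * (Real.pi * η)) := by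
      rw [sum_congr rfl (fun k hk => (hx1 k (mem_range.mp hk)).2)]
      exact blk1.2.1
    have e2 : ∑ j ∈ range g, |Real.tan (Real.pi * (A * (β ^ (K + g) - 1) * c ^ (K + j)))| ≤ 2 * Real.pi * (1 / 50 + 2 * r * g) := by
      rw [sum_congr rfl (fun j hj => (hψ1 j (mem_range.mp hj)).2)]
      refine run.2.1.trans ?_
      exact mul_le_mul_of_nonneg_left hsum1 (by positivity)
    have e3 := blk3.2.1
    have e4 : K * (Real.pi * η) ≤ 3.15 * (b + 2 * r * K) := by
      rw [show K * (Real.pi * η) = Real.pi * (K * η) by ring]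
      exact mul_le_mul hpi' hKη (by positivity) (by norm_num)
    have e5 : 2 * Real.pi * (1 / 50 + 2 * r * g) ≤ 2 * 3.15 * (1 / 50 + 2 * r * g) :=
      mul_le_mul_of_nonneg_right (by linarith) (by positivity)
    have e6 : 0 ≤ r * K := by positivity
    have e7 : 0 ≤ r * g := by positivity
    have e8 : 40 * r * ((K + g : ℕ) : ℝ) = 40 * (r * K) + 40 * (r * g) := by push_cast; ring
    rw [e8]
    linarith
  · have hNit := N_iter h (K + g + K) (A * (β ^ (K + g) - 1))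
    rw [prod_range_add, prod_range_add] at hNit
    have hP0 : 0 ≤ ∏ k ∈ range K, |Real.cos (Real.pi * (A * c ^ k))| := prod_nonneg (fun _ _ => abs_nonneg _)
    set P := ∏ k ∈ range K, |Real.cos (Real.pi * (A * c ^ k))| with hP
    have f1 : P / 2 ≤ ∏ k ∈ range K, |Real.cos (Real.pi * (A * (β ^ (K + g) - 1) * c ^ k))| := by
      rw [prod_congr rfl (fun k hk => (hx1 k (mem_range.mp hk)).1)]
      exact blk1.2.2
    have f2 : 1 / 2 ≤ ∏ j ∈ range g, |Real.cos (Real.pi * (A * (β ^ (K + g) - 1) * c ^ (K + j)))| := by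
      rw [prod_congr rfl (fun j hj => (hψ1 j (mem_range.mp hj)).1)]
      exact run.2.2
    have f3 : P / 2 ≤ ∏ k ∈ range K, |Real.cos (Real.pi * (A * (β ^ (K + g) - 1) * c ^ (K + g + k)))| := blk3.2.2
    have f4 : 1 / 2 ≤ N (A * (β ^ (K + g) - 1) * c ^ (K + g + K)) := by
      apply h.Nb
      have e1 : A * (β ^ (K + g) - 1) * c ^ (K + g + K) = A * c ^ K * (β ^ (K + g) * c ^ (K + g) - c ^ (K + g)) := by
        rw [pow_add c (K + g) K]; ring
      rw [e1, ← mul_pow, h.hβc, one_pow]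
      have e2 : 0 ≤ A * c ^ K := mul_nonneg (by linarith [S.A1]) (pow_nonneg h0.le _)
      have e3 : 1 - c ^ (K + g) ≤ 1 := by
        have := pow_nonneg h0.le (K + g); linarith
      have e4 : 0 ≤ 1 - c ^ (K + g) := by
        have := pow_le_one₀ h0.le h1.le (n := K + g); linarith
      rw [abs_of_nonneg (mul_nonneg e2 e4)]
      exact (mul_le_of_le_one_right e2 e3).trans S.Ak
    have f5 : N A ≤ P := by
      rw [N_iter h K A, ← hP]
      exact mul_le_of_le_one_right hP0 (h.N1 _)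
    rw [hNit]
    have f6 : (P / 2) * (1 / 2) * (P / 2) * (1 / 2) ≤
        (∏ k ∈ range K, |Real.cos (Real.pi * (A * (β ^ (K + g) - 1) * c ^ k))|)
        * (∏ j ∈ range g, |Real.cos (Real.pi * (A * (β ^ (K + g) - 1) * c ^ (K + j)))|)
        * (∏ k ∈ range K, |Real.cos (Real.pi * (A * (β ^ (K + g) - 1) * c ^ (K + g + k)))|)
        * N (A * (β ^ (K + g) - 1) * c ^ (K + g + K)) := by
      have hP2 : 0 ≤ P / 2 := by positivity
      refine mul_le_mul (mul_le_mul (mul_le_mul f1 f2 (by norm_num) (hP2.trans f1)) f3 hP2 ?_) f4 (by norm_num) ?_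
      · exact mul_nonneg (hP2.trans f1) (le_trans (by norm_num) f2)
      · exact mul_nonneg (mul_nonneg (hP2.trans f1) (le_trans (by norm_num) f2)) (hP2.trans f3)
    refine le_trans ?_ f6
    have f7 : (N A) ^ 2 ≤ P ^ 2 := pow_le_pow_left₀ (h.N0 A) f5 2
    have f8 : (P / 2) * (1 / 2) * (P / 2) * (1 / 2) = P ^ 2 / 16 := by ring
    rw [f8]
    linarith

end

end Crest.Agent.S0137
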