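import Crest.Agent.S0137Dyn

set_option autoImplicit false

namespace Crest.Agent.S0137

open Finset

section
variable {β c b : ℝ} {z : ℂ} {N : ℝ → ℝ}

lemma N_beta_le (h : Ctx β c b z N) (u : ℕ) (x : ℝ) : N (x * β ^ u) ≤ N x := by
  have h1 := N_iter h u (x * β ^ u)
  have h2 : x * β ^ u * c ^ u = x := by rw [mul_assoc, ← mul_pow, h.hβc, one_pow, mul_one]
  rw [h1, h2]
  refine mul_le_of_le_one_left (h.N0 _) ?_
  exact prod_le_one (fun _ _ => abs_nonneg _) (fun _ _ => Real.abs_cos_le_one _)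

lemma N_grow (h : Ctx β c b z N) {A B : ℝ} {C : ℂ} {r L : ℝ} {K : ℕ}
    (S : State β c b z A B C r K L) (hr : 0 ≤ r) {t : ℕ} (ht : r ^ 2 * t ≤ 1 / 400) (hr1 : r ≤ 1 / 20) :
    N A / 2 ≤ N (A * β ^ t) := by
  have h0 := h.c0
  have h1 := h.c1
  have hb0 := h.b0
  have hb1 := h.b1
  have hb2 := h.b2
  have e1 := N_iter h t (A * β ^ t)
  have e2 : A * β ^ t * c ^ t = A := by rw [mul_assoc, ← mul_pow, h.hβc, one_pow, mul_one]
  rw [e2] at e1
  set ψ : ℕ → ℝ := fun k => B * c ^ (t - k) + 2 * (C * z ^ (t - k)).re with hψ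
  have hψb : ∀ k < t, |ψ k| ≤ b * c ^ (t - k) + 2 * r := by
    intro k _
    refine (abs_add_le _ _).trans (add_le_add ?_ (abs_re_le S.C1 h.hz _))
    rw [abs_mul, abs_of_nonneg (pow_nonneg h0.le _)]
    exact mul_le_mul_of_nonneg_right S.B1 (pow_nonneg h0.le _)
  have hψ4 : ∀ k < t, |ψ k| ≤ 1 / 4 := by
    intro k hk
    refine (hψb k hk).trans ?_
    have : b * c ^ (t - k) ≤ b := mul_le_of_le_one_right hb0.le (pow_le_one₀ h0.le h1.le)
    linarith
  have hb3 : b * (1 / (1 - c)) ≤ 1 / 100 := by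
    rw [mul_one_div, div_le_iff₀ (by linarith)]
    linarith
  have hgeo2 := geom_le' h t
  have hs : ∑ k ∈ range t, (ψ k) ^ 2 ≤ 1 / 20 := by
    calc ∑ k ∈ range t, (ψ k) ^ 2 ≤ ∑ k ∈ range t, (2 * (b * (b * c ^ (t - k))) + 8 * r ^ 2) := by
          refine sum_le_sum (fun k hk => ?_)
          have f1 : (ψ k) ^ 2 ≤ (b * c ^ (t - k) + 2 * r) ^ 2 := by
            rw [← sq_abs (ψ k)]
            exact pow_le_pow_left₀ (abs_nonneg _) (hψb k (mem_range.mp hk)) 2
          have f2 := sq2 (b * c ^ (t - k)) (2 * r)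
          have f3 : (b * c ^ (t - k)) ^ 2 ≤ b * (b * c ^ (t - k)) := by
            have : (b * c ^ (t - k)) ^ 2 = b * (b * c ^ (t - k)) * c ^ (t - k) := by ring
            rw [this]
            exact mul_le_of_le_one_right (mul_nonneg hb0.le (mul_nonneg hb0.le (pow_nonneg h0.le _)))
              (pow_le_one₀ h0.le h1.le)
          have f4 : (2 * r) ^ 2 = 4 * r ^ 2 := by ring
          linarith
      _ = 2 * (b * (b * ∑ k ∈ range t, c ^ (t - k))) + 8 * (r ^ 2 * t) := by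
          rw [sum_add_distrib, sum_const, card_range, nsmul_eq_mul, ← mul_sum, ← mul_sum, ← mul_sum]; ring
      _ ≤ 1 / 20 := by
          have f1 := mul_le_mul_of_nonneg_left hgeo2 hb0.le
          have f2 : b * (b * (∑ k ∈ range t, c ^ (t - k))) ≤ b * (1 / 100) :=
            mul_le_mul_of_nonneg_left (by linarith) hb0.le
          linarith
  have run := small_run hψ4 hs
  have e3 : ∏ k ∈ range t, |Real.cos (Real.pi * (A * β ^ t * c ^ k))| = ∏ k ∈ range t, |Real.cos (Real.pi * ψ k)| := by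
    refine prod_congr rfl (fun k hk => ?_)
    have hk' := mem_range.mp hk
    obtain ⟨m, hm⟩ := S.int (t - k)
    have f1 : β ^ t * c ^ k = β ^ (t - k) := by
      have h1 : β ^ t = β ^ (t - k) * β ^ k := by rw [← pow_add, Nat.sub_add_cancel hk'.le]
      rw [h1, mul_assoc, ← mul_pow, h.hβc, one_pow, mul_one]
    have f2 : A * β ^ t * c ^ k = m - ψ k := by
      rw [mul_assoc, f1, ← hm]; simp only [hψ]; ring
    rw [f2, abs_cos_int_sub]
  rw [e1, e3]
  have := run.2.2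
  have hN := h.N0 A
  calc N A / 2 = 1 / 2 * N A := by ring
    _ ≤ _ := mul_le_mul_of_nonneg_right this hN

lemma corr (h : Ctx β c b z N) {A B : ℝ} {C : ℂ} {r L : ℝ} {K : ℕ}
    (S : State β c b z A B C r K L) (hr : 0 ≤ r) (hL : 0 ≤ L) (hrL : r * L ≤ 1 / 40)
    {g : ℕ} (hg : c ^ g * (L + K + 1) ≤ 1) :
    N (A * (β ^ (K + g) - 1)) ≤ 16 * (N A) ^ 2 := by
  have h0 := h.c0
  have h1 := h.c1
  have hb0 := h.b0
  have hb1 := h.b1
  have hpi := Real.pi_pos
  have hpi' := pi_le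
  have hcg0 : 0 ≤ c ^ g := pow_nonneg h0.le _
  have hK0 : (0 : ℝ) ≤ K := Nat.cast_nonneg K
  have hcgL : c ^ g * L ≤ 1 := by
    have : 0 ≤ c ^ g * ((K : ℝ) + 1) := by positivity
    linarith
  set η : ℝ := b * c ^ g + 2 * r with hηdef
  have hη : 0 ≤ η := by positivity
  have hηL : η * L ≤ b + 1 / 20 := by
    have : η * L = b * (c ^ g * L) + 2 * (r * L) := by rw [hηdef]; ring
    rw [this]
    have e0 : b * (c ^ g * L) ≤ b := mul_le_of_le_one_right hb0.le hcgL
    linarith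
  have hsmall : Real.pi * η * L ≤ 1 / 2 := by
    have e3 : Real.pi * η * L ≤ 3.15 * (b + 1 / 20) := by
      rw [mul_assoc]
      exact mul_le_mul hpi' hηL (by positivity) (by norm_num)
    linarith
  obtain ⟨⟨x, hx1, hx2⟩, -, hx3⟩ := three_parts h S hr g
  have blk1 := block_upper hη hx2 S.ne S.tan hsmall
  have blk3 := block_upper (x := fun k => A * (β ^ (K + g) - 1) * c ^ (K + g + k)) hη hx3 S.ne S.tan hsmall
  have hNit := N_iter h (K + g + K) (A * (β ^ (K + g) - 1))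
  rw [prod_range_add, prod_range_add] at hNit
  have hP0 : 0 ≤ ∏ k ∈ range K, |Real.cos (Real.pi * (A * c ^ k))| := prod_nonneg (fun _ _ => abs_nonneg _)
  set P := ∏ k ∈ range K, |Real.cos (Real.pi * (A * c ^ k))| with hP
  have f1 : ∏ k ∈ range K, |Real.cos (Real.pi * (A * (β ^ (K + g) - 1) * c ^ k))| ≤ 2 * P := by
    rw [prod_congr rfl (fun k hk => (hx1 k (mem_range.mp hk)).1)]
    exact blk1
  have f2 : ∏ j ∈ range g, |Real.cos (Real.pi * (A * (β ^ (K + g) - 1) * c ^ (K + j)))| ≤ 1 :=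
    prod_le_one (fun _ _ => abs_nonneg _) (fun _ _ => Real.abs_cos_le_one _)
  have f3 : ∏ k ∈ range K, |Real.cos (Real.pi * (A * (β ^ (K + g) - 1) * c ^ (K + g + k)))| ≤ 2 * P := blk3
  have f5 : P ≤ 2 * N A := by
    rw [N_iter h K A, ← hP]
    have : 1 / 2 ≤ N (A * c ^ K) := by
      apply h.Nb
      rw [abs_of_nonneg (mul_nonneg (by linarith [S.A1]) (pow_nonneg h0.le _))]
      exact S.Ak
    have := mul_le_mul_of_nonneg_left this hP0
    linarith
  have g2 : 0 ≤ ∏ j ∈ range g, |Real.cos (Real.pi * (A * (β ^ (K + g) - 1) * c ^ (K + j)))| :=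
    prod_nonneg (fun _ _ => abs_nonneg _)
  have g1 : 0 ≤ ∏ k ∈ range K, |Real.cos (Real.pi * (A * (β ^ (K + g) - 1) * c ^ k))| :=
    prod_nonneg (fun _ _ => abs_nonneg _)
  have g3 : 0 ≤ ∏ k ∈ range K, |Real.cos (Real.pi * (A * (β ^ (K + g) - 1) * c ^ (K + g + k)))| :=
    prod_nonneg (fun _ _ => abs_nonneg _)
  rw [hNit]
  have hP2 : 0 ≤ 2 * P := by positivity
  calc _ ≤ (2 * P) * 1 * (2 * P) * 1 := by
        refine mul_le_mul (mul_le_mul (mul_le_mul f1 f2 g2 hP2) f3 g3 (by positivity)) (h.N1 _) (h.N0 _) (by positivity)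
    _ = 4 * P ^ 2 := by ring
    _ ≤ 4 * (2 * N A) ^ 2 := by
        have := pow_le_pow_left₀ hP0 f5 2
        linarith
    _ = 16 * (N A) ^ 2 := by ring

lemma N_pos (h : Ctx β c b z N) {A B : ℝ} {C : ℂ} {r L : ℝ} {K : ℕ}
    (S : State β c b z A B C r K L) : 0 < N A := by
  have h0 := h.c0
  rw [N_iter h K A]
  refine mul_pos (prod_pos (fun k hk => abs_pos.mpr (S.ne k (mem_range.mp hk)))) ?_
  have : 1 / 2 ≤ N (A * c ^ K) := by
    apply h.Nb
    rw [abs_of_nonneg (mul_nonneg (by linarith [S.A1]) (pow_nonneg h0.le _))]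
    exact S.Ak
  linarith

end

end Crest.Agent.S0137
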