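import Crest.Agent.S0137Fin

set_option autoImplicit false

namespace Crest.Agent.S0137

open Finset Filter Topology

lemma dirichlet {z : ℂ} (hz : ‖z‖ = 1) {Q : ℕ} (hQ : 0 < Q) :
    ∃ q : ℕ, 0 < q ∧ q ≤ Q ∧ ‖z ^ q - 1‖ ≤ 2 * Real.pi / (Q + 1) := by
  have hpi := Real.pi_pos
  obtain ⟨q, hq0, hqQ, hq⟩ := Real.exists_nat_abs_mul_sub_round_le (z.arg / (2 * Real.pi)) hQ
  refine ⟨q, hq0, hqQ, ?_⟩
  set m : ℤ := round ((q : ℝ) * (z.arg / (2 * Real.pi))) with hm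
  have hzexp : z = Complex.exp (Complex.I * z.arg) := by
    conv_lhs => rw [← Complex.norm_mul_exp_arg_mul_I z, hz]
    simp [mul_comm]
  have h1 : z ^ q = Complex.exp (Complex.I * ((q * z.arg - 2 * Real.pi * m : ℝ) : ℂ)) := by
    conv_lhs => rw [hzexp]
    rw [← Complex.exp_nat_mul]
    have : (Complex.I * ((q * z.arg - 2 * Real.pi * m : ℝ) : ℂ))
        = q * (Complex.I * z.arg) - m * (2 * Real.pi * Complex.I) := by
      push_cast; ring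
    rw [this, Complex.exp_sub, Complex.exp_int_mul_two_pi_mul_I, div_one]
  rw [h1]
  refine (Real.norm_exp_I_mul_ofReal_sub_one_le).trans ?_
  rw [Real.norm_eq_abs]
  have h2 : (q : ℝ) * z.arg - 2 * Real.pi * m = 2 * Real.pi * (q * (z.arg / (2 * Real.pi)) - m) := by
    field_simp
  rw [h2, abs_mul, abs_of_pos (by positivity)]
  calc 2 * Real.pi * |(q : ℝ) * (z.arg / (2 * Real.pi)) - m| ≤ 2 * Real.pi * (1 / (Q + 1)) :=
        mul_le_mul_of_nonneg_left hq (by positivity)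
    _ = 2 * Real.pi / (Q + 1) := by ring

lemma norm_pow_sub_one_le' {w : ℂ} (hw : ‖w‖ = 1) (m : ℕ) : ‖w ^ m - 1‖ ≤ m * ‖w - 1‖ := by
  induction m with
  | zero => simp
  | succ m ih =>
    have : w ^ (m + 1) - 1 = w ^ m * (w - 1) + (w ^ m - 1) := by ring
    rw [this]
    refine (norm_add_le _ _).trans ?_
    rw [norm_mul, norm_pow, hw, one_pow, one_mul]
    push_cast
    linarith

/-- choice of the multiplier -/
lemma choose_q {z : ℂ} (hz : ‖z‖ = 1) {Q S : ℕ} (hQ : 0 < Q) (hS : 1 ≤ S) :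
    ∃ q : ℕ, S ≤ q ∧ ((q ≤ Q ∧ ‖z ^ q - 1‖ ≤ 2 * Real.pi / (Q + 1)) ∨
      (q ≤ 2 * S ∧ ‖z ^ q - 1‖ ≤ 2 * S * (2 * Real.pi / (Q + 1)))) := by
  obtain ⟨q0, hq0, hqQ, hq⟩ := dirichlet hz hQ
  by_cases h : S ≤ q0
  · exact ⟨q0, h, Or.inl ⟨hqQ, hq⟩⟩
  · push Not at h
    have hdiv : S / q0 * q0 ≤ S := Nat.div_mul_le_self S q0
    have hlt : S < (S / q0 + 1) * q0 := by
      have := Nat.lt_div_mul_add hq0 (a := S)
      rw [add_mul, one_mul]
      exact this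
    refine ⟨(S / q0 + 1) * q0, hlt.le, Or.inr ⟨?_, ?_⟩⟩
    · rw [add_mul, one_mul]; omega
    · rw [mul_comm, pow_mul]
      refine (norm_pow_sub_one_le' (by rw [norm_pow, hz, one_pow]) _).trans ?_
      refine mul_le_mul ?_ hq (norm_nonneg _) (by positivity)
      have h1 : S / q0 ≤ S := Nat.div_le_self _ _
      have h2 : S / q0 + 1 ≤ 2 * S := by omega
      exact_mod_cast h2

/-- exponential gap -/
lemma exists_gap {β : ℝ} (hβ : 1 < β) :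
    ∃ r0 : ℝ, 0 < r0 ∧ ∀ r : ℝ, 0 < r → r ≤ r0 → ∃ g : ℕ, 1 ≤ g ∧ 3 ≤ r * β ^ g ∧ (2 * (g : ℝ)) ^ 4 * r ^ 3 ≤ 1 := by
  have hβ3 : 1 < β ^ 3 := one_lt_pow₀ hβ (by norm_num)
  have h1 := (tendsto_pow_const_div_const_pow_of_one_lt 4 hβ3).const_mul (2 ^ 4 * 27 * β ^ 3)
  rw [mul_zero] at h1
  have h2 : ∀ᶠ n : ℕ in atTop, 2 ^ 4 * 27 * β ^ 3 * ((n : ℝ) ^ 4 / (β ^ 3) ^ n) < 1 :=
    h1.eventually (gt_mem_nhds (by norm_num))
  obtain ⟨n0, hn0⟩ := eventually_atTop.mp h2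
  refine ⟨3 / β ^ (n0 + 1), by positivity, fun r hr hr0 => ?_⟩
  have hex : ∃ n : ℕ, 3 ≤ r * β ^ n := by
    obtain ⟨n, hn⟩ := pow_unbounded_of_one_lt (3 / r) hβ
    refine ⟨n, ?_⟩
    rw [div_lt_iff₀ hr] at hn
    linarith
  classical
  have hspec := Nat.find_spec hex
  have hmin := fun m => Nat.find_min hex (m := m)
  set n := Nat.find hex with hn
  have hn1 : n0 + 1 ≤ n := by
    by_contra hcon
    push Not at hcon
    have h3 : β ^ n < β ^ (n0 + 1) := pow_lt_pow_right₀ hβ hcon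
    have h4 : r * β ^ n < 3 := by
      have h5 : r * β ^ (n0 + 1) ≤ 3 := by
        rwa [le_div_iff₀ (by positivity)] at hr0
      have h6 : r * β ^ n < r * β ^ (n0 + 1) := mul_lt_mul_of_pos_left h3 hr
      linarith
    linarith
  refine ⟨n, by omega, hspec, ?_⟩
  have h7 : r * β ^ (n - 1) < 3 := by
    have := hmin (n - 1) (by omega)
    push Not at this
    exact this
  have h8 : r * β ^ n < 3 * β := by
    have : β ^ n = β ^ (n - 1) * β := by rw [← pow_succ]; congr 1; omega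
    rw [this, ← mul_assoc]
    exact mul_lt_mul_of_pos_right h7 (by linarith)
  have h9 : (r * β ^ n) ^ 3 ≤ (3 * β) ^ 3 := pow_le_pow_left₀ (by positivity) h8.le 3
  have h10 := hn0 n (by omega)
  have hβn : 0 < (β ^ 3) ^ n := by positivity
  have h11 : 2 ^ 4 * 27 * β ^ 3 * (n : ℝ) ^ 4 < (β ^ 3) ^ n := by
    rw [← mul_div_assoc, div_lt_one hβn] at h10
    exact h10
  have h12 : (r * β ^ n) ^ 3 = r ^ 3 * (β ^ 3) ^ n := by rw [mul_pow]; congr 1; rw [← pow_mul, ← pow_mul, mul_comm]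
  rw [h12] at h9
  have h13 : r ^ 3 * (2 ^ 4 * 27 * β ^ 3 * (n : ℝ) ^ 4) ≤ (3 * β) ^ 3 := by
    refine le_trans ?_ h9
    exact mul_le_mul_of_nonneg_left h11.le (by positivity)
  have h14 : (27 * β ^ 3) * ((2 * (n : ℝ)) ^ 4 * r ^ 3) ≤ (27 * β ^ 3) * 1 := by
    calc (27 * β ^ 3) * ((2 * (n : ℝ)) ^ 4 * r ^ 3) = r ^ 3 * (2 ^ 4 * 27 * β ^ 3 * (n : ℝ) ^ 4) := by ring
      _ ≤ (3 * β) ^ 3 := h13
      _ = (27 * β ^ 3) * 1 := by ring
  exact le_of_mul_le_mul_left h14 (by positivity)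

/-- combined state predicate -/
def St (β c b : ℝ) (z : ℂ) (A : ℝ) (r : ℝ) (K : ℕ) : Prop :=
  ∃ (B : ℝ) (C : ℂ) (L : ℝ), State β c b z A B C r K L ∧ 0 < r ∧ 0 ≤ L ∧ r * L ≤ 1 / 40 ∧ K * r ≤ 1

section
variable {β c b : ℝ} {z : ℂ} {N : ℝ → ℝ}

lemma four_conv (x y : ℝ) : (x + y) ^ 4 ≤ ((2 * x) ^ 4 + (2 * y) ^ 4) / 2 := by
  nlinarith [sq_nonneg (x - y), sq_nonneg (x + y), sq_nonneg (x ^ 2 - y ^ 2), mul_nonneg (sq_nonneg (x - y)) (sq_nonneg (x + y)),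
    mul_nonneg (sq_nonneg (x - y)) (sq_nonneg (x - y)), sq_nonneg (x * y), mul_nonneg (sq_nonneg (x-y)) (sq_nonneg x), mul_nonneg (sq_nonneg (x-y)) (sq_nonneg y)]

/-- numerics of the update -/
lemma update_num {z : ℂ} (hz : ‖z‖ = 1) {r : ℝ} (hr : 0 < r) (hr1 : r ≤ 1 / 10 ^ 9) {K s : ℕ} (hs1 : 1 ≤ s)
    (hKs : K ≤ s) (hsr : s * r ≤ 2) :
    ∃ q : ℕ, s ≤ q ∧ ∃ ρ : ℝ, 0 < ρ ∧ ‖z ^ q - 1‖ ≤ ρ ∧ ρ ≤ 1 / 10 ∧ r ^ 2 * q ≤ 1 / 400 ∧
      ((q : ℝ) + K) * (ρ * r) ≤ 1 ∧ (2 * ((q : ℝ) + K)) ^ 4 * (ρ * r) ^ 3 ≤ 1 ∧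
      ((s : ℝ) ^ 4 * r ^ 3 ≤ 1 → (ρ * r) ^ 4 ≤ 5040 ^ 4 * r ^ 9) := by
  have hpi := Real.pi_pos
  have hpi' := pi_le
  set Q : ℕ := ⌊1 / (400 * r ^ 2)⌋₊ with hQ
  have hr2 : 0 < 400 * r ^ 2 := by positivity
  have hr1' : r ≤ 1 / 1000000000 := by norm_num at hr1 ⊢; exact hr1
  have hrsq : r ^ 2 ≤ r * (1 / 1000000000) := by rw [sq]; exact mul_le_mul_of_nonneg_left hr1' hr.le
  have hQ1 : (Q : ℝ) * r ^ 2 ≤ 1 / 400 := by
    have : (Q : ℝ) ≤ 1 / (400 * r ^ 2) := Nat.floor_le (by positivity)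
    rw [le_div_iff₀ hr2] at this
    linarith
  have hQ2 : 1 / 400 < ((Q : ℝ) + 1) * r ^ 2 := by
    have : 1 / (400 * r ^ 2) < (Q : ℝ) + 1 := Nat.lt_floor_add_one _
    rw [div_lt_iff₀ hr2] at this
    linarith
  have hQ0 : 0 < Q := by
    rw [hQ, Nat.floor_pos, le_div_iff₀ hr2]
    linarith
  have hρ1 : 2 * Real.pi / (Q + 1) ≤ 2520 * r ^ 2 := by
    have h1 : (0 : ℝ) < (Q : ℝ) + 1 := by positivity
    rw [div_le_iff₀ h1]
    have h2 : 2520 * r ^ 2 * ((Q : ℝ) + 1) = 2520 * (((Q : ℝ) + 1) * r ^ 2) := by ring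
    rw [h2]
    linarith
  have hs0 : (1 : ℝ) ≤ s := by exact_mod_cast hs1
  have hKs' : (K : ℝ) ≤ s := by exact_mod_cast hKs
  have hr3 : r ^ 3 ≤ 1 := pow_le_one₀ hr.le (by linarith)
  obtain ⟨q, hsq, hq⟩ := choose_q hz hQ0 hs1
  refine ⟨q, hsq, ?_⟩
  rcases hq with ⟨hqQ, hq⟩ | ⟨hqs, hq⟩
  · have hqQ' : (q : ℝ) ≤ Q := by exact_mod_cast hqQ
    have hsq' : (s : ℝ) ≤ q := by exact_mod_cast hsq
    have hqK : (q : ℝ) + K ≤ 2 * Q := by linarith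
    have hQr0 : 0 ≤ (Q : ℝ) * r ^ 2 := by positivity
    refine ⟨2520 * r ^ 2, by positivity, hq.trans hρ1, by linarith, ?_, ?_, ?_, ?_⟩
    · have : r ^ 2 * q ≤ r ^ 2 * Q := mul_le_mul_of_nonneg_left hqQ' (by positivity)
      linarith
    · calc ((q : ℝ) + K) * (2520 * r ^ 2 * r) ≤ 2 * Q * (2520 * r ^ 2 * r) :=
            mul_le_mul_of_nonneg_right hqK (by positivity)
        _ = 5040 * (Q * r ^ 2) * r := by ring
        _ ≤ 5040 * (1 / 400) * r := by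
            exact mul_le_mul_of_nonneg_right (mul_le_mul_of_nonneg_left hQ1 (by norm_num)) hr.le
        _ ≤ 1 := by linarith
    · calc (2 * ((q : ℝ) + K)) ^ 4 * (2520 * r ^ 2 * r) ^ 3
          ≤ (2 * (2 * (Q : ℝ))) ^ 4 * (2520 * r ^ 2 * r) ^ 3 := by
            refine mul_le_mul_of_nonneg_right ?_ (by positivity)
            exact pow_le_pow_left₀ (by positivity) (by linarith) 4
        _ = 4 ^ 4 * 2520 ^ 3 * (Q * r ^ 2) ^ 4 * r := by ring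
        _ ≤ 4 ^ 4 * 2520 ^ 3 * (1 / 400) ^ 4 * r := by
            refine mul_le_mul_of_nonneg_right (mul_le_mul_of_nonneg_left ?_ (by norm_num)) hr.le
            exact pow_le_pow_left₀ hQr0 hQ1 4
        _ ≤ 1 := by norm_num at hr1' ⊢; linarith
    · intro _
      calc (2520 * r ^ 2 * r) ^ 4 = 2520 ^ 4 * r ^ 9 * r ^ 3 := by ring
        _ ≤ 2520 ^ 4 * r ^ 9 * 1 := mul_le_mul_of_nonneg_left hr3 (by positivity)
        _ ≤ 5040 ^ 4 * r ^ 9 := by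
            rw [mul_one]
            exact mul_le_mul_of_nonneg_right (by norm_num) (by positivity)
  · have hqs' : (q : ℝ) ≤ 2 * s := by exact_mod_cast hqs
    have hqK : (q : ℝ) + K ≤ 3 * s := by linarith
    have hsr0 : 0 ≤ (s : ℝ) * r := by positivity
    refine ⟨2 * s * (2520 * r ^ 2), by positivity, ?_, ?_, ?_, ?_, ?_, ?_⟩
    · exact hq.trans (mul_le_mul_of_nonneg_left hρ1 (by positivity))
    · calc 2 * s * (2520 * r ^ 2) = 5040 * (s * r) * r := by ring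
        _ ≤ 5040 * 2 * r := mul_le_mul_of_nonneg_right (mul_le_mul_of_nonneg_left hsr (by norm_num)) hr.le
        _ ≤ 1 / 10 := by linarith
    · calc r ^ 2 * q ≤ r ^ 2 * (2 * s) := mul_le_mul_of_nonneg_left hqs' (by positivity)
        _ = 2 * (s * r) * r := by ring
        _ ≤ 2 * 2 * r := mul_le_mul_of_nonneg_right (mul_le_mul_of_nonneg_left hsr (by norm_num)) hr.le
        _ ≤ 1 / 400 := by linarith
    · calc ((q : ℝ) + K) * (2 * s * (2520 * r ^ 2) * r) ≤ 3 * s * (2 * s * (2520 * r ^ 2) * r) :=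
            mul_le_mul_of_nonneg_right hqK (by positivity)
        _ = 15120 * (s * r) ^ 2 * r := by ring
        _ ≤ 15120 * 2 ^ 2 * r := by
            refine mul_le_mul_of_nonneg_right (mul_le_mul_of_nonneg_left ?_ (by norm_num)) hr.le
            exact pow_le_pow_left₀ hsr0 hsr 2
        _ ≤ 1 := by linarith
    · calc (2 * ((q : ℝ) + K)) ^ 4 * (2 * s * (2520 * r ^ 2) * r) ^ 3
          ≤ (2 * (3 * (s : ℝ))) ^ 4 * (2 * s * (2520 * r ^ 2) * r) ^ 3 := by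
            refine mul_le_mul_of_nonneg_right ?_ (by positivity)
            exact pow_le_pow_left₀ (by positivity) (by linarith) 4
        _ = 6 ^ 4 * 5040 ^ 3 * (s * r) ^ 7 * r ^ 2 := by ring
        _ ≤ 6 ^ 4 * 5040 ^ 3 * 2 ^ 7 * (1 / 1000000000) ^ 2 := by
            refine mul_le_mul ?_ (pow_le_pow_left₀ hr.le hr1' 2) (by positivity) (by positivity)
            exact mul_le_mul_of_nonneg_left (pow_le_pow_left₀ hsr0 hsr 7) (by norm_num)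
        _ ≤ 1 := by norm_num
    · intro hs4
      calc (2 * s * (2520 * r ^ 2) * r) ^ 4 = 5040 ^ 4 * ((s : ℝ) ^ 4 * r ^ 3) * r ^ 9 := by ring
        _ ≤ 5040 ^ 4 * 1 * r ^ 9 := by
            refine mul_le_mul_of_nonneg_right (mul_le_mul_of_nonneg_left hs4 (by norm_num)) (by positivity)
        _ = 5040 ^ 4 * r ^ 9 := by ring

theorem update (h : Ctx β c b z N) : ∃ r1 : ℝ, 0 < r1 ∧ r1 ≤ 1 / 10 ^ 9 ∧ ∀ (A r : ℝ) (K : ℕ), r ≤ r1 → St β c b z A r K →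
    ∃ (A' r' : ℝ) (K' : ℕ), St β c b z A' r' K' ∧ r' ≤ r ∧ (2 * (K' : ℝ)) ^ 4 * r' ^ 3 ≤ 1 ∧
      (N A) ^ 2 / 16 ≤ N A' ∧ ((2 * (K : ℝ)) ^ 4 * r ^ 3 ≤ 1 → r' ^ 4 ≤ 5040 ^ 4 * r ^ 9) := by
  obtain ⟨r0, hr0, hgap⟩ := exists_gap h.hβ
  refine ⟨min r0 (1 / 10 ^ 9), by positivity, min_le_right _ _, ?_⟩
  intro A r K hrr ⟨B, C, L, S, hr, hL, hrL, hKr⟩
  have hr9 : r ≤ 1 / 10 ^ 9 := hrr.trans (min_le_right _ _)
  have hr1 : r ≤ 1 := hr9.trans (by norm_num)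
  obtain ⟨g0, hg01, hg02, hg03⟩ := hgap r hr (hrr.trans (min_le_left _ _))
  have h0 := h.c0
  have h1 := h.c1
  have hg0r : 2 * (g0 : ℝ) * r ≤ 1 := by
    by_contra hcon
    push Not at hcon
    have h2 : (1 : ℝ) < (2 * (g0 : ℝ) * r) ^ 4 := one_lt_pow₀ hcon (by norm_num)
    have h3 : (2 * (g0 : ℝ) * r) ^ 4 = ((2 * (g0 : ℝ)) ^ 4 * r ^ 3) * r := by ring
    rw [h3] at h2
    have h4 : ((2 * (g0 : ℝ)) ^ 4 * r ^ 3) * r ≤ 1 * 1 := mul_le_mul hg03 hr1 hr.le (by norm_num)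
    linarith
  have hsr : ((K + g0 : ℕ) : ℝ) * r ≤ 2 := by
    push_cast
    have : ((K : ℝ) + g0) * r = K * r + g0 * r := by ring
    rw [this]
    linarith
  obtain ⟨q, hsq, ρ, hρ0, hρ, hρ10, hq400, hn1, hn2, hn3⟩ :=
    update_num h.hz hr hr9 (K := K) (s := K + g0) (by omega) (by omega) hsr
  obtain ⟨g, rfl⟩ : ∃ g, q = K + g := ⟨q - K, by omega⟩
  have hgg : g0 ≤ g := by omega
  have hX : c ^ g * (L + K + 1) ≤ 1 := by
    have e1 : r * (L + K + 1) ≤ 3 := by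
      have : r * (L + K + 1) = r * L + K * r + r := by ring
      rw [this]; linarith
    have e2 : r * (L + K + 1) ≤ r * β ^ g0 := e1.trans hg02
    have e3 : L + K + 1 ≤ β ^ g0 := le_of_mul_le_mul_left e2 hr
    have e4 : c ^ g ≤ c ^ g0 := pow_le_pow_of_le_one h0.le h1.le hgg
    have e5 : c ^ g0 * β ^ g0 = 1 := by rw [← mul_pow, mul_comm, h.hβc, one_pow]
    calc c ^ g * (L + K + 1) ≤ c ^ g0 * β ^ g0 :=
          mul_le_mul e4 e3 (by positivity) (pow_nonneg h0.le _)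
      _ = 1 := e5
  have hβ2 : 2 ≤ β ^ (K + g) := by
    have e1 : (3 : ℝ) ≤ β ^ g0 := by
      have : r * β ^ g0 ≤ 1 * β ^ g0 := mul_le_mul_of_nonneg_right hr1 (pow_nonneg (by linarith [h.hβ]) _)
      linarith
    have e2 : β ^ g0 ≤ β ^ (K + g) := pow_le_pow_right₀ h.hβ.le (by omega)
    linarith
  have st := step h S hr.le hL hrL (g := g) (by omega) hX hq400 hβ2 hρ
  refine ⟨_, ρ * r, K + g + K, ⟨_, _, _, st.1, by positivity, by positivity, ?_, ?_⟩, ?_, ?_, st.2, ?_⟩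
  · have e1 : ρ * r * (4 * L + 1 + 40 * r * (K + g : ℕ)) = ρ * (4 * (r * L) + r + 40 * (r ^ 2 * (K + g : ℕ))) := by ring
    rw [e1]
    have e2 : 4 * (r * L) + r + 40 * (r ^ 2 * (K + g : ℕ)) ≤ 1 / 4 := by
      have e3 : r ≤ 1 / 1000000000 := by norm_num at hr9 ⊢; exact hr9
      linarith
    have e4 : 0 ≤ 4 * (r * L) + r + 40 * (r ^ 2 * (K + g : ℕ)) := by positivity
    calc _ ≤ 1 / 10 * (1 / 4) := mul_le_mul hρ10 e2 e4 (by norm_num)
      _ = 1 / 40 := by norm_num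
  · rw [Nat.cast_add (K + g) K]
    exact hn1
  · have : ρ * r ≤ 1 * r := mul_le_mul_of_nonneg_right (by linarith) hr.le
    linarith
  · rw [Nat.cast_add (K + g) K]
    exact hn2
  · intro hK4
    apply hn3
    push_cast
    have e1 := four_conv (K : ℝ) g0
    have e2 : ((K : ℝ) + g0) ^ 4 * r ^ 3 ≤ ((2 * (K : ℝ)) ^ 4 + (2 * (g0 : ℝ)) ^ 4) / 2 * r ^ 3 :=
      mul_le_mul_of_nonneg_right e1 (by positivity)
    have e3 : ((2 * (K : ℝ)) ^ 4 + (2 * (g0 : ℝ)) ^ 4) / 2 * r ^ 3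
        = ((2 * (K : ℝ)) ^ 4 * r ^ 3 + (2 * (g0 : ℝ)) ^ 4 * r ^ 3) / 2 := by ring
    linarith

/-- iterating the update -/
theorem iterate (h : Ctx β c b z N)
    (seed : ∀ ε : ℝ, 0 < ε → ∃ (A r : ℝ) (K : ℕ), r ≤ ε ∧ St β c b z A r K) :
    ∀ (ε M : ℝ), 0 < ε → ∃ (A r : ℝ) (K : ℕ), r ≤ ε ∧ St β c b z A r K ∧ (2 * (K : ℝ)) ^ 4 * r ^ 3 ≤ 1 ∧
      M * r ≤ (N A) ^ 2 := by
  intro ε M hε
  obtain ⟨r1, hr1, hr19, hup⟩ := update h
  set κ : ℝ := Real.log 5040 with hκ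
  have hκ0 : 0 < κ := Real.log_pos (by norm_num)
  set r2 : ℝ := min (min r1 ε) (Real.exp (-(κ + 1))) with hr2
  obtain ⟨A0, r0, K0, hr0, hS0⟩ := seed r2 (by positivity)
  obtain ⟨A1, s1, K1, hS1, hs1r, hs14, -, -⟩ := hup A0 r0 K0 (hr0.trans ((min_le_left _ _).trans (min_le_left _ _))) hS0
  have hs1r2 : s1 ≤ r2 := hs1r.trans hr0
  set V0 : ℝ := -Real.log (N A1) + Real.log 16 with hV0
  have key : ∀ n : ℕ, ∃ (A r : ℝ) (K : ℕ), r ≤ r2 ∧ St β c b z A r K ∧ (2 * (K : ℝ)) ^ 4 * r ^ 3 ≤ 1 ∧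
      (9 / 4 : ℝ) ^ n ≤ -Real.log r - κ ∧ -Real.log (N A) + Real.log 16 ≤ 2 ^ n * V0 := by
    intro n
    induction n with
    | zero =>
      refine ⟨A1, s1, K1, hs1r2, hS1, hs14, ?_, by simp [hV0]⟩
      have hs0 : 0 < s1 := by obtain ⟨_, _, _, _, h', _⟩ := hS1; exact h'
      have : Real.log s1 ≤ -(κ + 1) := by
        rw [Real.log_le_iff_le_exp hs0]
        exact hs1r2.trans (min_le_right _ _)
      rw [pow_zero]; linarith
    | succ n ih =>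
      obtain ⟨A, r, K, hr, hS, h4, hW, hV⟩ := ih
      obtain ⟨A', r', K', hS', hr', h4', hN', hr9⟩ := hup A r K (hr.trans ((min_le_left _ _).trans (min_le_left _ _))) hS
      have hr0 : 0 < r := by obtain ⟨_, _, _, _, h', _⟩ := hS; exact h'
      have hr0' : 0 < r' := by obtain ⟨_, _, _, _, h', _⟩ := hS'; exact h'
      have hNA : 0 < N A := by obtain ⟨_, _, _, h', _, _⟩ := hS; exact N_pos h h'
      have hNA' : 0 < N A' := by obtain ⟨_, _, _, h', _, _⟩ := hS'; exact N_pos h h'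
      refine ⟨A', r', K', hr'.trans hr, hS', h4', ?_, ?_⟩
      · have e1 := Real.log_le_log (by positivity) (hr9 h4)
        rw [Real.log_mul (by positivity) (by positivity), Real.log_pow, Real.log_pow, Real.log_pow, ← hκ] at e1
        push_cast at e1
        have e2 : (9 / 4 : ℝ) ^ (n + 1) = (9 / 4 : ℝ) ^ n * (9 / 4) := pow_succ _ _
        rw [e2]
        linarith
      · have e1 := Real.log_le_log (by positivity) hN'
        rw [Real.log_div (by positivity) (by norm_num), Real.log_pow] at e1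
        push_cast at e1
        rw [pow_succ]
        linarith
  -- choose n large
  have hlim : Tendsto (fun n : ℕ => (9 / 4 : ℝ) ^ n - 2 * (2 ^ n * |V0|)) atTop atTop := by
    have e1 : (fun n : ℕ => (9 / 4 : ℝ) ^ n - 2 * (2 ^ n * |V0|)) = fun n : ℕ => (2 : ℝ) ^ n * ((9 / 8) ^ n - 2 * |V0|) := by
      funext n
      have : (9 / 4 : ℝ) ^ n = 2 ^ n * (9 / 8) ^ n := by rw [← mul_pow]; norm_num
      rw [this]; ring
    rw [e1]
    refine Tendsto.atTop_mul_atTop₀ (tendsto_pow_atTop_atTop_of_one_lt (by norm_num)) ?_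
    exact tendsto_atTop_add_const_right _ _ (tendsto_pow_atTop_atTop_of_one_lt (by norm_num))
  obtain ⟨n, hn⟩ := (hlim.eventually (eventually_ge_atTop (Real.log (max M 1)))).exists
  obtain ⟨A, r, K, hr, hS, h4, hW, hV⟩ := key n
  have hr0 : 0 < r := by obtain ⟨_, _, _, _, h', _⟩ := hS; exact h'
  have hNA : 0 < N A := by obtain ⟨_, _, _, h', _, _⟩ := hS; exact N_pos h h'
  refine ⟨A, r, K, hr.trans ((min_le_left _ _).trans (min_le_right _ _)), hS, h4, ?_⟩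
  have hM1 : 0 < max M 1 := lt_of_lt_of_le one_pos (le_max_right _ _)
  refine le_trans (mul_le_mul_of_nonneg_right (le_max_left M 1) hr0.le) ?_
  rw [← Real.log_le_log_iff (by positivity) (by positivity), Real.log_mul hM1.ne' hr0.ne', Real.log_pow]
  push_cast
  have e1 : V0 ≤ |V0| := le_abs_self _
  have e2 : (2 : ℝ) ^ n * V0 ≤ 2 ^ n * |V0| := mul_le_mul_of_nonneg_left e1 (by positivity)
  have e3 : 0 ≤ Real.log 16 := Real.log_nonneg (by norm_num)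
  linarith

end

end Crest.Agent.S0137
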