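import Crest.Statements.S0166
import Crest.Agent.AUC.Diamond
import Crest.Agent.AUC.HeightSpace

set_option autoImplicit false
open Crest Crest.AnalysisR
open Filter Topology

namespace Crest.Agent.S0166

open Crest.Agent.AUC Crest.Agent.AUC.Tree Crest.Agent.AUC.L2Sum Crest.Agent.AUC.Height
  Crest.Agent.AUC.Diamond

/-- the ℓ²-sum of the height spaces -/
abbrev XX : Type := lp (fun k : ℕ => EE k) 2

theorem norm_single' (k : ℕ) (x : EE k) : ‖(lp.single 2 k x : XX)‖ = ‖x‖ := by
  have h02 : (0 : ENNReal) < 2 := by simp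
  exact lp.norm_single (E := fun k : ℕ => EE k) (p := 2) h02 k x

theorem goodMod_XX : GoodMod XX := goodMod_l2 (E := fun k : ℕ => EE k) goodMod_EE

theorem reflexive_XX : Function.Surjective (NormedSpace.inclusionInDoubleDual ℝ XX) :=
  reflexive_l2 (E := fun k : ℕ => EE k) reflexive_EE

/-- the vector attached to a vertex of a level -/
noncomputable def vec (k : ℕ) (s : List ℕ) : XX := lp.single 2 k ((treeSpace k).e s)

noncomputable def ι (k : ℕ) : EE k →L[ℝ] XX := lp.singleContinuousLinearMap ℝ (fun k : ℕ => EE k) 2 k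

theorem ι_apply (k : ℕ) (x : EE k) : ι k x = lp.single 2 k x := rfl

theorem norm_ι (k : ℕ) (x : EE k) : ‖ι k x‖ = ‖x‖ := norm_single' k x

theorem gen_sum {X Y : Type} [NormedAddCommGroup X] [NormedSpace ℝ X] [NormedAddCommGroup Y]
    [NormedSpace ℝ Y] (T : X →L[ℝ] Y) (A : Finset ℕ) (c : ℕ → ℝ) (d : ℕ → X) :
    ∑ a ∈ A, c a • T (d a) = T (∑ a ∈ A, c a • d a) := by
  rw [map_sum]
  exact Finset.sum_congr rfl fun a _ => (map_smul _ _ _).symm

theorem gen_sub {X Y : Type} [NormedAddCommGroup X] [NormedSpace ℝ X] [NormedAddCommGroup Y]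
    [NormedSpace ℝ Y] (T : X →L[ℝ] Y) (x y : X) : T x - T y = T (x - y) := (map_sub T x y).symm

theorem dense_span : ∀ x : XX, x ∈ closure (Submodule.span ℝ
    (Set.range fun p : ℕ × List ℕ => ι p.1 ((treeSpace p.1).e p.2)) : Set XX) := by
  intro x
  set M : Submodule ℝ XX := Submodule.span ℝ
    (Set.range fun p : ℕ × List ℕ => ι p.1 ((treeSpace p.1).e p.2)) with hM
  have hι : ∀ k (y : EE k), ι k y ∈ M.topologicalClosure := by
    intro k y
    refine map_mem_closure (ι k).continuous ((treeSpace k).dense y) fun w hw => ?_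
    replace hw : w ∈ Submodule.span ℝ (Set.range (treeSpace k).e) := hw
    have := Submodule.mem_map_of_mem (f := ((ι k : EE k →L[ℝ] XX) : EE k →ₗ[ℝ] XX)) hw
    rw [Submodule.map_span, ← Set.range_comp] at this
    refine Submodule.span_mono ?_ this
    rintro _ ⟨s, rfl⟩
    exact ⟨(k, s), rfl⟩
  have h := lp.hasSum_single (E := fun k : ℕ => EE k) (p := 2) (by simp) x
  have hcl : IsClosed (M.topologicalClosure : Set XX) := M.isClosed_topologicalClosure
  have : x ∈ (M.topologicalClosure : Set XX) :=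
    hcl.mem_of_tendsto h (Eventually.of_forall fun A => Submodule.sum_mem _ fun k _ => hι k (x k))
  exact this

theorem separable_XX : TopologicalSpace.SeparableSpace XX := by
  have h1 : TopologicalSpace.IsSeparable
      (Set.range fun p : ℕ × List ℕ => ι p.1 ((treeSpace p.1).e p.2)) :=
    (Set.countable_range _).isSeparable
  have h2 := (h1.span (R := ℝ)).closure
  have h3 : closure (Submodule.span ℝ
    (Set.range fun p : ℕ × List ℕ => ι p.1 ((treeSpace p.1).e p.2)) : Set XX) = Set.univ :=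
    Set.eq_univ_of_forall dense_span
  rw [h3] at h2
  exact TopologicalSpace.isSeparable_univ_iff.1 h2

theorem not_auc (N : XX → ℝ) (hN : AUC.IsEquivNorm N) : ¬ AUC.IsAUCNorm N := by
  refine not_isAUCNorm_of_trees (fun j x => ∃ (k : ℕ) (v : List ℕ), v.length + j ≤ k ∧
    x = ι k (pathSum (treeSpace k).e v)) 1 1 1 one_pos one_pos ?_ ?_ ?_ N hN
  · rintro j _ ⟨k, v, hv, rfl⟩
    rw [norm_ι]
    exact norm_pathSum_le (isTestSys k) (treeSpace k) v (by
      change v.length ≤ k
      omega)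
  · rintro j _ ⟨k, v, hv, rfl⟩ S hcl hfd η hη
    obtain ⟨a, u, hu, hau⟩ := (exists_near_of_upper_two (fun a => ι k ((treeSpace k).e (a :: v))) 1
      (fun A c => by
        have h1 : ∑ a ∈ A, c a • ι k ((treeSpace k).e (a :: v)) =
            ι k (∑ a ∈ A, c a • (treeSpace k).e (a :: v)) := gen_sum (ι k) A c _
        rw [h1, norm_ι]
        exact siblings_upper (isTestSys k) (treeSpace k) v A c) S hcl hfd η hη).exists
    have hdiff : ι k (pathSum (treeSpace k).e (a :: v)) - ι k (pathSum (treeSpace k).e v) =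
        ι k ((treeSpace k).e (a :: v)) := by
      rw [gen_sub]
      simp only [pathSum, add_sub_cancel_left]
    refine ⟨ι k (pathSum (treeSpace k).e (a :: v)), ⟨k, a :: v, ?_, rfl⟩, ?_, u, hu, ?_⟩
    · simp only [List.length_cons]; omega
    · rw [hdiff, norm_ι]
      exact one_le_norm_e (isTestSys k) (treeSpace k) _ (Set.mem_univ _)
    · rw [hdiff]; exact hau.le
  · intro j
    refine ⟨ι j (pathSum (treeSpace j).e []), ⟨j, [], by simp, rfl⟩, ?_⟩
    rw [norm_ι]
    exact one_le_norm_e (isTestSys j) (treeSpace j) [] (Set.mem_univ _)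

theorem not_fd : ¬ FiniteDimensional ℝ XX :=
  not_finiteDimensional (not_auc _ ⟨fun x y => norm_add_le x y, fun a x => norm_smul a x, 1, 1,
    one_pos, fun x => ⟨(one_mul _).le, (one_mul _).ge⟩⟩)

/-- the space as a bundled Banach space -/
noncomputable def EB : RealBanach := ⟨XX, inferInstance, inferInstance, inferInstance⟩

theorem avg_modulus (t : ℝ) (ht : 0 < t) (x : XX) (hx : ‖x‖ = 1) (η : ℝ) (hη : 0 < η) :
    ∃ S : Submodule ℝ XX, IsClosed (S : Set XX) ∧ FiniteDimensional ℝ (XX ⧸ S) ∧ ∀ y ∈ S,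
      ‖y‖ = 1 → Real.sqrt (1 + t ^ 2 / 4) - 1 - η ≤ (‖x + t • y‖ + ‖x - t • y‖) / 2 - 1 := by
  obtain ⟨S, hcl, hfd, hS⟩ := goodMod_XX x η hη
  refine ⟨S, hcl, hfd, fun y hy hy1 => ?_⟩
  have h1 := hS (t • y) (S.smul_mem t hy)
  rw [hx, norm_smul, hy1, Real.norm_of_nonneg ht.le, mul_one, one_pow] at h1
  linarith

theorem result :
    ∃ E : Crest.AnalysisR.RealBanach, E.IsSeparableInfiniteDim ∧ E.IsReflexive ∧
      (∀ t : ℝ, 0 < t → E.MidpointModulusGE E.norm t (Real.sqrt (1 + t ^ 2 / 12) - 1) ∧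
        E.MidpointModulusGE E.norm t ((Real.sqrt (1 + t ^ 2 / 4) - 1) / 2) ∧
        E.MaxMidpointModulusGE E.norm t (Real.sqrt (1 + t ^ 2 / 4) - 1)) ∧
      (∀ N : E.X → ℝ, E.IsEquivNorm N → ¬ E.IsAUC N) ∧
      ∀ (k : ℕ) (f : Crest.AnalysisR.DiamondVertex k → E.X) (D : ℝ),
        E.HasDistortionLE k f D → 1 + (k : ℝ) / 4 ≤ D ^ 2 := by
  refine ⟨EB, ⟨separable_XX, not_fd⟩, reflexive_XX, ?_, not_auc, ?_⟩
  · intro t ht
    refine ⟨?_, ?_, ?_⟩
    · intro (x : XX) hx η hη
      obtain ⟨S, hcl, hfd, hS⟩ := avg_modulus t ht x hx η hη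
      refine ⟨(S : Set XX), ⟨S, rfl, hcl, hfd⟩, fun (y : XX) hy hy1 => ?_⟩
      have h1 := hS y hy hy1
      refine le_trans ?_ h1
      have : Real.sqrt (1 + t ^ 2 / 12) ≤ Real.sqrt (1 + t ^ 2 / 4) :=
        Real.sqrt_le_sqrt (by nlinarith)
      linarith
    · intro (x : XX) hx η hη
      obtain ⟨S, hcl, hfd, hS⟩ := avg_modulus t ht x hx η hη
      refine ⟨(S : Set XX), ⟨S, rfl, hcl, hfd⟩, fun (y : XX) hy hy1 => ?_⟩
      have h1 := hS y hy hy1
      refine le_trans ?_ h1
      have : 1 ≤ Real.sqrt (1 + t ^ 2 / 4) := by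
        apply Real.le_sqrt_of_sq_le
        nlinarith
      linarith
    · intro (x : XX) hx η hη
      obtain ⟨S, hcl, hfd, hS⟩ := avg_modulus t ht x hx η hη
      refine ⟨(S : Set XX), ⟨S, rfl, hcl, hfd⟩, fun (y : XX) hy hy1 => ?_⟩
      have h1 := hS y hy hy1
      refine le_trans h1 ?_
      change (‖x + t • y‖ + ‖x - t • y‖) / 2 - 1 ≤ max ‖x + t • y‖ ‖x - t • y‖ - 1
      have e1 := le_max_left ‖x + t • y‖ ‖x - t • y‖
      have e2 := le_max_right ‖x + t • y‖ ‖x - t • y‖
      linarith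
  · rintro k (f : DiamondVertex k → XX) D ⟨s, hs, h⟩
    have hD : 0 ≤ D := by
      obtain ⟨e⟩ : Nonempty (DiamondEdge k) := by
        clear * -
        induction k with
        | zero => exact ⟨()⟩
        | succ k ih => exact ⟨(ih.some, 0, true)⟩
      have h1 := h (diamondSrc k e) (diamondTgt k e)
      rw [dist_src_tgt] at h1
      have h2 : s * ((1 : ℕ) : ℝ) ≤ D * s * ((1 : ℕ) : ℝ) := h1.1.trans h1.2
      rw [Nat.cast_one, mul_one, mul_one] at h2
      by_contra hcon
      push Not at hcon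
      nlinarith
    refine distortion goodMod_XX k f s D hs hD (fun u v => (h u v).1) fun e => ?_
    have h1 := (h (diamondSrc k e) (diamondTgt k e)).2
    rw [dist_src_tgt, Nat.cast_one, mul_one] at h1
    exact h1

end Crest.Agent.S0166
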