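import Crest.Statements.S0167
import Crest.Agent.AUC.Daugavet
import Crest.Agent.AUC.MeasBall

set_option autoImplicit false
open Crest Crest.AnalysisR

namespace Crest.Agent.S0167

open Crest.Agent.AUC Crest.Agent.AUC.Daug Crest.Agent.AUC.MeasBall

theorem result (Ω : Type) [MeasurableSpace Ω] (P : MeasureTheory.Measure Ω) [MeasureTheory.IsProbabilityMeasure P]
    (E : Submodule ℝ (MeasureTheory.Lp ℝ 1 P)) (hcl : IsClosed (E : Set (MeasureTheory.Lp ℝ 1 P)))
    (hinf : ¬ FiniteDimensional ℝ E)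
    (htb : Crest.AnalysisR.L1Subspace.UnitBallTotallyBoundedInMeasure P E)
    (hD : Crest.AnalysisR.L1Subspace.HasDaugavetProperty E) :
    (∀ t : ℝ, 0 < t →
      (Crest.AnalysisR.L1Subspace.toRealBanach P E hcl).MidpointModulusGE
          (Crest.AnalysisR.L1Subspace.toRealBanach P E hcl).norm t (max (t / 2) (t - 1)) ∧
        (Crest.AnalysisR.L1Subspace.toRealBanach P E hcl).MidpointModulusLE
          (Crest.AnalysisR.L1Subspace.toRealBanach P E hcl).norm t (max (t / 2) (t - 1)) ∧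
        (Crest.AnalysisR.L1Subspace.toRealBanach P E hcl).OneSidedModulusGE
          (Crest.AnalysisR.L1Subspace.toRealBanach P E hcl).norm t (max 0 (t - 2)) ∧
        (Crest.AnalysisR.L1Subspace.toRealBanach P E hcl).OneSidedModulusLE
          (Crest.AnalysisR.L1Subspace.toRealBanach P E hcl).norm t (max 0 (t - 2))) ∧
      ∀ N : E → ℝ, (Crest.AnalysisR.L1Subspace.toRealBanach P E hcl).IsEquivNorm N →
        ¬ (Crest.AnalysisR.L1Subspace.toRealBanach P E hcl).IsAUC N := by
  have hnt : ∃ z : E, z ≠ 0 := by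
    by_contra hcon
    push Not at hcon
    apply hinf
    have : Subsingleton E := ⟨fun a b => by rw [hcon a, hcon b]⟩
    infer_instance
  refine ⟨fun t ht => ⟨?_, ?_, ?_, ?_⟩, fun N hN => not_auc hD hnt N hN⟩
  · intro (x : E) (hx : ‖x‖ = 1) η hη
    obtain ⟨S, hScl, hfd, hS⟩ := core E htb x (η / (3 * t + 1)) (by positivity)
    refine ⟨(S : Set E), ⟨S, rfl, hScl, hfd⟩, fun (y : E) hy (hy1 : ‖y‖ = 1) => ?_⟩
    change max (t / 2) (t - 1) - η ≤ (‖x + t • y‖ + ‖x - t • y‖) / 2 - 1
    obtain ⟨h, hh, hb⟩ := hS y hy hy1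
    obtain ⟨h1, -⟩ := hb t ht
    set ρ := η / (3 * t + 1) with hρ
    have hρ0 : 0 < ρ := by positivity
    have hρη : ρ * (3 * t + 1) = η := by rw [hρ]; field_simp
    rw [hx] at h1
    have h2 : t * h ≤ t * (1 / 2 + ρ) := by gcongr
    have h3 : 2 * t ≤ ‖x + t • y‖ + ‖x - t • y‖ := by
      have e1 : ‖(x + t • y) - (x - t • y)‖ = 2 * t := by
        have : (x + t • y) - (x - t • y) = (2 * t) • y := by
          rw [two_mul, add_smul]; abel
        rw [this, norm_smul, hy1, mul_one, Real.norm_of_nonneg (by positivity)]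
      rw [← e1]
      exact norm_sub_le _ _
    rcases le_total (t / 2) (t - 1) with hc | hc
    · rw [max_eq_right hc]; linarith
    · rw [max_eq_left hc]; nlinarith
  · intro (x : E) (hx : ‖x‖ = 1) F hF η hη
    obtain ⟨S, rfl, hScl, hfd⟩ := hF
    obtain ⟨y, hy, hy1, hb⟩ := exists_direction hD S hScl hfd x hx (η / t) (by positivity)
    refine ⟨y, hy, hy1, ?_⟩
    change (‖x + t • y‖ + ‖x - t • y‖) / 2 - 1 ≤ max (t / 2) (t - 1) + η
    obtain ⟨h1, h2⟩ := hb t ht
    have h3 : t * (η / t) = η := by field_simp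
    rw [h3] at h1 h2
    rcases le_total t 2 with hc | hc
    · rw [abs_of_nonneg (by linarith)] at h1
      have := le_max_left (t / 2) (t - 1)
      linarith
    · rw [abs_of_nonpos (by linarith)] at h1
      have := le_max_right (t / 2) (t - 1)
      linarith
  · intro (x : E) (hx : ‖x‖ = 1) η hη
    obtain ⟨S, hScl, hfd, hS⟩ := core E htb x (η / (4 * t + 2)) (by positivity)
    refine ⟨(S : Set E), ⟨S, rfl, hScl, hfd⟩, fun (y : E) hy (hy1 : ‖y‖ = 1) => ?_⟩
    change max 0 (t - 2) - η ≤ ‖x + t • y‖ - 1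
    obtain ⟨h, hh, hb⟩ := hS y hy hy1
    obtain ⟨-, h1⟩ := hb t ht
    set ρ := η / (4 * t + 2) with hρ
    have hρ0 : 0 < ρ := by positivity
    have hρη : ρ * (4 * t + 2) = η := by rw [hρ]; field_simp
    rw [hx] at h1
    have h2 : t * h ≤ t * (1 / 2 + ρ) := by gcongr
    have h3 : t - 1 ≤ ‖x + t • y‖ := by
      have e1 : ‖t • y‖ = t := by rw [norm_smul, hy1, mul_one, Real.norm_of_nonneg ht.le]
      have e2 : ‖t • y‖ ≤ ‖x + t • y‖ + ‖x‖ := by
        have : t • y = (x + t • y) - x := by abel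
        calc ‖t • y‖ = ‖(x + t • y) - x‖ := by rw [← this]
          _ ≤ _ := norm_sub_le _ _
      rw [e1, hx] at e2
      linarith
    rcases le_total 0 (t - 2) with hc | hc
    · rw [max_eq_right hc]; linarith
    · rw [max_eq_left hc]; nlinarith
  · intro (x : E) (hx : ‖x‖ = 1) F hF η hη
    obtain ⟨S, rfl, hScl, hfd⟩ := hF
    obtain ⟨y, hy, hy1, hb⟩ := exists_direction hD S hScl hfd x hx (η / t) (by positivity)
    refine ⟨y, hy, hy1, ?_⟩
    change ‖x + t • y‖ - 1 ≤ max 0 (t - 2) + η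
    obtain ⟨h1, h2⟩ := hb t ht
    have h3 : t * (η / t) = η := by field_simp
    rw [h3] at h1 h2
    rcases le_total t 2 with hc | hc
    · rw [abs_of_nonneg (by linarith)] at h1
      have := le_max_left 0 (t - 2)
      linarith
    · rw [abs_of_nonpos (by linarith)] at h1
      have := le_max_right 0 (t - 2)
      linarith

end Crest.Agent.S0167
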