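import Crest.Statements.S0168
import Crest.Agent.AUC.Tree

set_option autoImplicit false
open Crest Crest.AnalysisR

namespace Crest.Agent.S0168

open Crest.Agent.AUC Crest.Agent.AUC.Tree Crest.AnalysisR.TreePotential

/-- vertices carrying a coordinate -/
def dom (m : PotentialModel) : Set (List ℕ) := {s | m = .rootlessSibling → s ≠ []}

theorem sum_single_sq_le {κ : Type*} (g : κ → List ℕ) (hg : Function.Injective g) (s : List ℕ)
    (A : Finset κ) : ∑ n ∈ A, (Pi.single s (1 : ℝ) : List ℕ → ℝ) (g n) ^ 2 ≤ 1 := by
  classical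
  by_cases h : ∃ n ∈ A, g n = s
  · obtain ⟨n, hn, hns⟩ := h
    rw [Finset.sum_eq_single n]
    · simp [hns]
    · intro k _ hk
      have : g k ≠ s := fun h => hk (hg (h.trans hns.symm))
      simp [Pi.single_apply, this]
    · intro h; exact absurd hn h
  · push Not at h
    rw [Finset.sum_eq_zero]
    · exact zero_le_one
    · intro k hk
      simp [Pi.single_apply, h k hk]

theorem pathPotential_single (s u : List ℕ) :
    pathPotential (Pi.single s (1 : ℝ)) u = if s <:+ u then 1 else 0 := by
  classical
  induction u with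
  | nil =>
    by_cases h : s = []
    · simp [pathPotential, h]
    · have h' : ¬ ([] = s) := fun h2 => h h2.symm
      simp [pathPotential, Pi.single_apply, h, h']
  | cons a v ih =>
    rw [pathPotential, ih, Pi.single_apply]
    by_cases h1 : a :: v = s
    · have h2 : ¬ s <:+ v := by
        intro h
        have := h.length_le
        rw [← h1] at this
        simp at this
      simp [h1, h2]
    · by_cases h2 : s <:+ v
      · have h3 : s <:+ a :: v := h2.trans (List.suffix_cons a v)
        simp [h1, h2, h3]
      · have h3 : ¬ s <:+ a :: v := by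
          rw [List.suffix_cons_iff]
          push Not
          exact ⟨fun h => h1 h.symm, h2⟩
        simp [h1, h2, h3]

theorem cons_injective (r : List ℕ) : Function.Injective (fun n : ℕ => n :: r) := by
  intro a b h
  simpa using h

theorem isTestSys (m : PotentialModel) :
    IsTestSys (fun f : PotentialTest m => f.1) Set.univ (dom m) where
  anc _ _ _ := trivial
  bound f s _ := f.2.1 s
  combine := by
    intro f g α β hα hβ hαβ h hpot hsq
    have hα2 : 0 ≤ α ^ 2 := sq_nonneg _
    have hβ2 : 0 ≤ β ^ 2 := sq_nonneg _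
    have hsum : ∀ {κ : Type} (A : Finset κ) (w : κ → List ℕ), ∑ n ∈ A, f.1 (w n) ^ 2 ≤ 1 →
        ∑ n ∈ A, g.1 (w n) ^ 2 ≤ 1 → ∑ n ∈ A, h (w n) ^ 2 ≤ 1 := by
      intro κ A w h1 h2
      calc ∑ n ∈ A, h (w n) ^ 2 ≤ ∑ n ∈ A, (α ^ 2 * f.1 (w n) ^ 2 + β ^ 2 * g.1 (w n) ^ 2) :=
            Finset.sum_le_sum fun n _ => hsq (w n)
        _ = α ^ 2 * ∑ n ∈ A, f.1 (w n) ^ 2 + β ^ 2 * ∑ n ∈ A, g.1 (w n) ^ 2 := by
            rw [Finset.sum_add_distrib, Finset.mul_sum, Finset.mul_sum]
        _ ≤ α ^ 2 * 1 + β ^ 2 * 1 := by gcongr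
        _ = 1 := by linarith
    refine ⟨⟨h, fun s => hpot s trivial, ?_⟩, rfl⟩
    obtain ⟨f, hf1, hf2⟩ := f
    obtain ⟨g, hg1, hg2⟩ := g
    cases m with
    | rootlessSibling =>
      refine ⟨?_, fun r A => hsum A (fun n => n :: r) (hf2.2 r A) (hg2.2 r A)⟩
      have := hsq []
      simp only [hf2.1, hg2.1] at this
      have h0 : h [] ^ 2 ≤ 0 := by simpa using this
      exact pow_eq_zero_iff (two_ne_zero) |>.1 (le_antisymm h0 (sq_nonneg _))
    | rootedSibling => exact fun r A => hsum A (fun n => n :: r) (hf2 r A) (hg2 r A)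
    | antichain =>
      refine ⟨(hf2.1.union hg2.1).subset ?_, fun A hA => hsum A (fun n => n) (hf2.2 A hA)
        (hg2.2 A hA)⟩
      intro s hs
      by_contra hcon
      simp only [Set.mem_union, Function.mem_support, not_or, not_not] at hcon
      have := hsq s
      simp only [hcon.1, hcon.2] at this
      have h0 : h s ^ 2 ≤ 0 := by simpa using this
      exact hs (pow_eq_zero_iff (two_ne_zero) |>.1 (le_antisymm h0 (sq_nonneg _)))
    | «global» => exact fun A => hsum A (fun n => n) (hf2 A) (hg2 A)
  single := by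
    intro s hs
    refine ⟨⟨Pi.single s 1, ?_, ?_⟩, rfl⟩
    · intro u
      rw [pathPotential_single]
      split_ifs <;> simp
    · cases m with
      | rootlessSibling =>
        refine ⟨?_, fun r A => sum_single_sq_le _ (cons_injective r) s A⟩
        have : ¬ ([] = s) := fun h => hs rfl h.symm
        simp [Pi.single_apply, this]
      | rootedSibling => exact fun r A => sum_single_sq_le _ (cons_injective r) s A
      | antichain =>
        refine ⟨(Set.finite_singleton s).subset ?_, fun A _ =>
          sum_single_sq_le _ Function.injective_id s A⟩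
        intro u hu
        by_contra h
        apply hu
        have : u ≠ s := h
        simp [Pi.single_apply, this]
      | «global» => exact fun A => sum_single_sq_le _ Function.injective_id s A
  zero := by
    rintro ⟨f, hf1, hf2⟩ s hs
    have hm : m = .rootlessSibling ∧ s = [] := by
      unfold dom at hs
      simp only [Set.mem_ofPred_eq] at hs
      push Not at hs
      exact hs
    obtain ⟨rfl, rfl⟩ := hm
    exact hf2.1
  sibling := by
    rintro ⟨f, hf1, hf2⟩ r A
    cases m with
    | rootlessSibling => exact hf2.2 r A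
    | rootedSibling => exact hf2 r A
    | antichain =>
      classical
      have h1 := hf2.2 (A.image fun n => n :: r) (by
        intro u hu v hv huv hsuf
        simp only [Finset.mem_image] at hu hv
        obtain ⟨a, _, rfl⟩ := hu
        obtain ⟨b, _, rfl⟩ := hv
        apply huv
        exact hsuf.eq_of_length (by simp))
      rwa [Finset.sum_image (fun a _ b _ h => cons_injective r h)] at h1
    | «global» =>
      classical
      have h1 := hf2 (A.image fun n => n :: r)
      rwa [Finset.sum_image (fun a _ b _ h => cons_injective r h)] at h1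

/-- the opposite test -/
theorem exists_neg (m : PotentialModel) (f : PotentialTest m) :
    ∃ g : PotentialTest m, g.1 = fun s => - f.1 s := by
  have := (isTestSys m).combine f f 1 0 zero_le_one le_rfl (by norm_num) (fun s => - f.1 s)
    (fun s _ => by
      have : ∀ s, pathPotential (fun s => - f.1 s) s = - pathPotential f.1 s := by
        intro s
        induction s with
        | nil => rfl
        | cons a v ih => simp only [pathPotential, ih]; ring
      rw [this, abs_neg]
      exact f.2.1 s) (fun s => by simp)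
  exact this

theorem mem_neg (m : PotentialModel) (f g : PotentialTest m) (hg : g.1 = fun s => - f.1 s)
    (x : lp (fun _ : PotentialTest m => ℝ) ⊤) (hx : x ∈ modelSpace m) : x g = - x f := by
  have hcl : IsClosed {x : lp (fun _ : PotentialTest m => ℝ) ⊤ | x g = - x f} := by
    apply isClosed_eq
    · exact (lp.evalCLM ℝ (fun _ : PotentialTest m => ℝ) ⊤ g).continuous
    · exact (lp.evalCLM ℝ (fun _ : PotentialTest m => ℝ) ⊤ f).continuous.neg
  have hsub : (Submodule.span ℝ (Set.range (coordVector m)) :
      Set (lp (fun _ : PotentialTest m => ℝ) ⊤)) ⊆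
      {x : lp (fun _ : PotentialTest m => ℝ) ⊤ | x g = - x f} := by
    intro z hz
    replace hz : z ∈ Submodule.span ℝ (Set.range (coordVector m)) := hz
    change z g = - z f
    induction hz using Submodule.span_induction with
    | mem z hz =>
      obtain ⟨s, rfl⟩ := hz
      change g.1 s = - f.1 s
      rw [hg]
    | zero => simp
    | add z w _ _ hz hw => simp only [lp.coeFn_add, Pi.add_apply, hz, hw]; ring
    | smul c z _ hz => simp only [lp.coeFn_smul, Pi.smul_apply, hz, smul_eq_mul]; ring
  exact closure_minimal hsub hcl hx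

noncomputable def treeSpace (m : PotentialModel) :
    TreeSpace (modelSpace m) (fun f : PotentialTest m => f.1) where
  e s := ⟨coordVector m s, Submodule.le_topologicalClosure _ (Submodule.subset_span ⟨s, rfl⟩)⟩
  ev f := (lp.evalCLM ℝ (fun _ : PotentialTest m => ℝ) ⊤ f).comp (modelSpace m).subtypeL
  ev_e _ _ := rfl
  ev_le f x := (le_abs_self _).trans (lp.norm_apply_le_norm ENNReal.top_ne_zero x.1 f)
  exists_ev := by
    intro x ε hε
    haveI : Nonempty (PotentialTest m) := by
      obtain ⟨i, _⟩ := (isTestSys m).single [0] (by intro _; simp)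
      exact ⟨i⟩
    have h1 : ‖x‖ = ⨆ i, ‖x.1 i‖ := by
      rw [← lp.norm_eq_ciSup]; rfl
    have h2 : ‖x‖ - ε < ⨆ i, ‖x.1 i‖ := by rw [← h1]; linarith
    obtain ⟨f, hf⟩ := exists_lt_of_lt_ciSup h2
    rcases le_total 0 (x.1 f) with h | h
    · refine ⟨f, ?_⟩
      rw [Real.norm_of_nonneg h] at hf
      exact hf
    · obtain ⟨g, hg⟩ := exists_neg m f
      refine ⟨g, ?_⟩
      rw [Real.norm_of_nonpos h, ← mem_neg m f g hg x.1 x.2] at hf
      exact hf
  dense := by
    intro x
    rw [Metric.mem_closure_iff]
    intro ε hε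
    obtain ⟨y, hy, hxy⟩ := Metric.mem_closure_iff.1 x.2 ε hε
    have hy' : y ∈ Submodule.map (modelSpace m).subtype (Submodule.span ℝ (Set.range
        (fun s => (⟨coordVector m s, Submodule.le_topologicalClosure _
          (Submodule.subset_span ⟨s, rfl⟩)⟩ : modelSpace m)))) := by
      rw [Submodule.map_span, ← Set.range_comp]
      exact hy
    obtain ⟨z, hz, rfl⟩ := hy'
    exact ⟨z, hz, hxy⟩

theorem separable (m : PotentialModel) : TopologicalSpace.SeparableSpace (modelSpace m) := by
  have h1 : TopologicalSpace.IsSeparable (Set.range (coordVector m)) :=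
    (Set.countable_range _).isSeparable
  have h2 := h1.span (R := ℝ)
  have h3 := h2.closure
  exact h3.separableSpace

theorem result
    (m : Crest.AnalysisR.TreePotential.PotentialModel) :
    (Crest.AnalysisR.TreePotential.modelBanach m).IsSeparableInfiniteDim ∧
      (∀ t : ℝ, 0 < t → t < 1 →
        (Crest.AnalysisR.TreePotential.modelBanach m).MidpointModulusGE
          (Crest.AnalysisR.TreePotential.modelBanach m).norm t (Real.sqrt (1 + t ^ 2 / 4) - 1)) ∧
      ∀ N : (Crest.AnalysisR.TreePotential.modelBanach m).X → ℝ,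
        (Crest.AnalysisR.TreePotential.modelBanach m).IsEquivNorm N →
          ¬ (Crest.AnalysisR.TreePotential.modelBanach m).IsAUC N := by
  have hT := isTestSys m
  have hnot : ∀ N : modelSpace m → ℝ, AUC.IsEquivNorm N → ¬ AUC.IsAUCNorm N :=
    fun N hN => not_isAUCNorm_of_univ hT (treeSpace m) (fun _ => trivial)
      (fun a v _ => by simp) N hN
  have hfin : ¬ FiniteDimensional ℝ (modelSpace m) := by
    refine not_finiteDimensional (hnot _ ⟨fun x y => norm_add_le x y, fun a x => ?_, 1, 1, one_pos,
      fun x => ⟨(one_mul _).le, (one_mul _).ge⟩⟩)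
    exact norm_smul a x
  refine ⟨⟨separable m, hfin⟩, ?_, hnot⟩
  · intro t ht0 ht1 (x : modelSpace m) hx η hη
    obtain ⟨S, hcl, hfd, hS⟩ := goodMod hT (treeSpace m) x η hη
    refine ⟨(S : Set (modelSpace m)), ⟨S, rfl, hcl, hfd⟩,
      fun (y : modelSpace m) hy hy1 => ?_⟩
    change ‖x‖ = 1 at hx
    change ‖y‖ = 1 at hy1
    have h1 := hS (t • y) (S.smul_mem t hy)
    rw [hx, norm_smul, hy1, Real.norm_of_nonneg ht0.le, mul_one, one_pow] at h1
    change Real.sqrt (1 + t ^ 2 / 4) - 1 - η ≤ (‖x + t • y‖ + ‖x - t • y‖) / 2 - 1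
    linarith

end Crest.Agent.S0168
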