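import Crest.Statements.S0169
import Crest.Agent.AUC.Tree

set_option autoImplicit false
open MeasureTheory ProbabilityTheory
open Crest Crest.AnalysisR

namespace Crest.Agent.S0169

open Crest.Agent.AUC Crest.Agent.AUC.Tree Crest.AnalysisR.TreeProduct

section

variable {ν : Measure ℝ} [IsProbabilityMeasure ν]
    {Ω : Type} [mΩ : MeasurableSpace Ω] {μ : Measure Ω} [IsProbabilityMeasure μ]
    {W : List ℕ → Ω → ℝ}

/-- sigma-algebra generated by a set of vertices -/
def sig (W : List ℕ → Ω → ℝ) (S : Set (List ℕ)) : MeasurableSpace Ω :=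
  ⨆ u ∈ S, MeasurableSpace.comap (W u) inferInstance

theorem sig_mono {S T : Set (List ℕ)} (h : S ⊆ T) : sig W S ≤ sig W T :=
  iSup₂_le fun u hu => le_iSup₂_of_le u (h hu) le_rfl

theorem measurable_sig {S : Set (List ℕ)} {u : List ℕ} (hu : u ∈ S) :
    Measurable[sig W S] (W u) := by
  rw [measurable_iff_comap_le]
  exact le_iSup₂_of_le (f := fun u (_ : u ∈ S) => MeasurableSpace.comap (W u) inferInstance)
    u hu le_rfl

theorem measurable_pathProduct_sig (v : List ℕ) :
    Measurable[sig W {u | u <:+ v}] (pathProduct W v) := by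
  induction v with
  | nil => exact measurable_const
  | cons a v ih =>
    have h1 : Measurable[sig W {u | u <:+ a :: v}] (pathProduct W v) := by
      refine ih.mono (sig_mono fun u hu => ?_) le_rfl
      exact List.IsSuffix.trans hu (List.suffix_cons a v)
    have h2 : Measurable[sig W {u | u <:+ a :: v}] (W (a :: v)) :=
      measurable_sig (List.suffix_refl _)
    exact h1.mul h2

theorem indep_sig (hW : IsRealization ν μ W) (v : List ℕ) :
    Indep (sig W {u | u <:+ v}) (sig W {u | ∃ a, u = a :: v}) μ := by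
  refine indep_iSup_of_disjoint (fun i => (hW.1 i).comap_le) ?_ ?_
  · exact hW.2.1.iIndep
  · rw [Set.disjoint_left]
    rintro u hu ⟨a, rfl⟩
    have := List.IsSuffix.length_le hu
    simp at this

theorem indepFun_of_sig (hW : IsRealization ν μ W) (v : List ℕ) {f g : Ω → ℝ}
    (hf : Measurable[sig W {u | u <:+ v}] f) (hg : Measurable[sig W {u | ∃ a, u = a :: v}] g) :
    IndepFun f g μ := by
  rw [IndepFun_iff_Indep]
  exact indep_of_indep_of_le_left (indep_of_indep_of_le_right (indep_sig hW v)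
    (measurable_iff_comap_le.1 hg)) (measurable_iff_comap_le.1 hf)

theorem integral_W (hW : IsRealization ν μ W) {s : List ℕ} (hs : s ≠ []) (g : ℝ → ℝ)
    (hg : Measurable g) : ∫ ω, g (W s ω) ∂μ = ∫ x, g x ∂ν := by
  rw [← hW.2.2 s hs, integral_map (hW.1 s).aemeasurable hg.aestronglyMeasurable]

theorem integrable_W (hW : IsRealization ν μ W) {s : List ℕ} (hs : s ≠ []) (g : ℝ → ℝ)
    (hg : Measurable g) (hgi : Integrable g ν) : Integrable (fun ω => g (W s ω)) μ := by
  rw [← hW.2.2 s hs] at hgi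
  exact (integrable_map_measure hg.aestronglyMeasurable (hW.1 s).aemeasurable).1 hgi

theorem measurable_pathProduct (hW : IsRealization ν μ W) (v : List ℕ) :
    Measurable (pathProduct W v) := by
  induction v with
  | nil => exact measurable_const
  | cons a v ih => exact ih.mul (hW.1 _)

theorem integrable_id (hm2 : Integrable (fun x : ℝ => x ^ 2) ν) :
    Integrable (fun x : ℝ => x) ν := by
  have : MemLp (fun x : ℝ => x) 2 ν := (memLp_two_iff_integrable_sq measurable_id.aestronglyMeasurable).2 hm2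
  exact this.integrable one_le_two

theorem pathProduct_facts (hpos : ν (Set.Ioi 0) = 1) (hmean : ∫ x, x ∂ν = 1)
    (hm2 : Integrable (fun x : ℝ => x ^ 2) ν) (hW : IsRealization ν μ W) (v : List ℕ) :
    Integrable (pathProduct W v) μ ∧ ∫ ω, |pathProduct W v ω| ∂μ = 1 := by
  have hid := integrable_id hm2
  have habs : ∫ x, |x| ∂ν = 1 := by
    rw [← hmean]
    refine integral_congr_ae ?_
    have : ∀ᵐ x ∂ν, x ∈ Set.Ioi (0 : ℝ) := by
      rw [← prob_compl_eq_zero_iff measurableSet_Ioi] at hpos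
      exact mem_ae_iff.2 hpos
    filter_upwards [this] with x hx
    exact abs_of_pos hx
  induction v with
  | nil =>
    refine ⟨integrable_const _, ?_⟩
    simp [pathProduct]
  | cons a v ih =>
    have hind : IndepFun (pathProduct W v) (W (a :: v)) μ :=
      indepFun_of_sig hW v (measurable_pathProduct_sig v) (measurable_sig ⟨a, rfl⟩)
    have hWi : Integrable (W (a :: v)) μ :=
      integrable_W hW (List.cons_ne_nil _ _) (fun x => x) measurable_id hid
    refine ⟨hind.integrable_mul ih.1 hWi, ?_⟩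
    have h1 : ∀ ω, |pathProduct W (a :: v) ω| = |pathProduct W v ω| * |W (a :: v) ω| := by
      intro ω; simp only [pathProduct, abs_mul]
    simp only [h1]
    have hind2 : IndepFun (fun ω => |pathProduct W v ω|) (fun ω => |W (a :: v) ω|) μ :=
      hind.comp (φ := fun x : ℝ => |x|) (ψ := fun x : ℝ => |x|) measurable_norm measurable_norm
    rw [hind2.integral_fun_mul_eq_mul_integral
      (measurable_pathProduct hW v).norm.aestronglyMeasurable
      (hW.1 _).norm.aestronglyMeasurable, ih.2,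
      integral_W hW (List.cons_ne_nil _ _) (fun x => |x|) measurable_norm, habs, one_mul]

/-- siblings increments, as functions -/
noncomputable def sibSum (W : List ℕ → Ω → ℝ) (v : List ℕ) (A : Finset ℕ) (c : ℕ → ℝ) : Ω → ℝ :=
  fun ω => ∑ a ∈ A, c a * (W (a :: v) ω - 1)

theorem integral_abs_sibSum_le (hmean : ∫ x, x ∂ν = 1)
    (hm2 : Integrable (fun x : ℝ => x ^ 2) ν) (hW : IsRealization ν μ W) (v : List ℕ)
    (A : Finset ℕ) (c : ℕ → ℝ) :
    ∫ ω, |sibSum W v A c ω| ∂μ ≤
      Real.sqrt (∫ x, (x - 1) ^ 2 ∂ν) * Real.sqrt (∑ a ∈ A, c a ^ 2) := by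
  have hid := integrable_id hm2
  have hL2 : ∀ a, MemLp (fun ω => c a * (W (a :: v) ω - 1)) 2 μ := by
    intro a
    have h1 : MemLp (W (a :: v)) 2 μ :=
      (memLp_two_iff_integrable_sq (hW.1 _).aestronglyMeasurable).2
        (integrable_W hW (List.cons_ne_nil _ _) (fun x => x ^ 2) (by fun_prop) hm2)
    exact (h1.sub (memLp_const 1)).const_mul (c a)
  have hmean0 : ∀ a, ∫ ω, c a * (W (a :: v) ω - 1) ∂μ = 0 := by
    intro a
    rw [integral_W hW (List.cons_ne_nil _ _) (fun x => c a * (x - 1)) (by fun_prop),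
      integral_const_mul, integral_sub hid (integrable_const _), hmean]
    simp
  have hvar : ∀ a, variance (fun ω => c a * (W (a :: v) ω - 1)) μ
      = c a ^ 2 * ∫ x, (x - 1) ^ 2 ∂ν := by
    intro a
    rw [variance_eq_sub (hL2 a), hmean0 a]
    have : ∫ ω, ((fun ω => c a * (W (a :: v) ω - 1)) ^ 2) ω ∂μ =
        ∫ ω, (fun x => c a ^ 2 * (x - 1) ^ 2) (W (a :: v) ω) ∂μ := by
      refine integral_congr_ae (Filter.Eventually.of_forall fun ω => ?_)
      simp only [Pi.pow_apply]; ring
    rw [this, integral_W hW (List.cons_ne_nil _ _) (fun x => c a ^ 2 * (x - 1) ^ 2) (by fun_prop),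
      integral_const_mul]
    ring
  have hS2 : MemLp (sibSum W v A c) 2 μ := by
    have := memLp_finsetSum A (fun a _ => hL2 a)
    exact this
  have hSmean : ∫ ω, sibSum W v A c ω ∂μ = 0 := by
    unfold sibSum
    rw [integral_finsetSum _ fun a _ => (hL2 a).integrable one_le_two]
    exact Finset.sum_eq_zero fun a _ => hmean0 a
  have hSvar : variance (sibSum W v A c) μ = (∑ a ∈ A, c a ^ 2) * ∫ x, (x - 1) ^ 2 ∂ν := by
    have hpair : Set.Pairwise (A : Set ℕ) fun i j => IndepFun
        (fun ω => c i * (W (i :: v) ω - 1)) (fun ω => c j * (W (j :: v) ω - 1)) μ := by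
      intro i _ j _ hij
      have h1 : IndepFun (W (i :: v)) (W (j :: v)) μ :=
        hW.2.1.indepFun (by simpa using hij)
      exact h1.comp (φ := fun x : ℝ => c i * (x - 1)) (ψ := fun x : ℝ => c j * (x - 1))
        (by fun_prop) (by fun_prop)
    have h2 := IndepFun.variance_sum (X := fun a ω => c a * (W (a :: v) ω - 1))
      (fun i _ => hL2 i) hpair
    have h3 : (∑ a ∈ A, fun ω => c a * (W (a :: v) ω - 1)) = sibSum W v A c := by
      ext ω; simp [sibSum]
    rw [h3] at h2
    rw [h2, Finset.sum_mul]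
    exact Finset.sum_congr rfl fun a _ => hvar a
  have hS2sq : ∫ ω, (sibSum W v A c ω) ^ 2 ∂μ = (∑ a ∈ A, c a ^ 2) * ∫ x, (x - 1) ^ 2 ∂ν := by
    have := variance_eq_sub hS2
    rw [hSmean, hSvar] at this
    simp only [Pi.pow_apply] at this
    linarith
  have hJ : (∫ ω, |sibSum W v A c ω| ∂μ) ^ 2 ≤ ∫ ω, (sibSum W v A c ω) ^ 2 ∂μ := by
    have h1 := variance_nonneg (fun ω => |sibSum W v A c ω|) μ
    have h2 : MemLp (fun ω => |sibSum W v A c ω|) 2 μ := hS2.norm
    rw [variance_eq_sub h2] at h1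
    have h3 : ∫ ω, ((fun ω => |sibSum W v A c ω|) ^ 2) ω ∂μ = ∫ ω, (sibSum W v A c ω) ^ 2 ∂μ := by
      refine integral_congr_ae (Filter.Eventually.of_forall fun ω => ?_)
      simp
    rw [h3] at h1
    linarith
  rw [← Real.sqrt_mul (integral_nonneg fun x => sq_nonneg _)]
  apply Real.le_sqrt_of_sq_le
  rw [hS2sq] at hJ
  linarith

end

theorem result (ν : Measure ℝ) [IsProbabilityMeasure ν] (hpos : ν (Set.Ioi 0) = 1)
    (hnc : ∀ c : ℝ, ν ≠ Measure.dirac c) (hmean : ∫ x, x ∂ν = 1)
    (hm2 : Integrable (fun x : ℝ => x ^ 2) ν)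
    (Ω : Type) [MeasurableSpace Ω] (μ : Measure Ω) [IsProbabilityMeasure μ]
    (W : List ℕ → Ω → ℝ) (hW : Crest.AnalysisR.TreeProduct.IsRealization ν μ W) :
    ¬ FiniteDimensional ℝ (Crest.AnalysisR.TreeProduct.productSpan μ W) ∧
      ∀ N : (Crest.AnalysisR.TreeProduct.spanBanach μ W).X → ℝ,
        (Crest.AnalysisR.TreeProduct.spanBanach μ W).IsEquivNorm N →
          ¬ (Crest.AnalysisR.TreeProduct.spanBanach μ W).IsAUC N := by
  have hid := integrable_id hm2
  -- the nonzero mean deviation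
  set δ : ℝ := ∫ x, |x - 1| ∂ν with hδ
  have hint1 : Integrable (fun x : ℝ => |x - 1|) ν := (hid.sub (integrable_const 1)).norm
  have hδ0 : 0 < δ := by
    have h0 : 0 ≤ δ := integral_nonneg fun x => abs_nonneg _
    rcases eq_or_lt_of_le h0 with h | h
    · exfalso
      have h1 := (integral_eq_zero_iff_of_nonneg (fun x => abs_nonneg (x - 1)) hint1).1 h.symm
      apply hnc 1
      have h2 : (fun x : ℝ => x) =ᵐ[ν] fun _ => (1 : ℝ) := by
        filter_upwards [h1] with x hx
        have : |x - 1| = 0 := hx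
        linarith [abs_eq_zero.1 this]
      calc ν = ν.map (fun x => x) := Measure.map_id.symm
        _ = ν.map (fun _ => (1 : ℝ)) := Measure.map_congr h2
        _ = Measure.dirac 1 := by rw [Measure.map_const, measure_univ, one_smul]
    · exact h
  have hfacts := pathProduct_facts hpos hmean hm2 hW
  -- the classes
  let cls : List ℕ → Lp ℝ 1 μ := fun v => (hfacts v).1.toL1 (pathProduct W v)
  have hcls : ∀ v, (cls v : Ω → ℝ) =ᵐ[μ] pathProduct W v := fun v =>
    Integrable.coeFn_toL1 (hfacts v).1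
  let E : Submodule ℝ (Lp ℝ 1 μ) := productSpan μ W
  have hmem : ∀ v, cls v ∈ E := fun v =>
    Submodule.le_topologicalClosure _ (Submodule.subset_span ⟨v, hcls v⟩)
  let x : List ℕ → E := fun v => ⟨cls v, hmem v⟩
  have hnorm : ∀ v, ‖x v‖ = 1 := by
    intro v
    change ‖cls v‖ = 1
    rw [L1.norm_eq_integral_norm, ← (hfacts v).2]
    refine integral_congr_ae ?_
    filter_upwards [hcls v] with ω hω
    rw [hω, Real.norm_eq_abs]
  -- sums of increments
  have hsum : ∀ (v : List ℕ) (A : Finset ℕ) (c : ℕ → ℝ),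
      (((∑ a ∈ A, c a • (x (a :: v) - x v) : E) : Lp ℝ 1 μ) : Ω → ℝ) =ᵐ[μ]
        fun ω => pathProduct W v ω * sibSum W v A c ω := by
    intro v A c
    induction A using Finset.induction_on with
    | empty =>
      simp only [Finset.sum_empty, sibSum, mul_zero]
      exact Lp.coeFn_zero ℝ 1 μ
    | insert a A ha ih =>
      rw [Finset.sum_insert ha]
      have h1 : ((c a • (x (a :: v) - x v) + ∑ b ∈ A, c b • (x (b :: v) - x v) : E) : Lp ℝ 1 μ)
          = c a • (cls (a :: v) - cls v) +
            ((∑ b ∈ A, c b • (x (b :: v) - x v) : E) : Lp ℝ 1 μ) := rfl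
      rw [h1]
      filter_upwards [ih, hcls (a :: v), hcls v, Lp.coeFn_add (c a • (cls (a :: v) - cls v))
        ((∑ b ∈ A, c b • (x (b :: v) - x v) : E) : Lp ℝ 1 μ),
        Lp.coeFn_smul (c a) (cls (a :: v) - cls v), Lp.coeFn_sub (cls (a :: v)) (cls v)]
        with ω e1 e2 e3 e4 e5 e6
      rw [e4, Pi.add_apply, e5, Pi.smul_apply, e6, Pi.sub_apply, e1, e2, e3]
      simp only [sibSum, Finset.sum_insert ha, pathProduct, smul_eq_mul]
      ring
  have hnormsum : ∀ (v : List ℕ) (A : Finset ℕ) (c : ℕ → ℝ),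
      ‖∑ a ∈ A, c a • (x (a :: v) - x v)‖ = ∫ ω, |sibSum W v A c ω| ∂μ := by
    intro v A c
    change ‖((∑ a ∈ A, c a • (x (a :: v) - x v) : E) : Lp ℝ 1 μ)‖ = _
    rw [L1.norm_eq_integral_norm]
    have h1 : ∫ ω, ‖(((∑ a ∈ A, c a • (x (a :: v) - x v) : E) : Lp ℝ 1 μ) : Ω → ℝ) ω‖ ∂μ =
        ∫ ω, |pathProduct W v ω| * |sibSum W v A c ω| ∂μ := by
      refine integral_congr_ae ?_
      filter_upwards [hsum v A c] with ω hω
      rw [hω, Real.norm_eq_abs, abs_mul]
    rw [h1]
    have hmeas : Measurable[sig W {u | ∃ a, u = a :: v}] (sibSum W v A c) := by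
      refine Finset.measurable_sum A fun a _ => ?_
      exact ((measurable_sig (S := {u | ∃ a, u = a :: v}) (u := a :: v) ⟨a, rfl⟩).sub_const
        1).const_mul (c a)
    have hind : IndepFun (pathProduct W v) (sibSum W v A c) μ :=
      indepFun_of_sig hW v (measurable_pathProduct_sig v) hmeas
    have hmeas' : Measurable (sibSum W v A c) := by
      refine Finset.measurable_sum A fun a _ => ?_
      exact ((hW.1 _).sub_const 1).const_mul (c a)
    have hind2 : IndepFun (fun ω => |pathProduct W v ω|) (fun ω => |sibSum W v A c ω|) μ :=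
      hind.comp (φ := fun x : ℝ => |x|) (ψ := fun x : ℝ => |x|) measurable_norm measurable_norm
    rw [hind2.integral_fun_mul_eq_mul_integral
      (measurable_pathProduct hW v).norm.aestronglyMeasurable hmeas'.norm.aestronglyMeasurable,
      (hfacts v).2, one_mul]
  have hincr : ∀ (v : List ℕ) (a : ℕ), ‖x (a :: v) - x v‖ = δ := by
    intro v a
    have h1 := hnormsum v {a} (fun _ => 1)
    simp only [Finset.sum_singleton, one_smul, sibSum, one_mul] at h1
    rw [h1, integral_W hW (List.cons_ne_nil _ _) (fun x => |x - 1|) (by fun_prop)]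
  have hnot : ∀ N : E → ℝ, AUC.IsEquivNorm N → ¬ AUC.IsAUCNorm N := by
    intro N hN
    refine not_isAUCNorm_of_trees (fun _ y => ∃ v, y = x v) 1 δ 1 hδ0 one_pos ?_ ?_ ?_ N hN
    · rintro _ _ ⟨v, rfl⟩
      exact (hnorm v).le
    · rintro k _ ⟨v, rfl⟩ S hcl hfd η hη
      obtain ⟨a, u, hu, hau⟩ := (exists_near_of_upper_two (fun a => x (a :: v) - x v)
        (Real.sqrt (∫ x, (x - 1) ^ 2 ∂ν)) (fun A c => by
          rw [hnormsum]
          exact integral_abs_sibSum_le hmean hm2 hW v A c) S hcl hfd η hη).exists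
      exact ⟨_, ⟨a :: v, rfl⟩, (hincr v a).ge, u, hu, hau.le⟩
    · intro _
      exact ⟨_, ⟨[], rfl⟩, (hnorm []).ge⟩
  refine ⟨?_, hnot⟩
  refine not_finiteDimensional (hnot _ ⟨fun x y => norm_add_le x y, fun a x => ?_, 1, 1, one_pos,
      fun x => ⟨(one_mul _).le, (one_mul _).ge⟩⟩)
  exact norm_smul a x

end Crest.Agent.S0169
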