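import Crest.Statements.S0254
-- import your own Crest.Agent.* helpers here
import Crest.Agent.SRFactor.Ball
import Crest.Agent.SRFactor.EdgeLab

set_option autoImplicit false
set_option linter.style.haveILetI false
open Crest Crest.ProbabilityR

namespace Crest.Agent.S0254

section Helpers

open MeasureTheory Set Filter Topology Crest.Agent.SRFactor Crest.Agent.EdgeLab
open Crest.ProbabilityR.GraphTables Crest.ProbabilityR.SpanningTrees Crest.ProbabilityR.Labels

/-- the rule -/
noncomputable def Phi (G : SimpleGraph ℕ) (x : ℕ → unitInterval) : Sym2 ℕ → Bool :=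
  outp (mG G) (edgeLab G x)

theorem outp_measurable_param {P E : Type*} [MeasurableSpace P] {m : P → (E → ℝ) → E → ℝ}
    (hm : ∀ v, Measurable (fun q : P × (E → ℝ) => m q.1 q.2 v))
    {ξ : P → E → unitInterval} (hξ : Measurable ξ) : Measurable (fun p => outp (m p) (ξ p)) := by
  rw [measurable_pi_iff]
  intro v
  have hu : ∀ e, Measurable (fun p : P => ((uI (ξ p) e : unitInterval) : ℝ)) := by
    intro e
    have h1 : Measurable (fun p : P => uI (ξ p)) := uI_measurable.comp hξ
    have h2 : Measurable (fun p : P => uI (ξ p) e) := (measurable_pi_apply e).comp h1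
    exact measurable_subtype_coe.comp h2
  have hw : ∀ e, Measurable (fun p : P => ((wI (ξ p) e : unitInterval) : ℝ)) := by
    intro e
    have h1 : Measurable (fun p : P => wI (ξ p)) := wI_measurable.comp hξ
    have h2 : Measurable (fun p : P => wI (ξ p) e) := (measurable_pi_apply e).comp h1
    exact measurable_subtype_coe.comp h2
  exact dec_measurable (fun e => fixpt_measurable (m := m) hm
    (u := fun p e => ((uI (ξ p) e : unitInterval) : ℝ))
    (w := fun p e => ((wI (ξ p) e : unitInterval) : ℝ)) hu hw e) v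

theorem Phi_measurable : Measurable (fun p : (ℕ → ℕ → Bool) × (ℕ → unitInterval) =>
    Phi (graphOfTable p.1) p.2) := by
  have hm : ∀ v, Measurable (fun q : ((ℕ → ℕ → Bool) × (ℕ → unitInterval)) × (Sym2 ℕ → ℝ) =>
      mG (graphOfTable q.1.1) q.2 v) := by
    intro v
    have h1 : Measurable (fun q : ((ℕ → ℕ → Bool) × (ℕ → unitInterval)) × (Sym2 ℕ → ℝ) =>
      (q.1.1, q.2)) := (measurable_fst.comp measurable_fst).prodMk measurable_snd
    have h2 := (mG_measurable v).comp h1
    exact h2
  have h3 := outp_measurable_param (m := fun p : (ℕ → ℕ → Bool) × (ℕ → unitInterval) =>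
    mG (graphOfTable p.1)) hm edgeLab_measurable
  exact h3

theorem Phi_equiv (σ : Equiv.Perm ℕ) (G : SimpleGraph ℕ) (x : ℕ → unitInterval) :
    Phi (G.comap ⇑σ) (x ∘ ⇑σ) = Phi G x ∘ Sym2.map ⇑σ := by
  unfold Phi
  rw [edgeLab_equiv]
  funext v
  exact outp_transport (Sym2.map σ) (mG (G.comap σ)) (mG G) (mG_equiv σ G) (edgeLab G x) v

theorem graphOfTable_tableOf (G : SimpleGraph ℕ) : graphOfTable (tableOf G) = G := by
  ext i j
  simp only [graphOfTable, tableOf, SimpleGraph.fromRel_adj, decide_eq_true_eq]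
  constructor
  · rintro ⟨_, h | h⟩
    · exact h
    · exact h.symm
  · intro h
    exact ⟨h.ne, Or.inl h⟩

theorem Phi_measurable' (G : SimpleGraph ℕ) : Measurable (Phi G) := by
  have h1 : Measurable (fun x : ℕ → unitInterval => (tableOf G, x)) :=
    measurable_const.prodMk measurable_id
  have h2 := Phi_measurable.comp h1
  have h3 : ((fun p : (ℕ → ℕ → Bool) × (ℕ → unitInterval) => Phi (graphOfTable p.1) p.2) ∘
      (fun x : ℕ → unitInterval => (tableOf G, x))) = Phi G := by
    funext x
    simp only [Function.comp, graphOfTable_tableOf]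
  rwa [h3] at h2

theorem edgeLab_measurable' (G : SimpleGraph ℕ) : Measurable (edgeLab G) := by
  have h1 : Measurable (fun x : ℕ → unitInterval => (tableOf G, x)) :=
    measurable_const.prodMk measurable_id
  have h2 := edgeLab_measurable.comp h1
  have h3 : ((fun p : (ℕ → ℕ → Bool) × (ℕ → unitInterval) => edgeLab (graphOfTable p.1) p.2) ∘
      (fun x : ℕ → unitInterval => (tableOf G, x))) = edgeLab G := by
    funext x
    simp only [Function.comp, graphOfTable_tableOf]
  rwa [h3] at h2

theorem law_restr {G : SimpleGraph ℕ} (hG : G.Connected)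
    (hloc : ∀ v : ℕ, (G.neighborSet v).Finite)
    {ν : ProbabilityMeasure (Sym2 ℕ → Bool)} (hν : IsFusf G ν) :
    ((labelMeasure ℕ).map (Phi G)).map (restr G) = nuE G (ν : Measure (Sym2 ℕ → Bool)) := by
  classical
  haveI := nuE_prob G (ν : Measure (Sym2 ℕ → Bool))
  have hL : Measurable (fun (x : ℕ → unitInterval) (e : G.edgeSet) => edgeLab G x e) := by
    rw [measurable_pi_iff]
    intro e
    exact (measurable_pi_apply (e : Sym2 ℕ)).comp (edgeLab_measurable' G)
  have ho : Measurable (outp (mlim (nuE G (ν : Measure (Sym2 ℕ → Bool))) (BE G))) :=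
    outp_measurable _ (mlim_measurable _ _)
  rw [Measure.map_map (restr_measurable G) (Phi_measurable' G), ← map_outp_nuE hG hloc hν,
    ← edgeLab_law G hloc, Measure.map_map ho hL]
  congr 1
  funext x v
  exact (outp_transport (Subtype.val : G.edgeSet → Sym2 ℕ)
    (mlim (nuE G (ν : Measure (Sym2 ℕ → Bool))) (BE G)) (mG G) (mlim_nuE hG hloc hν)
    (edgeLab G x) v).symm

theorem law_inEv {G : SimpleGraph ℕ} (hG : G.Connected)
    (hloc : ∀ v : ℕ, (G.neighborSet v).Finite)
    {ν : ProbabilityMeasure (Sym2 ℕ → Bool)} (hν : IsFusf G ν) (F : Finset (Sym2 ℕ))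
    (hF : (↑F : Set (Sym2 ℕ)) ⊆ G.edgeSet) :
    (labelMeasure ℕ).map (Phi G) (inEv F) = (ν : Measure (Sym2 ℕ → Bool)) (inEv F) := by
  have hT : MeasurableSet {ω' : G.edgeSet → Bool | ∀ e : G.edgeSet, e.1 ∈ F → ω' e = true} := by
    have : {ω' : G.edgeSet → Bool | ∀ e : G.edgeSet, e.1 ∈ F → ω' e = true} =
        ⋂ e : G.edgeSet, ⋂ (_ : e.1 ∈ F), {ω' : G.edgeSet → Bool | ω' e = true} := by
      ext ω'; simp
    rw [this]
    refine MeasurableSet.iInter (fun e => MeasurableSet.iInter (fun _ => ?_))
    exact (show Measurable (fun ω' : G.edgeSet → Bool => ω' e) from measurable_pi_apply e)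
      (MeasurableSet.of_discrete (s := {b : Bool | b = true}))
  have hpre : inEv F = restr G ⁻¹' {ω' : G.edgeSet → Bool | ∀ e : G.edgeSet, e.1 ∈ F → ω' e = true} := by
    ext ω
    simp only [inEv, mem_ofPred_eq, mem_preimage, restr]
    constructor
    · intro h e he; exact h e.1 he
    · intro h e he; exact h ⟨e, hF he⟩ he
  have h1 := congrArg (fun μ : Measure (G.edgeSet → Bool) =>
    μ {ω' : G.edgeSet → Bool | ∀ e : G.edgeSet, e.1 ∈ F → ω' e = true}) (law_restr hG hloc hν)
  simp only [nuE] at h1
  rw [Measure.map_apply (restr_measurable G) hT, Measure.map_apply (restr_measurable G) hT,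
    ← hpre] at h1
  exact h1

end Helpers

/-- One rule from (graph on `ℕ`, labels in `[0,1]^ℕ`) to edge sets, jointly measurable in (adjacency table, labels) and commuting on every input with every permutation of `ℕ` acting on graph, labels and pairs, gives i.i.d. uniform labels the free uniform spanning forest's law on every connected locally finite graph: along every exhaustion by finite connected induced pieces, for finite edge sets `F` the chance that the piece's uniform spanning tree contains `F` tends to that for the output. -/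
theorem result :
    ∃ Φ : SimpleGraph ℕ → (ℕ → unitInterval) → (Sym2 ℕ → Bool),
      Measurable (fun p : (ℕ → ℕ → Bool) × (ℕ → unitInterval) =>
          Φ (Crest.ProbabilityR.GraphTables.graphOfTable p.1) p.2) ∧
      (∀ (σ : Equiv.Perm ℕ) (G : SimpleGraph ℕ) (x : ℕ → unitInterval),
          Φ (G.comap ⇑σ) (x ∘ ⇑σ) = Φ G x ∘ Sym2.map ⇑σ) ∧
      ∀ G : SimpleGraph ℕ, G.Connected → (∀ v : ℕ, (G.neighborSet v).Finite) →
        ∀ S : ℕ → Finset ℕ, Monotone S → (∀ v : ℕ, ∃ n, v ∈ S n) →
          (∀ n, (G.induce (S n : Set ℕ)).Connected) →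
          ∀ F : Finset (Sym2 ℕ), (↑F : Set (Sym2 ℕ)) ⊆ G.edgeSet →
            Filter.Tendsto (fun n => Crest.ProbabilityR.SpanningTrees.ustContains G (S n) F) Filter.atTop
              (nhds (((Crest.ProbabilityR.Labels.labelMeasure ℕ).map (Φ G) {ω | ∀ e ∈ F, ω e = true}).toReal)) := by
  refine ⟨Phi, Phi_measurable, Phi_equiv, ?_⟩
  intro G hG hloc S hmono hex hconn F hF
  have hS : Crest.Agent.SRFactor.Exh G S := ⟨hmono, hex, hconn⟩
  obtain ⟨ν, hν⟩ := Crest.Agent.SRFactor.exists_fusf hS
  have h1 := MeasureTheory.ProbabilityMeasure.tendsto_measure_of_isClopen_of_tendsto (hν S hS)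
    (Crest.Agent.SRFactor.clopen_inEv F)
  have h2 := (NNReal.continuous_coe.tendsto _).comp h1
  have h3 := law_inEv hG hloc hν F hF
  have h4 : (MeasureTheory.Measure.map (Phi G) (Crest.ProbabilityR.Labels.labelMeasure ℕ))
      {ω | ∀ e ∈ F, ω e = true} =
      (ν : MeasureTheory.Measure (Sym2 ℕ → Bool)) (Crest.Agent.SRFactor.inEv F) := h3
  rw [h4]
  refine h2.congr (fun n => ?_)
  rw [← Crest.Agent.SRFactor.ustM_inEv]
  rfl

end Crest.Agent.S0254
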