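import Crest.Statements.S0255
-- import your own Crest.Agent.* helpers here
import Crest.Agent.SRFactor.Main
import Crest.Agent.SRFactor.MapWindow

set_option autoImplicit false
open Crest Crest.ProbabilityR

namespace Crest.Agent.S0255

open Crest.Agent.SRFactor in
theorem exists_windows (Γ : Type*) [Group Γ] [Countable Γ] [DecidableEq Γ] :
    ∃ K : ℕ → Finset Γ, (∀ R, (1 : Γ) ∈ K R) ∧ Monotone K ∧ ∀ g, ∃ R, g ∈ K R := by
  obtain ⟨f, hf⟩ := exists_surjective_nat Γ
  refine ⟨fun R => insert 1 ((Finset.range R).image f), fun R => Finset.mem_insert_self _ _, ?_, ?_⟩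
  · intro R R' h
    exact Finset.insert_subset_insert _ (Finset.image_subset_image (Finset.range_mono h))
  · intro g
    obtain ⟨n, rfl⟩ := hf g
    exact ⟨n + 1, Finset.mem_insert_of_mem (Finset.mem_image_of_mem _ (by simp))⟩

open Crest.Agent.SRFactor in
theorem cylw_shift {Γ : Type*} [Group Γ] [DecidableEq Γ] (ν : MeasureTheory.Measure (Γ → Bool))
    (hinv : Crest.ProbabilityR.StronglyRayleigh.IsShiftInvariant ν) (g : Γ) (B S : Finset Γ) :
    cylw ν (B.image (fun x => g⁻¹ * x)) (S.image (fun x => g⁻¹ * x)) = cylw ν B S := by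
  unfold cylw
  rw [← hinv g _ (cyl_measurable B S)]
  congr 2
  ext ω
  simp only [Set.mem_ofPred_eq, Set.mem_preimage, Finset.mem_image,
    Crest.ProbabilityR.StronglyRayleigh.leftShift]
  constructor
  · intro h i hi
    rw [h (g⁻¹ * i) ⟨i, hi, rfl⟩]
    constructor
    · rintro ⟨a, ha, hai⟩
      rwa [← mul_left_cancel hai]
    · intro hiS
      exact ⟨i, hiS, rfl⟩
  · rintro h _ ⟨i, hi, rfl⟩
    rw [h i hi]
    constructor
    · intro hiS
      exact ⟨i, hiS, rfl⟩
    · rintro ⟨a, ha, hai⟩
      rwa [← mul_left_cancel hai]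

open Crest.Agent.SRFactor in
/-- For a countable group `Γ` and a strongly Rayleigh probability law `ν` on binary configurations `Γ → Bool` that is invariant under every left shift `a ↦ (h ↦ a (g⁻¹ h))`, there is a measurable map from independent uniform labels indexed by `Γ` to configurations that commutes with every left shift and pushes the label law forward to `ν`. -/
theorem result (Γ : Type*) [Group Γ]
    [Countable Γ] (ν : MeasureTheory.Measure (Γ → Bool)) [MeasureTheory.IsProbabilityMeasure ν]
    (hsr : Crest.ProbabilityR.StronglyRayleigh.IsStronglyRayleigh ν)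
    (hinv : Crest.ProbabilityR.StronglyRayleigh.IsShiftInvariant ν) :
    ∃ Φ : (Γ → unitInterval) → (Γ → Bool), Measurable Φ ∧
      (∀ (g : Γ) (u : Γ → unitInterval),
        Φ (Crest.ProbabilityR.StronglyRayleigh.leftShift g u) =
          Crest.ProbabilityR.StronglyRayleigh.leftShift g (Φ u)) ∧
      (Crest.ProbabilityR.Labels.labelMeasure Γ).map Φ = ν := by
  classical
  obtain ⟨K, hK1, hKm, hKe⟩ := exists_windows Γ
  obtain ⟨B, hB⟩ : ∃ B : Γ → ℕ → Finset Γ, B = fun v R => (K R).image (fun x => v * x) := ⟨_, rfl⟩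
  have hmem : ∀ v R, v ∈ B v R := by
    intro v R
    rw [hB]
    exact Finset.mem_image.2 ⟨1, hK1 R, mul_one v⟩
  have hmono : ∀ v, Monotone (B v) := by
    intro v R R' h
    rw [hB]
    exact Finset.image_subset_image (hKm h)
  have hex : ∀ v i, ∃ R, i ∈ B v R := by
    intro v i
    obtain ⟨R, hR⟩ := hKe (v⁻¹ * i)
    refine ⟨R, ?_⟩
    rw [hB]
    exact Finset.mem_image.2 ⟨v⁻¹ * i, hR, by simp⟩
  have hgood : GoodM (mlim ν B) := by
    apply goodM_mlim
    intro v R h h' D hD
    apply postw_lipschitz (hmem v R) (cylw_nonneg ν _) _ h h' D hD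
    intro z hz
    exact hsr (B v R) z hz
  have hequiv : ∀ (g : Γ) (h : Γ → ℝ) (v : Γ),
      mlim ν B (fun x => h (g⁻¹ * x)) v = mlim ν B h (g⁻¹ * v) := by
    intro g h v
    unfold mlim
    congr 1
    funext R
    have h1 : B (g⁻¹ * v) R = (B v R).image (fun x => g⁻¹ * x) := by
      rw [hB]
      simp only
      rw [Finset.image_image]
      apply Finset.image_congr
      intro x _
      simp [mul_assoc]
    rw [h1]
    exact postw_map (mul_right_injective g⁻¹) (fun S _ => cylw_shift ν hinv g (B v R) S) v h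
  refine ⟨outp (mlim ν B), outp_measurable _ (mlim_measurable ν B), ?_, ?_⟩
  · intro g ξ
    funext v
    exact outp_transport (fun x => g⁻¹ * x) (mlim ν B) (mlim ν B) (hequiv g) ξ v
  · exact map_outp ν B hmem hmono hex hgood

end Crest.Agent.S0255
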