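import Crest.Statements.S0328
import Crest.Agent.TetCover.Sweep

set_option autoImplicit false
open MeasureTheory
open scoped ENNReal
open Crest Crest.GeometryTopology Crest.GeometryTopology.Convex

namespace Crest.Agent.S0328

/-- Unit e; a, b, p₀ ∈ e^⊥, a, b independent; α < β; L > 0; R ≥ 0, λ both continuous on [α, β]; w(t) ∈ e^⊥, w′ = λ(t)(a + tb). S = {p₀ + ρ(a + t b) + s(e + w t) : α ≤ t ≤ β, 0 ≤ ρ ≤ R t, ‖s‖ ≤ L}; A = κ ∫_α^β R²/(2√(1 + ‖w‖²)), κ = area spanned by a, b. For η > 0 a δ > 0 makes each partition t₀ < … < t_N of [α, β] of mesh ≤ δ, tags cᵢ, admit N cylinders (axes e + w(cᵢ), nondegenerate triangle bases) covering S, total area within η of A; same for S's pieces tᵢ ≤ t ≤ tᵢ₊₁ projected along these axes. -/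
theorem result
    (e a b p₀ : EuclideanSpace ℝ (Fin 3)) (he : ‖e‖ = 1)
    (ha : inner ℝ a e = 0) (hb : inner ℝ b e = 0) (hp₀ : inner ℝ p₀ e = 0)
    (hab : LinearIndependent ℝ ![a, b]) (L : ℝ) (hL : 0 < L) (α β : ℝ) (hαβ : α < β)
    (R : ℝ → ℝ) (hR : ContinuousOn R (Set.Icc α β)) (hR0 : ∀ t ∈ Set.Icc α β, 0 ≤ R t)
    (w : ℝ → EuclideanSpace ℝ (Fin 3)) (hw : ∀ t ∈ Set.Icc α β, inner ℝ (w t) e = 0)
    (lam : ℝ → ℝ) (hlam : ContinuousOn lam (Set.Icc α β))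
    (hw' : ∀ t ∈ Set.Icc α β, HasDerivWithinAt w (lam t • (a + t • b)) (Set.Icc α β) t)
    (η : ℝ) (hη : 0 < η) :
    ∃ δ : ℝ, 0 < δ ∧ ∀ (N : ℕ) (t : Fin (N + 1) → ℝ) (c : Fin N → ℝ),
      StrictMono t → t 0 = α → t (Fin.last N) = β →
      (∀ i : Fin N, t i.succ - t i.castSucc ≤ δ) →
      (∀ i : Fin N, t i.castSucc ≤ c i ∧ c i ≤ t i.succ) →
      (∃ (p q r : Fin N → EuclideanSpace ℝ (Fin 3)),
        (∀ i, inner ℝ (p i) (e + w (c i)) = 0 ∧ inner ℝ (q i) (e + w (c i)) = 0 ∧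
          inner ℝ (r i) (e + w (c i)) = 0) ∧
        (∀ i, AffineIndependent ℝ ![p i, q i, r i]) ∧
        {x : EuclideanSpace ℝ (Fin 3) | ∃ τ ∈ Set.Icc α β, ∃ ρ ∈ Set.Icc 0 (R τ), ∃ s : ℝ, abs s ≤ L ∧
            x = p₀ + ρ • (a + τ • b) + s • (e + w τ)} ⊆
          ⋃ i, {x : EuclideanSpace ℝ (Fin 3) | ∃ y ∈ convexHull ℝ {p i, q i, r i}, ∃ σ : ℝ,
            x = y + σ • (e + w (c i))} ∧
        abs ((∑ i, (μHE[2] (convexHull ℝ ({p i, q i, r i} : Set (EuclideanSpace ℝ (Fin 3))))).toReal) -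
            Real.sqrt (‖a‖ ^ 2 * ‖b‖ ^ 2 - inner ℝ a b ^ 2) *
              ∫ τ in α..β, R τ ^ 2 / (2 * Real.sqrt (1 + ‖w τ‖ ^ 2))) ≤ η) ∧
      abs ((∑ i : Fin N, (μHE[2] ((fun y => y - (inner ℝ y (e + w (c i)) / ‖e + w (c i)‖ ^ 2) • (e + w (c i))) ''
            {x : EuclideanSpace ℝ (Fin 3) | ∃ τ ∈ Set.Icc (t i.castSucc) (t i.succ), ∃ ρ ∈ Set.Icc 0 (R τ),
              ∃ s : ℝ, abs s ≤ L ∧ x = p₀ + ρ • (a + τ • b) + s • (e + w τ)})).toReal) -
          Real.sqrt (‖a‖ ^ 2 * ‖b‖ ^ 2 - inner ℝ a b ^ 2) *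
            ∫ τ in α..β, R τ ^ 2 / (2 * Real.sqrt (1 + ‖w τ‖ ^ 2))) ≤ η := by
  classical
  set κ := Real.sqrt (‖a‖ ^ 2 * ‖b‖ ^ 2 - inner ℝ a b ^ 2) with hκ
  have hκ' : κ = Crest.Agent.TetCover.area2 a b := rfl
  have hκpos : 0 < κ := Crest.Agent.TetCover.Sweep.area2_pos a b hab
  have hβα : 0 < β - α := sub_pos.2 hαβ
  -- bounds
  obtain ⟨B, hB⟩ := isCompact_Icc.exists_bound_of_continuousOn hR
  have hB0 : 0 ≤ B := (norm_nonneg _).trans (hB α ⟨le_rfl, hαβ.le⟩)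
  have hRB : ∀ τ ∈ Set.Icc α β, R τ ≤ B := fun τ hτ => (le_abs_self _).trans (hB τ hτ)
  obtain ⟨M₀, hM₀⟩ := isCompact_Icc.exists_bound_of_continuousOn hlam
  set M := max M₀ 1 with hM
  have hM1 : 1 ≤ M := le_max_right _ _
  have hMb : ∀ τ ∈ Set.Icc α β, |lam τ| ≤ M := fun τ hτ => (hM₀ τ hτ).trans (le_max_left _ _)
  set K := L * M with hK
  have hKpos : 0 < K := by positivity
  -- continuity of `w` and `F`
  have hwc : ContinuousOn w (Set.Icc α β) := fun u hu => (hw' u hu).continuousWithinAt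
  set G : ℝ → ℝ → ℝ := fun τ x => κ * (x ^ 2 / (2 * Real.sqrt (1 + ‖w τ‖ ^ 2))) with hG
  set F : ℝ → ℝ := fun τ => G τ (R τ) with hF
  have hsq : ∀ τ : ℝ, 1 ≤ Real.sqrt (1 + ‖w τ‖ ^ 2) := fun τ => by
    rw [Real.one_le_sqrt]; linarith [sq_nonneg ‖w τ‖]
  have hFc : ContinuousOn F (Set.Icc α β) := by
    apply ContinuousOn.mul continuousOn_const
    apply ContinuousOn.div (hR.pow 2)
    · exact continuousOn_const.mul (Real.continuous_sqrt.comp_continuousOn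
        (continuousOn_const.add (hwc.norm.pow 2)))
    · intro τ _; linarith [hsq τ]
  have hFint : κ * ∫ τ in α..β, R τ ^ 2 / (2 * Real.sqrt (1 + ‖w τ‖ ^ 2)) = ∫ τ in α..β, F τ := by
    rw [← intervalIntegral.integral_const_mul]
  rw [hFint]
  set η' := η / (β - α) with hη'
  have hη'pos : 0 < η' := by positivity
  have hηeq : (β - α) * η' = η := by rw [hη']; field_simp
  set ε₁ := min 1 (η' / (κ * (2 * B + 1))) with hε₁
  have hε₁pos : 0 < ε₁ := by positivity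
  have hε₁1 : ε₁ ≤ 1 := min_le_left _ _
  have hε₁2 : κ * (ε₁ * (2 * B + 1)) ≤ η' := by
    have : ε₁ ≤ η' / (κ * (2 * B + 1)) := min_le_right _ _
    rw [le_div_iff₀ (by positivity)] at this
    linarith
  have hGbound : ∀ c ∈ Set.Icc α β, ∀ x : ℝ, 0 ≤ x → |x - R c| ≤ ε₁ → |G c x - F c| ≤ η' / 2 := by
    intro c hc x hx hxr
    have h1 := Crest.Agent.TetCover.Sweep.sq_close (R c) x ε₁ B (hR0 c hc) (hRB c hc) hx hxr hε₁1
    have h2 : G c x - F c = (κ * (x ^ 2 - R c ^ 2)) / (2 * Real.sqrt (1 + ‖w c‖ ^ 2)) := by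
      simp only [hG, hF]; ring
    have h3 : 0 < 2 * Real.sqrt (1 + ‖w c‖ ^ 2) := by linarith [hsq c]
    rw [h2, abs_div, abs_of_pos h3, div_le_iff₀ h3, abs_mul, abs_of_pos hκpos]
    have h4 : κ * |x ^ 2 - R c ^ 2| ≤ η' :=
      (mul_le_mul_of_nonneg_left h1 hκpos.le).trans hε₁2
    nlinarith [hsq c]
  have hRu := isCompact_Icc.uniformContinuousOn_of_continuous hR
  have hFu := isCompact_Icc.uniformContinuousOn_of_continuous hFc
  rw [Metric.uniformContinuousOn_iff] at hRu hFu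
  obtain ⟨δ₁, hδ₁, hR1⟩ := hRu (ε₁ / 2) (by positivity)
  obtain ⟨δ₂, hδ₂, hF1⟩ := hFu (η' / 2) (by positivity)
  set δ := min (min (δ₁ / 2) (δ₂ / 2)) (ε₁ / (8 * K)) with hδ
  have hδpos : 0 < δ := by positivity
  have hδ1 : δ < δ₁ := lt_of_le_of_lt ((min_le_left _ _).trans (min_le_left _ _)) (by linarith)
  have hδ2 : δ < δ₂ := lt_of_le_of_lt ((min_le_left _ _).trans (min_le_right _ _)) (by linarith)
  have hδ3 : 4 * K * δ ≤ ε₁ / 2 := by
    have : δ ≤ ε₁ / (8 * K) := min_le_right _ _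
    rw [le_div_iff₀ (by positivity)] at this
    linarith
  refine ⟨δ, hδpos, ?_⟩
  intro N t c ht ht0 htN hmesh htag
  have hmem : ∀ k, t k ∈ Set.Icc α β := fun k => by
    rw [← ht0, ← htN]
    exact ⟨ht.monotone (Fin.zero_le _), ht.monotone (Fin.le_last _)⟩
  have hlt : ∀ i : Fin N, t i.castSucc < t i.succ := fun i => ht Fin.castSucc_lt_succ
  have hcell : ∀ i : Fin N, ∀ τ, t i.castSucc ≤ τ → τ ≤ t i.succ → τ ∈ Set.Icc α β := fun i τ h1 h2 =>
    ⟨(hmem i.castSucc).1.trans h1, h2.trans (hmem i.succ).2⟩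
  have hcm : ∀ i, c i ∈ Set.Icc α β := fun i => hcell i _ (htag i).1 (htag i).2
  have hdist : ∀ i : Fin N, ∀ τ, t i.castSucc ≤ τ → τ ≤ t i.succ → |τ - c i| ≤ t i.succ - t i.castSucc :=
    fun i τ h1 h2 => by
      rw [abs_le]; constructor <;> linarith [(htag i).1, (htag i).2]
  have hRcell : ∀ i : Fin N, ∀ τ, t i.castSucc ≤ τ → τ ≤ t i.succ → |R τ - R (c i)| < ε₁ / 2 :=
    fun i τ h1 h2 => by
      have := hR1 τ (hcell i τ h1 h2) (c i) (hcm i)
        (by rw [Real.dist_eq]; exact lt_of_le_of_lt ((hdist i τ h1 h2).trans (hmesh i)) hδ1)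
      rwa [Real.dist_eq] at this
  have hFcell : ∀ i : Fin N, ∀ τ, t i.castSucc ≤ τ → τ ≤ t i.succ → |F τ - F (c i)| < η' / 2 :=
    fun i τ h1 h2 => by
      have := hF1 τ (hcell i τ h1 h2) (c i) (hcm i)
        (by rw [Real.dist_eq]; exact lt_of_le_of_lt ((hdist i τ h1 h2).trans (hmesh i)) hδ2)
      rwa [Real.dist_eq] at this
  -- the upper radius
  have hup : ∀ i : Fin N, |G (c i) (R (c i) + ε₁ / 2 + 4 * K * (t i.succ - t i.castSucc)) - F (c i)| ≤ η' / 2 := by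
    intro i
    have h1 : 0 < t i.succ - t i.castSucc := sub_pos.2 (hlt i)
    have h2 : 0 < 4 * K * (t i.succ - t i.castSucc) := by positivity
    have h3 : 4 * K * (t i.succ - t i.castSucc) ≤ ε₁ / 2 :=
      (mul_le_mul_of_nonneg_left (hmesh i) (by positivity)).trans hδ3
    have h4 := hR0 (c i) (hcm i)
    apply hGbound _ (hcm i)
    · linarith
    · rw [abs_le]; constructor <;> linarith
  have hlow : ∀ i : Fin N, |G (c i) (max (R (c i) - ε₁ / 2) 0) - F (c i)| ≤ η' / 2 := by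
    intro i
    have h4 := hR0 (c i) (hcm i)
    apply hGbound _ (hcm i)
    · exact le_max_right _ _
    · rcases max_cases (R (c i) - ε₁ / 2) 0 with ⟨h, h'⟩ | ⟨h, h'⟩ <;> rw [h, abs_le] <;>
        constructor <;> linarith
  have hcover := fun i : Fin N => Crest.Agent.TetCover.Sweep.cell_cover e a b p₀ (w (c i)) he ha hb
    (hw _ (hcm i)) hκpos (t i.castSucc) (t i.succ) (c i) K (R (c i) + ε₁ / 2) (hlt i) (htag i).1
    (htag i).2 (by
      have h1 : 0 < t i.succ - t i.castSucc := sub_pos.2 (hlt i)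
      have h4 := hR0 (c i) (hcm i)
      positivity)
  choose p q r hp hq hr haff hin harea using hcover
  have hinner := fun i : Fin N => Crest.Agent.TetCover.Sweep.cell_inner e a b p₀ (w (c i)) he ha hb
    (hw _ (hcm i)) (t i.castSucc) (t i.succ) (max (R (c i) - ε₁ / 2) 0) (hlt i).le (le_max_right _ _)
  -- membership of a point of the `i`-th piece
  have hpiece : ∀ i : Fin N, ∀ τ ρ s : ℝ, t i.castSucc ≤ τ → τ ≤ t i.succ → 0 ≤ ρ → ρ ≤ R τ → |s| ≤ L →
      Crest.Agent.TetCover.Sweep.pj (e + w (c i)) (p₀ + ρ • (a + τ • b) + s • (e + w τ)) ∈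
        convexHull ℝ ({p i, q i, r i} : Set (EuclideanSpace ℝ (Fin 3))) := by
    intro i τ ρ s h1 h2 h3 h4 h5
    obtain ⟨E₁, E₂, hE1, hE2, hwτ⟩ := Crest.Agent.TetCover.Sweep.ftc a b α β w lam hlam hw' M hMb (c i) τ
      (hcm i) (hcell i τ h1 h2)
    have hd := hdist i τ h1 h2
    have hdn : 0 ≤ t i.succ - t i.castSucc := (sub_pos.2 (hlt i)).le
    have hM0 : 0 ≤ M := by linarith
    have h6 := hin i ρ τ (s * E₁) (s * E₂) s h3
      (by linarith [(abs_le.1 (hRcell i τ h1 h2).le).2]) h1 h2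
      (by
        rw [abs_mul, hK, mul_assoc]
        exact mul_le_mul h5 (hE1.trans (mul_le_mul_of_nonneg_left hd hM0)) (abs_nonneg _) hL.le)
      (by
        rw [abs_mul, hK, mul_assoc]
        apply mul_le_mul h5 (hE2.trans _) (abs_nonneg _) hL.le
        rw [mul_assoc]
        apply mul_le_mul_of_nonneg_left _ hM0
        rw [sq]
        exact mul_le_mul hd hd (abs_nonneg _) hdn)
    convert h6 using 2
    rw [hwτ]
    module
  have hGc : ∀ (i : Fin N) (x : ℝ), Crest.Agent.TetCover.area2 a b *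
      (x ^ 2 / (2 * Real.sqrt (1 + ‖w (c i)‖ ^ 2))) = G (c i) x := fun i x => rfl
  constructor
  · refine ⟨p, q, r, fun i => ⟨hp i, hq i, hr i⟩, haff, ?_, ?_⟩
    · rintro x ⟨τ, hτ, ρ, hρ, s, hs, rfl⟩
      obtain ⟨i, hi1, hi2⟩ := Crest.Agent.TetCover.Sweep.exists_cell t ht (by rw [ht0, htN]; exact hαβ) τ
        (by rw [ht0]; exact hτ.1) (by rw [htN]; exact hτ.2)
      rw [Set.mem_iUnion]
      refine ⟨i, _, hpiece i τ ρ s hi1 hi2 hρ.1 hρ.2 hs,
        inner ℝ (p₀ + ρ • (a + τ • b) + s • (e + w τ)) (e + w (c i)) / ‖e + w (c i)‖ ^ 2, ?_⟩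
      rw [Crest.Agent.TetCover.Sweep.pj_apply, sub_add_cancel]
    · rw [← ht0, ← htN]
      have h1 := Crest.Agent.TetCover.Sweep.riemann t ht F (by rw [ht0, htN]; exact hFc) η'
        (fun i => (μHE[2] (convexHull ℝ ({p i, q i, r i} : Set (EuclideanSpace ℝ (Fin 3))))).toReal)
        (by
          intro i τ h1 h2
          simp only
          rw [harea i, hGc i, ← mul_sub, abs_mul, abs_of_pos (sub_pos.2 (hlt i))]
          apply mul_le_mul_of_nonneg_left _ (sub_pos.2 (hlt i)).le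
          have h3 := abs_le.1 (hup i)
          have h4 := abs_lt.1 (hFcell i τ h1 h2)
          rw [abs_le]; constructor <;> linarith [h3.1, h3.2, h4.1, h4.2])
      rw [ht0, htN, hηeq] at h1
      rw [ht0, htN]
      exact h1
  · have h1 := Crest.Agent.TetCover.Sweep.riemann t ht F (by rw [ht0, htN]; exact hFc) η'
      (fun i => (μHE[2] ((fun y => y - (inner ℝ y (e + w (c i)) / ‖e + w (c i)‖ ^ 2) • (e + w (c i))) ''
            {x : EuclideanSpace ℝ (Fin 3) | ∃ τ ∈ Set.Icc (t i.castSucc) (t i.succ), ∃ ρ ∈ Set.Icc 0 (R τ),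
              ∃ s : ℝ, abs s ≤ L ∧ x = p₀ + ρ • (a + τ • b) + s • (e + w τ)})).toReal)
      (by
        intro i τ h1 h2
        simp only [Crest.Agent.TetCover.Sweep.pj_coe]
        set S := {x : EuclideanSpace ℝ (Fin 3) | ∃ τ ∈ Set.Icc (t i.castSucc) (t i.succ),
          ∃ ρ ∈ Set.Icc 0 (R τ), ∃ s : ℝ, abs s ≤ L ∧ x = p₀ + ρ • (a + τ • b) + s • (e + w τ)} with hS
        have hfin : μHE[2] (convexHull ℝ ({p i, q i, r i} : Set (EuclideanSpace ℝ (Fin 3)))) ≠ ⊤ := by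
          rw [Crest.Agent.TetCover.muHE_triangle]; exact ENNReal.ofReal_ne_top
        have hsub : Crest.Agent.TetCover.Sweep.pj (e + w (c i)) '' S ⊆
            convexHull ℝ ({p i, q i, r i} : Set (EuclideanSpace ℝ (Fin 3))) := by
          rintro _ ⟨x, ⟨τ', hτ', ρ, hρ, s, hs, rfl⟩, rfl⟩
          exact hpiece i τ' ρ s hτ'.1 hτ'.2 hρ.1 hρ.2 hs
        have hle := measure_mono (μ := μHE[2]) hsub
        have hub := ENNReal.toReal_mono hfin hle
        have hlb := ENNReal.toReal_mono (ne_top_of_le_ne_top hfin hle) (hinner i S (by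
          intro ρ τ' h3 h4 h5 h6
          refine ⟨τ', ⟨h5, h6⟩, ρ, ⟨h3, ?_⟩, 0, by simpa using hL.le, by simp⟩
          have h7 := abs_lt.1 (hRcell i τ' h5 h6)
          have h8 := hR0 τ' (hcell i τ' h5 h6)
          rcases max_cases (R (c i) - ε₁ / 2) 0 with ⟨h, h'⟩ | ⟨h, h'⟩ <;> rw [h] at h4 <;>
            linarith [h7.1, h7.2]))
        rw [harea i, hGc i] at hub
        rw [hGc i, ENNReal.toReal_ofReal (mul_nonneg (sub_pos.2 (hlt i)).le (by positivity))] at hlb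
        have h3 := abs_le.1 (hup i)
        have h3' := abs_le.1 (hlow i)
        have h4 := abs_lt.1 (hFcell i τ h1 h2)
        have hpos := sub_pos.2 (hlt i)
        have h5 : (t i.succ - t i.castSucc) * G (c i) (R (c i) + ε₁ / 2 + 4 * K * (t i.succ - t i.castSucc)) ≤
            (t i.succ - t i.castSucc) * (F τ + η') :=
          mul_le_mul_of_nonneg_left (by linarith [h3.1, h3.2, h4.1, h4.2]) hpos.le
        have h6 : (t i.succ - t i.castSucc) * (F τ - η') ≤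
            (t i.succ - t i.castSucc) * G (c i) (max (R (c i) - ε₁ / 2) 0) :=
          mul_le_mul_of_nonneg_left (by linarith [h3'.1, h3'.2, h4.1, h4.2]) hpos.le
        rw [abs_le]
        constructor <;> linarith)
    rw [ht0, htN, hηeq] at h1
    exact h1

end Crest.Agent.S0328
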