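import Crest.Statements.S0329
import Crest.Agent.S0326
import Crest.Agent.TetCover.Flat
import Crest.Agent.TetCover.Open

set_option autoImplicit false
open MeasureTheory
open scoped ENNReal
open Crest Crest.GeometryTopology Crest.GeometryTopology.Convex

namespace Crest.Agent.S0329

open Crest.Agent.TetCover in
/-- One cylinder: a planar square with a velocity gives a cylinder with relatively open base. -/
lemma one_cyl (h : ℝ) (hh : 0 < h) (c a b g : EuclideanSpace ℝ (Fin 2)) (hab : ‖b‖ = ‖a‖)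
    (hi : inner ℝ a b = 0) (ε : ℝ) (hε : 0 < ε) :
    ∃ (u : E3) (O : Set E3), ‖u‖ = 1 ∧ IsOpen O ∧ Bornology.IsBounded O ∧
      (∀ x s t : ℝ, s ∈ Set.Icc (0:ℝ) 1 → t ∈ Set.Icc (0:ℝ) 1 → ∀ ξ : EuclideanSpace ℝ (Fin 2),
        ξ = c + s • a + t • b + x • g →
        ∃ y ∈ O ∩ {x : E3 | inner ℝ x u = 0}, ∃ τ : ℝ, (!₂[x, ξ 0, h * ξ 1] : E3) = y + τ • u) ∧
      (μHE[2] (O ∩ {x : E3 | inner ℝ x u = 0})).toReal ≤
        h * (‖a‖ ^ 2 / Real.sqrt (1 + (g 0) ^ 2 + h ^ 2 * (g 1) ^ 2)) + ε := by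
  set E : EuclideanSpace ℝ (Fin 2) → E3 := fun ξ => !₂[0, ξ 0, h * ξ 1] with hE
  set U : E3 := !₂[1, g 0, h * g 1] with hU
  have hUn2 : ‖U‖ ^ 2 = 1 + (g 0) ^ 2 + h ^ 2 * (g 1) ^ 2 := by
    rw [normsq3, hU]; simp; ring
  have hUn : ‖U‖ = Real.sqrt (1 + (g 0) ^ 2 + h ^ 2 * (g 1) ^ 2) := by
    rw [← hUn2, Real.sqrt_sq (norm_nonneg _)]
  have hUpos : 0 < ‖U‖ := by rw [hUn]; apply Real.sqrt_pos.2; positivity
  set u : E3 := ‖U‖⁻¹ • U with hu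
  have hu1 : ‖u‖ = 1 := by
    rw [hu, norm_smul, norm_inv, norm_norm, inv_mul_cancel₀ hUpos.ne']
  set T : Set E3 := {x : E3 | ∃ s ∈ Set.Icc (0 : ℝ) 1, ∃ t ∈ Set.Icc (0 : ℝ) 1,
    x = pr u (E c) + s • pr u (E a) + t • pr u (E b)} with hT
  have hTimg : T = (fun p : ℝ × ℝ => pr u (E c) + p.1 • pr u (E a) + p.2 • pr u (E b)) ''
      (Set.Icc (0:ℝ) 1 ×ˢ Set.Icc (0:ℝ) 1) := by
    ext x
    constructor
    · rintro ⟨s, hs, t, ht, rfl⟩; exact ⟨(s, t), ⟨hs, ht⟩, rfl⟩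
    · rintro ⟨⟨s, t⟩, ⟨hs, ht⟩, rfl⟩; exact ⟨s, hs, t, ht, rfl⟩
  have hTc : IsCompact T := by
    rw [hTimg]
    exact (isCompact_Icc.prod isCompact_Icc).image (by fun_prop)
  have hTu : ∀ x ∈ T, inner ℝ x u = 0 := by
    rintro x ⟨s, hs, t, ht, rfl⟩
    rw [inner_add_left, inner_add_left, inner_smul_left, inner_smul_left, inner_pr _ _ hu1,
      inner_pr _ _ hu1, inner_pr _ _ hu1]
    simp
  obtain ⟨O, hO, hOb, hTO, hA⟩ := exists_open_base u hu1 T hTc hTu ε hε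
  refine ⟨u, O, hu1, hO, hOb, ?_, ?_⟩
  · rintro x s t hs ht ξ rfl
    have hyT : pr u (E c) + s • pr u (E a) + t • pr u (E b) ∈ T := ⟨s, hs, t, ht, rfl⟩
    refine ⟨_, ⟨hTO hyT, hTu _ hyT⟩, inner ℝ (E c + s • E a + t • E b) u + x * ‖U‖, ?_⟩
    have e1 : (!₂[x, (c + s • a + t • b + x • g) 0, h * (c + s • a + t • b + x • g) 1] : E3) =
        E c + s • E a + t • E b + x • U := by
      ext i
      fin_cases i
      · simp [hE, hU]
      · simp [hE, hU]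
      · simp [hE, hU]; ring
    have e2 : x • U = (x * ‖U‖) • u := by
      rw [hu, smul_smul, mul_assoc, mul_inv_cancel₀ hUpos.ne', mul_one]
    rw [e1, e2]
    simp only [pr, inner_add_left, inner_smul_left, conj_trivial]
    module
  · refine hA.trans (add_le_add_left (le_of_eq ?_) _)
    rw [hT, muHE_parallelogram_toReal, area2_pr _ _ _ hu1, hu, flatDet_smul, abs_mul,
      abs_of_pos (inv_pos.2 hUpos), ← hUn]
    have e3 : flatDet (E a) (E b) U = h * (a 0 * b 1 - a 1 * b 0) := by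
      simp [flatDet, hE, hU]; ring
    have ha2 : ‖a‖ ^ 2 = a 0 ^ 2 + a 1 ^ 2 := by
      rw [EuclideanSpace.norm_eq, Real.sq_sqrt (by positivity)]; simp [Fin.sum_univ_two]
    have hb2 : ‖b‖ ^ 2 = b 0 ^ 2 + b 1 ^ 2 := by
      rw [EuclideanSpace.norm_eq, Real.sq_sqrt (by positivity)]; simp [Fin.sum_univ_two]
    have hi2 : a 0 * b 0 + a 1 * b 1 = 0 := by
      rw [← hi]; simp [PiLp.inner_apply, Fin.sum_univ_two]; ring
    have e4 : |a 0 * b 1 - a 1 * b 0| = ‖a‖ ^ 2 := by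
      rw [← sq_eq_sq₀ (abs_nonneg _) (by positivity), sq_abs]
      have e5 : b 0 ^ 2 + b 1 ^ 2 = ‖a‖ ^ 2 := by rw [← hb2, hab]
      calc (a 0 * b 1 - a 1 * b 0) ^ 2 =
          (a 0 ^ 2 + a 1 ^ 2) * (b 0 ^ 2 + b 1 ^ 2) - (a 0 * b 0 + a 1 * b 1) ^ 2 := by ring
        _ = (‖a‖ ^ 2) ^ 2 := by rw [hi2, e5, ← ha2]; ring
    rw [e3, abs_mul, abs_of_pos hh, e4]
    field_simp

/-- Let h, M > 0, D ⊂ ℝ² be compact with Lebesgue-null boundary, and V : ℝ² → ℝ² be C¹ on an open set containing D with tr DV(p) = 0 and −1/M² < det DV(p) < 0 for p ∈ D. For every ε > 0 the set of points (x, p₁ + x V₁(p), h (p₂ + x V₂(p))) ∈ ℝ³ with p ∈ D, −M ≤ x ≤ M is covered by finitely many cylinders Bᵢ + ℝ uᵢ, ‖uᵢ‖ = 1, with bases Bᵢ bounded relatively open subsets of the planes uᵢ^⊥ and ∑ᵢ area(Bᵢ) ≤ h ∫_D (1 + V₁² + h² V₂²)^(−1/2) + ε (areas: normalised 2-dimensional Hausdorff measure).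 -/
theorem result
    (h M : ℝ) (hh : 0 < h) (hM : 0 < M) (D : Set (EuclideanSpace ℝ (Fin 2))) (hD : IsCompact D)
    (hbd : volume (frontier D) = 0)
    (V : EuclideanSpace ℝ (Fin 2) → EuclideanSpace ℝ (Fin 2)) (U : Set (EuclideanSpace ℝ (Fin 2)))
    (hU : IsOpen U) (hDU : D ⊆ U) (hV : ContDiffOn ℝ 1 V U)
    (htr : ∀ p ∈ D, LinearMap.trace ℝ _ (fderiv ℝ V p).toLinearMap = 0)
    (hdet : ∀ p ∈ D, -(M ^ 2)⁻¹ < LinearMap.det (fderiv ℝ V p).toLinearMap ∧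
      LinearMap.det (fderiv ℝ V p).toLinearMap < 0)
    (ε : ℝ) (hε : 0 < ε) :
    ∃ (k : ℕ) (u : Fin k → EuclideanSpace ℝ (Fin 3)) (B : Fin k → Set (EuclideanSpace ℝ (Fin 3))),
      (∀ i, ‖u i‖ = 1) ∧
      (∀ i, Bornology.IsBounded (B i) ∧ ∃ O : Set (EuclideanSpace ℝ (Fin 3)), IsOpen O ∧
        B i = O ∩ {x | inner ℝ x (u i) = 0}) ∧
      {z : EuclideanSpace ℝ (Fin 3) | ∃ p ∈ D, ∃ x : ℝ, abs x ≤ M ∧
          z = !₂[x, p 0 + x * V p 0, h * (p 1 + x * V p 1)]} ⊆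
        ⋃ i, {z : EuclideanSpace ℝ (Fin 3) | ∃ y ∈ B i, ∃ τ : ℝ, z = y + τ • u i} ∧
      ∑ i, (μHE[2] (B i)).toReal ≤
        h * (∫ p in D, 1 / Real.sqrt (1 + (V p 0) ^ 2 + h ^ 2 * (V p 1) ^ 2)) + ε := by
  classical
  have hdet' : ∀ p ∈ D, -(M ^ 2)⁻¹ < LinearMap.det (fderiv ℝ V p).toLinearMap ∧
      LinearMap.det (fderiv ℝ V p).toLinearMap ≤ 0 := fun p hp => ⟨(hdet p hp).1, (hdet p hp).2.le⟩
  obtain ⟨k, c, a, b, g, h1, h2, h3⟩ := Crest.Agent.S0326.result D hD V U hU hDU hV M h hM hh htr hdet'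
    (ε / (2 * h)) (by positivity)
  have hk : 0 < ε / (2 * ((k : ℝ) + 1)) := by positivity
  have hcyl := fun i : Fin k => one_cyl h hh (c i) (a i) (b i) (g i) (h1 i).2.1 (h1 i).2.2
    (ε / (2 * ((k : ℝ) + 1))) hk
  choose u O hu hO hOb hcov hA using hcyl
  refine ⟨k, u, fun i => O i ∩ {x | inner ℝ x (u i) = 0}, hu, ?_, ?_, ?_⟩
  · intro i
    exact ⟨(hOb i).subset Set.inter_subset_left, O i, hO i, rfl⟩
  · rintro z ⟨p, hp, x, hx, rfl⟩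
    have hz : (x, p + x • V p) ∈ {z : ℝ × EuclideanSpace ℝ (Fin 2) | ∃ p ∈ D, abs z.1 ≤ M ∧ z.2 = p + z.1 • V p} :=
      ⟨p, hp, hx, rfl⟩
    obtain ⟨i, hi⟩ := Set.mem_iUnion.1 (h2 hz)
    obtain ⟨s, hs, t, ht, hst⟩ := hi
    obtain ⟨y, hy, τ, hτ⟩ := hcov i x s t hs ht (p + x • V p) hst
    refine Set.mem_iUnion.2 ⟨i, y, hy, τ, ?_⟩
    rw [← hτ]
    ext j
    fin_cases j <;> simp
  · calc ∑ i, (μHE[2] (O i ∩ {x | inner ℝ x (u i) = 0})).toReal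
        ≤ ∑ i, (h * (‖a i‖ ^ 2 / Real.sqrt (1 + (g i 0) ^ 2 + h ^ 2 * (g i 1) ^ 2)) +
            ε / (2 * ((k : ℝ) + 1))) := Finset.sum_le_sum (fun i _ => hA i)
      _ = h * (∑ i, ‖a i‖ ^ 2 / Real.sqrt (1 + (g i 0) ^ 2 + h ^ 2 * (g i 1) ^ 2)) +
            k * (ε / (2 * ((k : ℝ) + 1))) := by
          rw [Finset.sum_add_distrib, ← Finset.mul_sum]; simp
      _ ≤ h * ((∫ p in D, 1 / Real.sqrt (1 + (V p 0) ^ 2 + h ^ 2 * (V p 1) ^ 2)) + ε / (2 * h)) +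
            ε / 2 := by
          apply add_le_add
          · exact mul_le_mul_of_nonneg_left h3 hh.le
          · rw [mul_div_assoc', div_le_div_iff₀ (by positivity) (by norm_num)]
            nlinarith
      _ = h * (∫ p in D, 1 / Real.sqrt (1 + (V p 0) ^ 2 + h ^ 2 * (V p 1) ^ 2)) + ε := by
          field_simp
          ring

end Crest.Agent.S0329
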