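import Crest.Statements.S0396
import Crest.Agent.Quadric.Cocycle
import Crest.Agent.Quadric.Ample2
import Crest.Agent.Quadric.Bridge
import Crest.Agent.Quadric.AnaFinal

set_option autoImplicit false
open Crest.AlgGeometry.QuadricBundle
open Crest Crest.AlgGeometry Crest.AlgGeometry.QuadricBundle

namespace Crest.Agent.S0396

/-- There is a holomorphic vector bundle of rank two on `ℙ¹ × ℙ¹` (holomorphic transition matrices on the four standard affine charts) that is ample — for every `k`, all large symmetric powers `Sⁿ E ⊗ O(-k,-k)` are generated by global sections — yet has no smooth Hermitian metric with strictly Griffiths-positive Chern curvature, i.e. with `⟨Θ(ξ, ξ̄) v, v⟩ > 0` for all non-zero tangent `ξ` and fibre `v` (tested via the Levi form of the squared norm of holomorphic local sections through `v`). -/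
theorem result :
    ∃ g : Transition 2, IsHoloCocycle g ∧ IsAmple g ∧
      ∀ H : MetricData 2, IsHermitianMetric g H → ¬ IsGriffithsPositive H := by
  by_contra hcon
  push Not at hcon
  refine Crest.Agent.Quadric.no_logData fun K hK => ?_
  obtain ⟨H, hH, hG⟩ := hcon (Crest.Agent.Quadric.gK K) (Crest.Agent.Quadric.gK_cocycle K hK)
    (Crest.Agent.Quadric.gK_ample K hK)
  exact Crest.Agent.Quadric.logData_of_griffiths K hK H hH hG

end Crest.Agent.S0396
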