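import Crest.Statements.S0453
import Crest.Agent.SwGap.Assembly
import Crest.Agent.SwGap.Conflict
import Crest.Agent.SwGap.JohnGraph

set_option autoImplicit false
open Finset
open Crest Crest.LogicCS

namespace Crest.Agent.S0453

/-- For every n ≥ 4 and every labeled degree vector on n vertices with a simple realization: the lazy switch chain (hold with probability 1/2, else take a uniform four-vertex set and a uniform ordered pair of distinct perfect matchings on it, swapping the first for the second when the first is present and the second absent) is, from every realization, within total variation 1/4 of uniform on the realizations after some t ≤ 2n^8 steps; and Var(f) ≤ 24 n² C(n,4) ⟨f, (I − P) f⟩ for the uniform law. -/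
theorem result (n : ℕ) (hn : 4 ≤ n)
    (d : Fin n → ℕ) (hd : (Crest.SwitchChain.realizations d).Nonempty) :
    (∃ t : ℕ, t ≤ 2 * n ^ 8 ∧ ∀ G ∈ Crest.SwitchChain.realizations d,
        Crest.SwitchChain.tvDist (fun G' => (Crest.SwitchChain.kernel n ^ t) G G')
          (Crest.SwitchChain.unifOn (Crest.SwitchChain.realizations d)) ≤ 1 / 4) ∧
      ∀ f : Finset (Crest.SwitchChain.Edge n) → ℝ,
        ((Crest.SwitchChain.realizations d).card : ℝ) *
              (∑ G ∈ Crest.SwitchChain.realizations d, f G ^ 2) -
            (∑ G ∈ Crest.SwitchChain.realizations d, f G) ^ 2 ≤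
          24 * (n : ℝ) ^ 2 * (n.choose 4 : ℝ) * (Crest.SwitchChain.realizations d).card *
            ∑ G ∈ Crest.SwitchChain.realizations d,
              f G * (f G - ∑ G' ∈ Crest.SwitchChain.realizations d,
                Crest.SwitchChain.kernel n G G' * f G') := by
  have hP : ∀ f : Finset (Crest.SwitchChain.Edge n) → ℝ, _ := fun f =>
    Crest.Agent.SwGap.poincare_of (n := n)
      (fun a b c d hab hac had hbc hbd hcd F =>
        Crest.Agent.SwGap.conflict hab hac had hbc hbd hcd F)
      (fun a b hab F => Crest.Agent.SwGap.john_graph hab F)
      (fun a b hab F => Crest.Agent.SwGap.john_graph_gap hab F) hn d hd f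
  exact ⟨Crest.Agent.SwGap.tv_of_poincare n hn d hd hP, hP⟩

end Crest.Agent.S0453
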