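import Crest.Statements.S0535
import Crest.Agent.GadCap.Prod

set_option autoImplicit false
open Crest.Quantum Crest.MathPhysics.AmpDamp
open Crest Crest.MathPhysics

namespace Crest.Agent.S0535

/-- Tensor the generalized amplitude-damping qubit channel (parameters in `[0, 1]`) with any channel `Ψ` between nonzero finite-dimensional systems (linear, completely positive, trace preserving): Holevo capacity and minimum output entropy (nats) are additive: each ensemble for the product map is matched, up to any `ε > 0`, by ensembles for the two factors whose Holevo informations add up to at least as much, and conversely; likewise, reversed, for output entropies of single states. -/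
theorem result (γ ν : ℝ)
    (hγ : γ ∈ Set.Icc (0 : ℝ) 1) (hν : ν ∈ Set.Icc (0 : ℝ) 1)
    (d e : Type) [Fintype d] [Fintype e] [DecidableEq d] [DecidableEq e] [Nonempty d] [Nonempty e]
    (Ψ : Matrix d d ℂ → Matrix e e ℂ) (hΨ : IsChannel Ψ) :
    (∀ (m : ℕ) (q : Fin m → ℝ) (ρ : Fin m → Matrix (Bool × d) (Bool × d) ℂ), IsEnsemble q ρ →
      ∀ ε > (0 : ℝ), ∃ (m₁ : ℕ) (q₁ : Fin m₁ → ℝ) (ρ₁ : Fin m₁ → Matrix Bool Bool ℂ)
        (m₂ : ℕ) (q₂ : Fin m₂ → ℝ) (ρ₂ : Fin m₂ → Matrix d d ℂ),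
        IsEnsemble q₁ ρ₁ ∧ IsEnsemble q₂ ρ₂ ∧
          holevoInfo (qubitTensor (gadMap γ ν) Ψ) q ρ ≤
            holevoInfo (gadMap γ ν) q₁ ρ₁ + holevoInfo Ψ q₂ ρ₂ + ε) ∧
    (∀ (m₁ : ℕ) (q₁ : Fin m₁ → ℝ) (ρ₁ : Fin m₁ → Matrix Bool Bool ℂ)
      (m₂ : ℕ) (q₂ : Fin m₂ → ℝ) (ρ₂ : Fin m₂ → Matrix d d ℂ), IsEnsemble q₁ ρ₁ → IsEnsemble q₂ ρ₂ →
      ∃ (m : ℕ) (q : Fin m → ℝ) (ρ : Fin m → Matrix (Bool × d) (Bool × d) ℂ), IsEnsemble q ρ ∧
        holevoInfo (gadMap γ ν) q₁ ρ₁ + holevoInfo Ψ q₂ ρ₂ ≤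
          holevoInfo (qubitTensor (gadMap γ ν) Ψ) q ρ) ∧
    (∀ ρ : Matrix (Bool × d) (Bool × d) ℂ, IsDensity ρ → ∀ ε > (0 : ℝ),
      ∃ (ρ₁ : Matrix Bool Bool ℂ) (ρ₂ : Matrix d d ℂ), IsDensity ρ₁ ∧ IsDensity ρ₂ ∧
        vnEntropy (gadMap γ ν ρ₁) + vnEntropy (Ψ ρ₂) ≤ vnEntropy (qubitTensor (gadMap γ ν) Ψ ρ) + ε) ∧
    (∀ (ρ₁ : Matrix Bool Bool ℂ) (ρ₂ : Matrix d d ℂ), IsDensity ρ₁ → IsDensity ρ₂ →
      ∃ ρ : Matrix (Bool × d) (Bool × d) ℂ, IsDensity ρ ∧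
        vnEntropy (qubitTensor (gadMap γ ν) Ψ ρ) ≤ vnEntropy (gadMap γ ν ρ₁) + vnEntropy (Ψ ρ₂)) := by
  classical
  obtain ⟨D, hD⟩ := Crest.Agent.GadCap.exists_density (d := d)
  have hG : IsChannel (gadMap γ ν) := Crest.Agent.GadCap.gad_channel hγ hν
  refine ⟨?_, ?_, ?_, ?_⟩
  · intro m q ρ hq ε hε
    have hE : Crest.Agent.GadCap.IsEns q ρ := hq
    have hpop : ∀ a, Crest.Agent.GadCap.pop (ρ a) ∈ Set.Icc (0 : ℝ) 1 := fun a =>
      Crest.Agent.GadCap.pop_mem (hE.2.2 a)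
    have hup := Crest.Agent.GadCap.upper hγ hν hΨ hD hE
    have h1 := Crest.Agent.GadCap.hol1 (ν := ν) hγ hE.2.1 hpop
    obtain ⟨m₁, q₁, ρ₁, hens1, hh1⟩ := Crest.Agent.GadCap.exists_fin
      (Crest.Agent.GadCap.ens1 hE.1 hE.2.1 hpop) (gadMap γ ν)
    obtain ⟨m₂, q₂, ρ₂, hens2, hh2⟩ := Crest.Agent.GadCap.exists_fin
      (Crest.Agent.GadCap.ens2 hE hD) Ψ
    refine ⟨m₁, q₁, ρ₁, m₂, q₂, ρ₂, hens1, hens2, ?_⟩
    rw [hh1, hh2, h1]
    have h2 : holevoInfo (qubitTensor (gadMap γ ν) Ψ) q ρ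
        = Crest.Agent.GadCap.hol (qubitTensor (gadMap γ ν) Ψ) q ρ := rfl
    rw [h2]
    linarith
  · intro m₁ q₁ ρ₁ m₂ q₂ ρ₂ he1 he2
    obtain ⟨hE, hh⟩ := Crest.Agent.GadCap.hol_prod hG hΨ
      (Crest.Agent.GadCap.isEns_of_isEnsemble he1) (Crest.Agent.GadCap.isEns_of_isEnsemble he2)
    obtain ⟨m, q, ρ, hens, hh'⟩ := Crest.Agent.GadCap.exists_fin hE
      (qubitTensor (gadMap γ ν) Ψ)
    refine ⟨m, q, ρ, hens, ?_⟩
    rw [hh', hh]
    exact le_rfl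
  · intro ρ hρ ε hε
    have hk := Crest.Agent.GadCap.chan_key hγ hν hΨ hD hρ
    have hp := Crest.Agent.GadCap.pop_mem hρ
    set p := Crest.Agent.GadCap.pop ρ with hpdef
    have hF := Crest.Agent.GadCap.nrm_density hD
      (Crest.Agent.GadCap.block_posSemidef hρ.1 false)
    have hT := Crest.Agent.GadCap.nrm_density hD
      (Crest.Agent.GadCap.block_posSemidef hρ.1 true)
    set F := Crest.Agent.GadCap.nrm D (block ρ false false) with hFdef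
    set T := Crest.Agent.GadCap.nrm D (block ρ true true) with hTdef
    have hq : IsDensity (Crest.Agent.GadCap.qst p (√(1 - p) * √p)) :=
      Crest.Agent.GadCap.qst_density hp (Real.sq_sqrt hp.1)
    have hqe : vnEntropy (gadMap γ ν (Crest.Agent.GadCap.qst p (√(1 - p) * √p)))
        = Crest.Agent.GadCap.gfun γ ν p :=
      Crest.Agent.GadCap.gad_pure_entropy hγ hp (Real.sq_sqrt hp.1)
    rcases le_total (vnEntropy (Ψ F)) (vnEntropy (Ψ T)) with hle | hle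
    · refine ⟨_, F, hq, hF, ?_⟩
      rw [hqe]
      have := mul_le_mul_of_nonneg_left hle hp.1
      linarith
    · refine ⟨_, T, hq, hT, ?_⟩
      rw [hqe]
      have := mul_le_mul_of_nonneg_left hle (by linarith [hp.2] : 0 ≤ 1 - p)
      linarith
  · intro ρ₁ ρ₂ h1 h2
    refine ⟨Matrix.kroneckerMap (fun x y => x * y) ρ₁ ρ₂, Crest.Agent.GadCap.kron_density h1 h2,
      ?_⟩
    rw [Crest.Agent.GadCap.tensor_kron hG.1 hΨ.1,
      Crest.Agent.GadCap.kron_entropy (Crest.Agent.GadCap.channel_density hG h1)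
        (Crest.Agent.GadCap.channel_density hΨ h2)]

end Crest.Agent.S0535
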